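import Crest.Agent.R191.Defs

/-!
# Row 191: the module statements (closed propositions).  Sketches: table `h13_tasks`.
-/

set_option autoImplicit false

namespace Crest.Agent.R191

open MeasureTheory
open scoped ENNReal

/-! ### Groups -/

def GRP_fg : Prop := Group.FG GG
def GRP_surj : Prop := Function.Surjective toG
def GRP_iQ : Prop := ∀ q : QQ, toG (iQ q) = 1 → q = 1
def GRP_rr : Prop := toG rr = 1
def GRP_free : Prop :=
  Function.Injective (FreeGroup.lift (fun j : Fin 79 => toG (tau ((j : ℕ) + 1))))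
def GRP_tau : Prop := ∀ i < 80, ∀ j < 80, toG (tau i) = toG (tau j) → i = j

/-- Dehn-type lemma in the free group `G0` -/
def DEHN0 : Prop := ∀ (a0 : AA) (l : List (Bool × AA)), l ≠ [] → alt0 a0 l = 1 →
  (∃ l1 l2 e q, l = l1 ++ (e, q) :: (!e, 1) :: l2) ∨
  (∃ l1 l2 a q, a < 80 ∧ l = l1 ++ wpos0 a q ++ l2) ∨
  (∃ l1 l2 b q, b < 80 ∧ l = l1 ++ wneg0 b q ++ l2)

/-- Dehn-type lemma in `Γ` -/
def DEHN : Prop := ∀ (q0 : QQ) (l : List (Bool × QQ)), toG (alt q0 l) = toG xx →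
  (q0 = 1 ∧ l = [(true, 1)]) ∨
  (∃ l1 l2 e q, l = l1 ++ (e, q) :: (!e, 1) :: l2) ∨
  (∃ l1 l2 a q, a < 80 ∧ l = l1 ++ wpos a q ++ l2) ∨
  (∃ l1 l2 b q, b < 80 ∧ l = l1 ++ wneg b q ++ l2)

/-! ### General measured group theory -/

/-- mass transport principle -/
def MTP : Prop := ∀ (Ω G : Type) [MeasurableSpace Ω] [Group G] [Countable G] [MulAction G Ω]
  (m : Measure Ω), (∀ g : G, MeasurePreserving (fun ω : Ω => g • ω) m m) →
  (∀ g : G, MeasurableSet {ω : Ω | g • ω = ω}) →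
  ∀ F : Ω → Ω → ℝ≥0∞, (∀ g : G, Measurable fun ω : Ω => F ω (g • ω)) →
  ∫⁻ ω, ∑' ω' : MulAction.orbit G ω, F ω ω' ∂m = ∫⁻ ω, ∑' ω' : MulAction.orbit G ω, F ω' ω ∂m

/-- formal chains of a general group realised at a point -/
noncomputable def rzG {G Ω : Type} [Group G] [MulAction G Ω] (ω : Ω) (c : G →₀ ℚ) : Ω →₀ ℚ :=
  c.mapDomain (fun g => g • ω)

open Classical in
/-- rank inequality, one family -/
def RI1 : Prop := ∀ (Ω G : Type) [MeasurableSpace Ω] [Group G] [Countable G] [MulAction G Ω]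
  (m : Measure Ω), (∀ g : G, MeasurePreserving (fun ω : Ω => g • ω) m m) →
  (∀ g : G, MeasurableSet {ω : Ω | g • ω = ω}) →
  ∀ (D A : Set Ω) (c : Ω → (G →₀ ℚ)), MeasurableSet D → MeasurableSet A →
  (∀ a : G →₀ ℚ, MeasurableSet {ω | c ω = a}) → m D ≠ ∞ → m A ≠ ∞ →
  (∀ ω ∈ D, Finsupp.single ω (1 : ℚ) ∈
    Submodule.span ℚ {v : Ω →₀ ℚ | ∃ ω' ∈ A, v = (rzG ω' (c ω')).filter (· ∈ D)}) →
  m D ≤ m A

open Classical in
/-- rank inequality -/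
def RI : Prop := ∀ (Ω G : Type) [MeasurableSpace Ω] [Group G] [Countable G] [MulAction G Ω]
  (m : Measure Ω), (∀ g : G, MeasurePreserving (fun ω : Ω => g • ω) m m) →
  (∀ g : G, MeasurableSet {ω : Ω | g • ω = ω}) →
  ∀ (D : Set Ω) (A : ℕ → Set Ω) (c : ℕ → Ω → (G →₀ ℚ)), MeasurableSet D →
  (∀ n, MeasurableSet (A n)) → (∀ n (a : G →₀ ℚ), MeasurableSet {ω | c n ω = a}) → m D ≠ ∞ →
  (∀ ω ∈ D, Finsupp.single ω (1 : ℚ) ∈
    Submodule.span ℚ {v : Ω →₀ ℚ | ∃ n, ∃ ω' ∈ A n, v = (rzG ω' (c n ω')).filter (· ∈ D)}) →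
  m D ≤ ∑' n, m (A n)

/-- measurability of the relation generated by countably many partial translations -/
def EQV : Prop := ∀ (X G ι : Type) [MeasurableSpace X] [StandardBorelSpace X] [Group G]
  [Countable G] [Countable ι] [MulAction G X] [MeasurableConstSMul G X]
  (w : ι → G) (B : ι → Set X), (∀ i, MeasurableSet (B i)) →
  ∀ g : G, MeasurableSet {y : X | Relation.EqvGen (fun a b => ∃ i, a ∈ B i ∧ b = w i • a) y (g • y)}

/-- compression of a graphing to a marker set of a `ℤ`-subaction -/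
def C1 : Prop := ∀ (G X : Type) [Group G] [Countable G] [MeasurableSpace X]
  [StandardBorelSpace X] [MulAction G X] (μ : Measure X) [IsProbabilityMeasure μ],
  (∀ g : G, MeasurePreserving (fun y : X => g • y) μ μ) →
  ∀ (z : G) (M : Set X), MeasurableSet M → (∀ᵐ y ∂μ, ∃ n : ℤ, z ^ n • y ∈ M) →
  ∀ (Φ : ℕ → G × Set X) (k : ℝ≥0∞), Crest.Dynamics.Generates (Γ := G) μ Φ →
    Crest.Dynamics.graphingCost μ Φ + μ M < 1 + k →
  ∃ Ψ : ℕ → G × Set X, (∀ n, MeasurableSet (Ψ n).2) ∧ ∑' n, μ (Ψ n).2 < k ∧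
    ∀ᵐ y ∂μ, ∀ g : G, Relation.EqvGen
      (fun a b => b = z • a ∨ Crest.Dynamics.GraphingStep Ψ a b) y (g • y)

/-! ### Bernoulli shift, expansion -/

def BERN_free : Prop := ∀ (G : Type) [Group G] [Countable G] [Infinite G],
  Crest.Dynamics.IsFreePMPAction G (BernX G) (bernM G)

def BERN_marker : Prop := ∀ (G : Type) [Group G] [Countable G] (z : G),
  (∀ n : ℕ, 0 < n → z ^ n ≠ 1) → ∀ ε : ℝ, 0 < ε → ε ≤ 1 →
  bernM G {y : BernX G | ((y 1 : unitInterval) : ℝ) < ε} = ENNReal.ofReal ε ∧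
  ∀ᵐ y ∂(bernM G), ∃ n : ℤ, z ^ n • y ∈ {y : BernX G | ((y 1 : unitInterval) : ℝ) < ε}

/-- random permutations: expanding and with few fixed points of given words -/
def PERM : Prop := ∀ (W : Finset (FreeGroup (Fin 79))), (∀ w ∈ W, w ≠ 1) → ∀ δ : ℝ, 0 < δ →
  ∃ N0 : ℕ, ∀ n ≥ N0, ∃ π : Fin 79 → Equiv.Perm (Fin n),
    (∀ S : Finset (Fin n), (S.card : ℝ) ≤ 3 / 10 ^ 17 * n →
      70 * S.card ≤ (S ∪ Finset.univ.biUnion (fun j => S.image (π j))).card) ∧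
    ((Finset.univ.filter (fun v : Fin n => ∃ w ∈ W, FreeGroup.lift π w v = v)).card : ℝ)
      ≤ δ * n

def EXPB : Prop := ∀ (G : Type) [Group G] [Countable G] (t : Fin 79 → G),
  Function.Injective (FreeGroup.lift t) → ∀ U : Set (BernX G), MeasurableSet U →
  bernM G U ≤ al →
  70 * bernM G U ≤ bernM G (U ∪ ⋃ j : Fin 79, (fun y : BernX G => t j • y) '' U)

/-! ### The space `Ω(𝒢)` -/

def OM_count : Prop := ∀ (X : Type) [MeasurableSpace X] [StandardBorelSpace X]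
  [MulAction FF X] [MeasurableConstSMul FF X] (μ : Measure X) [IsProbabilityMeasure μ],
  Sys X μ → ∀ (𝒢 : Gpd X) (T : Set (Om 𝒢)), MeasurableSet T →
  mO μ 𝒢 T = ∫⁻ y, ((T ∩ pr 𝒢 ⁻¹' {y}).encard : ℝ≥0∞) ∂μ

def OM_sp : Prop := ∀ (X : Type) [MeasurableSpace X] [StandardBorelSpace X]
  [MulAction FF X] [MeasurableConstSMul FF X] (μ : Measure X) [IsProbabilityMeasure μ],
  Sys X μ → ∃ b : X → ℝ, Measurable b ∧ Function.Injective b ∧
    ∀ 𝒢 : Gpd X, Sp (Om 𝒢) (mO μ 𝒢) (fun ω => b (pr 𝒢 ω))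

def OM_sec : Prop := ∀ (X : Type) [MeasurableSpace X] [StandardBorelSpace X]
  [MulAction FF X] [MeasurableConstSMul FF X] (μ : Measure X) [IsProbabilityMeasure μ],
  Sys X μ → ∀ (𝒢 : Gpd X), MeasurableSet (Set.range (sec 𝒢)) ∧
    ∀ B : Set X, MeasurableSet B → MeasurableSet (sec 𝒢 '' B) ∧ mO μ 𝒢 (sec 𝒢 '' B) = μ B

def OM_map : Prop := ∀ (X : Type) [MeasurableSpace X] [StandardBorelSpace X]
  [MulAction FF X] [MeasurableConstSMul FF X] (μ : Measure X) [IsProbabilityMeasure μ],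
  Sys X μ → ∀ (𝒢 𝒢' : Gpd X) (h : 𝒢.le 𝒢') (S : Set (Om 𝒢)), MeasurableSet S →
  mO μ 𝒢' (Om.map h '' S) ≤ mO μ 𝒢 S

def OM_exp : Prop := ∀ (X : Type) [MeasurableSpace X] [StandardBorelSpace X]
  [MulAction FF X] [MeasurableConstSMul FF X] (μ : Measure X) [IsProbabilityMeasure μ],
  Sys X μ → ∀ (𝒢 : Gpd X) (C : Set (Om 𝒢)), MeasurableSet C → mO μ 𝒢 C ≤ al →
  70 * mO μ 𝒢 C ≤ mO μ 𝒢 (⋃ j : Fin 80, (fun ω : Om 𝒢 => tau (j : ℕ) • ω) '' C)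

def OM_loss : Prop := ∀ (X : Type) [MeasurableSpace X] [StandardBorelSpace X]
  [MulAction FF X] [MeasurableConstSMul FF X] (μ : Measure X) [IsProbabilityMeasure μ],
  Sys X μ → ∀ (𝒢 𝒢' : Gpd X) (h : 𝒢.le 𝒢') (T C : Set (Om 𝒢)), MeasurableSet T →
  MeasurableSet C → mO μ 𝒢 T ≠ ∞ → mO μ 𝒢 C ≤ al →
  (∀ ω ∈ C, ∀ j < 80, tau j • ω ∈ T) →
  mO μ 𝒢' (Om.map h '' T) + 70 * mO μ 𝒢 C ≤ mO μ 𝒢 T + 70 * mO μ 𝒢' (Om.map h '' C)

/-! ### The class -/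

/-- one step of the relation generated by `Q` and the partial translations `(w n, B n)` -/
def StepQ {X : Type} [MulAction FF X] {ι : Type} (w : ι → FF) (B : ι → Set X) (a b : X) : Prop :=
  (∃ q : QQ, b = iQ q • a) ∨ ∃ n, a ∈ B n ∧ b = w n • a

def START : Prop := ∀ (X : Type) [MeasurableSpace X] [StandardBorelSpace X]
  [MulAction FF X] [MeasurableConstSMul FF X] (μ : Measure X) [IsProbabilityMeasure μ],
  Sys X μ → ∀ (N : ℕ) (w : Fin N → FF) (B : Fin N → Set X), (∀ n, MeasurableSet (B n)) →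
  ∑ n, μ (B n) ≤ kap → (∀ y : X, Relation.EqvGen (StepQ w B) y (xx • y)) →
  ∃ σ : St X, Good μ σ ∧ mO μ σ.G σ.C = 0

def LEAF : Prop := ∀ (X : Type) [MeasurableSpace X] [StandardBorelSpace X]
  [MulAction FF X] [MeasurableConstSMul FF X] (μ : Measure X) [IsProbabilityMeasure μ],
  Sys X μ → ∀ σ : St X, Good μ σ →
  ∃ σ' : St X, Good μ σ' ∧ mO μ σ'.G σ'.C = mO μ σ.G σ.C ∧
    2 * mO μ σ'.G σ'.T + leafH μ σ ≤ 2 * mO μ σ.G σ.T

def REB : Prop := ∀ (X : Type) [MeasurableSpace X] [StandardBorelSpace X]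
  [MulAction FF X] [MeasurableConstSMul FF X] (μ : Measure X) [IsProbabilityMeasure μ],
  Sys X μ → ∀ σ : St X, Good μ σ →
  ∃ σ' : St X, GoodS μ σ' ∧ mO μ σ'.G σ'.C = mO μ σ.G σ.C ∧ mO μ σ'.G σ'.T = mO μ σ.G σ.T

/-- strong members are members -/
def SG : Prop := ∀ (X : Type) [MeasurableSpace X] [StandardBorelSpace X]
  [MulAction FF X] [MeasurableConstSMul FF X] (μ : Measure X) [IsProbabilityMeasure μ],
  Sys X μ → ∀ σ : St X, GoodS μ σ → Good μ σ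

/-! ### Attaching cells -/

def ATT_good : Prop := ∀ (X : Type) [MeasurableSpace X] [StandardBorelSpace X]
  [MulAction FF X] [MeasurableConstSMul FF X] (μ : Measure X) [IsProbabilityMeasure μ],
  Sys X μ → ∀ (σ : St X) (D : Set (Om σ.G)) (hD : MeasurableSet D), D ⊆ Att σ.T →
  GoodS μ σ → GoodS μ (σ.attach D hD)

def ATT_pot : Prop := ∀ (X : Type) [MeasurableSpace X] [StandardBorelSpace X]
  [MulAction FF X] [MeasurableConstSMul FF X] (μ : Measure X) [IsProbabilityMeasure μ],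
  Sys X μ → ∀ (σ : St X) (D : Set (Om σ.G)) (hD : MeasurableSet D), D ⊆ Att σ.T →
  Base μ σ → mO μ σ.G σ.C ≤ al → Pot μ (σ.attach D hD) ≤ Pot μ σ

def ATT_leaf : Prop := ∀ (X : Type) [MeasurableSpace X] [StandardBorelSpace X]
  [MulAction FF X] [MeasurableConstSMul FF X] (μ : Measure X) [IsProbabilityMeasure μ],
  Sys X μ → ∀ (σ : St X) (D : Set (Om σ.G)) (hD : MeasurableSet D), D ⊆ Att σ.T →
  Base μ σ → leafH μ (σ.attach D hD) ≤ leafH μ σ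

def ATT_cross : Prop := ∀ (X : Type) [MeasurableSpace X] [StandardBorelSpace X]
  [MulAction FF X] [MeasurableConstSMul FF X] (μ : Measure X) [IsProbabilityMeasure μ],
  Sys X μ → ∀ (σ : St X) (D D' : Set (Om σ.G)) (hD : MeasurableSet D) (hD' : MeasurableSet D'),
  D ⊆ D' → mO μ (σ.attach D' hD').G (σ.attach D' hD').C ≤
    mO μ (σ.attach D hD).G (σ.attach D hD).C + mO μ σ.G (D' \ D)

def CLOS : Prop := ∀ (X : Type) [MeasurableSpace X] [StandardBorelSpace X]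
  [MulAction FF X] [MeasurableConstSMul FF X] (μ : Measure X) [IsProbabilityMeasure μ],
  Sys X μ → ∀ σ : St X, Base μ σ → ∀ y : X, ∃ I : ℕ, ∀ i ≥ I, sec (σ.iter i).G y ∈ (σ.iter i).C

def PROC : Prop := ∀ (X : Type) [MeasurableSpace X] [StandardBorelSpace X]
  [MulAction FF X] [MeasurableConstSMul FF X] (μ : Measure X) [IsProbabilityMeasure μ],
  Sys X μ → ∀ σ : St X, GoodS μ σ → Fm μ σ < Fs →
  ∃ σ' : St X, GoodS μ σ' ∧ Fs ≤ Fm μ σ' ∧ Fm μ σ' ≤ 11 / 10 * Fs ∧ Pot μ σ' ≤ Pot μ σ ∧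
    leafH μ σ' ≤ leafH μ σ

/-! ### Arc lemma -/

/-- weight `1/deg` at non-real vertices of finite degree -/
noncomputable def wt {Ω : Type} [MulAction FF Ω] (T R : Set Ω) (ω : Ω) : ℝ≥0∞ :=
  open Classical in if ω ∉ R ∧ deg T ω ≠ ⊤ then ((deg T ω : ℕ∞) : ℝ≥0∞)⁻¹ else 0

/-- selection of parent edges -/
def ARC1 : Prop := ∀ (Ω : Type) [MeasurableSpace Ω] [MulAction FF Ω] (m : Measure Ω) (b : Ω → ℝ),
  Sp Ω m b → ∀ (T R : Set Ω), MeasurableSet T → MeasurableSet R →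
  (∀ (q : QQ) (ω : Ω), ω ∈ R → iQ q • ω ∈ R) → m T ≠ ∞ →
  (∀ ω ∈ T, ∃ ρ ∈ R, Reach T ρ ω) → ∀ ε : ℝ≥0∞, 0 < ε →
  ∃ P : Set Ω, MeasurableSet P ∧ P ⊆ T ∧
    (∀ ω ∈ T, (∃ ρ ∈ R, Reach P ρ ω) ∧ (∃ ρ ∈ R, Reach P ρ (xx • ω))) ∧
    m P ≤ ∫⁻ ω in T, (wt T R ω + wt T R (xx • ω)) ∂m + ε

def ARC : Prop := ∀ (Ω : Type) [MeasurableSpace Ω] [MulAction FF Ω] (m : Measure Ω) (b : Ω → ℝ),
  Sp Ω m b → ∀ (T R : Set Ω), MeasurableSet T → MeasurableSet R →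
  (∀ (q : QQ) (ω : Ω), ω ∈ R → iQ q • ω ∈ R) → m T ≠ ∞ →
  (∀ ω ∈ T, ∃ ρ ∈ R, Reach T ρ ω) →
  ∀ (A : ℕ → Set Ω) (c : ℕ → Ω → (FF →₀ ℚ)), (∀ n, MeasurableSet (A n)) →
  (∀ n (a : FF →₀ ℚ), MeasurableSet {ω | c n ω = a}) →
  (∀ ρ ∈ R, ∀ l : List Ltr, okL T ρ l → ev l • ρ ∈ R →
    ch (ev l) ρ ∈ Submodule.span ℚ (genSet A c)) →
  HE m T (Brk T R) ≤ 6 * ∑' n, m (A n) + 3 * HE m T (Leaf T R)

/-! ### Collapse -/

/-- choice of private arcs -/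
def COLI : Prop := ∀ (Ω : Type) [MeasurableSpace Ω] [MulAction FF Ω] (m : Measure Ω) (b : Ω → ℝ),
  Sp Ω m b → ∀ (T R C : Set Ω), MeasurableSet T → MeasurableSet R → MeasurableSet C →
  (∀ (q : QQ) (ω : Ω), ω ∈ R → iQ q • ω ∈ R) →
  (∀ ω ∈ T, ∃ ρ ∈ R, Reach T ρ ω) → (∀ ω ∈ C, rr • ω = ω) →
  (∀ ω ∈ C, ∀ j < 80, tau j • ω ∈ T) →
  ∃ a ell : Ω → ℕ, Measurable a ∧ Measurable ell ∧ IntData T R C a ell ∧
    ∀ ω ∈ CR C, {j : ℕ | j < 80 ∧ tau j • ω ∈ Priv C}.ncard ≤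
      ell ω * {j : ℕ | j < 80 ∧ tau j • ω ∈ Priv C ∧ tau j • ω ∈ Brk T R}.ncard

/-- measure estimates for the collapse -/
def COLM : Prop := ∀ (Ω : Type) [MeasurableSpace Ω] [MulAction FF Ω] (m : Measure Ω) (b : Ω → ℝ),
  Sp Ω m b → ∀ (T R C : Set Ω), MeasurableSet T → MeasurableSet R → MeasurableSet C →
  (∀ (q : QQ) (ω : Ω), ω ∈ R → iQ q • ω ∈ R) →
  (∀ ω ∈ C, rr • ω = ω) → (∀ ω ∈ C, ∀ j < 80, tau j • ω ∈ T) → m T ≠ ∞ →
  70 * m C ≤ m (⋃ j : Fin 80, (fun ω : Ω => tau (j : ℕ) • ω) '' C) →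
  ∀ a ell : Ω → ℕ, Measurable a → Measurable ell → IntData T R C a ell →
  (∀ ω ∈ CR C, {j : ℕ | j < 80 ∧ tau j • ω ∈ Priv C}.ncard ≤
      ell ω * {j : ℕ | j < 80 ∧ tau j • ω ∈ Priv C ∧ tau j • ω ∈ Brk T R}.ncard) →
  m (T ∩ Brk T R) ≤ 7 * m C →
  MeasurableSet (CR C) ∧ MeasurableSet (arcE C a ell) ∧ arcE C a ell ⊆ T ∧
    3 * m C ≤ 4 * m (CR C) ∧ 5 * m C ≤ m (arcE C a ell)

/-- the collapsed state is in the class -/
def COLB : Prop := ∀ (X : Type) [MeasurableSpace X] [StandardBorelSpace X]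
  [MulAction FF X] [MeasurableConstSMul FF X] (μ : Measure X) [IsProbabilityMeasure μ],
  Sys X μ → ∀ σ : St X, Good μ σ → ∀ a ell : Om σ.G → ℕ, Measurable a → Measurable ell →
  IntData σ.T (Set.range (sec σ.G)) σ.C a ell →
  ∀ (hT' : MeasurableSet (σ.T \ arcE σ.C a ell)) (hC' : MeasurableSet (σ.C \ CR σ.C)),
    Good μ (St.mk σ.G (σ.T \ arcE σ.C a ell) (σ.C \ CR σ.C) hT' hC')

def COL : Prop := ∀ (X : Type) [MeasurableSpace X] [StandardBorelSpace X]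
  [MulAction FF X] [MeasurableConstSMul FF X] (μ : Measure X) [IsProbabilityMeasure μ],
  Sys X μ → ∀ σ : St X, Good μ σ → Fs ≤ Fm μ σ → Fm μ σ ≤ 11 / 10 * Fs →
  leafH μ σ ≤ ENNReal.ofReal (Fs / 50) →
  ∃ σ' : St X, Good μ σ' ∧ Fm μ σ' ≤ Fs / 2 ∧ Pot μ σ' < Pot μ σ - Fs / 100

/-! ### Main steps -/

def MAIN : Prop := ∀ (X : Type) [MeasurableSpace X] [StandardBorelSpace X]
  [MulAction FF X] [MeasurableConstSMul FF X] (μ : Measure X) [IsProbabilityMeasure μ],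
  Sys X μ → ∀ (N : ℕ) (w : Fin N → FF) (B : Fin N → Set X), (∀ n, MeasurableSet (B n)) →
  ∑ n, μ (B n) ≤ kap → ¬ (∀ y : X, Relation.EqvGen (StepQ w B) y (xx • y))

/-- countable version -/
def MAINC : Prop := ∀ (X : Type) [MeasurableSpace X] [StandardBorelSpace X]
  [MulAction FF X] [MeasurableConstSMul FF X] (μ : Measure X) [IsProbabilityMeasure μ],
  Sys X μ → ∀ (w : ℕ → FF) (B : ℕ → Set X), (∀ n, MeasurableSet (B n)) →
  ∑' n, μ (B n) < kap → ¬ (∀ y : X, Relation.EqvGen (StepQ w B) y (xx • y))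

def LOWER : Prop := Crest.Dynamics.IsFreePMPAction GG (BernX GG) (bernM GG) ∧
  1 + kap ≤ Crest.Dynamics.actionCost GG (BernX GG) (bernM GG)

def UPPER : Prop := ∀ M : ℕ, 100 < M →
  ∃ (Y : Type) (_ : MeasurableSpace Y) (_ : StandardBorelSpace Y) (ν : MeasureTheory.Measure Y)
    (_ : MeasureTheory.IsProbabilityMeasure ν) (_ : MulAction GG Y),
    Crest.Dynamics.IsFreePMPAction GG Y ν ∧
    Crest.Dynamics.actionCost GG Y ν ≤ 1 + 99 / (M : ENNReal)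

end Crest.Agent.R191
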