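import Crest.Agent.R191.Basics
import Crest.Agent.R191.Stmts

/-!
# Row 191, task ARC: the arc lemma (Euler characteristic)
-/

set_option autoImplicit false

namespace Crest.Agent.R191

open MeasureTheory
open scoped ENNReal

namespace ARC

open Classical in
/-- filtering as a linear map -/
noncomputable def filt {Ω : Type} (p : Ω → Prop) : (Ω →₀ ℚ) →ₗ[ℚ] (Ω →₀ ℚ) where
  toFun f := f.filter p
  map_add' _ _ := Finsupp.filter_add
  map_smul' _ _ := Finsupp.filter_smul

open Classical in
theorem filt_zero {Ω : Type} (p : Ω → Prop) (f : Ω →₀ ℚ) (h : ∀ e ∈ f.support, ¬ p e) :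
    filt p f = 0 := by
  show Finsupp.filter p f = 0
  rw [Finsupp.filter_eq_zero_iff]
  intro e he
  by_contra hne
  exact h e (Finsupp.mem_support_iff.mpr hne) he

open Classical in
theorem filt_single {Ω : Type} (p : Ω → Prop) (ω : Ω) (h : p ω) :
    filt p (Finsupp.single ω 1) = Finsupp.single ω 1 := by
  show Finsupp.filter p (Finsupp.single ω 1) = Finsupp.single ω 1
  exact Finsupp.filter_single_of_pos _ h

section
variable {Ω : Type} [MulAction FF Ω]

theorem one_le_deg {T : Set Ω} {ω : Ω} (h : ω ∈ T) : 1 ≤ deg T ω := by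
  unfold deg
  refine le_trans ?_ (le_add_right le_rfl)
  rw [Set.one_le_encard_iff_nonempty]
  refine ⟨1, ?_⟩
  show iQ 1 • ω ∈ T
  rwa [map_one, one_smul]

theorem one_le_deg' {T : Set Ω} {ω : Ω} (h : ω ∈ T) : 1 ≤ deg T (xx • ω) := by
  unfold deg
  refine le_trans ?_ (le_add_left le_rfl)
  rw [Set.one_le_encard_iff_nonempty]
  refine ⟨1, ?_⟩
  show xx⁻¹ • iQ 1 • xx • ω ∈ T
  rwa [map_one, one_smul, inv_smul_smul]

/-- pointwise inequality -/
theorem pointwise (T R : Set Ω) (ω : Ω) (h : 1 ≤ deg T ω) :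
    (Brk T R).indicator (1 : Ω → ℝ≥0∞) ω + 6 * wt T R ω ≤
      3 + 3 * (Leaf T R).indicator (1 : Ω → ℝ≥0∞) ω := by
  classical
  by_cases hR : ω ∈ R
  · have h1 : wt T R ω = 0 := by
      unfold wt
      rw [if_neg (fun h => h.1 hR)]
    rw [h1, mul_zero, add_zero]
    refine le_trans ?_ (le_add_right le_rfl)
    refine (Set.indicator_le_self' (fun _ _ => zero_le) ω).trans ?_
    simp
  · by_cases hd : deg T ω = ⊤
    · have h1 : wt T R ω = 0 := by
        unfold wt
        rw [if_neg (fun h => h.2 hd)]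
      rw [h1, mul_zero, add_zero]
      refine le_trans ?_ (le_add_right le_rfl)
      refine (Set.indicator_le_self' (fun _ _ => zero_le) ω).trans ?_
      simp
    · obtain ⟨d, hd'⟩ := ENat.ne_top_iff_exists.mp hd
      have h1 : wt T R ω = (d : ℝ≥0∞)⁻¹ := by
        unfold wt
        rw [if_pos ⟨hR, hd⟩, ← hd']
        simp
      rw [← hd'] at h
      have hd1 : 1 ≤ d := by exact_mod_cast h
      rw [h1]
      rcases Nat.lt_or_ge d 3 with h3 | h3
      · have hB : ω ∉ Brk T R := by
          intro hB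
          rcases hB with hB | hB
          · exact hR hB
          · rw [← hd'] at hB
            have : 3 ≤ d := by exact_mod_cast hB
            omega
        rw [Set.indicator_of_notMem hB, zero_add]
        have hd12 : d = 1 ∨ d = 2 := by omega
        rcases hd12 with hd12 | hd12
        · have hL : ω ∈ Leaf T R := ⟨hR, by rw [← hd', hd12]; rfl⟩
          rw [Set.indicator_of_mem hL, hd12]
          simp only [Nat.cast_one, inv_one, mul_one, Pi.one_apply]
          norm_num
        · rw [hd12]
          refine le_trans ?_ (le_add_right le_rfl)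
          have : (6 : ℝ≥0∞) = 3 * 2 := by norm_num
          rw [this, mul_assoc]
          push_cast
          rw [ENNReal.mul_inv_cancel (by norm_num) (by norm_num), mul_one]
      · refine le_trans ?_ (le_add_right le_rfl)
        have hb : (Brk T R).indicator (1 : Ω → ℝ≥0∞) ω ≤ 1 := by
          refine (Set.indicator_le_self' (fun _ _ => zero_le) ω).trans ?_
          simp
        have h6 : 6 * (d : ℝ≥0∞)⁻¹ ≤ 2 := by
          have h3' : (3 : ℝ≥0∞) ≤ d := by exact_mod_cast h3
          calc 6 * (d : ℝ≥0∞)⁻¹ ≤ 6 * (3 : ℝ≥0∞)⁻¹ := by gcongr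
            _ = 2 * (3 * (3 : ℝ≥0∞)⁻¹) := by
                rw [← mul_assoc]; norm_num
            _ = 2 := by rw [ENNReal.mul_inv_cancel (by norm_num) (by norm_num), mul_one]
        calc _ ≤ 1 + (2 : ℝ≥0∞) := add_le_add hb h6
          _ = 3 := by norm_num

theorem wt_le_one (T R : Set Ω) (ω : Ω) (h : 1 ≤ deg T ω) : wt T R ω ≤ 1 := by
  classical
  unfold wt
  split_ifs
  · rw [ENNReal.inv_le_one]
    exact_mod_cast h
  · exact zero_le

end

end ARC

open ARC in
theorem arc_of (h1 : ARC1) (h2 : RI) : ARC := by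
  classical
  intro Ω _ _ m b hsp T R hT hRm hR hfin hreach A c hA hc hspan
  have hm : ∀ g : FF, Measurable (fun ω : Ω => g • ω) := fun g => (hsp.mp g).measurable
  have hdegm := measurable_deg hm hT
  have hwtm : Measurable (wt T R : Ω → ℝ≥0∞) := by
    have : (wt T R : Ω → ℝ≥0∞) = Rᶜ.indicator (fun ω => ((deg T ω : ℕ∞) : ℝ≥0∞)⁻¹) := by
      funext ω
      unfold wt
      by_cases h1 : ω ∈ R
      · rw [if_neg (fun h => h.1 h1), Set.indicator_of_notMem (by simpa using h1)]
      · rw [Set.indicator_of_mem (by simpa using h1)]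
        by_cases h2 : deg T ω = ⊤
        · rw [if_neg (fun h => h.2 h2), h2]
          simp
        · rw [if_pos ⟨h1, h2⟩]
    rw [this]
    exact hdegm.inv.indicator hRm.compl
  by_cases hcc : ∑' n, m (A n) = ∞
  · rw [hcc]
    simp
  set cc := ∑' n, m (A n) with hccd
  set I := ∫⁻ ω in T, (wt T R ω + wt T R (xx • ω)) ∂m with hI
  have hIfin : I ≠ ∞ := by
    have h3 : I ≤ ∫⁻ ω in T, 2 ∂m := by
      refine setLIntegral_mono measurable_const (fun ω hω => ?_)
      calc wt T R ω + wt T R (xx • ω) ≤ 1 + 1 :=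
            add_le_add (wt_le_one T R ω (one_le_deg hω)) (wt_le_one T R _ (one_le_deg' hω))
        _ = 2 := by norm_num
    rw [setLIntegral_const] at h3
    exact ne_top_of_le_ne_top (ENNReal.mul_ne_top (by norm_num) hfin) h3
  -- main rank estimate
  have hmain : m T ≤ cc + I := by
    refine ENNReal.le_of_forall_pos_le_add (fun ε hε _ => ?_)
    obtain ⟨P, hPm, hPT, hPconn, hPle⟩ := h1 Ω m b hsp T R hT hRm hR hfin hreach (ε : ℝ≥0∞)
      (by exact_mod_cast hε)
    have hD : MeasurableSet (T \ P) := hT.diff hPm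
    have hrank : m (T \ P) ≤ cc := by
      refine h2 Ω FF m hsp.mp hsp.eq_meas (T \ P) A c hD hA hc
        (ne_top_of_le_ne_top hfin (measure_mono Set.sdiff_subset)) (fun ω hω => ?_)
      obtain ⟨⟨ρ, hρ, l1, hl1, he1⟩, ⟨ρ', hρ', l2, hl2, he2⟩⟩ := hPconn ω hω.1
      -- the walk
      have hl : okL T ρ (revW l2 ++ (Ltr.xp :: l1)) := by
        rw [okL_append]
        refine ⟨⟨okL_mono hPT hl1, by rw [he1]; exact hω.1⟩, ?_⟩
        have h3 : ev (Ltr.xp :: l1) • ρ = ev l2 • ρ' := by
          rw [he2]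
          simp [ev, Ltr.val, mul_smul, he1]
        rw [h3]
        exact okL_revW (okL_mono hPT hl2)
      have h3 : ev (Ltr.xp :: l1) • ρ = ev l2 • ρ' := by
        rw [he2]
        simp [ev, Ltr.val, mul_smul, he1]
      have hend : ev (revW l2 ++ (Ltr.xp :: l1)) • ρ = ρ' := by
        rw [ev_append, mul_smul, h3, ev_revW, inv_smul_smul]
      have hch : ch (ev (revW l2 ++ (Ltr.xp :: l1))) ρ =
          - ch (ev l2) ρ' + (Finsupp.single ω 1 + ch (ev l1) ρ) := by
        rw [ev_append, ch_mul, h3, ev_revW, ch_inv]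
        congr 1
        rw [ev, ch_mul, he1, Ltr.val, ch_xx]
      have hmem := hspan ρ hρ _ hl (by rw [hend]; exact hρ')
      have hmap : filt (· ∈ T \ P) (ch (ev (revW l2 ++ (Ltr.xp :: l1))) ρ) ∈
          Submodule.map (filt (· ∈ T \ P)) (Submodule.span ℚ (genSet A c)) :=
        Submodule.mem_map_of_mem hmem
      rw [Submodule.map_span] at hmap
      have hzero : ∀ (l : List Ltr) (ρ : Ω), okL P ρ l → filt (· ∈ T \ P) (ch (ev l) ρ) = 0 := by
        intro l ρ hl
        exact filt_zero _ _ (fun e he hcon => hcon.2 (ch_support hl e he))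
      have hval : filt (· ∈ T \ P) (ch (ev (revW l2 ++ (Ltr.xp :: l1))) ρ) =
          Finsupp.single ω 1 := by
        rw [hch, map_add, map_add, map_neg, hzero l2 ρ' hl2, hzero l1 ρ hl1, neg_zero, zero_add,
          add_zero]
        exact filt_single _ _ hω
      rw [hval] at hmap
      refine Submodule.span_mono ?_ hmap
      rintro v ⟨v', ⟨n, ω', hω', rfl⟩, rfl⟩
      exact ⟨n, ω', hω', rfl⟩
    calc m T ≤ m ((T \ P) ∪ P) := measure_mono (by intro ω hω; by_cases h : ω ∈ P
                                                   · exact Or.inr h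
                                                   · exact Or.inl ⟨hω, h⟩)
      _ ≤ m (T \ P) + m P := measure_union_le _ _
      _ ≤ cc + (I + ε) := add_le_add hrank hPle
      _ = cc + I + ε := by rw [add_assoc]
  -- integration of the pointwise inequality
  have hBm := measurableSet_Brk hm hT hRm
  have hLm := measurableSet_Leaf hm hT hRm
  have hHE : ∀ B : Set Ω, MeasurableSet B →
      HE m T B = ∫⁻ ω in T, (B.indicator 1 ω + B.indicator 1 (xx • ω)) ∂m := by
    intro B hB
    rw [lintegral_add_left (measurable_one.indicator hB)]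
    unfold HE
    congr 1
    · rw [lintegral_indicator_one hB, Measure.restrict_apply hB, Set.inter_comm]
    · have h3 : ∀ ω, B.indicator (1 : Ω → ℝ≥0∞) (xx • ω) =
          ((fun ω : Ω => xx • ω) ⁻¹' B).indicator 1 ω := fun ω => rfl
      simp_rw [h3]
      rw [lintegral_indicator_one (hm _ hB), Measure.restrict_apply (hm _ hB), Set.inter_comm]
      rfl
  have hint : HE m T (Brk T R) + 6 * I ≤ 6 * m T + 3 * HE m T (Leaf T R) := by
    have hmB : Measurable (fun ω => (Brk T R).indicator (1 : Ω → ℝ≥0∞) ω +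
        (Brk T R).indicator 1 (xx • ω)) :=
      (measurable_one.indicator hBm).add ((measurable_one.indicator hBm).comp (hm _))
    have hmL : Measurable (fun ω => (Leaf T R).indicator (1 : Ω → ℝ≥0∞) ω +
        (Leaf T R).indicator 1 (xx • ω)) :=
      (measurable_one.indicator hLm).add ((measurable_one.indicator hLm).comp (hm _))
    have hmw : Measurable (fun ω => wt T R ω + wt T R (xx • ω)) := hwtm.add (hwtm.comp (hm _))
    rw [hHE _ hBm, hHE _ hLm, hI, ← lintegral_const_mul _ hmw, ← lintegral_const_mul _ hmL,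
      ← lintegral_add_left hmB]
    have h3 : 6 * m T = ∫⁻ _ω in T, 6 ∂m := by rw [setLIntegral_const]
    rw [h3, ← lintegral_add_left measurable_const]
    refine setLIntegral_mono (measurable_const.add (hmL.const_mul _)) (fun ω hω => ?_)
    have p1 := pointwise T R ω (one_le_deg hω)
    have p2 := pointwise T R (xx • ω) (one_le_deg' hω)
    calc _ = ((Brk T R).indicator (1 : Ω → ℝ≥0∞) ω + 6 * wt T R ω) +
          ((Brk T R).indicator (1 : Ω → ℝ≥0∞) (xx • ω) + 6 * wt T R (xx • ω)) := by ring
      _ ≤ _ := add_le_add p1 p2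
      _ = _ := by ring
  have hfinal : HE m T (Brk T R) + 6 * I ≤ (6 * cc + 3 * HE m T (Leaf T R)) + 6 * I := by
    calc _ ≤ _ := hint
      _ ≤ 6 * (cc + I) + 3 * HE m T (Leaf T R) := by gcongr
      _ = _ := by ring
  exact (ENNReal.add_le_add_iff_right (ENNReal.mul_ne_top (by norm_num) hIfin)).mp hfinal

end Crest.Agent.R191
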