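import Crest.Agent.R191.Basics
import Crest.Agent.R191.Stmts

/-!
# Row 191, task ARC1: selection of parent edges
-/

set_option autoImplicit false

namespace Crest.Agent.R191

open MeasureTheory
open scoped ENNReal

namespace ARC1

section
variable {Ω : Type} [MeasurableSpace Ω] [MulAction FF Ω]

/-! ### freeness of the `Q`-action -/

theorem q_inj {m : Measure Ω} {b : Ω → ℝ} (hsp : Sp Ω m b) (hq : GRP_iQ) {q q' : QQ} {ω : Ω}
    (h : b (iQ q • ω) = b (iQ q' • ω)) : q = q' := by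
  have h1 : b (iQ (q * q'⁻¹) • iQ q' • ω) = b (iQ q' • ω) := by
    rw [← mul_smul, ← map_mul, inv_mul_cancel_right, h]
  have h2 := hq _ (hsp.b_inj _ _ h1)
  exact mul_inv_eq_one.mp h2

/-! ### the integral inequality -/

theorem lintegral_le {m : Measure Ω} {b : Ω → ℝ} (hsp : Sp Ω m b) {Y : Set Ω}
    (hY : MeasurableSet Y) (hsub : ∀ ω : Ω, {q : QQ | iQ q • ω ∈ Y}.Subsingleton)
    {φ : Ω → ℝ≥0∞} (hφ : Measurable φ) :
    ∫⁻ y in Y, ∑' q : QQ, φ (iQ q • y) ∂m ≤ ∫⁻ ω, φ ω ∂m := by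
  classical
  have hm : ∀ g : FF, Measurable (fun ω : Ω => g • ω) := fun g => (hsp.mp g).measurable
  rw [← lintegral_indicator hY]
  have h1 : ∀ y, Y.indicator (fun y => ∑' q : QQ, φ (iQ q • y)) y =
      ∑' q : QQ, Y.indicator 1 y * φ (iQ q • y) := by
    intro y
    by_cases hy : y ∈ Y
    · simp [Set.indicator_of_mem hy]
    · simp [Set.indicator_of_notMem hy]
  simp_rw [h1]
  have hmeas1 : ∀ q : QQ, Measurable (fun y : Ω => Y.indicator 1 y * φ (iQ q • y)) := fun q =>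
    (measurable_one.indicator hY).mul (hφ.comp (hm _))
  have hmeas2 : ∀ q : QQ, Measurable (fun ω : Ω => Y.indicator 1 ((iQ q⁻¹ : FF) • ω) * φ ω) :=
    fun q => ((measurable_one.indicator hY).comp (hm _)).mul hφ
  rw [lintegral_tsum (fun q => (hmeas1 q).aemeasurable)]
  have h2 : ∀ q : QQ, ∫⁻ y, Y.indicator 1 y * φ (iQ q • y) ∂m =
      ∫⁻ ω, Y.indicator 1 ((iQ q⁻¹ : FF) • ω) * φ ω ∂m := by
    intro q
    have h3 := (hsp.mp (iQ q)).lintegral_comp (hmeas2 q)
    rw [← h3]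
    refine lintegral_congr (fun y => ?_)
    rw [map_inv, inv_smul_smul]
  simp_rw [h2]
  rw [← lintegral_tsum (fun q => (hmeas2 q).aemeasurable)]
  refine lintegral_mono (fun ω => ?_)
  rw [ENNReal.tsum_mul_right]
  have h4 : ∑' q : QQ, Y.indicator (1 : Ω → ℝ≥0∞) ((iQ q⁻¹ : FF) • ω) ≤ 1 := by
    by_cases hex : ∃ q0 : QQ, iQ q0 • ω ∈ Y
    · obtain ⟨q0, hq0⟩ := hex
      rw [tsum_eq_single q0⁻¹]
      · rw [inv_inv, Set.indicator_of_mem hq0]
        exact le_rfl
      · intro q hq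
        apply Set.indicator_of_notMem
        intro hmem
        have : q⁻¹ = q0 := hsub ω hmem hq0
        exact hq (by rw [← this, inv_inv])
    · push Not at hex
      have : ∀ q : QQ, Y.indicator (1 : Ω → ℝ≥0∞) ((iQ q⁻¹ : FF) • ω) = 0 := fun q =>
        Set.indicator_of_notMem (hex _) _
      simp_rw [this]
      simp
  calc (∑' q : QQ, Y.indicator (1 : Ω → ℝ≥0∞) ((iQ q⁻¹ : FF) • ω)) * φ ω ≤ 1 * φ ω := by gcongr
    _ = φ ω := one_mul _

/-! ### selection -/

theorem selection {m : Measure Ω} {b : Ω → ℝ} (hsp : Sp Ω m b) (hq : GRP_iQ) {S : Set Ω}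
    (hS : MeasurableSet S) (hfin : m S ≠ ∞) {ε : ℝ≥0∞} (hε : 0 < ε) :
    ∃ S1 S2 : Set Ω, MeasurableSet S1 ∧ MeasurableSet S2 ∧ S1 ⊆ S ∧ S2 ⊆ S ∧
      (∀ ω ∈ S, ∃ q : QQ, iQ q • ω ∈ S1 ∪ S2) ∧
      (∀ ω : Ω, {q : QQ | iQ q • ω ∈ S1}.Subsingleton) ∧ m S2 ≤ ε := by
  classical
  have hm : ∀ g : FF, Measurable (fun ω : Ω => g • ω) := fun g => (hsp.mp g).measurable
  set β : Ω → ℝ≥0∞ := fun ω => ENNReal.ofReal (Real.exp (b ω)) with hβ
  have hβm : Measurable β := ENNReal.measurable_ofReal.comp (Real.measurable_exp.comp hsp.b_meas)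
  have hβfin : ∀ ω, β ω ≠ ∞ := fun ω => ENNReal.ofReal_ne_top
  have hβinj : ∀ (ω : Ω) (q q' : QQ), β (iQ q • ω) = β (iQ q' • ω) → q = q' := by
    intro ω q q' h
    have h1 := (ENNReal.ofReal_eq_ofReal_iff (Real.exp_pos _).le (Real.exp_pos _).le).mp h
    exact q_inj hsp hq (Real.exp_injective h1)
  set s : Ω → ℝ≥0∞ := fun ω => ⨅ q : QQ, (if iQ q • ω ∈ S then β (iQ q • ω) else ∞) with hs
  have hsm : Measurable s := by
    refine Measurable.iInf (fun q => ?_)
    exact Measurable.ite (hm (iQ q) hS) (hβm.comp (hm _)) measurable_const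
  have hsinv : ∀ (q : QQ) (ω : Ω), s (iQ q • ω) = s ω := by
    intro q ω
    simp only [hs]
    rw [← (Equiv.mulRight q).iInf_comp (g := fun q' : QQ => if iQ q' • ω ∈ S then β (iQ q' • ω) else ∞)]
    refine iInf_congr (fun q' => ?_)
    simp only [Equiv.coe_mulRight, map_mul, mul_smul]
  have hsle : ∀ ω ∈ S, s ω ≤ β ω := by
    intro ω hω
    refine (iInf_le _ (1 : QQ)).trans ?_
    rw [map_one, one_smul, if_pos hω]
  set S1 : Set Ω := {ω | ω ∈ S ∧ β ω = s ω} with hS1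
  have hS1m : MeasurableSet S1 := hS.inter (measurableSet_eq_fun hβm hsm)
  set A : Set Ω := ⋃ q : QQ, (fun ω : Ω => iQ q • ω) ⁻¹' S1 with hA
  have hAm : MeasurableSet A := MeasurableSet.iUnion fun q => hm _ hS1m
  set S2 : ℕ → Set Ω := fun n => {ω | (ω ∈ S ∧ ω ∉ A) ∧ β ω < s ω + ((n : ℝ≥0∞) + 1)⁻¹} with hS2
  have hS2m : ∀ n, MeasurableSet (S2 n) := fun n =>
    (hS.inter hAm.compl).inter (measurableSet_lt hβm (hsm.add measurable_const))
  have hanti : Antitone S2 := by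
    intro n n' hnn ω hω
    refine ⟨hω.1, hω.2.trans_le ?_⟩
    gcongr
  have hinter : ⋂ n, S2 n = ∅ := by
    ext ω
    simp only [Set.mem_iInter, Set.mem_empty_iff_false, iff_false]
    intro hω
    have h0 := hω 0
    have hle : β ω ≤ s ω := by
      have hlim : Filter.Tendsto (fun n : ℕ => s ω + ((n : ℝ≥0∞) + 1)⁻¹) Filter.atTop
          (nhds (s ω + 0)) := by
        refine Filter.Tendsto.add tendsto_const_nhds ?_
        have h1 := ENNReal.tendsto_inv_nat_nhds_zero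
        have h2 := (Filter.tendsto_add_atTop_iff_nat (f := fun n : ℕ => ((n : ℝ≥0∞))⁻¹) 1).mpr h1
        refine h2.congr (fun n => ?_)
        push_cast
        rfl
      rw [add_zero] at hlim
      exact ge_of_tendsto' hlim (fun n => (hω n).2.le)
    have heq : β ω = s ω := le_antisymm hle (hsle ω h0.1.1)
    apply h0.1.2
    rw [hA, Set.mem_iUnion]
    refine ⟨1, ?_⟩
    rw [Set.mem_preimage, map_one, one_smul]
    exact ⟨h0.1.1, heq⟩
  have htend : Filter.Tendsto (fun n => m (S2 n)) Filter.atTop (nhds 0) := by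
    have h1 := tendsto_measure_iInter_atTop (μ := m) (s := S2)
      (fun n => (hS2m n).nullMeasurableSet) hanti
      ⟨0, ne_top_of_le_ne_top hfin (measure_mono (fun ω hω => hω.1.1))⟩
    rw [hinter, measure_empty] at h1
    exact h1
  obtain ⟨n, hn⟩ := ((ENNReal.tendsto_nhds_zero.mp htend) ε hε).exists
  refine ⟨S1, S2 n, hS1m, hS2m n, fun ω hω => hω.1, fun ω hω => hω.1.1, ?_, ?_, hn⟩
  · intro ω hω
    by_cases hωA : ω ∈ A
    · rw [hA, Set.mem_iUnion] at hωA
      obtain ⟨q, hq'⟩ := hωA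
      exact ⟨q, Or.inl hq'⟩
    · have hsfin : s ω ≠ ∞ := ne_top_of_le_ne_top (hβfin ω) (hsle ω hω)
      have hlt : s ω < s ω + ((n : ℝ≥0∞) + 1)⁻¹ := by
        refine ENNReal.lt_add_right hsfin ?_
        rw [ENNReal.inv_ne_zero]
        exact ENNReal.add_ne_top.mpr ⟨ENNReal.natCast_ne_top n, ENNReal.one_ne_top⟩
      obtain ⟨q, hq'⟩ := iInf_lt_iff.mp hlt
      have hqS : iQ q • ω ∈ S := by
        by_contra hcon
        rw [if_neg hcon] at hq'
        exact not_top_lt hq'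
      rw [if_pos hqS] at hq'
      refine ⟨q, Or.inr ⟨⟨hqS, ?_⟩, ?_⟩⟩
      · intro hcon
        apply hωA
        rw [hA, Set.mem_iUnion] at hcon ⊢
        obtain ⟨q', hq''⟩ := hcon
        refine ⟨q' * q, ?_⟩
        rw [Set.mem_preimage, map_mul, mul_smul]
        exact hq''
      · rw [hsinv]
        exact hq'
  · intro ω q hq1 q' hq2
    have h1 : β (iQ q • ω) = s ω := by rw [← hsinv q ω]; exact hq1.2
    have h2 : β (iQ q' • ω) = s ω := by rw [← hsinv q' ω]; exact hq2.2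
    exact hβinj ω q q' (h1.trans h2.symm)

/-! ### distance -/

omit [MeasurableSpace Ω] in
/-- points at distance `≤ k` from `R` -/
def VV (T R : Set Ω) : ℕ → Set Ω
  | 0 => R
  | (k + 1) => VV T R k ∪ (⋃ q : QQ, {ω | iQ q • ω ∈ T ∧ xx • iQ q • ω ∈ VV T R k}) ∪
      (⋃ q : QQ, {ω | xx⁻¹ • iQ q • ω ∈ T ∧ xx⁻¹ • iQ q • ω ∈ VV T R k})

omit [MeasurableSpace Ω] in
theorem VV_mono (T R : Set Ω) {k k' : ℕ} (h : k ≤ k') : VV T R k ⊆ VV T R k' := by
  induction h with
  | refl => exact le_rfl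
  | step _ ih => exact ih.trans (fun y hy => Or.inl (Or.inl hy))

omit [MeasurableSpace Ω] in
theorem VV_iQ {T R : Set Ω} (hR : ∀ (q : QQ) (ω : Ω), ω ∈ R → iQ q • ω ∈ R) (k : ℕ) :
    ∀ (q : QQ) (ω : Ω), ω ∈ VV T R k → iQ q • ω ∈ VV T R k := by
  induction k with
  | zero => exact hR
  | succ k ih =>
    intro q ω hω
    rcases hω with (h | h) | h
    · exact Or.inl (Or.inl (ih q ω h))
    · obtain ⟨q', h1, h2⟩ := Set.mem_iUnion.1 h
      refine Or.inl (Or.inr (Set.mem_iUnion.2 ⟨q' * q⁻¹, ?_⟩))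
      have : iQ (q' * q⁻¹) • iQ q • ω = iQ q' • ω := by
        rw [← mul_smul, ← map_mul, inv_mul_cancel_right]
      exact ⟨by rw [this]; exact h1, by rw [this]; exact h2⟩
    · obtain ⟨q', h1, h2⟩ := Set.mem_iUnion.1 h
      refine Or.inr (Set.mem_iUnion.2 ⟨q' * q⁻¹, ?_⟩)
      have : iQ (q' * q⁻¹) • iQ q • ω = iQ q' • ω := by
        rw [← mul_smul, ← map_mul, inv_mul_cancel_right]
      exact ⟨by rw [this]; exact h1, by rw [this]; exact h2⟩

omit [MeasurableSpace Ω] in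
theorem VV_iQ_iff {T R : Set Ω} (hR : ∀ (q : QQ) (ω : Ω), ω ∈ R → iQ q • ω ∈ R) (k : ℕ)
    (q : QQ) (ω : Ω) : iQ q • ω ∈ VV T R k ↔ ω ∈ VV T R k := by
  refine ⟨fun h => ?_, VV_iQ hR k q ω⟩
  have := VV_iQ hR k q⁻¹ _ h
  rwa [map_inv, inv_smul_smul] at this

theorem VV_meas (hm : ∀ g : FF, Measurable fun ω : Ω => g • ω) {T R : Set Ω}
    (hT : MeasurableSet T) (hRm : MeasurableSet R) (k : ℕ) : MeasurableSet (VV T R k) := by
  induction k with
  | zero => exact hRm
  | succ k ih =>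
    refine (ih.union (MeasurableSet.iUnion fun q => ?_)).union (MeasurableSet.iUnion fun q => ?_)
    · exact (hm _ hT).inter (hm _ (hm _ ih))
    · exact (hm _ (hm _ hT)).inter (hm _ (hm _ ih))

omit [MeasurableSpace Ω] in
theorem VV_level {T R : Set Ω} {k k' : ℕ} {ω : Ω} (h1 : ω ∈ VV T R (k + 1)) (h2 : ω ∉ VV T R k)
    (h3 : ω ∈ VV T R (k' + 1)) (h4 : ω ∉ VV T R k') : k = k' := by
  by_contra hne
  rcases Nat.lt_or_gt_of_ne hne with h | h
  · exact h4 (VV_mono T R (by omega) h1)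
  · exact h2 (VV_mono T R (by omega) h3)

end

end ARC1

open ARC1 in
theorem arc1_of (hq : GRP_iQ) : ARC1 := by
  classical
  intro Ω _ _ m b hsp T R hT hRm hR hfin hreach ε hε
  have hm : ∀ g : FF, Measurable (fun ω : Ω => g • ω) := fun g => (hsp.mp g).measurable
  -- distance decreasing half-edges
  set Np : Set Ω := ⋃ k : ℕ, {e | e ∈ T ∧ (e ∈ VV T R (k + 1) ∧ e ∉ VV T R k) ∧
    xx • e ∈ VV T R k} with hNp
  set Nm : Set Ω := ⋃ k : ℕ, {e | e ∈ T ∧ (xx • e ∈ VV T R (k + 1) ∧ xx • e ∉ VV T R k) ∧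
    e ∈ VV T R k} with hNm
  have hNpm : MeasurableSet Np := MeasurableSet.iUnion fun k =>
    hT.inter (((VV_meas hm hT hRm _).inter (VV_meas hm hT hRm k).compl).inter
      (hm _ (VV_meas hm hT hRm k)))
  have hNmm : MeasurableSet Nm := MeasurableSet.iUnion fun k =>
    hT.inter (((hm xx (VV_meas hm hT hRm (k + 1))).inter
      (hm xx (VV_meas hm hT hRm k)).compl).inter (VV_meas hm hT hRm k))
  set Z : Set Ω := ⋃ q : QQ, (fun ω : Ω => iQ q • ω) ⁻¹' Np with hZ
  have hZm : MeasurableSet Z := MeasurableSet.iUnion fun q => hm _ hNpm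
  set S' : Set Ω := {ω | xx⁻¹ • ω ∈ Nm ∧ ω ∉ Z} with hS'
  have hS'm : MeasurableSet S' := (hm _ hNmm).inter hZm.compl
  have hNpT : Np ⊆ T := by
    intro e he
    obtain ⟨k, hk⟩ := Set.mem_iUnion.1 he
    exact hk.1
  have hNmT : Nm ⊆ T := by
    intro e he
    obtain ⟨k, hk⟩ := Set.mem_iUnion.1 he
    exact hk.1
  have hNpfin : m Np ≠ ∞ := ne_top_of_le_ne_top hfin (measure_mono hNpT)
  have hS'fin : m S' ≠ ∞ := by
    have h1 : S' ⊆ (fun ω : Ω => xx⁻¹ • ω) ⁻¹' T := fun ω hω => hNmT hω.1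
    have h2 : m ((fun ω : Ω => xx⁻¹ • ω) ⁻¹' T) = m T :=
      (hsp.mp xx⁻¹).measure_preimage hT.nullMeasurableSet
    exact ne_top_of_le_ne_top (by rw [h2]; exact hfin) (measure_mono h1)
  have hε2 : 0 < ε / 2 := ENNReal.half_pos hε.ne'
  obtain ⟨A1, A2, hA1m, hA2m, hA1, hA2, hAsel, hAone, hAε⟩ := selection hsp hq hNpm hNpfin hε2
  obtain ⟨B1, B2, hB1m, hB2m, hB1, hB2, hBsel, hBone, hBε⟩ := selection hsp hq hS'm hS'fin hε2
  set Pp : Set Ω := A1 ∪ A2 with hPp
  set Pm : Set Ω := (fun ω : Ω => xx • ω) ⁻¹' (B1 ∪ B2) with hPm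
  have hPpN : Pp ⊆ Np := Set.union_subset hA1 hA2
  have hPmS : ∀ e ∈ Pm, xx • e ∈ S' := fun e he => (Set.union_subset hB1 hB2) he
  have hPmN : Pm ⊆ Nm := by
    intro e he
    have := (hPmS e he).1
    rwa [inv_smul_smul] at this
  have hPmm : MeasurableSet Pm := hm _ (hB1m.union hB2m)
  -- Y
  set Y : Set Ω := A1 ∪ B1 with hY
  have hYm : MeasurableSet Y := hA1m.union hB1m
  have hdisj : ∀ (ω : Ω) (q q' : QQ), iQ q • ω ∈ A1 → iQ q' • ω ∈ B1 → False := by
    intro ω q q' h1 h2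
    apply (hB1 h2).2
    rw [hZ, Set.mem_iUnion]
    refine ⟨q * q'⁻¹, ?_⟩
    rw [Set.mem_preimage, map_mul, mul_smul, map_inv, inv_smul_smul]
    exact hA1 h1
  have hYone : ∀ ω : Ω, {q : QQ | iQ q • ω ∈ Y}.Subsingleton := by
    intro ω q hq1 q' hq2
    rcases hq1 with h1 | h1 <;> rcases hq2 with h2 | h2
    · exact hAone ω h1 h2
    · exact (hdisj ω q q' h1 h2).elim
    · exact (hdisj ω q' q h2 h1).elim
    · exact hBone ω h1 h2
  have hYR : ∀ y ∈ Y, y ∉ R := by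
    intro y hy hyR
    rcases hy with h | h
    · obtain ⟨k, hk⟩ := Set.mem_iUnion.1 (hA1 h)
      exact hk.2.1.2 (VV_mono T R (Nat.zero_le k) hyR)
    · obtain ⟨k, hk⟩ := Set.mem_iUnion.1 (hB1 h).1
      have h2 := hk.2.1.2
      rw [smul_inv_smul] at h2
      exact h2 (VV_mono T R (Nat.zero_le k) hyR)
  have hYdeg : ∀ y ∈ Y, (deg T y : ℕ∞) ≠ 0 := by
    intro y hy hdeg
    unfold deg at hdeg
    rw [add_eq_zero] at hdeg
    rcases hy with h | h
    · have : (1 : QQ) ∈ {q : QQ | iQ q • y ∈ T} := by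
        show iQ 1 • y ∈ T
        rw [map_one, one_smul]
        exact hNpT (hA1 h)
      rw [Set.encard_eq_zero] at hdeg
      rw [hdeg.1] at this
      exact this
    · have : (1 : QQ) ∈ {q : QQ | xx⁻¹ • iQ q • y ∈ T} := by
        show xx⁻¹ • iQ 1 • y ∈ T
        rw [map_one, one_smul]
        exact hNmT (hB1 h).1
      rw [Set.encard_eq_zero, Set.encard_eq_zero] at hdeg
      rw [hdeg.2] at this
      exact this
  -- weights
  have hdegm := measurable_deg hm hT
  have hwt : ∀ ω, wt T R ω = Rᶜ.indicator (fun ω => ((deg T ω : ℕ∞) : ℝ≥0∞)⁻¹) ω := by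
    intro ω
    unfold wt
    by_cases h1 : ω ∈ R
    · rw [if_neg (fun h => h.1 h1), Set.indicator_of_notMem (by simpa using h1)]
    · rw [Set.indicator_of_mem (by simpa using h1)]
      by_cases h2 : deg T ω = ⊤
      · rw [if_neg (fun h => h.2 h2), h2]
        simp
      · rw [if_pos ⟨h1, h2⟩]
  have hwtm : Measurable (wt T R : Ω → ℝ≥0∞) := by
    have : (wt T R : Ω → ℝ≥0∞) = Rᶜ.indicator (fun ω => ((deg T ω : ℕ∞) : ℝ≥0∞)⁻¹) :=
      funext hwt
    rw [this]
    exact hdegm.inv.indicator hRm.compl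
  set ψ : Ω → ℝ≥0∞ := fun ω => T.indicator 1 ω + T.indicator 1 (xx⁻¹ • ω) with hψ
  have hψm : Measurable ψ :=
    (measurable_one.indicator hT).add ((measurable_one.indicator hT).comp (hm _))
  have hψsum : ∀ y, ∑' q : QQ, ψ (iQ q • y) = ((deg T y : ℕ∞) : ℝ≥0∞) := by
    intro y
    rw [deg_eq_tsum, ← ENNReal.tsum_add]
  -- φ = ψ wt
  have hφsum : ∀ y ∈ Y, deg T y ≠ ⊤ → ∑' q : QQ, ψ (iQ q • y) * wt T R (iQ q • y) = 1 := by
    intro y hy hd
    have h1 : ∀ q : QQ, wt T R (iQ q • y) = (((deg T y : ℕ∞) : ℝ≥0∞))⁻¹ := by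
      intro q
      rw [hwt, Set.indicator_of_mem, deg_iQ]
      simp only [Set.mem_compl_iff]
      intro h
      apply hYR y hy
      have := hR q⁻¹ _ h
      rwa [map_inv, inv_smul_smul] at this
    simp_rw [h1]
    rw [ENNReal.tsum_mul_right, hψsum]
    refine ENNReal.mul_inv_cancel ?_ ?_
    · simpa using hYdeg y hy
    · simpa using hd
  have hψint : ∫⁻ ω, ψ ω ∂m = m T + m T := by
    rw [hψ, lintegral_add_left (measurable_one.indicator hT)]
    congr 1
    · rw [lintegral_indicator_one hT]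
    · rw [(hsp.mp xx⁻¹).lintegral_comp (measurable_one.indicator hT), lintegral_indicator_one hT]
  have hφint : ∫⁻ ω, ψ ω * wt T R ω ∂m = ∫⁻ ω in T, (wt T R ω + wt T R (xx • ω)) ∂m := by
    have h1 : ∀ ω, ψ ω * wt T R ω = T.indicator (wt T R) ω +
        T.indicator (fun ω => wt T R (xx • ω)) (xx⁻¹ • ω) := by
      intro ω
      rw [hψ]
      simp only [add_mul]
      congr 1
      · by_cases h : ω ∈ T
        · rw [Set.indicator_of_mem h, Set.indicator_of_mem h]; simp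
        · rw [Set.indicator_of_notMem h, Set.indicator_of_notMem h]; simp
      · by_cases h : xx⁻¹ • ω ∈ T
        · rw [Set.indicator_of_mem h, Set.indicator_of_mem h]; simp
        · rw [Set.indicator_of_notMem h, Set.indicator_of_notMem h]; simp
    simp_rw [h1]
    rw [lintegral_add_left (hwtm.indicator hT)]
    rw [(hsp.mp xx⁻¹).lintegral_comp (f := T.indicator (fun ω => wt T R (xx • ω)))
      ((hwtm.comp (hm xx)).indicator hT)]
    rw [lintegral_indicator hT, lintegral_indicator hT, ← lintegral_add_left hwtm]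
  -- measure of Y
  have hYfin : m (Y ∩ {ω | deg T ω ≠ ⊤}) ≤ ∫⁻ ω in T, (wt T R ω + wt T R (xx • ω)) ∂m := by
    have hDm : MeasurableSet {ω : Ω | deg T ω ≠ ⊤} := by
      have : {ω : Ω | deg T ω ≠ ⊤} = {ω : Ω | ((deg T ω : ℕ∞) : ℝ≥0∞) = ⊤}ᶜ := by
        ext ω; simp
      rw [this]
      exact (hdegm (measurableSet_singleton _)).compl
    set Y1 := Y ∩ {ω : Ω | deg T ω ≠ ⊤} with hY1
    have hY1m : MeasurableSet Y1 := hYm.inter hDm
    rw [← hφint]
    refine le_trans ?_ (lintegral_le hsp hY1m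
      (fun ω => (hYone ω).anti (fun q hq' => hq'.1)) (hψm.mul hwtm))
    have h1 : ∫⁻ y in Y1, ∑' q : QQ, ψ (iQ q • y) * wt T R (iQ q • y) ∂m = ∫⁻ y in Y1, 1 ∂m := by
      refine setLIntegral_congr_fun hY1m (fun y hy => ?_)
      exact hφsum y hy.1 hy.2
    rw [h1, setLIntegral_one]
  have hYinf : m (Y ∩ {ω | deg T ω = ⊤}) = 0 := by
    have hDm : MeasurableSet {ω : Ω | deg T ω = ⊤} := by
      have : {ω : Ω | deg T ω = ⊤} = {ω : Ω | ((deg T ω : ℕ∞) : ℝ≥0∞) = ⊤} := by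
        ext ω; simp
      rw [this]
      exact hdegm (measurableSet_singleton _)
    set Y2 := Y ∩ {ω : Ω | deg T ω = ⊤} with hY2
    have hY2m : MeasurableSet Y2 := hYm.inter hDm
    have h1 := lintegral_le hsp hY2m (fun ω => (hYone ω).anti (fun q hq' => hq'.1)) hψm
    have h2 : ∫⁻ y in Y2, ∑' q : QQ, ψ (iQ q • y) ∂m = ∫⁻ y in Y2, ⊤ ∂m := by
      refine setLIntegral_congr_fun hY2m (fun y hy => ?_)
      rw [hψsum, hy.2]
      simp
    rw [h2, setLIntegral_const, hψint] at h1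
    by_contra hne
    rw [ENNReal.top_mul hne] at h1
    exact (ENNReal.add_ne_top.mpr ⟨hfin, hfin⟩) (top_le_iff.mp h1)
  have hYle : m Y ≤ ∫⁻ ω in T, (wt T R ω + wt T R (xx • ω)) ∂m := by
    have h1 : Y = (Y ∩ {ω | deg T ω ≠ ⊤}) ∪ (Y ∩ {ω | deg T ω = ⊤}) := by
      ext ω
      by_cases h : deg T ω = ⊤ <;> simp [h]
    calc m Y ≤ m (Y ∩ {ω | deg T ω ≠ ⊤}) + m (Y ∩ {ω | deg T ω = ⊤}) := by
          conv_lhs => rw [h1]
          exact measure_union_le _ _
      _ ≤ _ := by rw [hYinf, add_zero]; exact hYfin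
  refine ⟨Pp ∪ Pm, (hA1m.union hA2m).union hPmm, Set.union_subset (hPpN.trans hNpT)
    (hPmN.trans hNmT), ?_, ?_⟩
  · -- connectivity
    have hQr : ∀ (P : Set Ω) (q : QQ) (ρ ω : Ω), Reach P ρ (iQ q • ω) → Reach P ρ ω := by
      intro P q ρ ω h
      have := h.trans (Reach.q P q⁻¹ _)
      rwa [map_inv, inv_smul_smul] at this
    have hconn : ∀ k : ℕ, ∀ ω ∈ VV T R k, ∃ ρ ∈ R, Reach (Pp ∪ Pm) ρ ω := by
      intro k
      induction k with
      | zero => exact fun ω hω => ⟨ω, hω, Reach.refl _ _⟩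
      | succ k ih =>
        intro ω hω
        by_cases hk : ω ∈ VV T R k
        · exact ih ω hk
        · -- case Z
          have hZcase : ω ∈ Z → ∃ ρ ∈ R, Reach (Pp ∪ Pm) ρ ω := by
            intro hz
            obtain ⟨q, hq'⟩ := Set.mem_iUnion.1 hz
            obtain ⟨q2, hq2⟩ := hAsel _ hq'
            have he : iQ (q2 * q) • ω ∈ Pp := by rw [map_mul, mul_smul]; exact hq2
            obtain ⟨k', h1, h2, h3⟩ := Set.mem_iUnion.1 (hPpN he)
            have hkk : k' = k := VV_level h2.1 h2.2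
              ((VV_iQ_iff hR (k + 1) _ _).2 hω) (fun h => hk ((VV_iQ_iff hR k _ _).1 h))
            subst hkk
            obtain ⟨ρ, hρ, hr⟩ := ih _ h3
            refine ⟨ρ, hρ, hQr _ (q2 * q) _ _ ?_⟩
            have h4 : Reach (Pp ∪ Pm) (iQ (q2 * q) • ω) (xx • iQ (q2 * q) • ω) :=
              Reach.x (Or.inl he)
            exact hr.trans h4.symm
          by_cases hz : ω ∈ Z
          · exact hZcase hz
          · rcases hω with (h | h) | h
            · exact (hk h).elim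
            · obtain ⟨q, h1, h2⟩ := Set.mem_iUnion.1 h
              apply hZcase
              rw [hZ, Set.mem_iUnion]
              refine ⟨q, Set.mem_iUnion.2 ⟨k, h1, ⟨?_, ?_⟩, h2⟩⟩
              · exact (VV_iQ_iff hR (k + 1) _ _).2 (Or.inl (Or.inr (Set.mem_iUnion.2 ⟨q, h1, h2⟩)))
              · exact fun h => hk ((VV_iQ_iff hR k _ _).1 h)
            · obtain ⟨q, h1, h2⟩ := Set.mem_iUnion.1 h
              have hωk : ω ∈ VV T R (k + 1) := Or.inr (Set.mem_iUnion.2 ⟨q, h1, h2⟩)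
              have hS : iQ q • ω ∈ S' := by
                refine ⟨Set.mem_iUnion.2 ⟨k, h1, ⟨?_, ?_⟩, h2⟩, ?_⟩
                · rw [smul_inv_smul]
                  exact (VV_iQ_iff hR (k + 1) _ _).2 hωk
                · rw [smul_inv_smul]
                  exact fun h => hk ((VV_iQ_iff hR k _ _).1 h)
                · intro hcon
                  apply hz
                  obtain ⟨q', hq'⟩ := Set.mem_iUnion.1 hcon
                  rw [hZ, Set.mem_iUnion]
                  refine ⟨q' * q, ?_⟩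
                  rw [Set.mem_preimage, map_mul, mul_smul]
                  exact hq'
              obtain ⟨q2, hq2⟩ := hBsel _ hS
              have he : xx⁻¹ • iQ (q2 * q) • ω ∈ Pm := by
                rw [hPm, Set.mem_preimage, smul_inv_smul, map_mul, mul_smul]
                exact hq2
              obtain ⟨k', h1', h2', h3'⟩ := Set.mem_iUnion.1 (hPmN he)
              rw [smul_inv_smul] at h2'
              have hkk : k' = k := VV_level h2'.1 h2'.2
                ((VV_iQ_iff hR (k + 1) _ _).2 hωk) (fun h => hk ((VV_iQ_iff hR k _ _).1 h))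
              subst hkk
              obtain ⟨ρ, hρ, hr⟩ := ih _ h3'
              refine ⟨ρ, hρ, hQr _ (q2 * q) _ _ ?_⟩
              have h4 : Reach (Pp ∪ Pm) (xx⁻¹ • iQ (q2 * q) • ω)
                  (xx • xx⁻¹ • iQ (q2 * q) • ω) := Reach.x (Or.inr he)
              rw [smul_inv_smul] at h4
              exact hr.trans h4
    intro ω hω
    obtain ⟨ρ, hρ, hr⟩ := hreach ω hω
    have h1 : ω ∈ ⋃ k, VV T R k := by
      refine Reach.induct (p := fun ω => ω ∈ ⋃ k, VV T R k) hr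
        (Set.mem_iUnion.2 ⟨0, hρ⟩) ?_ ?_ ?_
      · intro ω' q _ h
        obtain ⟨k, hk⟩ := Set.mem_iUnion.1 h
        exact Set.mem_iUnion.2 ⟨k, VV_iQ hR k q _ hk⟩
      · intro ω' _ hT' h
        obtain ⟨k, hk⟩ := Set.mem_iUnion.1 h
        refine Set.mem_iUnion.2 ⟨k + 1, Or.inr (Set.mem_iUnion.2 ⟨1, ?_⟩)⟩
        refine ⟨?_, ?_⟩ <;> rw [map_one, one_smul, inv_smul_smul]
        · exact hT'
        · exact hk
      · intro ω' _ hT' h
        obtain ⟨k, hk⟩ := Set.mem_iUnion.1 h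
        refine Set.mem_iUnion.2 ⟨k + 1, Or.inl (Or.inr (Set.mem_iUnion.2 ⟨1, ?_⟩))⟩
        refine ⟨?_, ?_⟩ <;> rw [map_one, one_smul]
        · exact hT'
        · exact hk
    obtain ⟨k, hk⟩ := Set.mem_iUnion.1 h1
    refine ⟨hconn k ω hk, hconn (k + 1) _ (Or.inr (Set.mem_iUnion.2 ⟨1, ?_⟩))⟩
    refine ⟨?_, ?_⟩ <;> rw [map_one, one_smul, inv_smul_smul]
    · exact hω
    · exact hk
  · -- measure
    have h1 : m Pm = m (B1 ∪ B2) :=
      (hsp.mp xx).measure_preimage (hB1m.union hB2m).nullMeasurableSet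
    have hdAB : Disjoint A1 B1 := by
      rw [Set.disjoint_left]
      intro ω h1 h2
      exact hdisj ω 1 1 (by rwa [map_one, one_smul]) (by rwa [map_one, one_smul])
    have h2 : m A1 + m B1 = m Y := (measure_union hdAB hB1m).symm
    calc m (Pp ∪ Pm) ≤ m Pp + m Pm := measure_union_le _ _
      _ ≤ (m A1 + m A2) + (m B1 + m B2) := by
          rw [h1]
          exact add_le_add (measure_union_le _ _) (measure_union_le _ _)
      _ = (m A1 + m B1) + (m A2 + m B2) := by ring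
      _ ≤ m Y + (ε / 2 + ε / 2) := by
          rw [h2]
          gcongr
      _ ≤ _ := by
          rw [ENNReal.add_halves]
          gcongr

end Crest.Agent.R191
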