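import Crest.Agent.R191.Stmts

/-!
# Row 191: BERN (freeness of the Bernoulli shift, markers)
-/

set_option autoImplicit false

namespace Crest.Agent.R191

open MeasureTheory
open scoped ENNReal

namespace BERN

theorem map_inj {J α : Type} (f : α → J) (hf : Function.Injective f) :
    (Measure.infinitePi (fun _ : J => (volume : Measure unitInterval))).map
      (fun ω i => ω (f i)) = Measure.infinitePi (fun _ : α => (volume : Measure unitInterval)) :=
  Measure.map_infinitePi_infinitePi_of_inj (P := fun _ : J => (volume : Measure unitInterval)) hf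

theorem measurable_reind {J α : Type} (f : α → J) :
    Measurable (fun (ω : J → unitInterval) (i : α) => ω (f i)) := by
  rw [measurable_pi_iff]
  intro i
  exact measurable_pi_apply _

theorem mp {G : Type} [Group G] (g : G) :
    MeasurePreserving (fun x : BernX G => g • x) (bernM G) (bernM G) := by
  constructor
  · exact measurable_reind (fun h : G => g⁻¹ * h)
  · exact map_inj (fun h : G => g⁻¹ * h) (mul_right_injective g⁻¹)

theorem eq_null {G : Type} (i j : G) (hij : i ≠ j) :
    Measure.infinitePi (fun _ : G => (volume : Measure unitInterval))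
      {y : G → unitInterval | y i = y j} = 0 := by
  have h1 := Measure.infinitePi_map_eval_prod (P := fun _ : G => (volume : Measure unitInterval)) hij
  have hm : MeasurableSet {p : unitInterval × unitInterval | p.1 = p.2} :=
    measurableSet_eq_fun measurable_fst measurable_snd
  have h2 : {y : G → unitInterval | y i = y j} = (fun ω : G → unitInterval => (ω i, ω j)) ⁻¹'
      {p : unitInterval × unitInterval | p.1 = p.2} := rfl
  rw [h2, ← Measure.map_apply ((measurable_pi_apply i).prodMk (measurable_pi_apply j)) hm, h1,
    Measure.measure_prod_null hm]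
  apply Filter.Eventually.of_forall
  intro x
  have h3 : (Prod.mk x ⁻¹' {p : unitInterval × unitInterval | p.1 = p.2}) = {x} := by
    ext z
    simp only [Set.mem_preimage, Set.mem_ofPred_eq, Set.mem_singleton_iff]
    exact eq_comm
  change (volume : Measure unitInterval) (Prod.mk x ⁻¹' {p : unitInterval × unitInterval | p.1 = p.2}) = 0
  rw [h3]
  exact measure_singleton x

theorem vol_lt (ε : ℝ) (h0 : 0 < ε) (h1 : ε ≤ 1) :
    (volume : Measure unitInterval) {u : unitInterval | (u : ℝ) < ε} = ENNReal.ofReal ε := by
  have h2 : {u : unitInterval | (u : ℝ) < ε} = Set.Iio (⟨ε, h0.le, h1⟩ : unitInterval) := rfl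
  rw [h2, unitInterval.volume_Iio]

theorem meas_lt (ε : ℝ) : MeasurableSet {u : unitInterval | (u : ℝ) < ε} :=
  measurableSet_lt measurable_subtype_coe measurable_const

end BERN

open BERN in
theorem bern_free : BERN_free := by
  intro G _ _ _
  refine ⟨fun g => mp g, ?_⟩
  intro g hg
  refine measure_mono_null (t := {y : BernX G | y g⁻¹ = y 1}) ?_ ?_
  · intro y hy
    have h1 : (g • y) 1 = y 1 := by
      rw [Set.mem_ofPred_eq] at hy
      rw [hy]
    rw [bern_smul_apply, mul_one] at h1
    exact h1
  · exact eq_null g⁻¹ 1 (by simpa using hg)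

open BERN in
theorem bern_marker : BERN_marker := by
  intro G _ _ z hz ε h0 h1
  constructor
  · have h2 := (measurePreserving_eval_infinitePi
      (fun _ : G => (volume : Measure unitInterval)) (1 : G)).measure_preimage
      (meas_lt ε).nullMeasurableSet
    rw [vol_lt ε h0 h1] at h2
    exact h2
  · rw [ae_iff]
    set s : Set (BernX G) := {y | ¬ ∃ n : ℤ, z ^ n • y ∈ {y : BernX G | ((y 1 : unitInterval) : ℝ) < ε}}
      with hs
    have hinj : Function.Injective (fun n : ℕ => (z ^ n)⁻¹) := by
      intro a b hab
      simp only [inv_inj] at hab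
      by_contra hne
      rcases Nat.lt_or_gt_of_ne hne with h | h
      · apply hz (b - a) (by omega)
        have : z ^ b = z ^ a * z ^ (b - a) := by rw [← pow_add]; congr 1; omega
        rw [hab] at this
        exact (mul_eq_left.mp this.symm)
      · apply hz (a - b) (by omega)
        have : z ^ a = z ^ b * z ^ (a - b) := by rw [← pow_add]; congr 1; omega
        rw [← hab] at this
        exact (mul_eq_left.mp this.symm)
    have hpow : ∀ N : ℕ, bernM G s ≤ (ENNReal.ofReal (1 - ε)) ^ N := by
      intro N
      classical
      set F : Finset G := (Finset.range N).image (fun n : ℕ => (z ^ n)⁻¹) with hF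
      have hsub : s ⊆ Set.pi (F : Set G) (fun _ => {u : unitInterval | (u : ℝ) < ε}ᶜ) := by
        intro y hy i hi
        rw [hF, Finset.coe_image] at hi
        obtain ⟨n, _, rfl⟩ := hi
        rw [hs, Set.mem_ofPred_eq, not_exists] at hy
        have h3 := hy n
        intro h4
        apply h3
        rw [Set.mem_ofPred_eq, bern_smul_apply, mul_one, zpow_natCast]
        exact h4
      refine le_trans (measure_mono hsub) ?_
      have h4 : bernM G (Set.pi (F : Set G) (fun _ => {u : unitInterval | (u : ℝ) < ε}ᶜ)) =
          ∏ i ∈ F, (volume : Measure unitInterval) ({u : unitInterval | (u : ℝ) < ε}ᶜ) :=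
        Measure.infinitePi_pi (fun _ : G => (volume : Measure unitInterval)) (s := F)
          (t := fun _ => {u : unitInterval | (u : ℝ) < ε}ᶜ) (fun i _ => (meas_lt ε).compl)
      rw [h4, Finset.prod_const, hF, Finset.card_image_of_injective _ hinj, Finset.card_range]
      apply pow_le_pow_left₀ (by positivity)
      rw [prob_compl_eq_one_sub (meas_lt ε), vol_lt ε h0 h1, ENNReal.ofReal_sub 1 h0.le,
        ENNReal.ofReal_one]
    have hlt : ENNReal.ofReal (1 - ε) < 1 := by
      rw [ENNReal.ofReal_lt_one]; linarith
    have hlim := ENNReal.tendsto_pow_atTop_nhds_zero_of_lt_one hlt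
    exact le_antisymm (ge_of_tendsto' hlim hpow) zero_le

end Crest.Agent.R191
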