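import Crest.Agent.R191.Stmts

/-!
# Row 191, task C1 : compression of a graphing to a marker set
-/

set_option autoImplicit false

namespace Crest.Agent.R191.C1

open MeasureTheory
open scoped ENNReal

section meas

variable {X : Type} [MeasurableSpace X]

/-- measurability of the least index. -/
lemma meas_sInf (Q : ℕ → Set X) (hQ : ∀ i, MeasurableSet (Q i)) (i0 : ℕ) :
    MeasurableSet {y : X | sInf {i | y ∈ Q i} = i0} := by
  have h : {y : X | sInf {i | y ∈ Q i} = i0} =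
      (Q i0 ∩ ⋂ j ∈ {j : ℕ | j < i0}, (Q j)ᶜ) ∪ {y | i0 = 0 ∧ ∀ i, y ∉ Q i} := by
    ext y
    simp only [Set.mem_ofPred_eq, Set.mem_union, Set.mem_inter_iff, Set.mem_iInter,
      Set.mem_compl_iff]
    constructor
    · intro h
      rcases Set.eq_empty_or_nonempty {i | y ∈ Q i} with he | hne
      · right
        rw [he, Nat.sInf_empty] at h
        refine ⟨h.symm, fun i hi => ?_⟩
        have : i ∈ {i | y ∈ Q i} := hi
        rw [he] at this
        exact this
      · left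
        have h1 := Nat.sInf_mem hne
        rw [h] at h1
        exact ⟨h1, fun j hj hjy => Nat.notMem_of_lt_sInf (by rw [h]; exact hj) hjy⟩
    · rintro (⟨h1, h2⟩ | ⟨h1, h2⟩)
      · apply le_antisymm
        · exact Nat.sInf_le h1
        · by_contra hlt
          rw [not_le] at hlt
          have h3 : sInf {i | y ∈ Q i} ∈ {i | y ∈ Q i} := Nat.sInf_mem ⟨i0, h1⟩
          exact h2 _ hlt h3
      · rw [h1]
        have : {i | y ∈ Q i} = ∅ := by
          ext i; simp [h2 i]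
        rw [this, Nat.sInf_empty]
  rw [h]
  refine ((hQ i0).inter (MeasurableSet.biInter (Set.to_countable _) fun j _ => (hQ j).compl)).union ?_
  by_cases hi : i0 = 0
  · have : {y : X | i0 = 0 ∧ ∀ i, y ∉ Q i} = ⋂ i, (Q i)ᶜ := by
      ext y; simp [hi]
    rw [this]
    exact MeasurableSet.iInter fun i => (hQ i).compl
  · have : {y : X | i0 = 0 ∧ ∀ i, y ∉ Q i} = ∅ := by
      ext y; simp [hi]
    rw [this]
    exact MeasurableSet.empty

lemma meas_comp {ι β : Type} [Countable ι] (p : X → ι) (hp : ∀ s, MeasurableSet {y | p y = s})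
    (F : ι → X → β) (hF : ∀ s g, MeasurableSet {y | F s y = g}) (g : β) :
    MeasurableSet {y | F (p y) y = g} := by
  have : {y | F (p y) y = g} = ⋃ s, ({y | p y = s} ∩ {y | F s y = g}) := by
    ext y
    simp
  rw [this]
  exact MeasurableSet.iUnion fun s => (hp s).inter (hF s g)

end meas

section main

variable {G X : Type} [Group G] [MulAction G X] (M : Set X) (Φ : ℕ → G × Set X)

/-- group element of a step -/
def el (s : ℕ × Bool) : G := if s.2 then (Φ s.1).1 else (Φ s.1).1⁻¹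

/-- domain of a step -/
def dm (s : ℕ × Bool) : Set X :=
  if s.2 then (Φ s.1).2 else {y | (Φ s.1).1⁻¹ • y ∈ (Φ s.1).2}

/-- points at distance at most `k` from `M`. -/
def DD : ℕ → Set X
  | 0 => M
  | (k + 1) => DD k ∪ {y | ∃ s, y ∈ dm Φ s ∧ el Φ s • y ∈ DD k}

noncomputable def en : ℕ ≃ ℕ × Bool := (nonempty_equiv_of_countable : Nonempty (ℕ ≃ ℕ × Bool)).some

/-- step sets -/
def QS (k i : ℕ) : Set X := {y | y ∈ dm Φ (en i) ∧ el Φ (en i) • y ∈ DD M Φ k}

noncomputable def par (k : ℕ) (y : X) : ℕ × Bool := en (sInf {i | y ∈ QS M Φ k i})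

noncomputable def lev (y : X) : ℕ := sInf {k | y ∈ DD M Φ k}

open Classical in
noncomputable def rt : ℕ → X → G
  | 0, _ => 1
  | (k + 1), y => if y ∈ DD M Φ k then rt k y else
      rt k (el Φ (par M Φ k y) • y) * el Φ (par M Φ k y)

noncomputable def rr' (y : X) : G := rt M Φ (lev M Φ y) y

noncomputable def par' (y : X) : ℕ × Bool := par M Φ (lev M Φ y - 1) y

def XU : Set X := ⋃ k, DD M Φ k

def Par (s : ℕ × Bool) : Set X := {y | y ∈ XU M Φ \ M ∧ par' M Φ y = s}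

/-- parent edges -/
def FE (n : ℕ) : Set X := Par M Φ (n, true) ∪ {a | (Φ n).1 • a ∈ Par M Φ (n, false)}

lemma DD_mono {k j : ℕ} (h : k ≤ j) : DD M Φ k ⊆ DD M Φ j := by
  induction h with
  | refl => exact le_rfl
  | step _ ih => exact ih.trans (fun y hy => Or.inl hy)

lemma rt_eq {k j : ℕ} (h : k ≤ j) {y : X} (hy : y ∈ DD M Φ k) : rt M Φ j y = rt M Φ k y := by
  induction h with
  | refl => rfl
  | @step m hm ih =>
    rw [rt, if_pos (DD_mono M Φ hm hy), ih]

lemma rr'_eq {k : ℕ} {y : X} (hy : y ∈ DD M Φ k) : rr' M Φ y = rt M Φ k y := by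
  have h1 : y ∈ DD M Φ (lev M Φ y) := Nat.sInf_mem (⟨k, hy⟩ : {k | y ∈ DD M Φ k}.Nonempty)
  have h2 : lev M Φ y ≤ k := Nat.sInf_le hy
  exact (rt_eq M Φ h2 h1).symm

lemma rr'_M {y : X} (hy : y ∈ M) : rr' M Φ y = 1 := rr'_eq M Φ (k := 0) hy

lemma par_spec {k : ℕ} {y : X} (h1 : y ∈ DD M Φ (k + 1)) (h2 : y ∉ DD M Φ k) :
    y ∈ dm Φ (par M Φ k y) ∧ el Φ (par M Φ k y) • y ∈ DD M Φ k := by
  rcases h1 with h1 | ⟨s, hs1, hs2⟩
  · exact absurd h1 h2
  · have : ({i | y ∈ QS M Φ k i} : Set ℕ).Nonempty :=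
      ⟨en.symm s, by change y ∈ dm Φ (en (en.symm s)) ∧ el Φ (en (en.symm s)) • y ∈ DD M Φ k
                     rw [Equiv.apply_symm_apply]; exact ⟨hs1, hs2⟩⟩
    exact Nat.sInf_mem this

lemma lev_spec {y : X} (hy : y ∈ XU M Φ \ M) :
    y ∈ DD M Φ (lev M Φ y - 1 + 1) ∧ y ∉ DD M Φ (lev M Φ y - 1) ∧ 0 < lev M Φ y := by
  obtain ⟨hy1, hy2⟩ := hy
  obtain ⟨k, hk⟩ := Set.mem_iUnion.1 hy1
  have h1 : y ∈ DD M Φ (lev M Φ y) := Nat.sInf_mem (⟨k, hk⟩ : {k | y ∈ DD M Φ k}.Nonempty)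
  have h0 : 0 < lev M Φ y := by
    by_contra h
    have h' : lev M Φ y = 0 := by omega
    rw [h'] at h1
    exact hy2 h1
  refine ⟨by rwa [Nat.sub_add_cancel h0], ?_, h0⟩
  intro h
  have : lev M Φ y ≤ lev M Φ y - 1 := Nat.sInf_le h
  omega

lemma Par_spec {s : ℕ × Bool} {y : X} (hy : y ∈ Par M Φ s) :
    y ∈ dm Φ s ∧ lev M Φ (el Φ s • y) < lev M Φ y ∧
      rr' M Φ y • y = rr' M Φ (el Φ s • y) • el Φ s • y := by
  obtain ⟨h1, h2⟩ := hy
  obtain ⟨h3, h4, h5⟩ := lev_spec M Φ h1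
  obtain ⟨h6, h7⟩ := par_spec M Φ h3 h4
  have h2' : par M Φ (lev M Φ y - 1) y = s := h2
  rw [h2'] at h6 h7
  refine ⟨h6, ?_, ?_⟩
  · have : lev M Φ (el Φ s • y) ≤ lev M Φ y - 1 := Nat.sInf_le h7
    omega
  · rw [rr'_eq M Φ h3, rr'_eq M Φ h7, rt, if_neg h4, h2', mul_smul]

lemma Par_union : (⋃ s, Par M Φ s) = XU M Φ \ M := by
  ext y
  simp only [Set.mem_iUnion]
  constructor
  · rintro ⟨s, hs⟩; exact hs.1
  · intro h; exact ⟨_, h, rfl⟩

lemma Par_disj : Pairwise (Function.onFun Disjoint (Par M Φ)) := by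
  intro s s' hne
  rw [Function.onFun, Set.disjoint_left]
  intro y h1 h2
  exact hne (h1.2.symm.trans h2.2)

lemma FE_sub (n : ℕ) : FE M Φ n ⊆ (Φ n).2 := by
  rintro a (ha | ha)
  · have := (Par_spec M Φ ha).1
    simpa [dm] using this
  · have := (Par_spec M Φ ha).1
    simpa [dm] using this

lemma FE_disj (n : ℕ) : Disjoint (Par M Φ (n, true)) {a | (Φ n).1 • a ∈ Par M Φ (n, false)} := by
  rw [Set.disjoint_left]
  intro a h1 h2
  have g1 := (Par_spec M Φ h1).2.1
  have g2 := (Par_spec M Φ h2).2.1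
  simp only [el, if_true] at g1
  have : el Φ (n, false) = (Φ n).1⁻¹ := by simp [el]
  rw [this, inv_smul_smul] at g2
  omega

/-- the root -/
noncomputable def rho (y : X) : X := rr' M Φ y • y

lemma rho_FE {n : ℕ} {a : X} (ha : a ∈ FE M Φ n) : rho M Φ a = rho M Φ ((Φ n).1 • a) := by
  unfold rho
  rcases ha with ha | ha
  · have := (Par_spec M Φ ha).2.2
    simpa [el] using this
  · have := (Par_spec M Φ ha).2.2
    have h2 : el Φ (n, false) = (Φ n).1⁻¹ := by simp [el]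
    rw [h2, inv_smul_smul] at this
    exact this.symm

lemma XU_step {y y' : X} (h : Crest.Dynamics.GraphingStep Φ y y') : y ∈ XU M Φ ↔ y' ∈ XU M Φ := by
  obtain ⟨n, h1, h2⟩ := h
  constructor
  · intro h
    obtain ⟨k, hk⟩ := Set.mem_iUnion.1 h
    refine Set.mem_iUnion.2 ⟨k + 1, Or.inr ⟨(n, false), ?_, ?_⟩⟩
    · simp only [dm, Bool.false_eq_true, if_false, Set.mem_ofPred_eq]
      rw [h2, inv_smul_smul]; exact h1
    · simp only [el, Bool.false_eq_true, if_false]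
      rw [h2, inv_smul_smul]; exact hk
  · intro h
    obtain ⟨k, hk⟩ := Set.mem_iUnion.1 h
    refine Set.mem_iUnion.2 ⟨k + 1, Or.inr ⟨(n, true), ?_, ?_⟩⟩
    · simpa [dm] using h1
    · simp only [el, if_true]
      rw [← h2]; exact hk

lemma XU_eqv {y y' : X} (h : Relation.EqvGen (Crest.Dynamics.GraphingStep Φ) y y') :
    y ∈ XU M Φ ↔ y' ∈ XU M Φ := by
  induction h with
  | rel _ _ h => exact XU_step M Φ h
  | refl _ => exact Iff.rfl
  | symm _ _ _ ih => exact ih.symm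
  | trans _ _ _ _ _ ih1 ih2 => exact ih1.trans ih2

/-- remaining edges, moved to `M`. -/
def EE (p : ℕ × G × G) : Set X :=
  {a | a ∈ (Φ p.1).2 \ FE M Φ p.1 ∧ rr' M Φ a = p.2.1 ∧ rr' M Φ ((Φ p.1).1 • a) = p.2.2}

def psi (p : ℕ × G × G) : G × Set X :=
  (p.2.2 * (Φ p.1).1 * p.2.1⁻¹, {y | p.2.1⁻¹ • y ∈ EE M Φ p})

section measurable

variable [MeasurableSpace X] [Countable G]

variable (hmp : ∀ g : G, Measurable (fun y : X => g • y)) (hM : MeasurableSet M)
  (hΦ : ∀ n, MeasurableSet (Φ n).2)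

include hmp hΦ in
lemma dm_meas (s : ℕ × Bool) : MeasurableSet (dm Φ s) := by
  unfold dm
  split_ifs
  · exact hΦ _
  · exact hmp _ (hΦ _)

include hmp hM hΦ

lemma DD_meas (k : ℕ) : MeasurableSet (DD M Φ k) := by
  induction k with
  | zero => exact hM
  | succ k ih =>
    refine ih.union ?_
    have : {y | ∃ s, y ∈ dm Φ s ∧ el Φ s • y ∈ DD M Φ k} =
        ⋃ s : ℕ × Bool, (dm Φ s ∩ (fun y => el Φ s • y) ⁻¹' DD M Φ k) := by
      ext y; simp
    rw [this]
    exact MeasurableSet.iUnion fun s => (dm_meas Φ hmp hΦ s).inter (hmp _ ih)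

lemma QS_meas (k i : ℕ) : MeasurableSet (QS M Φ k i) :=
  (dm_meas Φ hmp hΦ _).inter (hmp _ (DD_meas M Φ hmp hM hΦ k))

lemma par_meas (k : ℕ) (s : ℕ × Bool) : MeasurableSet {y | par M Φ k y = s} := by
  have : {y | par M Φ k y = s} = {y | sInf {i | y ∈ QS M Φ k i} = en.symm s} := by
    ext y
    simp only [par, Set.mem_ofPred_eq]
    rw [Equiv.eq_symm_apply]
  rw [this]
  exact meas_sInf _ (QS_meas M Φ hmp hM hΦ k) _

lemma lev_meas (k : ℕ) : MeasurableSet {y | lev M Φ y = k} :=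
  meas_sInf _ (DD_meas M Φ hmp hM hΦ) _

lemma rt_meas (k : ℕ) : ∀ g : G, MeasurableSet {y | rt M Φ k y = g} := by
  induction k with
  | zero =>
    intro g
    by_cases h : (1 : G) = g
    · have : {y : X | rt M Φ 0 y = g} = Set.univ := by ext y; simp [rt, h]
      rw [this]; exact MeasurableSet.univ
    · have : {y : X | rt M Φ 0 y = g} = ∅ := by ext y; simp [rt, h]
      rw [this]; exact MeasurableSet.empty
  | succ k ih =>
    intro g
    have h1 : {y : X | rt M Φ (k + 1) y = g} =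
        (DD M Φ k ∩ {y | rt M Φ k y = g}) ∪ ((DD M Φ k)ᶜ ∩
          {y | (fun (s : ℕ × Bool) (y : X) => rt M Φ k (el Φ s • y) * el Φ s) (par M Φ k y) y = g}) := by
      ext y
      simp only [rt, Set.mem_ofPred_eq, Set.mem_union, Set.mem_inter_iff, Set.mem_compl_iff]
      by_cases hy : y ∈ DD M Φ k
      · simp [hy]
      · simp [hy]
    rw [h1]
    refine ((DD_meas M Φ hmp hM hΦ k).inter (ih g)).union
      ((DD_meas M Φ hmp hM hΦ k).compl.inter ?_)
    refine meas_comp (par M Φ k) (par_meas M Φ hmp hM hΦ k)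
      (fun (s : ℕ × Bool) (y : X) => rt M Φ k (el Φ s • y) * el Φ s) ?_ g
    intro s g
    have : {y : X | rt M Φ k (el Φ s • y) * el Φ s = g} =
        (fun y => el Φ s • y) ⁻¹' {y | rt M Φ k y = g * (el Φ s)⁻¹} := by
      ext y
      simp [eq_mul_inv_iff_mul_eq]
    rw [this]
    exact hmp _ (ih _)

lemma rr'_meas (g : G) : MeasurableSet {y | rr' M Φ y = g} :=
  meas_comp (lev M Φ) (lev_meas M Φ hmp hM hΦ) (fun k y => rt M Φ k y)
    (fun k g => rt_meas M Φ hmp hM hΦ k g) g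

lemma XU_meas : MeasurableSet (XU M Φ) := MeasurableSet.iUnion fun k => DD_meas M Φ hmp hM hΦ k

lemma Par_meas (s : ℕ × Bool) : MeasurableSet (Par M Φ s) := by
  refine ((XU_meas M Φ hmp hM hΦ).diff hM).inter ?_
  exact meas_comp (lev M Φ) (lev_meas M Φ hmp hM hΦ) (fun k y => par M Φ (k - 1) y)
    (fun k s => par_meas M Φ hmp hM hΦ _ s) s

lemma FE_meas (n : ℕ) : MeasurableSet (FE M Φ n) :=
  (Par_meas M Φ hmp hM hΦ _).union (hmp _ (Par_meas M Φ hmp hM hΦ _))

lemma EE_meas (p : ℕ × G × G) : MeasurableSet (EE M Φ p) :=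
  ((hΦ _).diff (FE_meas M Φ hmp hM hΦ _)).inter
    ((rr'_meas M Φ hmp hM hΦ _).inter (hmp _ (rr'_meas M Φ hmp hM hΦ _)))

lemma psi_meas (p : ℕ × G × G) : MeasurableSet (psi M Φ p).2 := hmp _ (EE_meas M Φ hmp hM hΦ p)

end measurable

section rel

/-- the relation generated by `z` and the compressed graphing -/
def RR (z : G) (Ψ : ℕ → G × Set X) (a b : X) : Prop :=
  b = z • a ∨ Crest.Dynamics.GraphingStep Ψ a b

lemma zpow_rel (z : G) (Ψ : ℕ → G × Set X) (n : ℤ) (y : X) :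
    Relation.EqvGen (RR z Ψ) y (z ^ n • y) := by
  induction n using Int.induction_on with
  | zero => rw [zpow_zero, one_smul]; exact Relation.EqvGen.refl _
  | succ n ih =>
    refine Relation.EqvGen.trans _ _ _ ih (Relation.EqvGen.rel _ _ (Or.inl ?_))
    rw [zpow_add_one, ← (Commute.refl z).zpow_right n |>.eq, mul_smul]
  | pred n ih =>
    refine Relation.EqvGen.trans _ _ _ ih (Relation.EqvGen.symm _ _ (Relation.EqvGen.rel _ _ (Or.inl ?_)))
    rw [← mul_smul, ← zpow_one_add]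
    congr 2
    ring

variable (e : ℕ ≃ ℕ × G × G)

lemma step_rel (z : G) {y y' : X} (h : Crest.Dynamics.GraphingStep Φ y y') :
    Relation.EqvGen (RR z (fun m => psi M Φ (e m))) (rho M Φ y) (rho M Φ y') := by
  obtain ⟨n, h1, h2⟩ := h
  subst h2
  by_cases hF : y ∈ FE M Φ n
  · rw [rho_FE M Φ hF]
    exact Relation.EqvGen.refl _
  · refine Relation.EqvGen.rel _ _ (Or.inr
      ⟨e.symm (n, rr' M Φ y, rr' M Φ ((Φ n).1 • y)), ?_, ?_⟩)
    · change rho M Φ y ∈ (psi M Φ (e (e.symm (n, rr' M Φ y, rr' M Φ ((Φ n).1 • y))))).2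
      rw [Equiv.apply_symm_apply]
      change (rr' M Φ y)⁻¹ • rho M Φ y ∈ EE M Φ _
      unfold rho
      rw [inv_smul_smul]
      exact ⟨⟨h1, hF⟩, rfl, rfl⟩
    · change rho M Φ ((Φ n).1 • y) =
        (psi M Φ (e (e.symm (n, rr' M Φ y, rr' M Φ ((Φ n).1 • y))))).1 • rho M Φ y
      rw [Equiv.apply_symm_apply]
      simp only [psi, rho, mul_smul, inv_smul_smul]

lemma eqv_rel (z : G) {y y' : X} (h : Relation.EqvGen (Crest.Dynamics.GraphingStep Φ) y y') :
    Relation.EqvGen (RR z (fun m => psi M Φ (e m))) (rho M Φ y) (rho M Φ y') := by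
  induction h with
  | rel _ _ h => exact step_rel M Φ e z h
  | refl _ => exact Relation.EqvGen.refl _
  | symm _ _ _ ih => exact ih.symm
  | trans _ _ _ _ _ ih1 ih2 => exact ih1.trans _ _ _ ih2

end rel

end main

end Crest.Agent.R191.C1

namespace Crest.Agent.R191

open MeasureTheory
open scoped ENNReal
open C1

theorem c1' : C1 := by
  intro G X _ _ _ _ _ μ _ hmp z M hM hmark Φ k hgen hcost
  obtain ⟨hΦ, N, hN, hNgen⟩ := hgen
  have hmeas : ∀ g : G, Measurable (fun y : X => g • y) := fun g => (hmp g).measurable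
  haveI : Infinite (ℕ × G × G) := Infinite.of_injective (fun n : ℕ => (n, (1 : G), (1 : G)))
    (fun a b h => by simpa using h)
  let e : ℕ ≃ ℕ × G × G := (nonempty_equiv_of_countable : Nonempty (ℕ ≃ ℕ × G × G)).some
  -- almost every point is in XU
  have hXU : μ (XU M Φ) = 1 := by
    rw [← prob_compl_eq_zero_iff (XU_meas M Φ hmeas hM hΦ)]
    have hnull : ∀ᵐ y ∂μ, y ∈ XU M Φ := by
      have h2 : ∀ᵐ y ∂μ, y ∉ N := by
        rw [ae_iff]; simpa using hN
      filter_upwards [hmark, h2] with y ⟨n, hn⟩ hy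
      rw [XU_eqv M Φ (hNgen y hy (z ^ n))]
      exact Set.mem_iUnion.2 ⟨0, hn⟩
    exact hnull
  refine ⟨fun m => psi M Φ (e m), fun m => psi_meas M Φ hmeas hM hΦ _, ?_, ?_⟩
  · -- cost
    have h1 : ∑' m, μ (psi M Φ (e m)).2 = ∑' p : ℕ × G × G, μ (psi M Φ p).2 :=
      e.tsum_eq (fun p => μ (psi M Φ p).2)
    have h2 : ∀ p : ℕ × G × G, μ (psi M Φ p).2 = μ (EE M Φ p) := fun p =>
      (hmp (p.2.1⁻¹)).measure_preimage (EE_meas M Φ hmeas hM hΦ p).nullMeasurableSet
    have h3 : ∑' p : ℕ × G × G, μ (EE M Φ p) = ∑' n, μ ((Φ n).2 \ FE M Φ n) := by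
      rw [ENNReal.tsum_prod']
      refine tsum_congr fun n => ?_
      rw [← measure_iUnion]
      · congr 1
        ext a
        simp only [Set.mem_iUnion]
        constructor
        · rintro ⟨q, hq⟩; exact hq.1
        · intro h; exact ⟨(rr' M Φ a, rr' M Φ ((Φ n).1 • a)), h, rfl, rfl⟩
      · intro q q' hne
        rw [Function.onFun, Set.disjoint_left]
        intro a h4 h5
        apply hne
        ext
        · exact h4.2.1.symm.trans h5.2.1
        · exact h4.2.2.symm.trans h5.2.2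
      · intro q
        exact EE_meas M Φ hmeas hM hΦ (n, q)
    have h4 : ∀ n, μ ((Φ n).2) = μ ((Φ n).2 \ FE M Φ n) +
        (μ (Par M Φ (n, false)) + μ (Par M Φ (n, true))) := by
      intro n
      rw [← measure_diff_add_inter (Φ n).2 (FE_meas M Φ hmeas hM hΦ n),
        Set.inter_eq_right.2 (FE_sub M Φ n)]
      congr 1
      unfold FE
      rw [measure_union (FE_disj M Φ n) (hmeas _ (Par_meas M Φ hmeas hM hΦ _)), add_comm]
      congr 1
      exact (hmp _).measure_preimage (Par_meas M Φ hmeas hM hΦ _).nullMeasurableSet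
    have h5 : ∑' s : ℕ × Bool, μ (Par M Φ s) = μ (XU M Φ \ M) := by
      rw [← measure_iUnion (Par_disj M Φ) (Par_meas M Φ hmeas hM hΦ), Par_union]
    have h6 : ∑' n, μ ((Φ n).2) = ∑' n, μ ((Φ n).2 \ FE M Φ n) + μ (XU M Φ \ M) := by
      rw [tsum_congr h4, ENNReal.tsum_add, ← h5, ENNReal.tsum_prod']
      congr 1
      refine tsum_congr fun n => ?_
      rw [tsum_bool]
    have h7 : μ (XU M Φ \ M) + μ M = 1 := by
      rw [← hXU, ← measure_diff_add_inter (XU M Φ) hM, Set.inter_eq_right.2]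
      exact fun y hy => Set.mem_iUnion.2 ⟨0, hy⟩
    have h8 : ∑' n, μ ((Φ n).2 \ FE M Φ n) + 1 < 1 + k := by
      calc ∑' n, μ ((Φ n).2 \ FE M Φ n) + 1
          = ∑' n, μ ((Φ n).2 \ FE M Φ n) + (μ (XU M Φ \ M) + μ M) := by rw [h7]
        _ = ∑' n, μ ((Φ n).2) + μ M := by rw [h6, add_assoc]
        _ < 1 + k := hcost
    rw [add_comm 1 k] at h8
    change ∑' m, μ (psi M Φ (e m)).2 < k
    rw [h1, tsum_congr h2, h3]
    exact lt_of_add_lt_add_right h8
  · have hmark2 : ∀ᵐ y ∂μ, ∀ g : G, ∃ n : ℤ, z ^ n • g • y ∈ M := by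
      rw [ae_all_iff]
      intro g
      exact (hmp g).quasiMeasurePreserving.ae hmark
    have h2 : ∀ᵐ y ∂μ, y ∉ N := by
      rw [ae_iff]; simpa using hN
    filter_upwards [hmark2, h2] with y hy hyN g
    obtain ⟨n, hn⟩ := hy 1
    obtain ⟨n', hn'⟩ := hy g
    rw [one_smul] at hn
    have h3 : Relation.EqvGen (Crest.Dynamics.GraphingStep Φ) (z ^ n • y) (z ^ n' • g • y) := by
      refine Relation.EqvGen.trans _ _ _ (Relation.EqvGen.symm _ _ (hNgen y hyN (z ^ n))) ?_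
      have := hNgen y hyN (z ^ n' * g)
      rwa [mul_smul] at this
    have h4 := eqv_rel M Φ e z h3
    have h5 : rho M Φ (z ^ n • y) = z ^ n • y := by
      unfold rho; rw [rr'_M M Φ hn, one_smul]
    have h6 : rho M Φ (z ^ n' • g • y) = z ^ n' • g • y := by
      unfold rho; rw [rr'_M M Φ hn', one_smul]
    rw [h5, h6] at h4
    exact Relation.EqvGen.trans _ _ _ (zpow_rel z _ n y)
      (Relation.EqvGen.trans _ _ _ h4 (Relation.EqvGen.symm _ _ (zpow_rel z _ n' (g • y))))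

theorem c1_of (_ : EQV) : C1 := c1'

end Crest.Agent.R191
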