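import Crest.Agent.R191.Defs

/-!
# Row 191: basic API for walks, chains, degrees (helper13)
-/

set_option autoImplicit false

namespace Crest.Agent.R191

open MeasureTheory
open scoped ENNReal

section general
variable {Ω : Type} [MulAction FF Ω]

/-! ### chains -/

theorem chHom_iQ (q : QQ) (p : Ω × (Ω →₀ ℚ)) : chHom (iQ q) p = (iQ q • p.1, p.2) := by
  have : (chHom (Ω := Ω)) (iQ q) = chQ q := Monoid.Coprod.lift_apply_inl _ _ _
  rw [this]; rfl

theorem chHom_xx (p : Ω × (Ω →₀ ℚ)) :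
    chHom xx p = (xx • p.1, p.2 + Finsupp.single p.1 1) := by
  have : (chHom (Ω := Ω)) xx = chX := by
    have h := Monoid.Coprod.lift_apply_inr (chQ (Ω := Ω)) (zpowersHom _ chX)
      (Multiplicative.ofAdd (1 : ℤ))
    have h2 : (zpowersHom (Equiv.Perm (Ω × (Ω →₀ ℚ))) chX) (Multiplicative.ofAdd (1 : ℤ)) = chX := by
      simp
    rw [h2] at h
    exact h
  rw [this]; rfl

/-- every element of `𝔽` is the value of a list of letters -/
theorem exists_ev (g : FF) : ∃ l : List Ltr, ev l = g := by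
  have key : ∀ g : FF, g ∈ {g : FF | ∃ l : List Ltr, ev l = g} := by
    intro g
    refine Monoid.Coprod.induction_on (M := QQ) (N := Multiplicative ℤ)
      (motive := fun g => ∃ l : List Ltr, ev l = g) g ?_ ?_ ?_
    · intro q
      exact ⟨[Ltr.q q], by simp [ev, Ltr.val]; rfl⟩
    · intro n
      have hz : (Monoid.Coprod.inr n : Monoid.Coprod QQ (Multiplicative ℤ)) =
          xx ^ (Multiplicative.toAdd n) := by
        have : n = (Multiplicative.ofAdd (1 : ℤ)) ^ (Multiplicative.toAdd n) := by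
          rw [← ofAdd_zsmul]; simp
        conv_lhs => rw [this, map_zpow]
        rfl
      have h1 : ∀ k : ℕ, ∃ l : List Ltr, ev l = xx ^ k := by
        intro k
        induction k with
        | zero => exact ⟨[], rfl⟩
        | succ k ih =>
          obtain ⟨l, hl⟩ := ih
          exact ⟨Ltr.xp :: l, by simp [ev, Ltr.val, hl, pow_succ']⟩
      have h2 : ∀ k : ℕ, ∃ l : List Ltr, ev l = (xx⁻¹) ^ k := by
        intro k
        induction k with
        | zero => exact ⟨[], rfl⟩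
        | succ k ih =>
          obtain ⟨l, hl⟩ := ih
          exact ⟨Ltr.xm :: l, by simp [ev, Ltr.val, hl, pow_succ']⟩
      obtain ⟨k, hk | hk⟩ := Int.eq_nat_or_neg (Multiplicative.toAdd n)
      · obtain ⟨l, hl⟩ := h1 k
        refine ⟨l, ?_⟩
        rw [hl]
        refine Eq.trans ?_ hz.symm
        rw [hk, zpow_natCast]
      · obtain ⟨l, hl⟩ := h2 k
        refine ⟨l, ?_⟩
        rw [hl]
        refine Eq.trans ?_ hz.symm
        rw [hk, zpow_neg, zpow_natCast, inv_pow]
    · rintro a b ⟨l1, h1⟩ ⟨l2, h2⟩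
      have happ : ∀ l l' : List Ltr, ev (l ++ l') = ev l * ev l' := by
        intro l l'
        induction l with
        | nil => simp [ev]
        | cons a l ih => simp [ev, ih, mul_assoc]
      exact ⟨l1 ++ l2, by rw [happ, h1, h2]; rfl⟩
  exact key g

theorem ev_append (l l' : List Ltr) : ev (l ++ l') = ev l * ev l' := by
  induction l with
  | nil => simp [ev]
  | cons a l ih => simp [ev, ih, mul_assoc]

/-- induction principle for `𝔽` from the left -/
theorem FF_induction {p : FF → Prop} (h1 : p 1) (hq : ∀ q g, p g → p (iQ q * g))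
    (hx : ∀ g, p g → p (xx * g)) (hx' : ∀ g, p g → p (xx⁻¹ * g)) (g : FF) : p g := by
  obtain ⟨l, rfl⟩ := exists_ev g
  induction l with
  | nil => exact h1
  | cons a l ih =>
    cases a with
    | q a => exact hq a _ ih
    | xp => exact hx _ ih
    | xm => exact hx' _ ih

theorem chHom_xx_inv (p : Ω × (Ω →₀ ℚ)) :
    chHom xx⁻¹ p = (xx⁻¹ • p.1, p.2 - Finsupp.single (xx⁻¹ • p.1) 1) := by
  rw [map_inv, Equiv.Perm.inv_eq_iff_eq, chHom_xx]
  simp

theorem chHom_apply (g : FF) (p : Ω × (Ω →₀ ℚ)) : chHom g p = (g • p.1, p.2 + ch g p.1) := by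
  revert p
  refine FF_induction (p := fun g => ∀ p : Ω × (Ω →₀ ℚ), chHom g p = (g • p.1, p.2 + ch g p.1))
    ?_ ?_ ?_ ?_ g
  · intro p
    simp [ch]
  · intro q g ih p
    have h1 : ch (iQ q * g) p.1 = ch g p.1 := by
      conv_lhs => unfold ch
      rw [map_mul, Equiv.Perm.mul_apply, ih, chHom_iQ]
      simp
    rw [map_mul, Equiv.Perm.mul_apply, ih, chHom_iQ, h1, mul_smul]
  · intro g ih p
    have h1 : ch (xx * g) p.1 = ch g p.1 + Finsupp.single (g • p.1) 1 := by
      conv_lhs => unfold ch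
      rw [map_mul, Equiv.Perm.mul_apply, ih, chHom_xx]
      simp
    rw [map_mul, Equiv.Perm.mul_apply, ih, chHom_xx, h1, mul_smul, add_assoc]
  · intro g ih p
    have h1 : ch (xx⁻¹ * g) p.1 = ch g p.1 - Finsupp.single (xx⁻¹ • g • p.1) 1 := by
      conv_lhs => unfold ch
      rw [map_mul, Equiv.Perm.mul_apply, ih, chHom_xx_inv]
      simp
    rw [map_mul, Equiv.Perm.mul_apply, ih, chHom_xx_inv, h1, mul_smul]
    simp [add_sub_assoc]

/-- the cocycle identity -/
theorem ch_mul (g h : FF) (ω : Ω) : ch (g * h) ω = ch g (h • ω) + ch h ω := by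
  conv_lhs => unfold ch
  rw [map_mul, Equiv.Perm.mul_apply, chHom_apply h, chHom_apply g]
  simp [add_comm]

@[simp] theorem ch_one (ω : Ω) : ch (1 : FF) ω = 0 := by simp [ch]

@[simp] theorem ch_iQ (q : QQ) (ω : Ω) : ch (iQ q) ω = 0 := by
  unfold ch; rw [chHom_iQ]

@[simp] theorem ch_xx (ω : Ω) : ch xx ω = Finsupp.single ω 1 := by
  unfold ch; rw [chHom_xx]; simp

@[simp] theorem ch_xx_inv (ω : Ω) : ch xx⁻¹ ω = - Finsupp.single (xx⁻¹ • ω) 1 := by
  unfold ch; rw [chHom_xx_inv]; simp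

theorem ch_inv (g : FF) (ω : Ω) : ch g⁻¹ (g • ω) = - ch g ω := by
  have := ch_mul g⁻¹ g ω
  rw [inv_mul_cancel, ch_one] at this
  exact eq_neg_of_add_eq_zero_left this.symm

/-- chains are natural for equivariant maps -/
theorem ch_mapDomain {Ω' : Type} [MulAction FF Ω'] (f : Ω → Ω')
    (hf : ∀ (g : FF) (ω : Ω), f (g • ω) = g • f ω) (g : FF) (ω : Ω) :
    Finsupp.mapDomain f (ch g ω) = ch g (f ω) := by
  revert ω
  refine FF_induction (p := fun g => ∀ ω : Ω, Finsupp.mapDomain f (ch g ω) = ch g (f ω))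
    ?_ ?_ ?_ ?_ g
  · intro ω; simp
  · intro q g ih ω
    rw [ch_mul, ch_mul, Finsupp.mapDomain_add, ih]; simp
  · intro g ih ω
    rw [ch_mul, ch_mul, Finsupp.mapDomain_add, ih, ch_xx, ch_xx, Finsupp.mapDomain_single, hf]
  · intro g ih ω
    rw [ch_mul, ch_mul, Finsupp.mapDomain_add, ih, ch_xx_inv, ch_xx_inv, ← Finsupp.single_neg,
      ← Finsupp.single_neg, Finsupp.mapDomain_single, hf, hf]

theorem rz_mapDomain {Ω' : Type} [MulAction FF Ω'] (f : Ω → Ω')
    (hf : ∀ (g : FF) (ω : Ω), f (g • ω) = g • f ω) (c : FF →₀ ℚ) (ω : Ω) :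
    Finsupp.mapDomain f (rz ω c) = rz (f ω) c := by
  unfold rz
  rw [← Finsupp.mapDomain_comp]
  congr 1
  funext g
  exact hf g ω

theorem cellBd_mapDomain {Ω' : Type} [MulAction FF Ω'] (f : Ω → Ω')
    (hf : ∀ (g : FF) (ω : Ω), f (g • ω) = g • f ω) (ω : Ω) :
    Finsupp.mapDomain f (cellBd ω) = cellBd (f ω) := by
  unfold cellBd
  rw [Finsupp.mapDomain_finsetSum]
  simp [Finsupp.mapDomain_single, hf]

theorem ch_tau (n : ℕ) (ω : Ω) :
    ch (tau n) ω = ∑ j ∈ Finset.range n, Finsupp.single (tau j • ω) (1 : ℚ) := by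
  induction n with
  | zero => simp [tau]
  | succ n ih =>
    rw [tau, ch_mul, ch_mul, ch_iQ, ch_xx, ih, Finset.sum_range_succ, zero_add, add_comm]

theorem ch_rr (ω : Ω) : ch rr ω = cellBd ω := by
  unfold rr cellBd
  rw [ch_tau, Finset.sum_range]

/-! ### walks -/

theorem okL_append {T : Set Ω} {ω : Ω} {l l' : List Ltr} :
    okL T ω (l ++ l') ↔ okL T ω l' ∧ okL T (ev l' • ω) l := by
  induction l with
  | nil => simp [okL]
  | cons a l ih =>
    cases a with
    | q a => simp only [List.cons_append, okL, ih]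
    | xp =>
      simp only [List.cons_append, okL, ih, ev_append, mul_smul]
      tauto
    | xm =>
      simp only [List.cons_append, okL, ih, ev_append, mul_smul]
      tauto

theorem okL_mono {T T' : Set Ω} (h : T ⊆ T') {ω : Ω} {l : List Ltr} (hl : okL T ω l) :
    okL T' ω l := by
  induction l with
  | nil => trivial
  | cons a l ih =>
    cases a with
    | q a => exact ih hl
    | xp => exact ⟨ih hl.1, h hl.2⟩
    | xm => exact ⟨ih hl.1, h hl.2⟩

theorem okL_map {Ω' : Type} [MulAction FF Ω'] (f : Ω → Ω')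
    (hf : ∀ (g : FF) (ω : Ω), f (g • ω) = g • f ω) {T : Set Ω} {T' : Set Ω'}
    (h : ∀ ω ∈ T, f ω ∈ T') {ω : Ω} {l : List Ltr} (hl : okL T ω l) : okL T' (f ω) l := by
  induction l with
  | nil => trivial
  | cons a l ih =>
    cases a with
    | q a => exact ih hl
    | xp => exact ⟨ih hl.1, by rw [← hf]; exact h _ hl.2⟩
    | xm => exact ⟨ih hl.1, by rw [← hf, ← hf]; exact h _ hl.2⟩

/-- reversed list of letters -/
def Ltr.inv : Ltr → Ltr
  | Ltr.q a => Ltr.q a⁻¹
  | Ltr.xp => Ltr.xm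
  | Ltr.xm => Ltr.xp

@[simp] theorem Ltr.val_inv (a : Ltr) : a.inv.val = a.val⁻¹ := by
  cases a <;> simp [Ltr.inv, Ltr.val]

def revW (l : List Ltr) : List Ltr := (l.map Ltr.inv).reverse

theorem ev_revW (l : List Ltr) : ev (revW l) = (ev l)⁻¹ := by
  induction l with
  | nil => simp [revW, ev]
  | cons a l ih =>
    have : revW (a :: l) = revW l ++ [a.inv] := by simp [revW]
    rw [this, ev_append, ih]
    simp [ev]

theorem okL_revW {T : Set Ω} {ω : Ω} {l : List Ltr} (hl : okL T ω l) :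
    okL T (ev l • ω) (revW l) := by
  induction l with
  | nil => trivial
  | cons a l ih =>
    have h1 : revW (a :: l) = revW l ++ [a.inv] := by simp [revW]
    rw [h1, okL_append]
    cases a with
    | q a =>
      refine ⟨by simp [Ltr.inv, okL], ?_⟩
      have : ev [(Ltr.q a).inv] • ev (Ltr.q a :: l) • ω = ev l • ω := by
        simp [ev, Ltr.inv, Ltr.val, mul_smul]
      rw [this]
      exact ih hl
    | xp =>
      have h2 : ev [Ltr.xp.inv] • ev (Ltr.xp :: l) • ω = ev l • ω := by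
        simp [ev, Ltr.inv, Ltr.val, mul_smul]
      refine ⟨?_, by rw [h2]; exact ih hl.1⟩
      refine ⟨trivial, ?_⟩
      simpa [ev, Ltr.inv, Ltr.val, mul_smul] using hl.2
    | xm =>
      have h2 : ev [Ltr.xm.inv] • ev (Ltr.xm :: l) • ω = ev l • ω := by
        simp [ev, Ltr.inv, Ltr.val, mul_smul]
      refine ⟨?_, by rw [h2]; exact ih hl.1⟩
      refine ⟨trivial, ?_⟩
      simpa [ev, Ltr.inv, Ltr.val, mul_smul] using hl.2

/-! ### Reach -/

theorem Reach.refl (T : Set Ω) (ω : Ω) : Reach T ω ω := ⟨[], trivial, by simp [ev]⟩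

theorem Reach.trans {T : Set Ω} {a b c : Ω} (h1 : Reach T a b) (h2 : Reach T b c) :
    Reach T a c := by
  obtain ⟨l1, h1, rfl⟩ := h1
  obtain ⟨l2, h2, rfl⟩ := h2
  exact ⟨l2 ++ l1, okL_append.2 ⟨h1, h2⟩, by rw [ev_append, mul_smul]⟩

theorem Reach.symm {T : Set Ω} {a b : Ω} (h : Reach T a b) : Reach T b a := by
  obtain ⟨l, h, rfl⟩ := h
  exact ⟨revW l, okL_revW h, by rw [ev_revW]; simp⟩

theorem Reach.q (T : Set Ω) (q : QQ) (ω : Ω) : Reach T ω (iQ q • ω) :=
  ⟨[Ltr.q q], trivial, by simp [ev, Ltr.val]⟩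

theorem Reach.x {T : Set Ω} {ω : Ω} (h : ω ∈ T) : Reach T ω (xx • ω) :=
  ⟨[Ltr.xp], ⟨trivial, by simpa [ev] using h⟩, by simp [ev, Ltr.val]⟩

theorem Reach.x' {T : Set Ω} {ω : Ω} (h : xx⁻¹ • ω ∈ T) : Reach T ω (xx⁻¹ • ω) :=
  ⟨[Ltr.xm], ⟨trivial, by simpa [ev] using h⟩, by simp [ev, Ltr.val]⟩

theorem Reach.mono {T T' : Set Ω} (h : T ⊆ T') {a b : Ω} (hab : Reach T a b) : Reach T' a b := by
  obtain ⟨l, h1, h2⟩ := hab
  exact ⟨l, okL_mono h h1, h2⟩

theorem Reach.map {Ω' : Type} [MulAction FF Ω'] (f : Ω → Ω')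
    (hf : ∀ (g : FF) (ω : Ω), f (g • ω) = g • f ω) {T : Set Ω} {T' : Set Ω'}
    (h : ∀ ω ∈ T, f ω ∈ T') {a b : Ω} (hab : Reach T a b) : Reach T' (f a) (f b) := by
  obtain ⟨l, h1, rfl⟩ := hab
  exact ⟨l, okL_map f hf h h1, (hf _ _).symm⟩

/-- induction on `Reach`: a property of points invariant under the steps -/
theorem Reach.induct {T : Set Ω} {p : Ω → Prop} {a b : Ω} (hab : Reach T a b) (ha : p a)
    (hq : ∀ ω q, Reach T a ω → p ω → p (iQ q • ω))
    (hx : ∀ ω, Reach T a ω → ω ∈ T → p ω → p (xx • ω))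
    (hx' : ∀ ω, Reach T a ω → ω ∈ T → p (xx • ω) → p ω) : p b := by
  obtain ⟨l, h1, rfl⟩ := hab
  induction l with
  | nil => simpa [ev] using ha
  | cons c l ih =>
    cases c with
    | q c =>
      have := hq _ c ⟨l, h1, rfl⟩ (ih h1)
      simpa [ev, Ltr.val, mul_smul] using this
    | xp =>
      have := hx _ ⟨l, h1.1, rfl⟩ h1.2 (ih h1.1)
      simpa [ev, Ltr.val, mul_smul] using this
    | xm =>
      have hr : Reach T a (xx⁻¹ • ev l • a) :=
        ⟨Ltr.xm :: l, h1, by simp [ev, Ltr.val, mul_smul]⟩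
      have := hx' _ hr h1.2 (by simpa using ih h1.1)
      simpa [ev, Ltr.val, mul_smul] using this

/-- every edge crossed by a walk and its chain: the chain is supported in `T` -/
theorem ch_support {T : Set Ω} {ω : Ω} {l : List Ltr} (hl : okL T ω l) :
    ∀ e ∈ (ch (ev l) ω).support, e ∈ T := by
  classical
  induction l with
  | nil => simp [ev]
  | cons a l ih =>
    cases a with
    | q a =>
      intro e he
      rw [ev, ch_mul, Ltr.val, ch_iQ, zero_add] at he
      exact ih hl e he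
    | xp =>
      intro e he
      rw [ev, ch_mul, Ltr.val, ch_xx] at he
      have := Finsupp.support_add he
      rcases Finset.mem_union.1 this with h | h
      · have := Finsupp.support_single_subset h
        rw [Finset.mem_singleton] at this
        rw [this]; exact hl.2
      · exact ih hl.1 e h
    | xm =>
      intro e he
      rw [ev, ch_mul, Ltr.val, ch_xx_inv] at he
      have := Finsupp.support_add he
      rcases Finset.mem_union.1 this with h | h
      · rw [Finsupp.support_neg] at h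
        have := Finsupp.support_single_subset h
        rw [Finset.mem_singleton] at this
        rw [this]; exact hl.2
      · exact ih hl.1 e h

/-! ### the path `pp` around a cell -/

theorem pp_lt {m : ℕ} (h : m < 80) : pp m = tau m := by
  unfold pp
  rw [Nat.mod_eq_of_lt h, Nat.div_eq_of_lt h]
  simp

@[simp] theorem pp_zero : pp 0 = 1 := by rw [pp_lt (by norm_num)]; rfl

theorem tau_succ (m : ℕ) : tau (m + 1) = iQ (uu m) * xx * tau m := rfl

theorem pp_succ (m : ℕ) : pp (m + 1) = iQ (uu (m % 80)) * xx * pp m := by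
  unfold pp
  by_cases h : m % 80 = 79
  · have h1 : (m + 1) % 80 = 0 := by omega
    have h2 : (m + 1) / 80 = m / 80 + 1 := by omega
    rw [h1, h2, h, pow_succ']
    have : rr = iQ (uu 79) * xx * tau 79 := rfl
    rw [this]
    simp [tau, mul_assoc]
  · have h1 : (m + 1) % 80 = m % 80 + 1 := by omega
    have h2 : (m + 1) / 80 = m / 80 := by omega
    rw [h1, h2, tau_succ]
    simp [mul_assoc]

theorem pp_mod {ω : Ω} (h : rr • ω = ω) (m : ℕ) : pp m • ω = tau (m % 80) • ω := by
  unfold pp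
  have : ∀ k : ℕ, rr ^ k • ω = ω := by
    intro k
    induction k with
    | zero => simp
    | succ k ih => rw [pow_succ, mul_smul, h, ih]
  rw [mul_smul, this]

theorem pp_add80 {ω : Ω} (h : rr • ω = ω) (m : ℕ) : pp (m + 80) • ω = pp m • ω := by
  rw [pp_mod h, pp_mod h]
  congr 2
  omega

/-- the head of the edge `pp m • ω` is in the vertex of `pp (m+1) • ω` -/
theorem xx_pp (m : ℕ) (ω : Ω) : xx • pp m • ω = (iQ (uu (m % 80)))⁻¹ • pp (m + 1) • ω := by
  rw [pp_succ]; simp [mul_smul]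

theorem pp_pred (m : ℕ) (ω : Ω) :
    xx⁻¹ • iQ (uu (m % 80))⁻¹ • pp (m + 1) • ω = pp m • ω := by
  rw [map_inv, ← xx_pp]; simp

/-- walking around a cell: if all edges `pp m ω`, `a ≤ m < b`, are in `T` -/
theorem reach_pp {T : Set Ω} {ω : Ω} {a b : ℕ} (hab : a ≤ b)
    (h : ∀ m, a ≤ m → m < b → pp m • ω ∈ T) : Reach T (pp a • ω) (pp b • ω) := by
  induction b, hab using Nat.le_induction with
  | base => exact Reach.refl _ _
  | succ b hab ih =>
    have h1 := ih (fun m h1 h2 => h m h1 (by omega))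
    have h2 : Reach T (pp b • ω) (xx • pp b • ω) := Reach.x (h b hab (by omega))
    have h3 : Reach T (xx • pp b • ω) (pp (b + 1) • ω) := by
      have := Reach.q T (uu (b % 80)) (xx • pp b • ω)
      rw [pp_succ]
      simpa [mul_smul] using this
    exact (h1.trans h2).trans h3

/-! ### degrees -/

theorem deg_mono {Ω' : Type} [MulAction FF Ω'] (f : Ω → Ω')
    (hf : ∀ (g : FF) (ω : Ω), f (g • ω) = g • f ω) {T : Set Ω} {T' : Set Ω'}
    (h : ∀ ω ∈ T, f ω ∈ T') (ω : Ω) : deg T ω ≤ deg T' (f ω) := by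
  unfold deg
  refine add_le_add (Set.encard_le_encard fun q hq => ?_) (Set.encard_le_encard fun q hq => ?_)
  · have := h _ hq
    rwa [hf] at this
  · have := h _ hq
    rwa [hf, hf] at this

theorem deg_iQ (T : Set Ω) (q : QQ) (ω : Ω) : deg T (iQ q • ω) = deg T ω := by
  unfold deg
  congr 1
  · have : {q' : QQ | iQ q' • iQ q • ω ∈ T} = (fun a => a * q⁻¹) '' {q' : QQ | iQ q' • ω ∈ T} := by
      ext a
      simp only [Set.mem_image]
      constructor
      · intro h
        exact ⟨a * q, by simpa [mul_smul] using h, by simp⟩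
      · rintro ⟨b, hb, rfl⟩
        simpa [mul_smul] using hb
    rw [this, (mul_left_injective q⁻¹).encard_image]
  · have : {q' : QQ | xx⁻¹ • iQ q' • iQ q • ω ∈ T} =
        (fun a => a * q⁻¹) '' {q' : QQ | xx⁻¹ • iQ q' • ω ∈ T} := by
      ext a
      simp only [Set.mem_image]
      constructor
      · intro h
        exact ⟨a * q, by simpa [mul_smul] using h, by simp⟩
      · rintro ⟨b, hb, rfl⟩
        simpa [mul_smul] using hb
    rw [this, (mul_left_injective q⁻¹).encard_image]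

/-- both half-edge sets of a vertex on a cell are non-empty -/
theorem two_le_deg_pp {T : Set Ω} {ω : Ω} (hr : rr • ω = ω) (h : ∀ j < 80, tau j • ω ∈ T)
    (m : ℕ) : 2 ≤ deg T (pp m • ω) := by
  have h1 : (1 : QQ) ∈ {q : QQ | iQ q • pp m • ω ∈ T} := by
    change iQ 1 • pp m • ω ∈ T
    rw [map_one, one_smul, pp_mod hr]
    exact h _ (Nat.mod_lt _ (by norm_num))
  have h2 : (uu ((m + 79) % 80))⁻¹ ∈ {q : QQ | xx⁻¹ • iQ q • pp m • ω ∈ T} := by
    change xx⁻¹ • iQ (uu ((m + 79) % 80))⁻¹ • pp m • ω ∈ T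
    have : pp m • ω = pp (m + 79 + 1) • ω := (pp_add80 hr m).symm
    rw [this, pp_pred, pp_mod hr]
    exact h _ (Nat.mod_lt _ (by norm_num))
  have h3 : 1 ≤ {q : QQ | iQ q • pp m • ω ∈ T}.encard := Set.one_le_encard_iff_nonempty.2 ⟨_, h1⟩
  have h4 : 1 ≤ {q : QQ | xx⁻¹ • iQ q • pp m • ω ∈ T}.encard :=
    Set.one_le_encard_iff_nonempty.2 ⟨_, h2⟩
  calc (2 : ℕ∞) = 1 + 1 := by norm_num
    _ ≤ deg T (pp m • ω) := add_le_add h3 h4

/-- `deg` as an extended-real valued sum -/
theorem deg_eq_tsum (T : Set Ω) (ω : Ω) : ((deg T ω : ℕ∞) : ℝ≥0∞) =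
    (∑' q : QQ, T.indicator 1 (iQ q • ω)) + ∑' q : QQ, T.indicator 1 (xx⁻¹ • iQ q • ω) := by
  classical
  unfold deg
  rw [ENat.toENNReal_add]
  congr 1
  · rw [← ENNReal.tsum_set_one, tsum_subtype {q : QQ | iQ q • ω ∈ T} (fun _ => (1 : ℝ≥0∞))]
    rfl
  · rw [← ENNReal.tsum_set_one,
      tsum_subtype {q : QQ | xx⁻¹ • iQ q • ω ∈ T} (fun _ => (1 : ℝ≥0∞))]
    rfl

theorem measurable_deg [MeasurableSpace Ω] (hm : ∀ g : FF, Measurable fun ω : Ω => g • ω)
    {T : Set Ω} (hT : MeasurableSet T) : Measurable fun ω : Ω => ((deg T ω : ℕ∞) : ℝ≥0∞) := by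
  simp only [deg_eq_tsum]
  refine Measurable.add ?_ ?_
  · exact Measurable.tsum fun q =>
      (measurable_one.indicator hT).comp (hm _)
  · exact Measurable.tsum fun q =>
      (measurable_one.indicator hT).comp ((hm _).comp (hm _))

theorem measurableSet_Brk [MeasurableSpace Ω] (hm : ∀ g : FF, Measurable fun ω : Ω => g • ω)
    {T R : Set Ω} (hT : MeasurableSet T) (hR : MeasurableSet R) : MeasurableSet (Brk T R) := by
  have : Brk T R = R ∪ {ω | (3 : ℝ≥0∞) ≤ ((deg T ω : ℕ∞) : ℝ≥0∞)} := by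
    ext ω
    simp only [Brk, Set.mem_union, Set.mem_ofPred_eq]
    have : (3 : ℝ≥0∞) = ((3 : ℕ∞) : ℝ≥0∞) := by simp
    rw [this, ENat.toENNReal_le]
  rw [this]
  exact hR.union (measurableSet_le measurable_const (measurable_deg hm hT))

theorem measurableSet_Leaf [MeasurableSpace Ω] (hm : ∀ g : FF, Measurable fun ω : Ω => g • ω)
    {T R : Set Ω} (hT : MeasurableSet T) (hR : MeasurableSet R) : MeasurableSet (Leaf T R) := by
  have : Leaf T R = Rᶜ ∩ {ω | ((deg T ω : ℕ∞) : ℝ≥0∞) = 1} := by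
    ext ω
    simp only [Leaf, Set.mem_inter_iff, Set.mem_compl_iff, Set.mem_ofPred_eq]
    have : (1 : ℝ≥0∞) = ((1 : ℕ∞) : ℝ≥0∞) := by simp
    rw [this, ENat.toENNReal_inj]
  rw [this]
  exact hR.compl.inter (measurable_deg hm hT (measurableSet_singleton _))

end general

instance : Countable Ltr := by
  have : Function.Injective (fun a : Ltr => match a with
    | Ltr.q a => (Sum.inl a : QQ ⊕ Bool)
    | Ltr.xp => Sum.inr true
    | Ltr.xm => Sum.inr false) := by
    intro a b h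
    cases a <;> cases b <;> simp_all
  exact this.countable

end Crest.Agent.R191
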