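import Crest.Agent.R191.Stmts
import Crest.Agent.R191.Basics

set_option autoImplicit false
set_option linter.unusedSectionVars false

namespace Crest.Agent.R191

open MeasureTheory
open scoped ENNReal

namespace CLOS

section gen
variable {Ω : Type} [MulAction FF Ω]

/-- number of `x` letters -/
def cx : List Ltr → ℕ
  | [] => 0
  | .q _ :: l => cx l
  | .xp :: l => cx l + 1
  | .xm :: l => cx l + 1

theorem cx_append (l l' : List Ltr) : cx (l ++ l') = cx l + cx l' := by
  induction l with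
  | nil => simp [cx]
  | cons a l ih =>
    cases a <;> simp only [List.cons_append, cx, ih] <;> omega

theorem cx_revW (l : List Ltr) : cx (revW l) = cx l := by
  induction l with
  | nil => rfl
  | cons a l ih =>
    have : revW (a :: l) = revW l ++ [a.inv] := by simp [revW]
    rw [this, cx_append, ih]
    cases a <;> simp [Ltr.inv, cx]

/-- reach with at most `n` letters `x` -/
def RN (T : Set Ω) (ω ω' : Ω) (n : ℕ) : Prop :=
  ∃ l : List Ltr, okL T ω l ∧ ev l • ω = ω' ∧ cx l ≤ n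

theorem RN.mono_n {T : Set Ω} {a b : Ω} {n m : ℕ} (h : RN T a b n) (hnm : n ≤ m) :
    RN T a b m := by
  obtain ⟨l, h1, h2, h3⟩ := h
  exact ⟨l, h1, h2, h3.trans hnm⟩

theorem RN.trans {T : Set Ω} {a b c : Ω} {n m : ℕ} (h1 : RN T a b n) (h2 : RN T b c m) :
    RN T a c (n + m) := by
  obtain ⟨l1, h1, rfl, h3⟩ := h1
  obtain ⟨l2, h2, rfl, h4⟩ := h2
  exact ⟨l2 ++ l1, okL_append.2 ⟨h1, h2⟩, by rw [ev_append, mul_smul], by
    rw [cx_append]; omega⟩

theorem RN.symm {T : Set Ω} {a b : Ω} {n : ℕ} (h : RN T a b n) : RN T b a n := by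
  obtain ⟨l, h, rfl, h3⟩ := h
  exact ⟨revW l, okL_revW h, by rw [ev_revW]; simp, by rw [cx_revW]; exact h3⟩

theorem RN.q (T : Set Ω) (q : QQ) (ω : Ω) : RN T ω (iQ q • ω) 0 :=
  ⟨[Ltr.q q], trivial, by simp [ev, Ltr.val], le_rfl⟩

theorem RN.x {T : Set Ω} {ω : Ω} (h : ω ∈ T) : RN T ω (xx • ω) 1 :=
  ⟨[Ltr.xp], ⟨trivial, by simpa [ev] using h⟩, by simp [ev, Ltr.val], le_rfl⟩

theorem RN.map {Ω' : Type} [MulAction FF Ω'] (f : Ω → Ω')
    (hf : ∀ (g : FF) (ω : Ω), f (g • ω) = g • f ω) {T : Set Ω} {T' : Set Ω'}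
    (h : ∀ ω ∈ T, f ω ∈ T') {a b : Ω} {n : ℕ} (hab : RN T a b n) : RN T' (f a) (f b) n := by
  obtain ⟨l, h1, rfl, h3⟩ := hab
  exact ⟨l, okL_map f hf h h1, (hf _ _).symm, h3⟩

/-- alternating words and admissibility -/
def okA (T : Set Ω) (ω : Ω) (q0 : QQ) : List (Bool × QQ) → Prop
  | [] => True
  | (p :: l) => okA T ω q0 l ∧ (if p.1 then alt q0 l • ω ∈ T else xx⁻¹ • alt q0 l • ω ∈ T)

theorem toAlt {T : Set Ω} {ω : Ω} {l : List Ltr} (hl : okL T ω l) :
    ∃ (q0 : QQ) (l' : List (Bool × QQ)), okA T ω q0 l' ∧ alt q0 l' = ev l ∧ l'.length = cx l := by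
  induction l with
  | nil => exact ⟨1, [], trivial, by simp [alt, ev], rfl⟩
  | cons a l ih =>
    cases a with
    | q a =>
      obtain ⟨q0, l', h1, h2, h3⟩ := ih hl
      cases l' with
      | nil =>
        refine ⟨a * q0, [], trivial, ?_, h3⟩
        simp only [alt] at h2 ⊢
        rw [map_mul, h2]; rfl
      | cons p l' =>
        refine ⟨q0, (p.1, a * p.2) :: l', h1, ?_, h3⟩
        simp only [alt] at h2 ⊢
        rw [map_mul]
        change _ = iQ a * ev l
        rw [← h2]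
        simp only [mul_assoc]
    | xp =>
      obtain ⟨q0, l', h1, h2, h3⟩ := ih hl.1
      refine ⟨q0, (true, 1) :: l', ⟨h1, ?_⟩, ?_, by simp [cx, h3]⟩
      · simp only [if_true]; rw [h2]; exact hl.2
      · simp only [alt, xe, map_one, one_mul, if_true]
        rw [h2]; rfl
    | xm =>
      obtain ⟨q0, l', h1, h2, h3⟩ := ih hl.1
      refine ⟨q0, (false, 1) :: l', ⟨h1, ?_⟩, ?_, by simp [cx, h3]⟩
      · simp only [Bool.false_eq_true, if_false]; rw [h2]; exact hl.2
      · simp only [alt, xe, map_one, one_mul, Bool.false_eq_true, if_false]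
        rw [h2]; rfl

theorem alt_append (q0 : QQ) (l1 l2 : List (Bool × QQ)) :
    alt q0 (l1 ++ l2) = alt 1 l1 * alt q0 l2 := by
  induction l1 with
  | nil => simp [alt]
  | cons p l ih =>
    simp only [List.cons_append, alt, ih, mul_assoc]

theorem okA_append {T : Set Ω} {ω : Ω} {q0 : QQ} {l1 l2 : List (Bool × QQ)} :
    okA T ω q0 (l1 ++ l2) ↔ okA T ω q0 l2 ∧ okA T (alt q0 l2 • ω) 1 l1 := by
  induction l1 with
  | nil => simp [okA]
  | cons p l ih =>
    simp only [List.cons_append, okA, ih, alt_append, mul_smul]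
    tauto

theorem RN_of_okA {T : Set Ω} {ω : Ω} {q0 : QQ} {l : List (Bool × QQ)} (h : okA T ω q0 l) :
    RN T ω (alt q0 l • ω) l.length := by
  induction l with
  | nil => exact RN.q T q0 ω
  | cons p l ih =>
    obtain ⟨h1, h2⟩ := h
    have h3 := ih h1
    have h5 : RN T (alt q0 l • ω) (xe p.1 • alt q0 l • ω) 1 := by
      cases hp : p.1 with
      | true =>
        rw [hp] at h2
        simp only [if_true] at h2
        exact RN.x h2
      | false =>
        rw [hp] at h2
        simp only [Bool.false_eq_true, if_false] at h2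
        have := (RN.x h2).symm
        rwa [smul_inv_smul] at this
    have h6 := (h3.trans h5).trans (RN.q T p.2 _)
    have h7 : alt q0 (p :: l) • ω = iQ p.2 • xe p.1 • alt q0 l • ω := by
      simp only [alt, mul_smul]
    rw [h7]
    exact h6.mono_n (by simp)

/-- positive partial windows -/
def Lp (a n : ℕ) : List (Bool × QQ) := (List.range n).reverse.map fun i => (true, uu ((a + i) % 80))

theorem Lp_succ (a n : ℕ) : Lp a (n + 1) = (true, uu ((a + n) % 80)) :: Lp a n := by
  simp [Lp, List.range_succ]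

theorem Lp_spec {T : Set Ω} (a : ℕ) (n : ℕ) (w : Ω) (h : okA T (pp a • w) 1 (Lp a n)) :
    alt 1 (Lp a n) • pp a • w = pp (a + n) • w ∧ ∀ i < n, pp (a + i) • w ∈ T := by
  induction n with
  | zero => simp [Lp, alt]
  | succ n ih =>
    rw [Lp_succ] at h ⊢
    obtain ⟨h1, h2⟩ := h
    obtain ⟨h3, h4⟩ := ih h1
    simp only [if_true] at h2
    rw [h3] at h2
    constructor
    · simp only [alt, xe, if_true, mul_smul]
      rw [h3, ← add_assoc, pp_succ (a + n)]
      simp only [mul_smul]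
    · intro i hi
      rcases Nat.lt_succ_iff_lt_or_eq.mp hi with h5 | h5
      · exact h4 i h5
      · rw [h5]; exact h2

/-- negative partial windows -/
def Lm (b n : ℕ) : List (Bool × QQ) :=
  (List.range n).reverse.map fun i => (false, (uu ((b + 79 * i) % 80))⁻¹)

theorem Lm_succ (b n : ℕ) : Lm b (n + 1) = (false, (uu ((b + 79 * n) % 80))⁻¹) :: Lm b n := by
  simp [Lm, List.range_succ]

theorem Lm_spec {T : Set Ω} (b : ℕ) (n : ℕ) (w : Ω) (j0 : ℕ) (hj : j0 = (b + 4) % 80)
    (hn : n ≤ 77)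
    (h : okA T (xx • pp (j0 + 77) • w) 1 (Lm b n)) :
    alt 1 (Lm b n) • xx • pp (j0 + 77) • w = xx • pp (j0 + 77 - n) • w ∧
      ∀ i < n, pp (j0 + 77 - i) • w ∈ T := by
  induction n with
  | zero => simp [Lm, alt]
  | succ n ih =>
    rw [Lm_succ] at h ⊢
    obtain ⟨h1, h2⟩ := h
    obtain ⟨h3, h4⟩ := ih (by omega) h1
    simp only [Bool.false_eq_true, if_false] at h2
    rw [h3, inv_smul_smul] at h2
    have e1 : j0 + 77 - n = (j0 + 77 - (n + 1)) + 1 := by omega
    have e2 : (j0 + 77 - (n + 1)) % 80 = (b + 79 * n) % 80 := by omega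
    constructor
    · simp only [alt, xe, Bool.false_eq_true, if_false, mul_smul]
      rw [h3, inv_smul_smul, map_inv, e1, pp_succ, e2]
      simp only [mul_smul, inv_smul_smul]
    · intro i hi
      rcases Nat.lt_succ_iff_lt_or_eq.mp hi with h5 | h5
      · exact h4 i h5
      · rw [h5]; exact h2

/-- the complementary path -/
theorem compl_path {T : Set Ω} {w : Ω} (hr : rr • w = w) (hT : ∀ j < 80, tau j • w ∈ T) (a : ℕ) :
    RN T (xx • pp (a + 77) • w) (pp a • w) 2 := by
  have hall : ∀ m, pp m • w ∈ T := by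
    intro m
    rw [pp_mod hr]
    exact hT _ (Nat.mod_lt _ (by norm_num))
  have step : ∀ m, RN T (pp m • w) (pp (m + 1) • w) 1 := by
    intro m
    have h1 := (RN.x (hall m)).trans (RN.q T (uu (m % 80)) (xx • pp m • w))
    rw [pp_succ]
    simpa [mul_smul] using h1
  have h0 : RN T (xx • pp (a + 77) • w) (pp (a + 78) • w) 0 := by
    have h1 := RN.q T (uu ((a + 77) % 80)) (xx • pp (a + 77) • w)
    have h2 : pp (a + 78) • w = iQ (uu ((a + 77) % 80)) • xx • pp (a + 77) • w := by
      rw [show a + 78 = (a + 77) + 1 from rfl, pp_succ]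
      simp only [mul_smul]
    rw [h2]; exact h1
  have h3 := (h0.trans (step (a + 78))).trans (step (a + 79))
  rw [show a + 79 + 1 = a + 80 from rfl, pp_add80 hr] at h3
  exact h3.mono_n (by norm_num)

end gen

section st
variable {X : Type} [MeasurableSpace X] [StandardBorelSpace X]
  [MulAction FF X] [MeasurableConstSMul FF X] {μ : Measure X} [IsProbabilityMeasure μ]

/-- the map of one step -/
def nf (σ : St X) : Om σ.G → Om σ.next.G := attMap σ.G (Att σ.T) (measurableSet_Att σ.hT)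

theorem nf_smul (σ : St X) (g : FF) (ω : Om σ.G) : nf σ (g • ω) = g • nf σ ω :=
  Om.map_smul (σ.G.le_adjoin (cellArr σ.G (Att σ.T))
    (measurableSet_cellArr (measurableSet_Att σ.hT))) g ω

theorem nf_sec (σ : St X) (y : X) : nf σ (sec σ.G y) = sec σ.next.G y := rfl

theorem nf_T (σ : St X) (ω : Om σ.G) (h : ω ∈ σ.T) : nf σ ω ∈ σ.next.T := by
  left; exact ⟨ω, h, rfl⟩

theorem nf_C (σ : St X) (ω : Om σ.G) (h : ω ∈ Att σ.T) : nf σ ω ∈ σ.next.C := by
  right; exact ⟨ω, h, rfl⟩

theorem nf_C' (σ : St X) (ω : Om σ.G) (h : ω ∈ σ.C) : nf σ ω ∈ σ.next.C := by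
  left; exact ⟨ω, h, rfl⟩

theorem nf_tau (σ : St X) (ω : Om σ.G) (h : ω ∈ Att σ.T) (j : ℕ) (hj : j < 80) :
    tau j • nf σ ω ∈ σ.next.T := by
  right
  exact Set.mem_iUnion.2 ⟨⟨j, hj⟩, nf σ ω, ⟨ω, h, rfl⟩, rfl⟩

theorem nf_rr (hS : Sys X μ) (hrr : GRP_rr) (σ : St X) (ω : Om σ.G) (h : ω ∈ Att σ.T) :
    rr • nf σ ω = nf σ ω := by
  induction ω using Om.ind with
  | h k y =>
    have e : nf σ (mkO σ.G k y) = mkO σ.next.G k y := rfl
    rw [e, smul_mkO, mkO_eq_mkO]
    refine ⟨?_, ?_⟩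
    · rw [mul_smul]
      exact (hS.free rr _).2 hrr
    · refine Adj.gen _ _ ⟨k, by group, h⟩

theorem RN_next (σ : St X) {a b : Om σ.G} {n : ℕ} (h : RN σ.T a b n) :
    RN σ.next.T (nf σ a) (nf σ b) n :=
  h.map (nf σ) (nf_smul σ) (nf_T σ)

/-- if the 78 edges of a window are in `T`, after one step there is a short cut -/
theorem shortcut (hS : Sys X μ) (hrr : GRP_rr) (σ : St X) (w : Om σ.G) (j0 : ℕ) (hj0 : j0 < 80)
    (h : ∀ i < 78, pp (j0 + i) • w ∈ σ.T) :
    RN σ.next.T (nf σ (xx • pp (j0 + 77) • w)) (nf σ (pp j0 • w)) 2 := by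
  have hA : w ∈ Att σ.T := ⟨j0, hj0, h⟩
  have := compl_path (nf_rr hS hrr σ w hA) (fun j hj => nf_tau σ w hA j hj) j0
  rw [nf_smul, nf_smul, nf_smul]
  exact this

/-- main step -/
theorem step (hD : DEHN) (hS : Sys X μ) (hrr : GRP_rr) (σ : St X) (y : X) (n : ℕ)
    (hn : RN σ.T (sec σ.G y) (sec σ.G (xx • y)) n)
    (hmin : ∀ m < n, ¬ RN σ.T (sec σ.G y) (sec σ.G (xx • y)) m) :
    (sec σ.G y ∈ σ.T ∧ xx • sec σ.G y = sec σ.G (xx • y)) ∨
      ∃ m < n, RN σ.next.T (sec σ.next.G y) (sec σ.next.G (xx • y)) m := by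
  obtain ⟨l, hl1, hl2, hl3⟩ := hn
  obtain ⟨q0, l', h1, h2, h3⟩ := toAlt hl1
  have hlen : l'.length ≤ n := by omega
  have hval : toG (alt q0 l') = toG xx := by
    have h4 := congrArg (pr σ.G) hl2
    rw [pr_smul, pr_sec, pr_sec] at h4
    have h5 : (xx⁻¹ * ev l) • y = y := by rw [mul_smul, h4, inv_smul_smul]
    have h6 := (hS.free _ _).1 h5
    rw [map_mul, map_inv, inv_mul_eq_one] at h6
    rw [h2]; exact h6.symm
  have hend : alt q0 l' • sec σ.G y = sec σ.G (xx • y) := by rw [h2]; exact hl2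
  rcases hD q0 l' hval with ⟨h4, h5⟩ | ⟨l1, l2, e, q, h4⟩ | ⟨l1, l2, a, q, ha, h4⟩ |
    ⟨l1, l2, b, q, hb, h4⟩
  · left
    subst h4 h5
    simp only [okA, if_true, alt, map_one, one_smul, true_and] at h1
    refine ⟨h1, ?_⟩
    simp only [alt, xe, if_true, map_one, one_mul, mul_one] at hend
    exact hend
  · exfalso
    subst h4
    rw [okA_append] at h1
    rw [alt_append, mul_smul] at hend
    obtain ⟨h5, h6⟩ := h1
    obtain ⟨h7, -⟩ := h5
    obtain ⟨h8, -⟩ := h7
    have h9 : alt q0 ((e, q) :: (!e, 1) :: l2) • sec σ.G y = iQ q • alt q0 l2 • sec σ.G y := by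
      simp only [alt, mul_smul, map_one, one_smul]
      cases e <;> simp [xe]
    rw [h9] at hend h6
    have h10 := ((RN_of_okA h8).trans (RN.q _ q _)).trans (RN_of_okA h6)
    rw [hend] at h10
    refine hmin _ ?_ h10
    simp only [List.length_append, List.length_cons] at hlen
    omega
  · right
    subst h4
    rw [List.append_assoc, okA_append] at h1
    rw [List.append_assoc, alt_append, mul_smul] at hend
    obtain ⟨h5, h6⟩ := h1
    rw [okA_append] at h5
    obtain ⟨h7, h8⟩ := h5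
    rw [alt_append, mul_smul] at hend h6
    set p := alt q0 l2 • sec σ.G y with hp
    set w := (pp a)⁻¹ • p with hw
    have hpw : p = pp a • w := by rw [hw, smul_inv_smul]
    have hwp : wpos a q = (true, q) :: Lp a 77 := rfl
    rw [hwp, hpw] at h8
    obtain ⟨h9, h10⟩ := h8
    obtain ⟨h11, h12⟩ := Lp_spec a 77 w h9
    simp only [if_true] at h10
    rw [h11] at h10
    have hw78 : ∀ i < 78, pp (a + i) • w ∈ σ.T := by
      intro i hi
      rcases Nat.lt_succ_iff_lt_or_eq.mp hi with h5 | h5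
      · exact h12 i h5
      · rw [h5]; exact h10
    have h13 : alt 1 (wpos a q) • p = iQ q • xx • pp (a + 77) • w := by
      rw [hwp, hpw]
      simp only [alt, xe, if_true, mul_smul]
      rw [h11]
    rw [h13] at hend h6
    have s1 := RN_next σ (RN_of_okA h7)
    have s2 := (shortcut hS hrr σ w a ha hw78).symm
    have s3 := RN_next σ (RN.q σ.T q (xx • pp (a + 77) • w))
    have s4 := RN_next σ (RN_of_okA h6)
    rw [← hp, hpw] at s1
    have s5 := ((s1.trans s2).trans s3).trans s4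
    rw [hend, nf_sec, nf_sec] at s5
    refine ⟨_, ?_, s5⟩
    have : (wpos a q).length = 78 := by rw [hwp]; simp [Lp]
    simp only [List.length_append, this] at hlen
    omega
  · right
    subst h4
    rw [List.append_assoc, okA_append] at h1
    rw [List.append_assoc, alt_append, mul_smul] at hend
    obtain ⟨h5, h6⟩ := h1
    rw [okA_append] at h5
    obtain ⟨h7, h8⟩ := h5
    rw [alt_append, mul_smul] at hend h6
    set p := alt q0 l2 • sec σ.G y with hp
    obtain ⟨j0, hj⟩ : ∃ j0, j0 = (b + 4) % 80 := ⟨_, rfl⟩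
    have hj0 : j0 < 80 := by omega
    set w := (pp (j0 + 77))⁻¹ • xx⁻¹ • p with hw
    have hpw : p = xx • pp (j0 + 77) • w := by rw [hw, smul_inv_smul, smul_inv_smul]
    have hwp : wneg b q = (false, q) :: Lm b 77 := rfl
    rw [hwp, hpw] at h8
    obtain ⟨h9, h10⟩ := h8
    obtain ⟨h11, h12⟩ := Lm_spec b 77 w j0 hj le_rfl h9
    simp only [Bool.false_eq_true, if_false] at h10
    rw [h11, inv_smul_smul, Nat.add_sub_cancel] at h10
    rw [Nat.add_sub_cancel] at h11
    have hw78 : ∀ i < 78, pp (j0 + i) • w ∈ σ.T := by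
      intro i hi
      rcases Nat.eq_zero_or_pos i with h5 | h5
      · rw [h5]; exact h10
      · have := h12 (77 - i) (by omega)
        rwa [show j0 + 77 - (77 - i) = j0 + i by omega] at this
    have h13 : alt 1 (wneg b q) • p = iQ q • pp j0 • w := by
      rw [hwp, hpw]
      simp only [alt, xe, Bool.false_eq_true, if_false, mul_smul]
      rw [h11, inv_smul_smul]
    rw [h13] at hend h6
    have s1 := RN_next σ (RN_of_okA h7)
    have s2 := shortcut hS hrr σ w j0 hj0 hw78
    have s3 := RN_next σ (RN.q σ.T q (pp j0 • w))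
    have s4 := RN_next σ (RN_of_okA h6)
    rw [← hp, hpw] at s1
    have s5 := ((s1.trans s2).trans s3).trans s4
    rw [hend, nf_sec, nf_sec] at s5
    refine ⟨_, ?_, s5⟩
    have : (wneg b q).length = 78 := by rw [hwp]; simp [Lm]
    simp only [List.length_append, this] at hlen
    omega

/-- the good property of a point -/
def PP (σ : St X) (y : X) : Prop := sec σ.G y ∈ σ.T ∧ xx • sec σ.G y = sec σ.G (xx • y)

theorem PP_next {σ : St X} {y : X} (h : PP σ y) : PP σ.next y := by
  refine ⟨?_, ?_⟩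
  · rw [← nf_sec]; exact nf_T σ _ h.1
  · rw [← nf_sec, ← nf_sec, ← nf_smul, h.2]

theorem PP_mono {σ : St X} {y : X} {i j : ℕ} (hij : i ≤ j) (h : PP (σ.iter i) y) :
    PP (σ.iter j) y := by
  induction hij with
  | refl => exact h
  | step _ ih => exact PP_next ih

theorem exists_PP (hD : DEHN) (hS : Sys X μ) (hrr : GRP_rr) (σ : St X) (y : X) (n : ℕ) :
    RN σ.T (sec σ.G y) (sec σ.G (xx • y)) n → ∃ i, PP (σ.iter i) y := by
  induction n using Nat.strong_induction_on generalizing σ with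
  | _ n ih =>
    intro hn
    classical
    have hex : ∃ n, RN σ.T (sec σ.G y) (sec σ.G (xx • y)) n := ⟨n, hn⟩
    have hle : Nat.find hex ≤ n := Nat.find_min' hex hn
    rcases step hD hS hrr σ y (Nat.find hex) (Nat.find_spec hex) (fun m hm => Nat.find_min hex hm)
      with h | ⟨m, hm, h⟩
    · exact ⟨0, h⟩
    · obtain ⟨i, hi⟩ := ih m (lt_of_lt_of_le hm hle) σ.next h
      refine ⟨i + 1, ?_⟩
      have : ∀ k, (σ.next).iter k = σ.iter (k + 1) := by
        intro k
        induction k with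
        | zero => rfl
        | succ k ih => 
          change (σ.next.iter k).next = (σ.iter (k + 1)).next
          rw [ih]
      rw [← this]
      exact hi

theorem conn_RN (σ : St X) (hB : Base μ σ) (y : X) :
    ∃ n, RN σ.T (sec σ.G y) (sec σ.G (xx • y)) n := by
  obtain ⟨l, h1, h2⟩ := hB.conn y
  exact ⟨cx l, l, h1, h2, le_rfl⟩

end st

end CLOS

open CLOS in
theorem clos_of (hD : DEHN) (hrr : GRP_rr) : CLOS := by
  intro X _ _ _ _ μ _ hS σ hB y
  have h1 : ∀ y : X, ∃ I, ∀ i ≥ I, PP (σ.iter i) y := by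
    intro y
    obtain ⟨n, hn⟩ := conn_RN σ hB y
    obtain ⟨i, hi⟩ := exists_PP hD hS hrr σ y n hn
    exact ⟨i, fun j hj => PP_mono hj hi⟩
  choose I hI using h1
  let J := (Finset.range 80).sup (fun j => I (tau j • y))
  have hJ : ∀ i ≥ J, ∀ j < 80, PP (σ.iter i) (tau j • y) := by
    intro i hi j hj
    apply hI
    exact (Finset.le_sup (f := fun j => I (tau j • y)) (Finset.mem_range.2 hj)).trans hi
  have key : ∀ i ≥ J, ∀ j ≤ 80, tau j • sec (σ.iter i).G y = sec (σ.iter i).G (tau j • y) := by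
    intro i hi j
    induction j with
    | zero => intro _; simp [tau]
    | succ j ih =>
      intro hj
      have h2 := ih (by omega)
      have h3 := (hJ i hi j (by omega)).2
      rw [tau_succ, mul_smul, mul_smul, h2, h3, iQ_smul_sec, mul_smul, mul_smul]
  refine ⟨J + 1, fun i hi => ?_⟩
  obtain ⟨k, rfl⟩ : ∃ k, i = k + 1 := ⟨i - 1, by omega⟩
  have hk : J ≤ k := by omega
  have hAtt : sec (σ.iter k).G y ∈ Att (σ.iter k).T := by
    refine ⟨0, by norm_num, fun i hi => ?_⟩
    rw [zero_add, pp_lt (by omega), key k hk i (by omega)]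
    exact (hJ k hk i (by omega)).1
  have := nf_C (σ.iter k) _ hAtt
  rw [nf_sec] at this
  exact this

end Crest.Agent.R191
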