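import Crest.Agent.R191.Stmts
import Crest.Agent.R191.Basics

/-!
# Row 191, task COL: the collapse step.
-/

set_option autoImplicit false

namespace Crest.Agent.R191.COLT

open MeasureTheory
open scoped ENNReal

section

variable {X : Type} [MeasurableSpace X] [MulAction FF X]

/-- constant formal chain of the boundary of a cell -/
noncomputable def cc : FF →₀ ℚ := ∑ j : Fin 80, Finsupp.single (tau (j : ℕ)) (1 : ℚ)

theorem rz_cc {Ω : Type} [MulAction FF Ω] (ω : Ω) : rz ω cc = cellBd ω := by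
  unfold rz cc cellBd
  rw [Finsupp.mapDomain_finsetSum]
  simp [Finsupp.mapDomain_single]

/-- the family for `ARC` -/
def A' (μ : Measure X) (𝒢 : Gpd X) (C : Set (Om 𝒢)) (Γ : Gens μ) : ℕ → Set (Om 𝒢)
  | 0 => C
  | (n + 1) => sec 𝒢 '' (Γ.A n)

noncomputable def c' (μ : Measure X) (𝒢 : Gpd X) (Γ : Gens μ) : ℕ → Om 𝒢 → (FF →₀ ℚ)
  | 0 => fun _ => cc
  | (n + 1) => fun ω => Γ.c n (pr 𝒢 ω)

theorem span_le (μ : Measure X) (𝒢 : Gpd X) (C : Set (Om 𝒢)) (Γ : Gens μ) :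
    Γ.span 𝒢 C ≤ Submodule.span ℚ (genSet (A' μ 𝒢 C Γ) (c' μ 𝒢 Γ)) := by
  refine Submodule.span_mono ?_
  rintro v (⟨n, y, hy, rfl⟩ | ⟨ω, hω, rfl⟩)
  · exact ⟨n + 1, sec 𝒢 y, ⟨y, hy, rfl⟩, by simp [c']⟩
  · exact ⟨0, ω, hω, (rz_cc ω).symm⟩

end

end Crest.Agent.R191.COLT

namespace Crest.Agent.R191

open MeasureTheory COLT
open scoped ENNReal

theorem col_of (hARC : ARC) (hCOLI : COLI) (hCOLM : COLM) (hCOLB : COLB) (hexp : OM_exp)
    (hsp : OM_sp) (hsec : OM_sec) : COL := by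
  intro X _ _ _ _ μ _ hSys σ hG hF1 hF2 hleaf
  obtain ⟨b, hbm, hbi, hbsp⟩ := hsp X μ hSys
  have hSp := hbsp σ.G
  obtain ⟨hRm, hsecm⟩ := hsec X μ hSys σ.G
  set m := mO μ σ.G with hm
  set R := Set.range (sec σ.G) with hR
  have hRq : ∀ (q : QQ) (ω : Om σ.G), ω ∈ R → iQ q • ω ∈ R := by
    rintro q _ ⟨y, rfl⟩
    exact ⟨iQ q • y, (iQ_smul_sec σ.G q y).symm⟩
  have hreach : ∀ ω ∈ σ.T, ∃ ρ ∈ R, Reach σ.T ρ ω := by
    intro ω hω
    obtain ⟨y, hy⟩ := hG.reach ω hω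
    exact ⟨sec σ.G y, ⟨y, rfl⟩, hy⟩
  obtain ⟨Γ, hΓ⟩ := hG.gens
  have hFs : (0 : ℝ) < Fs := by unfold Fs; norm_num
  have hmC : m σ.C ≠ ∞ := by
    intro h
    have : Fm μ σ = 0 := by unfold Fm; rw [← hm, h]; rfl
    rw [this] at hF1
    linarith
  have hmT : m σ.T ≠ ∞ := hG.T_fin
  -- ARC
  have hA := hARC (Om σ.G) m (fun ω => b (pr σ.G ω)) hSp σ.T R σ.hT hRm hRq hmT hreach
    (A' μ σ.G σ.C Γ) (c' μ σ.G Γ) ?_ ?_ ?_
  rotate_left
  · intro n
    cases n with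
    | zero => exact σ.hC
    | succ n => exact (hsecm _ (Γ.A_meas n)).1
  · intro n a
    cases n with
    | zero => exact MeasurableSet.const (cc = a)
    | succ n => exact measurable_pr σ.G (Γ.c_meas n a)
  · rintro _ ⟨y, rfl⟩ l hl ⟨y', hy'⟩
    refine span_le μ σ.G σ.C Γ (hΓ y l hl ?_)
    have := ((smul_sec_eq_sec σ.G (ev l) y y').1 hy'.symm).1
    rw [this]
    exact hy'.symm
  have hsum : ∑' n, m (A' μ σ.G σ.C Γ n) ≤ m σ.C + kap := by
    rw [tsum_eq_zero_add' ENNReal.summable]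
    refine add_le_add le_rfl ?_
    have : ∀ n, m (A' μ σ.G σ.C Γ (n + 1)) = μ (Γ.A n) := fun n => (hsecm _ (Γ.A_meas n)).2
    rw [tsum_congr this]
    exact Γ.small
  -- numerics
  have hBrk : m (σ.T ∩ Brk σ.T R) ≤ 7 * m σ.C := by
    have h1 : m (σ.T ∩ Brk σ.T R) ≤ HE m σ.T (Brk σ.T R) := le_self_add
    have h2 : HE m σ.T (Brk σ.T R) ≤ 6 * (m σ.C + kap) + 3 * ENNReal.ofReal (Fs / 50) :=
      hA.trans (add_le_add (mul_le_mul_right hsum 6) (mul_le_mul_right hleaf 3))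
    have h3 : 6 * kap + 3 * ENNReal.ofReal (Fs / 50) ≤ m σ.C := by
      have h4 : m σ.C = ENNReal.ofReal (Fm μ σ) := (ENNReal.ofReal_toReal hmC).symm
      rw [h4]
      have h5 : 6 * kap + 3 * ENNReal.ofReal (Fs / 50) = ENNReal.ofReal (6 * (2 / 10 ^ 19) +
          3 * (Fs / 50)) := by
        rw [ENNReal.ofReal_add (by positivity) (by positivity), ENNReal.ofReal_mul (by norm_num),
          ENNReal.ofReal_mul (by norm_num)]
        simp [kap]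
      rw [h5]
      refine ENNReal.ofReal_le_ofReal (le_trans ?_ hF1)
      unfold Fs
      norm_num
    calc m (σ.T ∩ Brk σ.T R) ≤ 6 * (m σ.C + kap) + 3 * ENNReal.ofReal (Fs / 50) := h1.trans h2
      _ = 6 * m σ.C + (6 * kap + 3 * ENNReal.ofReal (Fs / 50)) := by rw [mul_add, add_assoc]
      _ ≤ 6 * m σ.C + m σ.C := add_le_add le_rfl h3
      _ = 7 * m σ.C := by
        have : (7 : ℝ≥0∞) = 6 + 1 := by norm_num
        rw [this, add_mul, one_mul]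
  have hCal : m σ.C ≤ al := by
    have h4 : m σ.C = ENNReal.ofReal (Fm μ σ) := (ENNReal.ofReal_toReal hmC).symm
    rw [h4, al]
    refine ENNReal.ofReal_le_ofReal (hF2.trans ?_)
    unfold Fs
    norm_num
  have hexpC := hexp X μ hSys σ.G σ.C σ.hC hCal
  obtain ⟨a, ell, ham, hellm, hInt, hcard⟩ := hCOLI (Om σ.G) m _ hSp σ.T R σ.C σ.hT hRm σ.hC hRq
    hreach hG.r_fix hG.bd
  obtain ⟨hCRm, hArcm, hArcT, hCR, hArc⟩ := hCOLM (Om σ.G) m _ hSp σ.T R σ.C σ.hT hRm σ.hC hRq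
    hG.r_fix hG.bd hmT hexpC a ell ham hellm hInt hcard hBrk
  have hgood := hCOLB X μ hSys σ hG a ell ham hellm hInt (σ.hT.diff hArcm) (σ.hC.diff hCRm)
  have hCRC : CR σ.C ⊆ σ.C := fun ω h => h.1
  have hmCR : m (CR σ.C) ≠ ∞ := ne_top_of_le_ne_top hmC (measure_mono hCRC)
  have hmArc : m (arcE σ.C a ell) ≠ ∞ := ne_top_of_le_ne_top hmT (measure_mono hArcT)
  have e1 : (m (σ.C \ CR σ.C)).toReal = (m σ.C).toReal - (m (CR σ.C)).toReal := by
    rw [measure_sdiff hCRC hCRm.nullMeasurableSet hmCR, ENNReal.toReal_sub_of_le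
      (measure_mono hCRC) hmC]
  have e2 : (m (σ.T \ arcE σ.C a ell)).toReal =
      (m σ.T).toReal - (m (arcE σ.C a ell)).toReal := by
    rw [measure_sdiff hArcT hArcm.nullMeasurableSet hmArc, ENNReal.toReal_sub_of_le
      (measure_mono hArcT) hmT]
  have e3 : 3 * (m σ.C).toReal ≤ 4 * (m (CR σ.C)).toReal := by
    have := ENNReal.toReal_mono (ENNReal.mul_ne_top (by norm_num) hmCR) hCR
    rwa [ENNReal.toReal_mul, ENNReal.toReal_mul] at this
  have e4 : 5 * (m σ.C).toReal ≤ (m (arcE σ.C a ell)).toReal := by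
    have := ENNReal.toReal_mono hmArc hArc
    rwa [ENNReal.toReal_mul] at this
  have e5 : (m (CR σ.C)).toReal ≤ (m σ.C).toReal := ENNReal.toReal_mono hmC (measure_mono hCRC)
  refine ⟨_, hgood, ?_, ?_⟩
  · have : Fm μ (St.mk σ.G (σ.T \ arcE σ.C a ell) (σ.C \ CR σ.C) (σ.hT.diff hArcm)
        (σ.hC.diff hCRm)) = (m (σ.C \ CR σ.C)).toReal := rfl
    rw [this, e1]
    have h6 : Fm μ σ = (m σ.C).toReal := rfl
    rw [h6] at hF2 hF1
    linarith
  · have h7 : Pot μ (St.mk σ.G (σ.T \ arcE σ.C a ell) (σ.C \ CR σ.C) (σ.hT.diff hArcm)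
        (σ.hC.diff hCRm)) = (m (σ.T \ arcE σ.C a ell)).toReal - 2 * (m (σ.C \ CR σ.C)).toReal := rfl
    have h8 : Pot μ σ = (m σ.T).toReal - 2 * (m σ.C).toReal := rfl
    have h6 : Fm μ σ = (m σ.C).toReal := rfl
    rw [h6] at hF2 hF1
    rw [h7, h8, e1, e2]
    linarith

end Crest.Agent.R191
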