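import Crest.Agent.R191.Stmts
import Crest.Agent.R191.Basics

/-! Row 191, task COLB: the collapsed state is in the class. -/

set_option autoImplicit false

namespace Crest.Agent.R191

open MeasureTheory
open scoped ENNReal

namespace COLB

section general
variable {Ω : Type} [MulAction FF Ω] {T R C : Set Ω} {a ell : Ω → ℕ}

theorem CR_sub {ω : Ω} (h : ω ∈ CR C) : ω ∈ C := h.1

theorem priv_unique {e ω ω' : Ω} {i j : ℕ} (he : e ∈ Priv C) (hω : ω ∈ C) (hω' : ω' ∈ C)
    (hi : i < 80) (hj : j < 80) (h1 : tau i • ω = e) (h2 : tau j • ω' = e) :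
    i = j ∧ ω = ω' := by
  obtain ⟨j0, _, _, h⟩ := he
  have e1 : (tau i)⁻¹ • e = ω := by rw [← h1]; simp
  have e2 : (tau j)⁻¹ • e = ω' := by rw [← h2]; simp
  have hi0 : i = j0 := h i hi (by rw [e1]; exact hω)
  have hj0 : j = j0 := h j hj (by rw [e2]; exact hω')
  have hij : i = j := hi0.trans hj0.symm
  refine ⟨hij, ?_⟩
  rw [← e1, ← e2, hij]

theorem priv_unique_pp (hfix : ∀ ω ∈ C, rr • ω = ω) {e ω ω' : Ω} {m m' : ℕ} (he : e ∈ Priv C)
    (hω : ω ∈ C) (hω' : ω' ∈ C) (h1 : pp m • ω = e) (h2 : pp m' • ω' = e) :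
    m % 80 = m' % 80 ∧ ω = ω' := by
  rw [pp_mod (hfix ω hω)] at h1
  rw [pp_mod (hfix ω' hω')] at h2
  exact priv_unique he hω hω' (Nat.mod_lt _ (by norm_num)) (Nat.mod_lt _ (by norm_num)) h1 h2

theorem out_mem (hfix : ∀ ω ∈ C, rr • ω = ω) (hbd : ∀ ω ∈ C, ∀ j < 80, tau j • ω ∈ T)
    {ω : Ω} (hω : ω ∈ C) (m : ℕ) : pp m • ω ∈ T := by
  rw [pp_mod (hfix ω hω)]
  exact hbd ω hω _ (Nat.mod_lt _ (by norm_num))

theorem halfedges (hfix : ∀ ω ∈ C, rr • ω = ω) (hbd : ∀ ω ∈ C, ∀ j < 80, tau j • ω ∈ T)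
    {ω : Ω} (hω : ω ∈ C) (m : ℕ) (hB : pp m • ω ∉ Brk T R) :
    (∀ q : QQ, iQ q • pp m • ω ∈ T → q = 1) ∧
    (∀ q : QQ, xx⁻¹ • iQ q • pp m • ω ∈ T → q = (uu ((m + 79) % 80))⁻¹) := by
  have hdeg : ¬ (3 ≤ deg T (pp m • ω)) := fun h => hB (Or.inr h)
  have h1 : (1 : QQ) ∈ {q : QQ | iQ q • pp m • ω ∈ T} := by
    change iQ 1 • pp m • ω ∈ T
    rw [map_one, one_smul]
    exact out_mem hfix hbd hω m
  have h2 : (uu ((m + 79) % 80))⁻¹ ∈ {q : QQ | xx⁻¹ • iQ q • pp m • ω ∈ T} := by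
    change xx⁻¹ • iQ (uu ((m + 79) % 80))⁻¹ • pp m • ω ∈ T
    have : pp m • ω = pp (m + 79 + 1) • ω := (pp_add80 (hfix ω hω) m).symm
    rw [this, pp_pred]
    exact out_mem hfix hbd hω _
  have h3 : 1 ≤ {q : QQ | iQ q • pp m • ω ∈ T}.encard := Set.one_le_encard_iff_nonempty.2 ⟨_, h1⟩
  have h4 : 1 ≤ {q : QQ | xx⁻¹ • iQ q • pp m • ω ∈ T}.encard :=
    Set.one_le_encard_iff_nonempty.2 ⟨_, h2⟩
  constructor
  · intro q hq
    by_contra hne
    apply hdeg
    have h5 : 1 < {q : QQ | iQ q • pp m • ω ∈ T}.encard :=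
      Set.one_lt_encard_iff.2 ⟨q, 1, hq, h1, hne⟩
    have h6 : 2 ≤ {q : QQ | iQ q • pp m • ω ∈ T}.encard := by
      have := Order.add_one_le_of_lt h5
      have e : (1 : ℕ∞) + 1 = 2 := by norm_num
      rwa [e] at this
    calc (3 : ℕ∞) = 2 + 1 := by norm_num
      _ ≤ deg T (pp m • ω) := add_le_add h6 h4
  · intro q hq
    by_contra hne
    apply hdeg
    have h5 : 1 < {q : QQ | xx⁻¹ • iQ q • pp m • ω ∈ T}.encard :=
      Set.one_lt_encard_iff.2 ⟨q, _, hq, h2, hne⟩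
    have h6 : 2 ≤ {q : QQ | xx⁻¹ • iQ q • pp m • ω ∈ T}.encard := by
      have := Order.add_one_le_of_lt h5
      have e : (1 : ℕ∞) + 1 = 2 := by norm_num
      rwa [e] at this
    calc (3 : ℕ∞) = 1 + 2 := by norm_num
      _ ≤ deg T (pp m • ω) := add_le_add h3 h6

theorem Brk_iQ (hR : ∀ (q : QQ) (ω : Ω), ω ∈ R → iQ q • ω ∈ R) (q : QQ) (ω : Ω) :
    iQ q • ω ∈ Brk T R ↔ ω ∈ Brk T R := by
  unfold Brk
  constructor
  · rintro (h | h)
    · left
      have := hR q⁻¹ _ h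
      rwa [map_inv, inv_smul_smul] at this
    · right
      rwa [deg_iQ] at h
  · rintro (h | h)
    · exact Or.inl (hR q ω h)
    · right
      rwa [deg_iQ]

/-- interior points -/
def Intr (C : Set Ω) (a ell : Ω → ℕ) : Set Ω :=
  {w | ∃ ω ∈ CR C, ∃ i : ℕ, ∃ q : QQ, 0 < i ∧ i < ell ω ∧ w = iQ q • pp (a ω + i) • ω}

theorem Intr_iQ (q : QQ) (w : Ω) : iQ q • w ∈ Intr C a ell ↔ w ∈ Intr C a ell := by
  constructor
  · rintro ⟨ω, hω, i, q', h1, h2, h3⟩
    refine ⟨ω, hω, i, q⁻¹ * q', h1, h2, ?_⟩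
    rw [map_mul, mul_smul, ← h3, map_inv, inv_smul_smul]
  · rintro ⟨ω, hω, i, q', h1, h2, h3⟩
    exact ⟨ω, hω, i, q * q', h1, h2, by rw [map_mul, mul_smul, ← h3]⟩

theorem Intr_not_Brk (hR : ∀ (q : QQ) (ω : Ω), ω ∈ R → iQ q • ω ∈ R)
    (D : IntData T R C a ell) {w : Ω} (h : w ∈ Intr C a ell) : w ∉ Brk T R := by
  obtain ⟨ω, hω, i, q, h1, h2, rfl⟩ := h
  rw [Brk_iQ hR]
  exact D.int ω hω i h1 h2

theorem Intr_unique (hfix : ∀ ω ∈ C, rr • ω = ω) (hbd : ∀ ω ∈ C, ∀ j < 80, tau j • ω ∈ T)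
    (D : IntData T R C a ell) {ω ω' : Ω} (hω : ω ∈ CR C) (hω' : ω' ∈ CR C) {i i' : ℕ}
    {q q' : QQ} (hi : 0 < i) (hi2 : i < ell ω) (_hi' : 0 < i') (hi2' : i' < ell ω')
    (h : iQ q • pp (a ω + i) • ω = iQ q' • pp (a ω' + i') • ω') : ω = ω' := by
  have hB := D.int ω hω i hi hi2
  have h1 := (halfedges hfix hbd hω.1 _ hB).1 (q'⁻¹ * q)
    (by
      rw [map_mul, mul_smul, h, map_inv, inv_smul_smul]
      exact out_mem hfix hbd hω'.1 _)
  have h2 : q = q' := by
    have := congrArg (fun z => q' * z) h1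
    simpa using this
  rw [h2] at h
  have h3 : pp (a ω + i) • ω = pp (a ω' + i') • ω' := smul_left_cancel _ h
  exact (priv_unique_pp hfix (D.priv ω' hω' i' hi2') hω.1 hω'.1 h3 rfl).2

open Classical in
/-- the retraction -/
noncomputable def rho (C : Set Ω) (a ell : Ω → ℕ) (w : Ω) : Ω :=
  if h : w ∈ Intr C a ell then pp (a h.choose) • h.choose else w

theorem rho_not {w : Ω} (h : w ∉ Intr C a ell) : rho C a ell w = w := by
  unfold rho
  rw [dif_neg h]

theorem rho_int (hfix : ∀ ω ∈ C, rr • ω = ω) (hbd : ∀ ω ∈ C, ∀ j < 80, tau j • ω ∈ T)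
    (D : IntData T R C a ell) {ω : Ω} (hω : ω ∈ CR C) {i : ℕ} (q : QQ)
    (hi : 0 < i) (hi2 : i < ell ω) :
    rho C a ell (iQ q • pp (a ω + i) • ω) = pp (a ω) • ω := by
  have h : iQ q • pp (a ω + i) • ω ∈ Intr C a ell := ⟨ω, hω, i, q, hi, hi2, rfl⟩
  unfold rho
  rw [dif_pos h]
  obtain ⟨hc, i', q', h1, h2, h3⟩ := h.choose_spec
  have h4 := Intr_unique hfix hbd D hω hc hi hi2 h1 h2 h3
  rw [← h4]

/-- remaining edges of a collapsed cell are in `T'` -/
theorem rest_mem (hfix : ∀ ω ∈ C, rr • ω = ω) (hbd : ∀ ω ∈ C, ∀ j < 80, tau j • ω ∈ T)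
    (D : IntData T R C a ell) {ω : Ω} (hω : ω ∈ CR C) {k : ℕ} (h1 : a ω + ell ω ≤ k)
    (h2 : k < a ω + 80) : pp k • ω ∈ T \ arcE C a ell := by
  refine ⟨out_mem hfix hbd hω.1 k, ?_⟩
  rintro ⟨ω', hω', i, hi, h⟩
  have h3 := priv_unique_pp hfix (D.priv ω' hω' i hi) hω.1 hω'.1 h rfl
  obtain ⟨h4, h5⟩ := h3
  subst h5
  omega

theorem not_arc_not_int (hfix : ∀ ω ∈ C, rr • ω = ω) (hbd : ∀ ω ∈ C, ∀ j < 80, tau j • ω ∈ T)
    (D : IntData T R C a ell) {w : Ω} (hw : w ∈ T \ arcE C a ell) :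
    w ∉ Intr C a ell ∧ xx • w ∉ Intr C a ell := by
  constructor
  · rintro ⟨ω, hω, i, q, h1, h2, h3⟩
    have hB := D.int ω hω i h1 h2
    have h4 := (halfedges hfix hbd hω.1 _ hB).1 q (by rw [← h3]; exact hw.1)
    rw [h4, map_one, one_smul] at h3
    exact hw.2 ⟨ω, hω, i, h2, h3⟩
  · rintro ⟨ω, hω, i, q, h1, h2, h3⟩
    have hB := D.int ω hω i h1 h2
    have h4 := (halfedges hfix hbd hω.1 _ hB).2 q (by rw [← h3, inv_smul_smul]; exact hw.1)
    have h5 : w = xx⁻¹ • iQ q • pp (a ω + i) • ω := by rw [← h3, inv_smul_smul]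
    obtain ⟨i', rfl⟩ : ∃ i', i = i' + 1 := ⟨i - 1, by omega⟩
    have h6 : (a ω + (i' + 1) + 79) % 80 = (a ω + i') % 80 := by omega
    rw [h4, h6, ← add_assoc, pp_pred] at h5
    exact hw.2 ⟨ω, hω, i', by omega, h5⟩

theorem reach_rho (hR : ∀ (q : QQ) (ω : Ω), ω ∈ R → iQ q • ω ∈ R)
    (hfix : ∀ ω ∈ C, rr • ω = ω) (hbd : ∀ ω ∈ C, ∀ j < 80, tau j • ω ∈ T)
    (D : IntData T R C a ell) {w1 w2 : Ω} (h : Reach T w1 w2) :
    Reach (T \ arcE C a ell) (rho C a ell w1) (rho C a ell w2) := by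
  -- one edge
  have hedge : ∀ w ∈ T, Reach (T \ arcE C a ell) (rho C a ell w) (rho C a ell (xx • w)) := by
    intro w hw
    by_cases hwa : w ∈ arcE C a ell
    · obtain ⟨ω, hω, i, hi, rfl⟩ := hwa
      have hρ1 : rho C a ell (pp (a ω + i) • ω) = pp (a ω) • ω := by
        rcases Nat.eq_zero_or_pos i with h0 | h0
        · subst h0
          apply rho_not
          intro hint
          exact Intr_not_Brk hR D hint (D.start ω hω)
        · have := rho_int hfix hbd D hω 1 h0 hi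
          rwa [map_one, one_smul] at this
      rw [hρ1]
      have hx : xx • pp (a ω + i) • ω =
          iQ (uu ((a ω + i) % 80))⁻¹ • pp (a ω + (i + 1)) • ω := by
        rw [xx_pp, map_inv, add_assoc]
      rcases Nat.lt_or_ge (i + 1) (ell ω) with h1 | h1
      · rw [hx, rho_int hfix hbd D hω _ (by omega) h1]
        exact Reach.refl _ _
      · have h2 : i + 1 = ell ω := by omega
        have h3 : rho C a ell (xx • pp (a ω + i) • ω) = xx • pp (a ω + i) • ω := by
          apply rho_not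
          intro hint
          apply Intr_not_Brk hR D hint
          rw [hx, Brk_iQ hR, h2]
          exact D.fin ω hω
        rw [h3, hx, h2]
        refine Reach.trans ?_ (Reach.q _ _ _)
        apply Reach.symm
        have h4 : pp (a ω) • ω = pp (a ω + 80) • ω := (pp_add80 (hfix ω hω.1) _).symm
        rw [h4]
        exact reach_pp (by have := D.l_le ω hω; omega)
          (fun m hm1 hm2 => rest_mem hfix hbd D hω hm1 hm2)
    · have h1 := not_arc_not_int hfix hbd D ⟨hw, hwa⟩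
      rw [rho_not h1.1, rho_not h1.2]
      exact Reach.x ⟨hw, hwa⟩
  have hqs : ∀ (w : Ω) (q : QQ),
      Reach (T \ arcE C a ell) (rho C a ell w) (rho C a ell (iQ q • w)) := by
    intro w q
    by_cases hw : w ∈ Intr C a ell
    · obtain ⟨ω, hω, i, q', h1, h2, rfl⟩ := hw
      have h3 : iQ q • iQ q' • pp (a ω + i) • ω = iQ (q * q') • pp (a ω + i) • ω := by
        rw [map_mul, mul_smul]
      rw [h3, rho_int hfix hbd D hω _ h1 h2, rho_int hfix hbd D hω _ h1 h2]
      exact Reach.refl _ _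
    · rw [rho_not hw, rho_not (by rwa [Intr_iQ])]
      exact Reach.q _ _ _
  refine Reach.induct (p := fun w => Reach (T \ arcE C a ell) (rho C a ell w1) (rho C a ell w)) h
    (Reach.refl _ _) ?_ ?_ ?_
  · intro ω q _ h1
    exact h1.trans (hqs ω q)
  · intro ω _ h1 h2
    exact h2.trans (hedge ω h1)
  · intro ω _ h1 h2
    exact h2.trans (hedge ω h1).symm

/-! ### the linear map -/

/-- condition: `e` is the first edge of the arc of the cell `(tau j)⁻¹ e` -/
def cnd (C : Set Ω) (a : Ω → ℕ) (j : Fin 80) (e : Ω) : Prop :=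
  (tau (j : ℕ))⁻¹ • e ∈ CR C ∧ a ((tau (j : ℕ))⁻¹ • e) = j

open Classical in
/-- the image of an edge -/
noncomputable def phi (C : Set Ω) (a : Ω → ℕ) (e : Ω) : Ω →₀ ℚ :=
  Finsupp.single e 1 - ∑ j : Fin 80, if cnd C a j e then cellBd ((tau (j : ℕ))⁻¹ • e) else 0

/-- the linear map -/
noncomputable def qmap (C : Set Ω) (a : Ω → ℕ) : (Ω →₀ ℚ) →ₗ[ℚ] (Ω →₀ ℚ) :=
  Finsupp.linearCombination ℚ (phi C a)

theorem qmap_single (e : Ω) : qmap C a (Finsupp.single e 1) = phi C a e := by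
  simp [qmap]

theorem cnd_mem_arc (hfix : ∀ ω ∈ C, rr • ω = ω) (D : IntData T R C a ell) {e : Ω} {j : Fin 80}
    (h : cnd C a j e) : e ∈ arcE C a ell := by
  refine ⟨_, h.1, 0, D.l_pos _ h.1, ?_⟩
  rw [add_zero, h.2, pp_mod (hfix _ h.1.1), Nat.mod_eq_of_lt j.2, smul_inv_smul]

theorem cnd_cell (hfix : ∀ ω ∈ C, rr • ω = ω) (D : IntData T R C a ell) {w : Ω} (hw : w ∈ C)
    {i j : Fin 80} (h : cnd C a j (tau (i : ℕ) • w)) :
    i = j ∧ (tau (j : ℕ))⁻¹ • tau (i : ℕ) • w = w ∧ w ∈ CR C ∧ a w = i := by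
  set w' := (tau (j : ℕ))⁻¹ • tau (i : ℕ) • w with hw'
  have h1 : tau (j : ℕ) • w' = tau (i : ℕ) • w := by rw [hw', smul_inv_smul]
  have hp : tau (i : ℕ) • w ∈ Priv C := by
    have := D.priv w' h.1 0 (D.l_pos _ h.1)
    rw [add_zero, show a w' = j from h.2, pp_mod (hfix _ h.1.1), Nat.mod_eq_of_lt j.2, h1] at this
    exact this
  obtain ⟨h2, h3⟩ := priv_unique hp hw h.1.1 i.2 j.2 rfl h1
  refine ⟨Fin.ext h2, h3.symm, by rw [h3]; exact h.1, ?_⟩
  rw [h3, show a w' = j from h.2, h2]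

theorem qmap_cellBd_CR (hfix : ∀ ω ∈ C, rr • ω = ω) (D : IntData T R C a ell) {w : Ω}
    (hw : w ∈ CR C) : qmap C a (cellBd w) = 0 := by
  classical
  have ha := D.a_lt w hw
  have h1 : qmap C a (cellBd w) = ∑ i : Fin 80, phi C a (tau (i : ℕ) • w) := by
    unfold cellBd
    rw [map_sum]
    exact Finset.sum_congr rfl (fun i _ => qmap_single _)
  rw [h1]
  unfold phi
  rw [Finset.sum_sub_distrib]
  have h2 : ∑ i : Fin 80, ∑ j : Fin 80, (if cnd C a j (tau (i : ℕ) • w) then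
      cellBd ((tau (j : ℕ))⁻¹ • tau (i : ℕ) • w) else 0) = cellBd w := by
    rw [Finset.sum_eq_single (⟨a w, ha⟩ : Fin 80)]
    · rw [Finset.sum_eq_single (⟨a w, ha⟩ : Fin 80)]
      · rw [if_pos]
        · simp
        · refine ⟨?_, ?_⟩ <;> simp [hw]
      · intro j _ hj
        rw [if_neg]
        intro hc
        exact hj (cnd_cell hfix D hw.1 hc).1.symm
      · intro h; exact absurd (Finset.mem_univ _) h
    · intro i _ hi
      apply Finset.sum_eq_zero
      intro j _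
      rw [if_neg]
      intro hc
      apply hi
      exact Fin.ext (cnd_cell hfix D hw.1 hc).2.2.2.symm
    · intro h; exact absurd (Finset.mem_univ _) h
  rw [h2]
  unfold cellBd
  exact sub_self _

theorem qmap_cellBd (hfix : ∀ ω ∈ C, rr • ω = ω) (D : IntData T R C a ell) {w : Ω}
    (hw : w ∈ C) (hw' : w ∉ CR C) : qmap C a (cellBd w) = cellBd w := by
  classical
  have h1 : qmap C a (cellBd w) = ∑ i : Fin 80, phi C a (tau (i : ℕ) • w) := by
    unfold cellBd
    rw [map_sum]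
    exact Finset.sum_congr rfl (fun i _ => qmap_single _)
  rw [h1]
  unfold phi
  rw [Finset.sum_sub_distrib]
  have h2 : ∑ i : Fin 80, ∑ j : Fin 80, (if cnd C a j (tau (i : ℕ) • w) then
      cellBd ((tau (j : ℕ))⁻¹ • tau (i : ℕ) • w) else 0) = 0 := by
    apply Finset.sum_eq_zero
    intro i _
    apply Finset.sum_eq_zero
    intro j _
    rw [if_neg]
    intro hc
    exact hw' (cnd_cell hfix D hw hc).2.2.1
  rw [h2, sub_zero]
  rfl

theorem phi_of_not_arc (hfix : ∀ ω ∈ C, rr • ω = ω) (D : IntData T R C a ell) {e : Ω}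
    (he : e ∉ arcE C a ell) : phi C a e = Finsupp.single e 1 := by
  classical
  unfold phi
  rw [Finset.sum_eq_zero, sub_zero]
  intro j _
  rw [if_neg]
  intro hc
  exact he (cnd_mem_arc hfix D hc)

theorem qmap_supp (hfix : ∀ ω ∈ C, rr • ω = ω) (D : IntData T R C a ell) {v : Ω →₀ ℚ}
    (hv : ∀ e ∈ v.support, e ∉ arcE C a ell) : qmap C a v = v := by
  unfold qmap
  rw [Finsupp.linearCombination_apply, Finsupp.sum]
  conv_rhs => rw [← Finsupp.sum_single v, Finsupp.sum]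
  apply Finset.sum_congr rfl
  intro e he
  rw [phi_of_not_arc hfix D (hv e he)]
  simp

open Classical in
/-- formal version -/
noncomputable def psi (C : Set Ω) (a : Ω → ℕ) (ω : Ω) (g : FF) : FF →₀ ℚ :=
  Finsupp.single g 1 - ∑ j : Fin 80, if cnd C a j (g • ω) then
    ∑ i : Fin 80, Finsupp.single (tau (i : ℕ) * (tau (j : ℕ))⁻¹ * g) (1 : ℚ) else 0

/-- formal chain -/
noncomputable def cF (C : Set Ω) (a : Ω → ℕ) (ω : Ω) (c : FF →₀ ℚ) : FF →₀ ℚ :=
  Finsupp.linearCombination ℚ (psi C a ω) c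

/-- `rz` as a linear map. -/
noncomputable def rzL (ω : Ω) : (FF →₀ ℚ) →ₗ[ℚ] (Ω →₀ ℚ) :=
  Finsupp.lmapDomain ℚ ℚ (fun g : FF => g • ω)

theorem rzL_apply (ω : Ω) (c : FF →₀ ℚ) : rzL ω c = rz ω c := rfl

theorem rz_psi (ω : Ω) (g : FF) : rzL ω (psi C a ω g) = phi C a (g • ω) := by
  classical
  unfold psi phi
  rw [map_sub, map_sum]
  have h0 : ∀ (k : FF) (r : ℚ), rzL ω (Finsupp.single k r) = Finsupp.single (k • ω) r := by
    intro k r
    unfold rzL
    rw [Finsupp.lmapDomain_apply, Finsupp.mapDomain_single]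
  rw [h0]
  refine congrArg (fun z => Finsupp.single (g • ω) (1 : ℚ) - z) ?_
  apply Finset.sum_congr rfl
  intro j _
  by_cases h : cnd C a j (g • ω)
  · rw [if_pos h, if_pos h, map_sum]
    unfold cellBd
    apply Finset.sum_congr rfl
    intro i _
    rw [h0, mul_smul, mul_smul]
  · rw [if_neg h, if_neg h, map_zero]

theorem rz_cF (ω : Ω) (c : FF →₀ ℚ) : rz ω (cF C a ω c) = qmap C a (rz ω c) := by
  rw [← rzL_apply, ← rzL_apply]
  unfold cF
  induction c using Finsupp.induction_linear with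
  | zero => simp only [map_zero]
  | add f g hf hg => simp only [map_add, hf, hg]
  | single g r =>
    rw [Finsupp.linearCombination_single, map_smul, rz_psi, rzL_apply, rz,
      Finsupp.mapDomain_single]
    unfold qmap
    rw [Finsupp.linearCombination_single]

end general

/-! ### measurability of discrete valued maps -/

section meas
variable {X V : Type} [MeasurableSpace X] [Countable V]

/-- all level sets are measurable -/
def DM (f : X → V) : Prop := ∀ b, MeasurableSet {y | f y = b}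

omit [Countable V] in
theorem DM.const (v : V) : DM (fun _ : X => v) := by
  intro b
  by_cases h : v = b
  · simp [h]
  · simp [h]

theorem DM.comp2 {W Z : Type} [Countable W] {f : X → V} {g : X → W} (hf : DM f) (hg : DM g)
    (F : V → W → Z) : DM (fun y => F (f y) (g y)) := by
  intro b
  have : {y | F (f y) (g y) = b} = ⋃ v : V, ⋃ w : W, ⋃ (_ : F v w = b),
      ({y | f y = v} ∩ {y | g y = w}) := by
    ext y
    simp only [Set.mem_ofPred_eq, Set.mem_iUnion, Set.mem_inter_iff, exists_prop]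
    constructor
    · intro h
      exact ⟨f y, g y, h, rfl, rfl⟩
    · rintro ⟨v, w, h, rfl, rfl⟩
      exact h
  rw [this]
  exact MeasurableSet.iUnion fun v => MeasurableSet.iUnion fun w => MeasurableSet.iUnion fun _ =>
    (hf v).inter (hg w)

omit [Countable V] in
open Classical in
theorem DM.ite {f g : X → V} (hf : DM f) (hg : DM g) {p : X → Prop}
    (hp : MeasurableSet {y | p y}) : DM (fun y => if p y then f y else g y) := by
  intro b
  have : {y | (if p y then f y else g y) = b} =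
      ({y | p y} ∩ {y | f y = b}) ∪ ({y | p y}ᶜ ∩ {y | g y = b}) := by
    ext y
    simp only [Set.mem_ofPred_eq, Set.mem_union, Set.mem_inter_iff, Set.mem_compl_iff]
    by_cases h : p y
    · simp [h]
    · simp [h]
  rw [this]
  exact (hp.inter (hf b)).union (hp.compl.inter (hg b))

theorem DM.sum {ι : Type} [AddCommMonoid V] (s : Finset ι) {f : ι → X → V}
    (hf : ∀ i ∈ s, DM (f i)) : DM (fun y => ∑ i ∈ s, f i y) := by
  classical
  induction s using Finset.induction_on with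
  | empty => simpa using DM.const (0 : V)
  | insert i s hi ih =>
    have h1 : DM (fun y => f i y + ∑ j ∈ s, f j y) :=
      DM.comp2 (hf i (Finset.mem_insert_self _ _))
        (ih (fun j hj => hf j (Finset.mem_insert_of_mem hj))) (fun v w => v + w)
    refine fun b => ?_
    have := h1 b
    simpa only [Finset.sum_insert hi] using this

/-- composition with a countable parameter -/
theorem DM.bind {W : Type} {f : X → V} (hf : DM f) {g : V → X → W} (hg : ∀ v, DM (g v)) :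
    DM (fun y => g (f y) y) := by
  intro b
  have : {y | g (f y) y = b} = ⋃ v : V, ({y | f y = v} ∩ {y | g v y = b}) := by
    ext y
    simp only [Set.mem_ofPred_eq, Set.mem_iUnion, Set.mem_inter_iff]
    constructor
    · intro h
      exact ⟨f y, rfl, h⟩
    · rintro ⟨v, rfl, h⟩
      exact h
  rw [this]
  exact MeasurableSet.iUnion fun v => (hf v).inter (hg v b)

end meas

section final
variable {X : Type} [MeasurableSpace X] [MulAction FF X] [MeasurableConstSMul FF X]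

theorem meas_psi {𝒢 : Gpd X} {C : Set (Om 𝒢)} {a : Om 𝒢 → ℕ} (hCR : MeasurableSet (CR C))
    (ha : Measurable a) (g : FF) : DM (fun y : X => psi C a (sec 𝒢 y) g) := by
  classical
  have hc : ∀ j : Fin 80, MeasurableSet {y : X | cnd C a j (g • sec 𝒢 y)} := by
    intro j
    have h1 : Measurable (fun y : X => (tau (j : ℕ))⁻¹ • g • sec 𝒢 y) :=
      (measurable_smul_om 𝒢 _).comp ((measurable_smul_om 𝒢 _).comp (measurable_sec 𝒢))
    exact (h1 hCR).inter (h1 (ha (measurableSet_singleton _)))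
  have h1 : DM (fun y : X => ∑ j : Fin 80, if cnd C a j (g • sec 𝒢 y) then
    ∑ i : Fin 80, Finsupp.single (tau (i : ℕ) * (tau (j : ℕ))⁻¹ * g) (1 : ℚ) else 0) :=
    DM.sum _ (fun j _ => DM.ite (DM.const _) (DM.const _) (hc j))
  have h2 := DM.comp2 (DM.const (X := X) (Finsupp.single g (1 : ℚ))) h1 (fun v w => v - w)
  refine fun b => ?_
  convert h2 b using 2
  unfold psi
  congr!

theorem meas_cF {𝒢 : Gpd X} {C : Set (Om 𝒢)} {a : Om 𝒢 → ℕ} (hCR : MeasurableSet (CR C))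
    (ha : Measurable a) {c : X → (FF →₀ ℚ)} (hc : DM c) :
    DM (fun y : X => cF C a (sec 𝒢 y) (c y)) := by
  refine DM.bind (g := fun v y => cF C a (sec 𝒢 y) v) hc (fun v => ?_)
  unfold cF
  have h1 : DM (fun y : X => ∑ g ∈ v.support, v g • psi C a (sec 𝒢 y) g) :=
    DM.sum _ (fun g _ => DM.comp2 (DM.const (X := X) (v g)) (meas_psi hCR ha g)
      (fun r w => r • w))
  refine fun b => ?_
  have h2 := h1 b
  simpa only [Finsupp.linearCombination_apply, Finsupp.sum] using h2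

end final

end COLB

open COLB in
theorem colb : COLB := by
  intro X _ _ _ _ μ _ hS σ hG a ell ha hell D hT' hC'
  have hfix : ∀ ω ∈ σ.C, rr • ω = ω := hG.r_fix
  have hbd : ∀ ω ∈ σ.C, ∀ j < 80, tau j • ω ∈ σ.T := hG.bd
  have hR : ∀ (q : QQ) (ω : Om σ.G), ω ∈ Set.range (sec σ.G) → iQ q • ω ∈ Set.range (sec σ.G) := by
    rintro q _ ⟨y, rfl⟩
    exact ⟨iQ q • y, (iQ_smul_sec σ.G q y).symm⟩
  have hCR : MeasurableSet (CR σ.C) := by
    have h1 : CR σ.C = σ.C \ (σ.C \ CR σ.C) := by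
      ext ω
      simp only [Set.mem_sdiff, not_and, not_not]
      exact ⟨fun h => ⟨h.1, fun _ => h⟩, fun h => h.2 h.1⟩
    rw [h1]
    exact σ.hC.diff hC'
  have hreal : ∀ y : X, rho σ.C a ell (sec σ.G y) = sec σ.G y := by
    intro y
    apply rho_not
    intro h
    exact Intr_not_Brk hR D h (Or.inl ⟨y, rfl⟩)
  obtain ⟨Γ, hΓ⟩ := hG.gens
  refine { T_fin := ?_, conn := ?_, reach := ?_, r_fix := ?_, bd := ?_, gens := ?_ }
  · exact ne_top_of_le_ne_top hG.T_fin (measure_mono Set.sdiff_subset)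
  · intro y
    have h := reach_rho hR hfix hbd D (hG.conn y)
    rwa [hreal, hreal] at h
  · intro ω hω
    obtain ⟨y, hy⟩ := hG.reach ω hω.1
    have h := reach_rho hR hfix hbd D hy
    rw [hreal, rho_not (not_arc_not_int hfix hbd D hω).1] at h
    exact ⟨y, h⟩
  · intro ω hω
    exact hfix ω hω.1
  · intro ω hω j hj
    refine ⟨hbd ω hω.1 j hj, ?_⟩
    rintro ⟨ω', hω', i, hi, h⟩
    apply hω.2
    refine ⟨hω.1, j, hj, ?_⟩
    change tau j • ω = _ at h
    rw [h]
    exact D.priv ω' hω' i hi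
  · refine ⟨{ A := Γ.A, c := fun n y => cF σ.C a (sec σ.G y) (Γ.c n y), A_meas := Γ.A_meas,
              c_meas := fun n => meas_cF hCR ha (Γ.c_meas n), small := Γ.small }, ?_⟩
    intro y l hl hev
    have h1 := hΓ y l (okL_mono Set.sdiff_subset hl) hev
    have h2 : qmap σ.C a (ch (ev l) (sec σ.G y)) = ch (ev l) (sec σ.G y) := by
      apply qmap_supp hfix D
      intro e he
      exact (ch_support hl e he).2
    rw [← h2]
    unfold Gens.span at h1 ⊢
    have h3 : qmap σ.C a (ch (ev l) (sec σ.G y)) ∈ Submodule.map (qmap σ.C a)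
        (Submodule.span ℚ ({v | ∃ n, ∃ y ∈ Γ.A n, v = rz (sec σ.G y) (Γ.c n y)} ∪
          {v | ∃ ω ∈ σ.C, v = cellBd ω})) := Submodule.mem_map_of_mem h1
    rw [Submodule.map_span] at h3
    refine Submodule.span_le.2 ?_ h3
    rintro _ ⟨v, hv | hv, rfl⟩
    · obtain ⟨n, y', hy', rfl⟩ := hv
      apply Submodule.subset_span
      left
      exact ⟨n, y', hy', (rz_cF _ _).symm⟩
    · obtain ⟨ω, hω, rfl⟩ := hv
      by_cases hω' : ω ∈ CR σ.C
      · rw [qmap_cellBd_CR hfix D hω']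
        exact Submodule.zero_mem _
      · rw [qmap_cellBd hfix D hω hω']
        apply Submodule.subset_span
        right
        exact ⟨ω, ⟨hω, hω'⟩, rfl⟩

end Crest.Agent.R191
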