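import Crest.Agent.R191.Stmts
import Crest.Agent.R191.Basics

/-!
# Row 191, task COLI: choice of private arcs.
-/

set_option autoImplicit false

namespace Crest.Agent.R191.COLIT

open MeasureTheory
open scoped ENNReal

/-! ### combinatorics on a cycle of length 80 -/

/-- the output data -/
structure Arc (Bk Pv : ℕ → Prop) (a ell : ℕ) : Prop where
  a_lt : a < 80
  l_pos : 0 < ell
  l_le : ell ≤ 80
  priv : ∀ i < ell, Pv (a + i)
  start : Bk a
  fin : Bk (a + ell)
  int : ∀ i, 0 < i → i < ell → ¬ Bk (a + i)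
  card : {j : ℕ | j < 80 ∧ Pv j}.ncard ≤ ell * {j : ℕ | j < 80 ∧ Pv j ∧ Bk j}.ncard

theorem per_mod {p : ℕ → Prop} (hp : ∀ j, p (j + 80) ↔ p j) (j : ℕ) : p (j % 80) ↔ p j := by
  have h1 : ∀ k r : ℕ, p (r + 80 * k) ↔ p r := by
    intro k r
    induction k with
    | zero => simp
    | succ k ih =>
      have : r + 80 * (k + 1) = (r + 80 * k) + 80 := by ring
      rw [this, hp, ih]
  have h2 : j = j % 80 + 80 * (j / 80) := (Nat.mod_add_div j 80).symm
  conv_rhs => rw [h2]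
  exact (h1 _ _).symm

theorem comb (Bk Pv : ℕ → Prop) (hB : ∀ j, Bk (j + 80) ↔ Bk j) (hP : ∀ j, Pv (j + 80) ↔ Pv j)
    (h1 : ∀ j, ¬ Bk (j + 1) → Pv (j + 1) ∧ Pv j) (hb : ∃ j, Bk j) (hp : ∃ j, Pv j) :
    ∃ a ell, Arc Bk Pv a ell := by
  classical
  -- next break after `j`
  have hnext : ∀ j, ∃ L, 0 < L ∧ Bk (j + L) := by
    intro j
    obtain ⟨b, hb⟩ := hb
    have h2 : Bk (b % 80) := (per_mod hB b).2 hb
    refine ⟨b % 80 + 80 * (j + 1) - j, by omega, ?_⟩
    have h3 : j + (b % 80 + 80 * (j + 1) - j) = b % 80 + 80 * (j + 1) := by omega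
    rw [h3, ← per_mod hB]
    have : (b % 80 + 80 * (j + 1)) % 80 = b % 80 := by omega
    rw [this]
    exact h2
  set L : ℕ → ℕ := fun j => Nat.find (hnext j) with hL
  have hL0 : ∀ j, 0 < L j := fun j => (Nat.find_spec (hnext j)).1
  have hLB : ∀ j, Bk (j + L j) := fun j => (Nat.find_spec (hnext j)).2
  have hLmin : ∀ j i, 0 < i → i < L j → ¬ Bk (j + i) := fun j i h2 h3 h4 =>
    Nat.find_min (hnext j) h3 ⟨h2, h4⟩
  have hLle : ∀ j, Bk j → L j ≤ 80 := fun j hj => Nat.find_min' _ ⟨by norm_num, (hB j).2 hj⟩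
  set S : Finset ℕ := (Finset.range 80).filter (fun j => Pv j ∧ Bk j) with hS
  -- every private edge belongs to an arc starting at a private break
  have hback : ∀ j, Pv j → ∃ s ∈ S, ∃ i < L s, j % 80 = (s + i) % 80 := by
    intro j hj
    -- going back from `j + 80`
    have hex : ∃ i, i ≤ j + 80 ∧ Bk (j + 80 - i) := by
      obtain ⟨b, hb⟩ := hb
      have h2 : Bk (b % 80) := (per_mod hB b).2 hb
      exact ⟨j + 80 - b % 80, by omega, by
        have : j + 80 - (j + 80 - b % 80) = b % 80 := by omega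
        rw [this]; exact h2⟩
    set i := Nat.find hex with hi
    obtain ⟨hi1, hi2⟩ := Nat.find_spec hex
    rw [← hi] at hi1 hi2
    have hi3 : ∀ i' < i, ¬ Bk (j + 80 - i') := fun i' h3 h4 =>
      Nat.find_min hex h3 ⟨by omega, h4⟩
    have hi4 : Pv (j + 80 - i) := by
      rcases Nat.eq_zero_or_pos i with h0 | h0
      · rw [h0]; exact (hP j).2 hj
      · have h5 := hi3 (i - 1) (by omega)
        have h6 : j + 80 - (i - 1) = (j + 80 - i) + 1 := by omega
        rw [h6] at h5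
        exact (h1 _ h5).2
    set s0 := j + 80 - i with hs0
    refine ⟨s0 % 80, ?_, i, ?_, ?_⟩
    · rw [hS, Finset.mem_filter, Finset.mem_range]
      exact ⟨Nat.mod_lt _ (by norm_num), (per_mod hP _).2 hi4, (per_mod hB _).2 hi2⟩
    · by_contra hcon
      push Not at hcon
      have h7 := hLB (s0 % 80)
      rw [← per_mod hB] at h7
      have h8 : (s0 % 80 + L (s0 % 80)) % 80 = (j + 80 - (i - L (s0 % 80))) % 80 := by
        have : j + 80 - (i - L (s0 % 80)) = s0 + L (s0 % 80) := by omega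
        rw [this]
        omega
      rw [h8, per_mod hB] at h7
      have h9 := hL0 (s0 % 80)
      exact hi3 (i - L (s0 % 80)) (by omega) h7
    · omega
  have hSne : S.Nonempty := by
    obtain ⟨j, hj⟩ := hp
    obtain ⟨s, hs, _⟩ := hback j hj
    exact ⟨s, hs⟩
  obtain ⟨a, haS, hamax⟩ := Finset.exists_max_image S L hSne
  have haS' := haS
  rw [hS, Finset.mem_filter, Finset.mem_range] at haS'
  refine ⟨a, L a, haS'.1, hL0 a, hLle a haS'.2.2, ?_, haS'.2.2, hLB a, hLmin a, ?_⟩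
  · intro i hi
    rcases Nat.eq_zero_or_pos i with h0 | h0
    · rw [h0]; exact haS'.2.1
    · have h2 := hLmin a i h0 hi
      have h3 : a + i = (a + i - 1) + 1 := by omega
      rw [h3] at h2 ⊢
      exact (h1 _ h2).1
  · have e1 : {j : ℕ | j < 80 ∧ Pv j} = (((Finset.range 80).filter Pv : Finset ℕ) : Set ℕ) := by
      ext j; simp
    have e2 : {j : ℕ | j < 80 ∧ Pv j ∧ Bk j} = (S : Set ℕ) := by
      ext j; simp [hS]
    rw [e1, e2, Set.ncard_coe_finset, Set.ncard_coe_finset]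
    have e3 : ((Finset.range 80).filter Pv) ⊆
        (Finset.range (L a) ×ˢ S).image (fun p => (p.2 + p.1) % 80) := by
      intro j hj
      rw [Finset.mem_filter, Finset.mem_range] at hj
      obtain ⟨s, hs, i, hi, hji⟩ := hback j hj.2
      rw [Finset.mem_image]
      refine ⟨(i, s), ?_, ?_⟩
      · rw [Finset.mem_product, Finset.mem_range]
        exact ⟨hi.trans_le (hamax s hs), hs⟩
      · change (s + i) % 80 = j
        rw [← hji, Nat.mod_eq_of_lt hj.1]
    calc _ ≤ _ := Finset.card_le_card e3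
      _ ≤ _ := Finset.card_image_le
      _ = _ := by rw [Finset.card_product, Finset.card_range]

/-! ### the elements `u_j` are distinct -/

/-- `u_j ↦ 1`, `x ↦ 0` -/
def cnt : G0 →* Multiplicative ℤ :=
  FreeGroup.lift (fun o => match o with
    | none => 1
    | some _ => Multiplicative.ofAdd (1 : ℤ))

theorem cnt_g0 (j : ℕ) (hj : j < 79) : cnt (g0 j) = Multiplicative.ofAdd (1 : ℤ) := by
  simp [g0, hj, cnt]

theorem cnt_x0 : cnt x0 = 1 := by simp [x0, cnt]

theorem cnt_t0 (j : ℕ) (hj : j ≤ 79) : cnt (t0 j) = Multiplicative.ofAdd (j : ℤ) := by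
  induction j with
  | zero => simp [t0]
  | succ j ih =>
    rw [t0, map_mul, map_mul, cnt_g0 j (by omega), cnt_x0, ih (by omega), mul_one, ← ofAdd_add]
    congr 1
    push_cast; ring

theorem uu_inj (i j : ℕ) (hi : i < 80) (hj : j < 80) (h : uu i = uu j) : i = j := by
  have h0 : u0 i = u0 j := by
    have := congrArg (fun p : AA × Multiplicative ℤ => (p.1 : G0)) h
    exact this
  have h79 : ∀ k < 79, u0 k ≠ u0 79 := by
    intro k hk h2
    have h5 : cnt (u0 79) = Multiplicative.ofAdd (-79 : ℤ) := by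
      have h6 : u0 79 = (x0 * t0 79)⁻¹ := if_neg (lt_irrefl 79)
      rw [h6, map_inv, map_mul, cnt_x0, cnt_t0 79 le_rfl, one_mul, ← ofAdd_neg]
      rfl
    have h7 : u0 k = g0 k := if_pos hk
    have h3 := congrArg cnt h2
    rw [h5, h7, cnt_g0 k hk] at h3
    have h4 := Multiplicative.ofAdd.injective h3
    norm_num at h4
  by_cases hi' : i < 79
  · by_cases hj' : j < 79
    · rw [u0, if_pos hi', u0, if_pos hj', g0, g0, dif_pos hi', dif_pos hj'] at h0
      have := FreeGroup.of_injective h0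
      simpa using this
    · have : j = 79 := by omega
      subst this
      exact absurd h0 (h79 i hi')
  · have : i = 79 := by omega
    subst this
    by_cases hj' : j < 79
    · exact absurd h0.symm (h79 j hj')
    · omega

/-! ### the geometry -/

section geo

variable {Ω : Type} [MulAction FF Ω]

theorem encard_aux {s t : Set QQ} (hs : s.Nonempty) (ht : t.Nonempty)
    (h : ¬ (3 ≤ s.encard + t.encard)) : s.encard ≤ 1 ∧ t.encard ≤ 1 := by
  have h1 : 1 ≤ s.encard := Set.one_le_encard_iff_nonempty.2 hs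
  have h2 : 1 ≤ t.encard := Set.one_le_encard_iff_nonempty.2 ht
  constructor
  · by_contra h3
    push Not at h3
    have h4 : (1 : ℕ∞) + 1 ≤ s.encard := Order.add_one_le_of_lt h3
    exact h ((by norm_num : (3 : ℕ∞) = 1 + 1 + 1).le.trans (add_le_add h4 h2))
  · by_contra h3
    push Not at h3
    have h4 : (1 : ℕ∞) + 1 ≤ t.encard := Order.add_one_le_of_lt h3
    exact h ((by norm_num : (3 : ℕ∞) = 1 + (1 + 1)).le.trans (add_le_add h1 h4))

/-- at a non-break vertex of a cell, there is exactly one outgoing and one incoming half-edge -/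
theorem halves {T R : Set Ω} {ω : Ω} (hr : rr • ω = ω) (hT : ∀ j < 80, tau j • ω ∈ T) (j : ℕ)
    (hnb : pp (j + 1) • ω ∉ Brk T R) :
    (∀ q : QQ, iQ q • pp (j + 1) • ω ∈ T → q = 1) ∧
    (∀ q : QQ, xx⁻¹ • iQ q • pp (j + 1) • ω ∈ T → q = (uu (j % 80))⁻¹) := by
  have h1 : (1 : QQ) ∈ {q : QQ | iQ q • pp (j + 1) • ω ∈ T} := by
    change iQ 1 • pp (j + 1) • ω ∈ T
    rw [map_one, one_smul, pp_mod hr]
    exact hT _ (Nat.mod_lt _ (by norm_num))
  have h2 : (uu (j % 80))⁻¹ ∈ {q : QQ | xx⁻¹ • iQ q • pp (j + 1) • ω ∈ T} := by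
    change xx⁻¹ • iQ (uu (j % 80))⁻¹ • pp (j + 1) • ω ∈ T
    rw [pp_pred, pp_mod hr]
    exact hT _ (Nat.mod_lt _ (by norm_num))
  have h3 : ¬ (3 ≤ deg T (pp (j + 1) • ω)) := fun h => hnb (Or.inr h)
  obtain ⟨h4, h5⟩ := encard_aux ⟨_, h1⟩ ⟨_, h2⟩ h3
  rw [Set.encard_le_one_iff] at h4 h5
  exact ⟨fun q hq => h4 _ _ hq h1, fun q hq => h5 _ _ hq h2⟩

theorem priv_of_nb {T R C : Set Ω} (hr : ∀ ω ∈ C, rr • ω = ω)
    (hT : ∀ ω ∈ C, ∀ j < 80, tau j • ω ∈ T) {ω : Ω} (hω : ω ∈ C) (j : ℕ)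
    (hnb : pp (j + 1) • ω ∉ Brk T R) :
    pp (j + 1) • ω ∈ Priv C ∧ pp j • ω ∈ Priv C := by
  obtain ⟨h1, h2⟩ := halves (hr ω hω) (hT ω hω) j hnb
  constructor
  · refine ⟨(j + 1) % 80, Nat.mod_lt _ (by norm_num), ?_, ?_⟩
    · rw [pp_mod (hr ω hω), inv_smul_smul]; exact hω
    · intro i hi hω'
      set ω' := (tau i)⁻¹ • pp (j + 1) • ω with hω'e
      have e1 : pp (i + 80) • ω' = pp (j + 1) • ω := by
        rw [pp_add80 (hr _ hω'), pp_lt hi, hω'e, smul_inv_smul]
      have e2 : xx⁻¹ • iQ (uu ((i + 79) % 80))⁻¹ • pp (j + 1) • ω ∈ T := by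
        rw [← e1]
        have : i + 80 = (i + 79) + 1 := rfl
        rw [this, pp_pred, pp_mod (hr _ hω')]
        exact hT _ hω' _ (Nat.mod_lt _ (by norm_num))
      have e3 := inv_injective (h2 _ e2)
      have e4 := uu_inj _ _ (Nat.mod_lt _ (by norm_num)) (Nat.mod_lt _ (by norm_num)) e3
      omega
  · refine ⟨j % 80, Nat.mod_lt _ (by norm_num), ?_, ?_⟩
    · rw [pp_mod (hr ω hω), inv_smul_smul]; exact hω
    · intro i hi hω'
      set ω' := (tau i)⁻¹ • pp j • ω with hω'e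
      have e1 : pp i • ω' = pp j • ω := by
        rw [pp_lt hi, hω'e, smul_inv_smul]
      have e2 : iQ (uu i * (uu (j % 80))⁻¹) • pp (j + 1) • ω ∈ T := by
        have e5 : iQ (uu i * (uu (j % 80))⁻¹) • pp (j + 1) • ω = pp (i + 1) • ω' := by
          rw [map_mul, mul_smul, map_inv, ← xx_pp, pp_succ i, mul_smul, mul_smul, e1,
            Nat.mod_eq_of_lt hi]
        rw [e5, pp_mod (hr _ hω')]
        exact hT _ hω' _ (Nat.mod_lt _ (by norm_num))
      have e3 := h1 _ e2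
      rw [mul_inv_eq_one] at e3
      exact uu_inj _ _ hi (Nat.mod_lt _ (by norm_num)) e3

theorem exists_break {T R C : Set Ω} (hRq : ∀ (q : QQ) (ω : Ω), ω ∈ R → iQ q • ω ∈ R)
    (hreach : ∀ ω ∈ T, ∃ ρ ∈ R, Reach T ρ ω) (hr : ∀ ω ∈ C, rr • ω = ω)
    (hT : ∀ ω ∈ C, ∀ j < 80, tau j • ω ∈ T) {ω : Ω} (hω : ω ∈ C) :
    ∃ j, pp j • ω ∈ Brk T R := by
  by_contra hcon
  push Not at hcon
  have h0 : ω ∈ T := by
    have := hT ω hω 0 (by norm_num)
    simpa [tau] using this
  obtain ⟨ρ, hρ, hρω⟩ := hreach ω h0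
  have key : ∃ (q : QQ) (j : ℕ), ρ = iQ q • pp (j + 1) • ω := by
    refine Reach.induct (p := fun y => ∃ (q : QQ) (j : ℕ), y = iQ q • pp (j + 1) • ω)
      hρω.symm ?_ ?_ ?_ ?_
    · exact ⟨1, 79, by
        rw [map_one, one_smul, show 79 + 1 = 0 + 80 from rfl, pp_add80 (hr ω hω), pp_zero,
          one_smul]⟩
    · rintro y q' _ ⟨q, j, rfl⟩
      exact ⟨q' * q, j, by rw [map_mul, mul_smul]⟩
    · rintro y _ hy ⟨q, j, rfl⟩
      have := (halves (hr ω hω) (hT ω hω) j (hcon _)).1 q hy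
      subst this
      refine ⟨(uu ((j + 1) % 80))⁻¹, j + 1, ?_⟩
      rw [map_one, one_smul, xx_pp, map_inv]
    · rintro y _ hy ⟨q, j, hyq⟩
      have e1 : y = xx⁻¹ • iQ q • pp (j + 1) • ω := by rw [← hyq, inv_smul_smul]
      have e2 : xx⁻¹ • iQ q • pp (j + 1) • ω ∈ T := by rw [← e1]; exact hy
      have e3 := (halves (hr ω hω) (hT ω hω) j (hcon _)).2 q e2
      subst e3
      refine ⟨1, j + 79, ?_⟩
      rw [e1, pp_pred, map_one, one_smul, show j + 79 + 1 = j + 80 from rfl, pp_add80 (hr ω hω)]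
  obtain ⟨q, j, hqj⟩ := key
  apply hcon (j + 1)
  left
  have : pp (j + 1) • ω = iQ q⁻¹ • ρ := by
    rw [hqj, map_inv, inv_smul_smul]
  rw [this]
  exact hRq _ _ hρ

theorem measurableSet_Priv [MeasurableSpace Ω] (hm : ∀ g : FF, Measurable fun ω : Ω => g • ω)
    {C : Set Ω} (hC : MeasurableSet C) : MeasurableSet (Priv C) := by
  have : Priv C = ⋃ j : ℕ, ⋃ (_ : j < 80), ((fun e : Ω => (tau j)⁻¹ • e) ⁻¹' C ∩
      ⋂ i : ℕ, ⋂ (_ : i < 80), ⋂ (_ : i ≠ j), ((fun e : Ω => (tau i)⁻¹ • e) ⁻¹' Cᶜ)) := by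
    ext e
    simp only [Priv, Set.mem_ofPred_eq, Set.mem_iUnion, Set.mem_inter_iff, Set.mem_preimage,
      Set.mem_iInter, exists_prop, Set.mem_compl_iff]
    constructor
    · rintro ⟨j, hj, h1, h2⟩
      exact ⟨j, hj, h1, fun i hi hij h3 => hij (h2 i hi h3)⟩
    · rintro ⟨j, hj, h1, h2⟩
      exact ⟨j, hj, h1, fun i hi h3 => by_contra fun hij => h2 i hi hij h3⟩
  rw [this]
  exact MeasurableSet.iUnion fun j => MeasurableSet.iUnion fun _ => (hm _ hC).inter
    (MeasurableSet.iInter fun i => MeasurableSet.iInter fun _ => MeasurableSet.iInter fun _ =>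
      hm _ hC.compl)

end geo

end Crest.Agent.R191.COLIT

namespace Crest.Agent.R191

open MeasureTheory COLIT
open scoped ENNReal

theorem coli : COLI := by
  classical
  intro Ω _ _ m b hSp T R C hT hR hC hRq hreach hr hTC
  have hm : ∀ g : FF, Measurable fun ω : Ω => g • ω := fun g => (hSp.mp g).measurable
  -- data
  set dat : Ω → (Fin 80 → Prop × Prop) := fun ω j =>
    (tau (j : ℕ) • ω ∈ Brk T R, tau (j : ℕ) • ω ∈ Priv C) with hdat
  have hdatm : Measurable dat := by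
    refine measurable_pi_lambda _ fun j => ?_
    refine Measurable.prodMk ?_ ?_
    · exact measurableSet_setOfPred.1 (hm (tau (j : ℕ)) (measurableSet_Brk hm hT hR))
    · exact measurableSet_setOfPred.1 (hm (tau (j : ℕ)) (measurableSet_Priv hm hC))
  set BkD : (Fin 80 → Prop × Prop) → ℕ → Prop := fun d j =>
    (d ⟨j % 80, Nat.mod_lt _ (by norm_num)⟩).1 with hBkD
  set PvD : (Fin 80 → Prop × Prop) → ℕ → Prop := fun d j =>
    (d ⟨j % 80, Nat.mod_lt _ (by norm_num)⟩).2 with hPvD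
  set aD : (Fin 80 → Prop × Prop) → ℕ := fun d =>
    if h : ∃ a ell, Arc (BkD d) (PvD d) a ell then h.choose else 0 with haD
  set lD : (Fin 80 → Prop × Prop) → ℕ := fun d =>
    if h : ∃ a ell, Arc (BkD d) (PvD d) a ell then h.choose_spec.choose else 0 with hlD
  have hArc : ∀ ω ∈ CR C, Arc (BkD (dat ω)) (PvD (dat ω)) (aD (dat ω)) (lD (dat ω)) := by
    intro ω hω
    have hωC : ω ∈ C := hω.1
    have hBk : ∀ j, BkD (dat ω) j ↔ pp j • ω ∈ Brk T R := by
      intro j
      rw [pp_mod (hr ω hωC)]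
    have hPv : ∀ j, PvD (dat ω) j ↔ pp j • ω ∈ Priv C := by
      intro j
      rw [pp_mod (hr ω hωC)]
    have hex : ∃ a ell, Arc (BkD (dat ω)) (PvD (dat ω)) a ell := by
      refine comb _ _ ?_ ?_ ?_ ?_ ?_
      · intro j; rw [hBk, hBk, pp_add80 (hr ω hωC)]
      · intro j; rw [hPv, hPv, pp_add80 (hr ω hωC)]
      · intro j hj
        rw [hBk] at hj
        rw [hPv, hPv]
        exact priv_of_nb hr hTC hωC j hj
      · obtain ⟨j, hj⟩ := exists_break hRq hreach hr hTC hωC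
        exact ⟨j, (hBk j).2 hj⟩
      · obtain ⟨j, hj, hj2⟩ := hω.2
        exact ⟨j, (hPv j).2 (by rw [pp_lt hj]; exact hj2)⟩
    have : Arc (BkD (dat ω)) (PvD (dat ω)) hex.choose hex.choose_spec.choose :=
      hex.choose_spec.choose_spec
    simpa only [haD, hlD, dif_pos hex] using this
  have hBk : ∀ ω ∈ CR C, ∀ j, BkD (dat ω) j ↔ pp j • ω ∈ Brk T R := by
    intro ω hω j
    rw [pp_mod (hr ω hω.1)]
  have hPv : ∀ ω ∈ CR C, ∀ j, PvD (dat ω) j ↔ pp j • ω ∈ Priv C := by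
    intro ω hω j
    rw [pp_mod (hr ω hω.1)]
  refine ⟨fun ω => aD (dat ω), fun ω => lD (dat ω), ?_, ?_, ?_, ?_⟩
  · exact (measurable_of_countable aD).comp hdatm
  · exact (measurable_of_countable lD).comp hdatm
  · exact
      { a_lt := fun ω hω => (hArc ω hω).a_lt
        l_pos := fun ω hω => (hArc ω hω).l_pos
        l_le := fun ω hω => (hArc ω hω).l_le
        priv := fun ω hω i hi => (hPv ω hω _).1 ((hArc ω hω).priv i hi)
        start := fun ω hω => (hBk ω hω _).1 (hArc ω hω).start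
        fin := fun ω hω => (hBk ω hω _).1 (hArc ω hω).fin
        int := fun ω hω i h1 h2 h3 => (hArc ω hω).int i h1 h2 ((hBk ω hω _).2 h3) }
  · intro ω hω
    have h := (hArc ω hω).card
    have e1 : {j : ℕ | j < 80 ∧ tau j • ω ∈ Priv C} = {j : ℕ | j < 80 ∧ PvD (dat ω) j} := by
      ext j
      simp only [Set.mem_ofPred_eq]
      refine and_congr_right fun hj => ?_
      rw [hPv ω hω, pp_lt hj]
    have e2 : {j : ℕ | j < 80 ∧ tau j • ω ∈ Priv C ∧ tau j • ω ∈ Brk T R} =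
        {j : ℕ | j < 80 ∧ PvD (dat ω) j ∧ BkD (dat ω) j} := by
      ext j
      simp only [Set.mem_ofPred_eq]
      refine and_congr_right fun hj => ?_
      rw [hPv ω hω, hBk ω hω, pp_lt hj]
    rw [e1, e2]
    exact h

theorem coli_of (_ : GRP_iQ) (_ : GRP_rr) (_ : GRP_tau) : COLI := coli

end Crest.Agent.R191
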