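import Crest.Agent.R191.Stmts
import Crest.Agent.R191.Basics

set_option autoImplicit false
set_option linter.unusedSectionVars false

namespace Crest.Agent.R191

open MeasureTheory
open scoped ENNReal

namespace COLM

section gen
variable {Ω : Type} [MeasurableSpace Ω] [MulAction FF Ω] {m : Measure Ω} {b : Ω → ℝ}

/-- points whose `j`-th predecessor is a cell -/
def E (C : Set Ω) (j : ℕ) : Set Ω := {e | (tau j)⁻¹ • e ∈ C}

theorem measE (h : Sp Ω m b) {C : Set Ω} (hC : MeasurableSet C) (j : ℕ) :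
    MeasurableSet (E C j) := (h.mp _).measurable hC

theorem mE (h : Sp Ω m b) {C : Set Ω} (hC : MeasurableSet C) (j : ℕ) : m (E C j) = m C :=
  (h.mp _).measure_preimage hC.nullMeasurableSet

theorem priv_iff {C : Set Ω} {e : Ω} :
    e ∈ Priv C ↔ ∃ j < 80, e ∈ E C j ∧ ∀ i < 80, e ∈ E C i → i = j := Iff.rfl

theorem measPriv (h : Sp Ω m b) {C : Set Ω} (hC : MeasurableSet C) : MeasurableSet (Priv C) := by
  have : Priv C = ⋃ j : Fin 80, (E C j ∩ ⋂ i : Fin 80, {e | e ∈ E C i → i = j}) := by
    ext e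
    simp only [priv_iff, Set.mem_iUnion, Set.mem_inter_iff, Set.mem_iInter, Set.mem_ofPred_eq]
    constructor
    · rintro ⟨j, hj, h1, h2⟩
      exact ⟨⟨j, hj⟩, h1, fun i hi => Fin.ext (h2 i i.2 hi)⟩
    · rintro ⟨j, h1, h2⟩
      exact ⟨j, j.2, h1, fun i hi h3 => congrArg Fin.val (h2 ⟨i, hi⟩ h3)⟩
  rw [this]
  refine MeasurableSet.iUnion fun j => (measE h hC j).inter (MeasurableSet.iInter fun i => ?_)
  by_cases hij : i = j
  · simp [hij]
  · have : {e | e ∈ E C i → i = j} = (E C i)ᶜ := by
      ext e; simp [hij]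
    rw [this]
    exact (measE h hC i).compl

theorem measCR (h : Sp Ω m b) {C : Set Ω} (hC : MeasurableSet C) : MeasurableSet (CR C) := by
  have : CR C = C ∩ ⋃ j : Fin 80, (fun ω : Ω => tau (j : ℕ) • ω) ⁻¹' Priv C := by
    ext ω
    simp only [CR, Set.mem_inter_iff, Set.mem_iUnion, Set.mem_preimage, Set.mem_ofPred_eq]
    constructor
    · rintro ⟨h1, j, hj, h2⟩; exact ⟨h1, ⟨j, hj⟩, h2⟩
    · rintro ⟨h1, j, h2⟩; exact ⟨h1, j, j.2, h2⟩
  rw [this]
  exact hC.inter (MeasurableSet.iUnion fun j => (h.mp _).measurable (measPriv h hC))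

/-- `m Priv ≥ 60 m C` -/
theorem priv_ge (h : Sp Ω m b) {C : Set Ω} (hC : MeasurableSet C) (hfin : m C ≠ ∞)
    (hexp : 70 * m C ≤ m (⋃ j : Fin 80, (fun ω : Ω => tau (j : ℕ) • ω) '' C)) :
    60 * m C ≤ m (Priv C) := by
  have hU : (⋃ j : Fin 80, (fun ω : Ω => tau (j : ℕ) • ω) '' C) = ⋃ j : Fin 80, E C j := by
    ext e
    simp only [Set.mem_iUnion, Set.mem_image, E, Set.mem_ofPred_eq]
    constructor
    · rintro ⟨j, ω, h1, rfl⟩; exact ⟨j, by rwa [inv_smul_smul]⟩
    · rintro ⟨j, h1⟩; exact ⟨j, _, h1, by rw [smul_inv_smul]⟩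
  rw [hU] at hexp
  have hUm : MeasurableSet (⋃ j : Fin 80, E C j) := MeasurableSet.iUnion fun j => measE h hC j
  have hpt : ∀ e : Ω, 2 * (⋃ j : Fin 80, E C j).indicator (fun _ => (1:ℝ≥0∞)) e ≤
      ∑ j ∈ Finset.range 80, (E C j).indicator (fun _ => (1:ℝ≥0∞)) e +
        (Priv C).indicator (fun _ => (1:ℝ≥0∞)) e := by
    intro e
    by_cases he : e ∈ ⋃ j : Fin 80, E C j
    · obtain ⟨j, hj⟩ := Set.mem_iUnion.1 he
      rw [Set.indicator_of_mem he]
      by_cases hP : e ∈ Priv C
      · rw [Set.indicator_of_mem hP]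
        have : (1:ℝ≥0∞) ≤ ∑ j ∈ Finset.range 80, (E C j).indicator (fun _ => (1:ℝ≥0∞)) e := by
          have h1 := Finset.single_le_sum (f := fun j => (E C j).indicator (fun _ => (1:ℝ≥0∞)) e)
            (s := Finset.range 80) (fun _ _ => zero_le) (Finset.mem_range.2 j.2)
          simp only [Set.indicator_of_mem hj] at h1
          exact h1
        calc 2 * (1:ℝ≥0∞) = 1 + 1 := by norm_num
          _ ≤ _ := add_le_add this le_rfl
      · have hex : ∃ i < 80, e ∈ E C i ∧ i ≠ j := by
          by_contra hcon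
          push Not at hcon
          exact hP ⟨j, j.2, hj, hcon⟩
        obtain ⟨i, hi, h2, h3⟩ := hex
        have h4 : ({i, (j:ℕ)} : Finset ℕ) ⊆ Finset.range 80 := by
          intro x hx
          simp only [Finset.mem_insert, Finset.mem_singleton] at hx
          rcases hx with rfl | rfl
          · exact Finset.mem_range.2 hi
          · exact Finset.mem_range.2 j.2
        have h5 := Finset.sum_le_sum_of_subset (f := fun j => (E C j).indicator
          (fun _ => (1:ℝ≥0∞)) e) h4
        rw [Finset.sum_pair h3] at h5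
        simp only [Set.indicator_of_mem hj, Set.indicator_of_mem h2] at h5
        calc 2 * (1:ℝ≥0∞) = 1 + 1 := by norm_num
          _ ≤ _ := h5.trans le_self_add
    · rw [Set.indicator_of_notMem he]; simp
  have hint := lintegral_mono (μ := m) hpt
  rw [lintegral_const_mul _ (measurable_const.indicator hUm), lintegral_add_right _
    (measurable_const.indicator (measPriv h hC)), lintegral_finsetSum _
    (fun j _ => measurable_const.indicator (measE h hC j))] at hint
  simp only [lintegral_indicator_const hUm, lintegral_indicator_const (measPriv h hC),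
    lintegral_indicator_const (measE h hC _), mE h hC, one_mul, Finset.sum_const,
    Finset.card_range, nsmul_eq_mul] at hint
  have h2 : 140 * m C ≤ 80 * m C + m (Priv C) := by
    calc 140 * m C = 2 * (70 * m C) := by rw [← mul_assoc]; norm_num
      _ ≤ _ := by gcongr
      _ ≤ _ := hint
      _ = _ := by norm_num
  have h3 : 80 * m C + 60 * m C ≤ 80 * m C + m (Priv C) := by
    calc 80 * m C + 60 * m C = 140 * m C := by rw [← add_mul]; norm_num
      _ ≤ _ := h2
  exact (ENNReal.add_le_add_iff_left (ENNReal.mul_ne_top (by norm_num) hfin)).1 h3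

/-- counting identity for private edges -/
theorem count (h : Sp Ω m b) {C : Set Ω} (hC : MeasurableSet C) {A : Set Ω}
    (hA : MeasurableSet A) :
    ∑ j ∈ Finset.range 80, m {ω | ω ∈ C ∧ tau j • ω ∈ Priv C ∩ A} = m (Priv C ∩ A) := by
  have h1 : ∀ j, m {ω | ω ∈ C ∧ tau j • ω ∈ Priv C ∩ A} = m (E C j ∩ (Priv C ∩ A)) := by
    intro j
    rw [← (h.mp (tau j)).measure_preimage
      ((measE h hC j).inter ((measPriv h hC).inter hA)).nullMeasurableSet]
    congr 1
    ext ω
    simp [E]
    tauto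
  simp_rw [h1]
  rw [← measure_biUnion_finset]
  · congr 1
    ext e
    simp only [Set.mem_iUnion, Set.mem_inter_iff, Finset.mem_range, exists_prop]
    constructor
    · rintro ⟨j, -, -, h2⟩; exact h2
    · intro h2
      obtain ⟨j, hj, h3, -⟩ := h2.1
      exact ⟨j, hj, h3, h2⟩
  · intro i hi j hj hij
    simp only [Finset.coe_range, Set.mem_Iio] at hi hj
    rw [Function.onFun, Set.disjoint_left]
    rintro e ⟨h2, ⟨k, hk, h3, h4⟩, -⟩ ⟨h5, -⟩
    exact hij ((h4 i hi h2).trans (h4 j hj h5).symm)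
  · intro j _
    exact (measE h hC j).inter ((measPriv h hC).inter hA)

theorem arith (p l N : ℕ) (hp : p ≤ 80) (h : p ≤ l * N) : 16 * p ≤ 64 * l + 80 * N := by
  by_contra hcon
  push Not at hcon
  have h1 : 4 * l + 5 * N < p := by omega
  have h2 : (4 * l + 5 * N) * (4 * l + 5 * N) < p * p := by nlinarith
  have h3 : 80 * (l * N) ≤ (4 * l + 5 * N) * (4 * l + 5 * N) := by
    zify
    nlinarith [sq_nonneg ((4:ℤ) * l - 5 * N)]
  nlinarith

theorem arith' (p l N : ℕ) (h : 16 * p ≤ 64 * l + 80 * N) :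
    (16:ℝ≥0∞) * (p : ℝ≥0∞) ≤ 64 * (l : ℝ≥0∞) + 80 * (N : ℝ≥0∞) := by exact_mod_cast h

open Classical in
theorem ncard_eq (P : ℕ → Prop) :
    {j : ℕ | j < 80 ∧ P j}.ncard = ((Finset.range 80).filter P).card := by
  rw [← Set.ncard_coe_finset]
  congr 1
  ext j
  simp

end gen

end COLM

open COLM Classical in
theorem colm_of (_ht : GRP_tau) : COLM := by
  intro Ω _ _ m b hS T R C hT hR hC hRq hrr hCT hTfin hexp a ell ha hell hI hcard hBrk
  have hmg : ∀ g : FF, Measurable fun ω : Ω => g • ω := fun g => (hS.mp g).measurable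
  have hCsub : C ⊆ T := by
    intro ω hω
    have := hCT ω hω 0 (by norm_num)
    simpa [tau] using this
  have hCfin : m C ≠ ∞ := ne_top_of_le_ne_top hTfin (measure_mono hCsub)
  have hP := measPriv hS hC
  have hCR := measCR hS hC
  have hB : MeasurableSet (Brk T R) := measurableSet_Brk hmg hT hR
  have hPT : Priv C ⊆ T := by
    rintro e ⟨j, hj, h1, -⟩
    have := hCT _ h1 j hj
    rwa [smul_inv_smul] at this
  have h60 := priv_ge hS hC hCfin hexp
  -- the sets S_j
  set S : ℕ → Set Ω := fun j => CR C ∩ {ω | ∃ i < ell ω, (a ω + i) % 80 = j} with hSdef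
  have hSm : ∀ j, MeasurableSet (S j) := by
    intro j
    refine hCR.inter ?_
    have : {ω | ∃ i < ell ω, (a ω + i) % 80 = j} =
        (fun ω => (a ω, ell ω)) ⁻¹' {p : ℕ × ℕ | ∃ i < p.2, (p.1 + i) % 80 = j} := rfl
    rw [this]
    exact (ha.prodMk hell) (MeasurableSet.of_discrete)
  have hSpriv : ∀ j, ∀ ω ∈ S j, tau j • ω ∈ Priv C := by
    rintro j ω ⟨h1, i, hi, rfl⟩
    have h2 := hI.priv ω h1 i hi
    rwa [pp_mod (hrr ω h1.1)] at h2
  have harc : arcE C a ell = ⋃ j ∈ Finset.range 80, (fun e : Ω => (tau j)⁻¹ • e) ⁻¹' (S j) := by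
    ext e
    simp only [arcE, Set.mem_ofPred_eq, Set.mem_iUnion, Set.mem_preimage, Finset.mem_range,
      exists_prop]
    constructor
    · rintro ⟨ω, h1, i, hi, rfl⟩
      refine ⟨(a ω + i) % 80, Nat.mod_lt _ (by norm_num), ?_⟩
      rw [pp_mod (hrr ω h1.1), inv_smul_smul]
      exact ⟨h1, i, hi, rfl⟩
    · rintro ⟨j, hj, h1, i, hi, h2⟩
      refine ⟨(tau j)⁻¹ • e, h1, i, hi, ?_⟩
      rw [pp_mod (hrr _ h1.1), h2, smul_inv_smul]
  have harcm : MeasurableSet (arcE C a ell) := by
    rw [harc]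
    exact Finset.measurableSet_biUnion _ fun j _ => hmg _ (hSm j)
  have harcT : arcE C a ell ⊆ T := by
    rintro e ⟨ω, h1, i, hi, rfl⟩
    exact hPT (hI.priv ω h1 i hi)
  -- sums as integrals
  have hsumP : ∑ j ∈ Finset.range 80, m {ω | ω ∈ C ∧ tau j • ω ∈ Priv C} = m (Priv C) := by
    have := count hS hC (A := Set.univ) MeasurableSet.univ
    simpa using this
  have hsumN := count hS hC hB
  set pE : Ω → ℝ≥0∞ := fun ω => ∑ j ∈ Finset.range 80,
    {ω | ω ∈ C ∧ tau j • ω ∈ Priv C}.indicator (fun _ => (1:ℝ≥0∞)) ω with hpE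
  set NE : Ω → ℝ≥0∞ := fun ω => ∑ j ∈ Finset.range 80,
    {ω | ω ∈ C ∧ tau j • ω ∈ Priv C ∩ Brk T R}.indicator (fun _ => (1:ℝ≥0∞)) ω with hNE
  set LE : Ω → ℝ≥0∞ := fun ω => ∑ j ∈ Finset.range 80,
    (S j).indicator (fun _ => (1:ℝ≥0∞)) ω with hLE
  have hm1 : ∀ j, MeasurableSet {ω | ω ∈ C ∧ tau j • ω ∈ Priv C} := fun j =>
    hC.inter (hmg _ hP)
  have hm2 : ∀ j, MeasurableSet {ω | ω ∈ C ∧ tau j • ω ∈ Priv C ∩ Brk T R} := fun j =>
    hC.inter (hmg _ (hP.inter hB))
  have ip : ∫⁻ ω, pE ω ∂m = m (Priv C) := by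
    rw [lintegral_finsetSum _ (fun j _ => measurable_const.indicator (hm1 j))]
    simp only [lintegral_indicator_const (hm1 _), one_mul]
    exact hsumP
  have iN : ∫⁻ ω, NE ω ∂m = m (Priv C ∩ Brk T R) := by
    rw [lintegral_finsetSum _ (fun j _ => measurable_const.indicator (hm2 j))]
    simp only [lintegral_indicator_const (hm2 _), one_mul]
    exact hsumN
  have iL : ∫⁻ ω, LE ω ∂m = m (arcE C a ell) := by
    rw [lintegral_finsetSum _ (fun j _ => measurable_const.indicator (hSm j))]
    simp only [lintegral_indicator_const (hSm _), one_mul]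
    rw [harc, measure_biUnion_finset]
    · refine Finset.sum_congr rfl fun j _ => ?_
      exact ((hS.mp (tau j)⁻¹).measure_preimage (hSm j).nullMeasurableSet).symm
    · intro i hi j hj hij
      simp only [Finset.coe_range, Set.mem_Iio] at hi hj
      rw [Function.onFun, Set.disjoint_left]
      intro e h2 h3
      simp only [Set.mem_preimage] at h2 h3
      have h4 := hSpriv i _ h2
      rw [smul_inv_smul] at h4
      obtain ⟨k, hk, h5, h6⟩ := h4
      exact hij ((h6 i hi h2.1.1).trans (h6 j hj h3.1.1).symm)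
    · intro j _
      exact hmg _ (hSm j)
  -- values as cardinals
  have cp : ∀ ω ∈ C, pE ω = (((Finset.range 80).filter fun j => tau j • ω ∈ Priv C).card : ℝ≥0∞) := by
    intro ω hω
    rw [hpE]
    simp only [Set.indicator_apply, Set.mem_ofPred_eq, hω, true_and]
    rw [Finset.sum_boole]
  have cN : ∀ ω ∈ C, NE ω = (((Finset.range 80).filter fun j => tau j • ω ∈ Priv C ∧
      tau j • ω ∈ Brk T R).card : ℝ≥0∞) := by
    intro ω hω
    rw [hNE]
    simp only [Set.indicator_apply, Set.mem_ofPred_eq, Set.mem_inter_iff, hω, true_and]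
    rw [Finset.sum_boole]
  have cL : ∀ ω ∈ CR C, (ell ω : ℝ≥0∞) ≤ LE ω := by
    intro ω hω
    have h1 : LE ω = (((Finset.range 80).filter fun j => ω ∈ S j).card : ℝ≥0∞) := by
      rw [hLE]
      simp only [Set.indicator_apply]
      rw [Finset.sum_boole]
    rw [h1]
    norm_cast
    have h2 : ((Finset.range (ell ω)).image fun i => (a ω + i) % 80) ⊆
        (Finset.range 80).filter fun j => ω ∈ S j := by
      intro j hj
      obtain ⟨i, hi, rfl⟩ := Finset.mem_image.1 hj
      simp only [Finset.mem_filter, Finset.mem_range]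
      exact ⟨Nat.mod_lt _ (by norm_num), hω, i, Finset.mem_range.1 hi, rfl⟩
    have h3 := Finset.card_le_card h2
    rw [Finset.card_image_of_injOn, Finset.card_range] at h3
    · exact h3
    · intro i hi i' hi' hii
      simp only [Finset.coe_range, Set.mem_Iio] at hi hi'
      have := hI.l_le ω hω
      simp only at hii
      omega
  have hnotCR : ∀ ω, ω ∉ CR C → pE ω = 0 := by
    intro ω hω
    rw [hpE]
    refine Finset.sum_eq_zero fun j hj => ?_
    rw [Set.indicator_of_notMem]
    rintro ⟨h1, h2⟩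
    exact hω ⟨h1, j, Finset.mem_range.1 hj, h2⟩
  -- first estimate
  have e1 : m (Priv C) ≤ 80 * m (CR C) := by
    rw [← ip]
    have : ∀ ω, pE ω ≤ (CR C).indicator (fun _ => (80:ℝ≥0∞)) ω := by
      intro ω
      by_cases hω : ω ∈ CR C
      · rw [Set.indicator_of_mem hω, cp ω hω.1]
        have := Finset.card_filter_le (Finset.range 80) (fun j => tau j • ω ∈ Priv C)
        rw [Finset.card_range] at this
        exact_mod_cast this
      · rw [hnotCR ω hω]; exact zero_le
    refine (lintegral_mono this).trans ?_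
    rw [lintegral_indicator_const hCR]
  -- second estimate
  have e2 : 16 * m (Priv C) ≤ 64 * m (arcE C a ell) + 80 * m (Priv C ∩ Brk T R) := by
    rw [← ip, ← iL, ← iN]
    have mp : Measurable pE := Finset.measurable_sum _ fun j _ => measurable_const.indicator (hm1 j)
    have mN : Measurable NE := Finset.measurable_sum _ fun j _ => measurable_const.indicator (hm2 j)
    have mL : Measurable LE := Finset.measurable_sum _ fun j _ => measurable_const.indicator (hSm j)
    rw [← lintegral_const_mul _ mp, ← lintegral_const_mul _ mL, ← lintegral_const_mul _ mN,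
      ← lintegral_add_left (mL.const_mul _)]
    refine lintegral_mono fun ω => ?_
    by_cases hω : ω ∈ CR C
    · have h1 := hcard ω hω
      rw [ncard_eq, ncard_eq] at h1
      have h2 := Finset.card_filter_le (Finset.range 80) (fun j => tau j • ω ∈ Priv C)
      rw [Finset.card_range] at h2
      have h3 := arith _ _ _ h2 h1
      have h4 := cL ω hω
      simp only
      rw [cp ω hω.1, cN ω hω.1]
      calc (16:ℝ≥0∞) * (((Finset.range 80).filter fun j => tau j • ω ∈ Priv C).card : ℝ≥0∞)
          ≤ 64 * (ell ω : ℝ≥0∞) + 80 * (((Finset.range 80).filter fun j => tau j • ω ∈ Priv C ∧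
              tau j • ω ∈ Brk T R).card : ℝ≥0∞) := by
            refine arith' _ _ _ ?_
            convert h3
        _ ≤ _ := by gcongr
    · simp only
      rw [hnotCR ω hω]; simp
  refine ⟨hCR, harcm, harcT, ?_, ?_⟩
  · have h1 : 20 * (3 * m C) ≤ 20 * (4 * m (CR C)) := by
      calc 20 * (3 * m C) = 60 * m C := by rw [← mul_assoc]; norm_num
        _ ≤ m (Priv C) := h60
        _ ≤ 80 * m (CR C) := e1
        _ = _ := by rw [← mul_assoc]; norm_num
    exact (ENNReal.mul_le_mul_iff_right (by norm_num) (by norm_num)).1 h1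
  · have h1 : m (Priv C ∩ Brk T R) ≤ 7 * m C := by
      refine (measure_mono ?_).trans hBrk
      exact Set.inter_subset_inter_left _ hPT
    have h2 : 960 * m C ≤ 64 * m (arcE C a ell) + 560 * m C := by
      calc 960 * m C = 16 * (60 * m C) := by rw [← mul_assoc]; norm_num
        _ ≤ 16 * m (Priv C) := by gcongr
        _ ≤ _ := e2
        _ ≤ 64 * m (arcE C a ell) + 80 * (7 * m C) := by gcongr
        _ = _ := by rw [← mul_assoc]; norm_num
    have h3 : 400 * m C + 560 * m C ≤ 64 * m (arcE C a ell) + 560 * m C := by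
      calc 400 * m C + 560 * m C = 960 * m C := by rw [← add_mul]; norm_num
        _ ≤ _ := h2
    have h4 := (ENNReal.add_le_add_iff_right (ENNReal.mul_ne_top (by norm_num) hCfin)).1 h3
    have h5 : 64 * (5 * m C) ≤ 64 * m (arcE C a ell) := by
      calc 64 * (5 * m C) = 320 * m C := by rw [← mul_assoc]; norm_num
        _ ≤ 400 * m C := by gcongr; norm_num
        _ ≤ _ := h4
    exact (ENNReal.mul_le_mul_iff_right (by norm_num) (by norm_num)).1 h5

end Crest.Agent.R191
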