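import Crest.Agent.R191.Stmts

/-! Row 191, task DEHN0: Dehn-type lemma in the free group `G0`. -/

set_option autoImplicit false

namespace Crest.Agent.R191

namespace DEHN0

/-- letters: generators `x = none`, `u_j = some j` (`j < 80`) -/
abbrev XL := Option (Fin 80) × Bool

/-- generator at position `p` of the cyclic relator `u_79 x u_78 x ⋯ u_0 x` -/
def rl (p : ℤ) : Option (Fin 80) :=
  if p % 2 = 1 then none else some ⟨((79 - p / 2) % 80).toNat, by omega⟩

theorem rl_odd {p : ℤ} (h : p % 2 = 1) : rl p = none := by simp [rl, h]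

theorem rl_eq_none {p : ℤ} : rl p = none ↔ p % 2 = 1 := by
  unfold rl; split_ifs with h <;> simp [h]

theorem rl_even {p : ℤ} (h : p % 2 = 0) :
    rl p = some ⟨((79 - p / 2) % 80).toNat, by omega⟩ := by
  unfold rl; rw [if_neg (by omega)]

theorem rl_congr {p q : ℤ} (h : p % 160 = q % 160) : rl p = rl q := by
  unfold rl
  by_cases h1 : p % 2 = 1
  · rw [if_pos h1, if_pos (by omega)]
  · rw [if_neg h1, if_neg (by omega)]
    congr 2
    have : (79 - p / 2) % 80 = (79 - q / 2) % 80 := by omega
    rw [this]

theorem rl_inj {p q : ℤ} (h : rl p = rl q) :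
    (p % 2 = 1 ∧ q % 2 = 1) ∨ p % 160 = q % 160 := by
  by_cases h1 : p % 2 = 1
  · left
    rw [rl_odd h1] at h
    exact ⟨h1, rl_eq_none.1 h.symm⟩
  · right
    have h2 : q % 2 ≠ 1 := by
      intro h2
      rw [rl_odd h2] at h
      exact h1 (rl_eq_none.1 h)
    rw [rl_even (by omega), rl_even (by omega)] at h
    simp only [Option.some.injEq, Fin.mk.injEq] at h
    omega

theorem rl_zero : rl 0 = some 79 := by
  rw [rl_even (by norm_num)]
  rfl

theorem rl_eq_79 {p : ℤ} (h : rl p = some 79) : p % 160 = 0 := by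
  rw [← rl_zero] at h
  rcases rl_inj h with h1 | h1
  · omega
  · simpa using h1

def sg (σ : Bool) : ℤ := if σ then 1 else -1

@[simp] theorem sg_not (σ : Bool) : sg (!σ) = - sg σ := by cases σ <;> rfl

theorem sg_cases (σ : Bool) : sg σ = 1 ∨ sg σ = -1 := by cases σ <;> simp [sg]

/-- subword of the relator -/
def piece (σ : Bool) : ℤ → ℕ → List XL
  | _, 0 => []
  | p, m + 1 => (rl p, σ) :: piece σ (p + sg σ) m

theorem piece_congr (σ : Bool) {p q : ℤ} (h : p % 160 = q % 160) (m : ℕ) :
    piece σ p m = piece σ q m := by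
  induction m generalizing p q with
  | zero => rfl
  | succ m ih =>
    simp only [piece]
    rw [rl_congr h, ih (p := p + sg σ) (q := q + sg σ) (by omega)]

theorem piece_add (σ : Bool) (p : ℤ) (m n : ℕ) :
    piece σ p (m + n) = piece σ p m ++ piece σ (p + m * sg σ) n := by
  induction m generalizing p with
  | zero => simp [piece]
  | succ m ih =>
    rw [show m + 1 + n = (m + n) + 1 by ring]
    simp only [piece, List.cons_append]
    rw [ih]
    congr 3
    push_cast; ring

theorem piece_succ' (σ : Bool) (p : ℤ) (m : ℕ) :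
    piece σ p (m + 1) = piece σ p m ++ [(rl (p + m * sg σ), σ)] := by
  rw [piece_add]; rfl

theorem piece_length (σ : Bool) (p : ℤ) (m : ℕ) : (piece σ p m).length = m := by
  induction m generalizing p with
  | zero => rfl
  | succ m ih => simp [piece, ih]

theorem mem_piece {σ : Bool} {p : ℤ} {m : ℕ} {a : XL} (h : a ∈ piece σ p m) :
    ∃ i : ℕ, i < m ∧ a = (rl (p + i * sg σ), σ) := by
  induction m generalizing p with
  | zero => simp [piece] at h
  | succ m ih =>
    simp only [piece, List.mem_cons] at h
    rcases h with h | h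
    · exact ⟨0, by omega, by simpa using h⟩
    · obtain ⟨i, h1, h2⟩ := ih h
      refine ⟨i + 1, by omega, ?_⟩
      rw [h2]; congr 2; push_cast; ring

/-! ### values in `G0` -/

/-- the evaluation homomorphism -/
def Th : FreeGroup (Option (Fin 80)) →* G0 :=
  FreeGroup.lift (fun o => match o with
    | none => x0
    | some j => u0 j)

def val (w : List XL) : G0 := Th (FreeGroup.mk w)

theorem val_nil : val [] = 1 := by
  unfold val; rw [← FreeGroup.one_eq_mk]; exact map_one _

theorem val_append (v w : List XL) : val (v ++ w) = val v * val w := by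
  unfold val; rw [← FreeGroup.mul_mk, map_mul]

theorem val_cons (a : XL) (w : List XL) : val (a :: w) = val [a] * val w := by
  rw [← val_append]; rfl

theorem val_neg (o : Option (Fin 80)) (σ : Bool) : val [(o, !σ)] = (val [(o, σ)])⁻¹ := by
  unfold val
  rw [← map_inv, FreeGroup.inv_mk]
  rfl

theorem val_some (j : Fin 80) : val [(some j, true)] = u0 j := by
  unfold val Th
  rw [FreeGroup.lift_mk]
  simp

theorem val_none : val [(none, true)] = x0 := by
  unfold val Th
  rw [FreeGroup.lift_mk]
  simp

theorem val_cancel (o : Option (Fin 80)) (σ : Bool) (w : List XL) :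
    val [(o, σ)] * val ((o, !σ) :: w) = val w := by
  rw [val_cons (o, !σ), val_neg]; simp

/-- inverse of a piece -/
theorem val_piece_inv (σ : Bool) (p : ℤ) (m : ℕ) :
    (val (piece σ p m))⁻¹ = val (piece (!σ) (p + m * sg σ - sg σ) m) := by
  induction m generalizing p with
  | zero => simp [piece, val_nil]
  | succ m ih =>
    have h1 : piece σ p (m + 1) = (rl p, σ) :: piece σ (p + sg σ) m := rfl
    rw [h1, val_cons, mul_inv_rev, ih, piece_succ', val_append, ← val_neg]
    congr 2
    · congr 1; push_cast; ring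
    · congr 3
      rw [sg_not]; push_cast; ring

theorem val_period_succ (σ : Bool) (p : ℤ) (h : val (piece σ p 160) = 1) :
    val (piece σ (p + sg σ) 160) = 1 := by
  have h1 : piece σ p 160 = (rl p, σ) :: piece σ (p + sg σ) 159 := rfl
  have h2 : piece σ (p + sg σ) 160 = piece σ (p + sg σ) 159 ++ [(rl p, σ)] := by
    rw [piece_succ']
    congr 3
    apply rl_congr
    rcases sg_cases σ with h | h <;> rw [h] <;> push_cast <;> omega
  rw [h1, val_cons] at h
  rw [h2, val_append]
  have h3 : val (piece σ (p + sg σ) 159) = (val [(rl p, σ)])⁻¹ := by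
    rw [eq_inv_iff_mul_eq_one]
    have := congrArg (fun g => (val [(rl p, σ)])⁻¹ * g * val [(rl p, σ)]) h
    simpa using this
  rw [h3]; simp

theorem val_t0 (n : ℕ) (hn : n ≤ 79) :
    val (piece true (160 - 2 * (n : ℤ)) (2 * n)) = t0 n := by
  induction n with
  | zero => simp [piece, val_nil, t0]
  | succ n ih =>
    have h1 : piece true (160 - 2 * ((n + 1 : ℕ) : ℤ)) (2 * (n + 1)) =
        (rl (160 - 2 * ((n + 1 : ℕ) : ℤ)), true) ::
          (rl (160 - 2 * ((n + 1 : ℕ) : ℤ) + 1), true) :: piece true (160 - 2 * (n : ℤ)) (2 * n) := by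
      have e : (160 - 2 * ((n + 1 : ℕ) : ℤ)) + 1 + 1 = 160 - 2 * (n : ℤ) := by push_cast; ring
      rw [show 2 * (n + 1) = (2 * n) + 1 + 1 by ring]
      simp only [piece, sg, if_true]
      rw [e]
    rw [h1, val_cons, val_cons (rl _, true) (piece _ _ _), ih (by omega)]
    have h2 : rl (160 - 2 * ((n + 1 : ℕ) : ℤ) + 1) = none := rl_odd (by omega)
    have h3 : rl (160 - 2 * ((n + 1 : ℕ) : ℤ)) = some ⟨n, by omega⟩ := by
      rw [rl_even (by omega)]
      exact congrArg some (Fin.ext (by simp only []; omega))
    rw [h2, h3, val_none, val_some]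
    have h4 : u0 n = g0 n := if_pos (by omega)
    have h5 : t0 (n + 1) = g0 n * x0 * t0 n := rfl
    rw [h5, mul_assoc, ← h4]

theorem val_relator : val (piece true 0 160) = 1 := by
  have h1 : piece true 0 160 = (rl 0, true) :: (rl 1, true) :: piece true 2 158 := rfl
  have h2 := val_t0 79 le_rfl
  norm_num at h2
  rw [h1, val_cons, val_cons (rl 1, true), h2, rl_zero, rl_odd (by norm_num), val_none, val_some]
  simp [u0]

theorem val_period_true (p : ℤ) : val (piece true p 160) = 1 := by
  have key : ∀ n : ℕ, val (piece true (n : ℤ) 160) = 1 := by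
    intro n
    induction n with
    | zero => simpa using val_relator
    | succ n ih =>
      have := val_period_succ true n ih
      simpa [sg] using this
  have h := key (p % 160).toNat
  rw [← h]
  congr 1
  apply piece_congr
  omega

theorem val_period (σ : Bool) (p : ℤ) : val (piece σ p 160) = 1 := by
  cases σ with
  | true => exact val_period_true p
  | false =>
    have h := val_piece_inv true (p - 160 + 1) 160
    rw [val_period_true] at h
    rw [← inv_eq_one, inv_eq_one, ← inv_one, h]
    simp only [sg, if_true, Bool.not_true]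
    congr 2
    push_cast; ring

/-- Dehn complement -/
theorem val_compl (σ : Bool) (p : ℤ) (m : ℕ) (hm : m ≤ 160) :
    val (piece σ p m) = val (piece (!σ) (p - sg σ) (160 - m)) := by
  have h1 := val_period σ p
  have h2 : (160 : ℕ) = m + (160 - m) := by omega
  rw [h2, piece_add, val_append] at h1
  have h3 : val (piece σ p m) = (val (piece σ (p + m * sg σ) (160 - m)))⁻¹ :=
    eq_inv_of_mul_eq_one_left h1
  rw [h3, val_piece_inv]
  congr 1
  apply piece_congr
  have : ((160 - m : ℕ) : ℤ) = 160 - m := by omega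
  rw [this]
  rcases sg_cases σ with h | h <;> rw [h] <;> ring_nf <;> omega

/-! ### reducedness -/

open FreeGroup (IsReduced)

theorem red_cons {a : XL} {w : List XL} :
    IsReduced (a :: w) ↔ (∀ b ∈ w.head?, a.1 = b.1 → a.2 = b.2) ∧ IsReduced w :=
  List.isChain_cons

theorem red_append {v w : List XL} :
    IsReduced (v ++ w) ↔ IsReduced v ∧ IsReduced w ∧
      ∀ a ∈ v.getLast?, ∀ b ∈ w.head?, a.1 = b.1 → a.2 = b.2 :=
  List.isChain_append

theorem red_piece (σ : Bool) (p : ℤ) (m : ℕ) : IsReduced (piece σ p m) := by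
  induction m generalizing p with
  | zero => exact IsReduced.nil
  | succ m ih =>
    simp only [piece]
    rw [red_cons]
    refine ⟨?_, ih _⟩
    intro b hb _
    have h1 : b ∈ piece σ (p + sg σ) m := List.mem_of_mem_head? hb
    obtain ⟨i, _, h2⟩ := mem_piece h1
    rw [h2]

theorem red_piece_append {σ : Bool} {q : ℤ} {n : ℕ} {w : List XL} (hw : IsReduced w)
    (hj : ∀ b ∈ w.head?, rl (q + n * sg σ) = b.1 → σ = b.2) :
    IsReduced (piece σ q (n + 1) ++ w) := by
  rw [red_append]
  refine ⟨red_piece _ _ _, hw, ?_⟩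
  intro a ha b hb hab
  rw [piece_succ', List.getLast?_append] at ha
  simp only [List.getLast?_singleton, Option.some_or, Option.mem_def, Option.some.injEq] at ha
  subst ha
  exact hj b hb hab

/-- no window of 157 letters starting (and ending) with `x` -/
def NoWin (W : List XL) : Prop :=
  ∀ (σ : Bool) (p : ℤ) (X1 X2 : List XL), p % 2 = 1 → W ≠ X1 ++ piece σ p 157 ++ X2

theorem NoWin.tail {c : XL} {W : List XL} (h : NoWin (c :: W)) : NoWin W := by
  intro σ p X1 X2 hp hW
  exact h σ p (c :: X1) X2 hp (by rw [hW]; simp)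

theorem NoWin.bound {W : List XL} {σ : Bool} {p : ℤ} {m : ℕ} {X2 : List XL} (h : NoWin W)
    (hW : W = piece σ p m ++ X2) : m ≤ 157 := by
  by_contra hm
  obtain ⟨k, hk⟩ : ∃ k, m = 1 + (157 + k) := ⟨m - 158, by omega⟩
  by_cases hp : p % 2 = 1
  · refine h σ p [] (piece σ (p + (157 : ℕ) * sg σ) (1 + k) ++ X2) hp ?_
    rw [hW, hk, show 1 + (157 + k) = 157 + (1 + k) by ring, piece_add]
    simp
  · refine h σ (p + sg σ) (piece σ p 1) (piece σ (p + sg σ + (157 : ℕ) * sg σ) k ++ X2) ?_ ?_
    · rcases sg_cases σ with h | h <;> rw [h] <;> omega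
    · rw [hW, hk, piece_add, piece_add]
      simp

def SB (Z R : List XL) : Prop :=
  ∃ (σ : Bool) (p : ℤ) (m δ : ℕ) (Z' rest : List XL), 1 ≤ m ∧ m ≤ 157 ∧ δ ≤ 1 ∧
    Z = piece σ p m ++ Z' ∧ R = piece (!σ) (p - sg σ) (160 - m - δ) ++ rest

def Inv (W R : List XL) : Prop :=
  IsReduced R ∧ (∀ a ∈ R, a.1 ≠ some 79) ∧ val R = val W ∧
    ∃ t Z RZ, W = t ++ Z ∧ R = t ++ RZ ∧ ((Z = [] ∧ RZ = []) ∨ SB Z RZ)

theorem max_prefix (σ : Bool) (p : ℤ) (t : List XL) :
    ∃ (m : ℕ) (t'' : List XL), t = piece σ p m ++ t'' ∧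
      (t'' = [] ∨ ∃ b t3, t'' = b :: t3 ∧ b ≠ (rl (p + m * sg σ), σ)) := by
  induction t generalizing p with
  | nil => exact ⟨0, [], by simp [piece], Or.inl rfl⟩
  | cons a t ih =>
    by_cases ha : a = (rl p, σ)
    · obtain ⟨m, t'', h1, h2⟩ := ih (p + sg σ)
      refine ⟨m + 1, t'', ?_, ?_⟩
      · rw [h1, ha]; rfl
      · rcases h2 with h2 | ⟨b, t3, h3, h4⟩
        · exact Or.inl h2
        · refine Or.inr ⟨b, t3, h3, ?_⟩
          have : p + sg σ + m * sg σ = p + ((m + 1 : ℕ) : ℤ) * sg σ := by push_cast; ring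
          rwa [this] at h4
    · exact ⟨0, a :: t, by simp [piece], Or.inr ⟨a, t, rfl, by simpa using ha⟩⟩

theorem no79_piece (σ : Bool) {n : ℕ} (hn : n ≤ 159) :
    ∀ a ∈ piece (!σ) (- sg σ) n, a.1 ≠ some 79 := by
  intro a ha h
  obtain ⟨i, hi, rfl⟩ := mem_piece ha
  have h1 := rl_eq_79 h
  rw [sg_not] at h1
  rcases sg_cases σ with h2 | h2 <;> rw [h2] at h1 <;> omega

/-- one step, `c ≠ u_79^±` -/
theorem step_a {c : XL} {W R : List XL} (hn : NoWin (c :: W)) (hr : IsReduced (c :: W))
    (h : Inv W R) (hc : c.1 ≠ some 79) : ∃ R', Inv (c :: W) R' := by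
  obtain ⟨hR, h79, hval, t, Z, RZ, hW, hRt, hZ⟩ := h
  have hv : val (c :: W) = val [c] * val R := by rw [val_cons, hval]
  rcases t with _ | ⟨b, t3⟩
  · rw [List.nil_append] at hW hRt
    subst hW hRt
    rcases hZ with ⟨rfl, rfl⟩ | hZ
    · refine ⟨[c], IsReduced.singleton, ?_, ?_, [c], [], [], rfl, rfl, Or.inl ⟨rfl, rfl⟩⟩
      · simpa using hc
      · rfl
    · obtain ⟨σ, p, m, δ, Z', rest, h1, h2, h3, h4, h5⟩ := id hZ
      have e1 : 160 - m - δ = (159 - m - δ) + 1 := by omega
      have e2 : R = (rl (p - sg σ), !σ) :: (piece (!σ) (p - sg σ - sg σ) (159 - m - δ) ++ rest) := by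
        rw [h5, e1]
        simp only [piece, List.cons_append, sg_not]
        rfl
      by_cases hcc : c = (rl (p - sg σ), σ)
      · have hWp : c :: W = piece σ (p - sg σ) (m + 1) ++ Z' := by
          rw [h4, hcc]
          simp only [piece, List.cons_append, sub_add_cancel]
        have hm := hn.bound hWp
        refine ⟨piece (!σ) (p - sg σ - sg σ) (159 - m - δ) ++ rest, ?_, ?_, ?_, [], c :: W, _,
          rfl, rfl, Or.inr ⟨σ, p - sg σ, m + 1, δ, Z', rest, by omega, hm, h3, hWp, ?_⟩⟩
        · rw [e2, red_cons] at hR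
          exact hR.2
        · intro a ha
          exact h79 a (by rw [e2]; exact List.mem_cons_of_mem _ ha)
        · rw [hv, e2, hcc, val_cancel]
        · rw [show 160 - (m + 1) - δ = 159 - m - δ by omega]; rfl
      · refine ⟨c :: R, ?_, ?_, ?_, [c], W, R, rfl, rfl, Or.inr hZ⟩
        · rw [red_cons]
          refine ⟨?_, hR⟩
          intro b hb hcb
          rw [e2] at hb
          simp only [List.head?_cons, Option.mem_def, Option.some.injEq] at hb
          subst hb
          by_contra hne
          apply hcc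
          obtain ⟨c1, c2⟩ := c
          simp only at hcb hne
          rw [hcb]
          congr 1
          cases c2 <;> cases σ <;> simp_all
        · intro a ha
          rcases List.mem_cons.1 ha with rfl | ha
          · exact hc
          · exact h79 a ha
        · rw [hv, val_cons c R]
  · refine ⟨c :: R, ?_, ?_, ?_, c :: b :: t3, Z, RZ, ?_, ?_, hZ⟩
    · rw [red_cons]
      refine ⟨?_, hR⟩
      intro a ha hca
      rw [hRt] at ha
      rw [red_cons] at hr
      refine hr.1 a ?_ hca
      rw [hW]
      simpa using ha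
    · intro a ha
      rcases List.mem_cons.1 ha with rfl | ha
      · exact hc
      · exact h79 a ha
    · rw [hv, val_cons c R]
    · rw [hW]; rfl
    · rw [hRt]; rfl

theorem step_b {σ : Bool} {W R : List XL} (hn : NoWin ((some 79, σ) :: W))
    (hr : IsReduced ((some 79, σ) :: W))
    (h : Inv W R) : ∃ R', Inv ((some 79, σ) :: W) R' := by
  obtain ⟨hR, h79, hval, t, Z, RZ, hW, hRt, hZ⟩ := h
  have hv : val ((some 79, σ) :: W) = val [(some 79, σ)] * val R := by rw [val_cons, hval]
  obtain ⟨m', t'', ht, ht''⟩ := max_prefix σ (sg σ) t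
  have hc0 : ((some 79 : Option (Fin 80)), σ) :: piece σ (sg σ) m' = piece σ 0 (m' + 1) := by
    simp [piece, rl_zero]
  have hWp : (some 79, σ) :: W = piece σ 0 (m' + 1) ++ (t'' ++ Z) := by
    rw [hW, ht, ← hc0]; simp
  have hm : m' + 1 ≤ 157 := hn.bound hWp
  have hcomp : val [(some 79, σ)] * val (piece σ (sg σ) m') =
      val (piece (!σ) (- sg σ) (159 - m')) := by
    rw [← val_cons, hc0, val_compl σ 0 (m' + 1) (by omega), zero_sub,
      show 160 - (m' + 1) = 159 - m' by omega]
  have hend : rl (- sg σ + ((158 - m' : ℕ) : ℤ) * (sg !σ)) = rl (sg σ + m' * sg σ) := by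
    apply rl_congr
    have : ((158 - m' : ℕ) : ℤ) = 158 - m' := by omega
    rw [this, sg_not]
    rcases sg_cases σ with h2 | h2 <;> rw [h2] <;> ring_nf <;> omega
  have e159 : 159 - m' = (158 - m') + 1 := by omega
  rcases ht'' with rfl | ⟨b, t3, rfl, hb⟩
  · -- everything matched
    rw [List.append_nil] at ht
    rw [List.nil_append] at hWp
    rcases hZ with ⟨rfl, rfl⟩ | hZ
    · refine ⟨piece (!σ) (- sg σ) (159 - m'), red_piece _ _ _, no79_piece σ (by omega), ?_,
        [], (some 79, σ) :: W, piece (!σ) (- sg σ) (159 - m'), rfl, rfl, Or.inr ?_⟩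
      · rw [hv, hRt, ht, List.append_nil, hcomp]
      · refine ⟨σ, 0, m' + 1, 0, [], [], by omega, hm, by omega, ?_, ?_⟩
        · rw [hWp]
        · rw [List.append_nil, zero_sub]
          congr 1
          omega
    · obtain ⟨σ1, p1, m1, δ1, Z1, rest1, h1, h2, h3, h4, h5⟩ := hZ
      have hRZred : IsReduced RZ := by
        rw [hRt] at hR
        exact (red_append.1 hR).2.1
      have hRZ79 : ∀ a ∈ RZ, a.1 ≠ some 79 := fun a ha => h79 a (by rw [hRt]; simp [ha])
      have e1 : 160 - m1 - δ1 = (158 - m1 - δ1) + 1 + 1 := by omega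
      have e2 : RZ = (rl (p1 - sg σ1), !σ1) :: ((rl (p1 - sg σ1 - sg σ1), !σ1) ::
          (piece (!σ1) (p1 - sg σ1 - sg σ1 - sg σ1) (158 - m1 - δ1) ++ rest1)) := by
        rw [h5, e1]
        simp only [piece, List.cons_append, sg_not]
        rfl
      have hZ1 : ∃ Z2, Z = (rl p1, σ1) :: Z2 := by
        rw [h4, show m1 = (m1 - 1) + 1 by omega]
        exact ⟨_, rfl⟩
      obtain ⟨Z2, hZ2⟩ := hZ1
      have hval2 : val ((some 79, σ) :: W) = val (piece (!σ) (- sg σ) (159 - m')) * val RZ := by
        rw [hv, hRt, ht, val_append, ← mul_assoc, hcomp]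
      by_cases hcan : σ1 = (!σ) ∧ rl (sg σ + m' * sg σ) = rl (p1 - sg σ1)
      · obtain ⟨hσ, hrl⟩ := hcan
        subst hσ
        -- no congruence
        have hnc : ¬ ((m' * sg σ) % 160 = p1 % 160) := by
          intro hcon
          have h6 : (some 79, σ) :: W = (piece σ 0 m' ++ [(rl (m' * sg σ), σ)]) ++ Z := by
            rw [hWp, piece_succ', zero_add]
          rw [h6, red_append] at hr
          have h7 := hr.2.2 (rl (m' * sg σ), σ) (by simp) (rl p1, !σ) (by rw [hZ2]; simp)
            (rl_congr hcon)
          cases σ <;> simp at h7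
        rw [sg_not] at hrl e2
        rcases rl_inj hrl with ⟨ho1, ho2⟩ | hcon
        · have e158 : 158 - m' = (157 - m') + 1 := by omega
          have hP : piece (!σ) (- sg σ) (159 - m') =
              piece (!σ) (- sg σ) (158 - m') ++ [(none, !σ)] := by
            rw [e159, piece_succ', hend, rl_odd ho1]
          have hT : RZ = (none, σ) :: ((rl (p1 + sg σ + sg σ), σ) ::
              (piece σ (p1 + sg σ + sg σ + sg σ) (158 - m1 - δ1) ++ rest1)) := by
            rw [e2]
            simp only [Bool.not_not, sub_neg_eq_add]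
            rw [show rl (p1 + sg σ) = none from rl_odd (by rw [sub_neg_eq_add] at ho2; exact ho2)]
          obtain ⟨T, hTT, hTh⟩ : ∃ T, RZ = (none, σ) :: T ∧ T.head? =
              some (rl (p1 + sg σ + sg σ), σ) := ⟨_, hT, rfl⟩
          have hTred : IsReduced T := by
            rw [hTT, red_cons] at hRZred
            exact hRZred.2
          refine ⟨piece (!σ) (- sg σ) (158 - m') ++ T, ?_, ?_, ?_, [], (some 79, σ) :: W, _, rfl,
            rfl, Or.inr ⟨σ, 0, m' + 1, 1, Z, T, by omega, hm, le_rfl, hWp, ?_⟩⟩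
          · rw [e158]
            apply red_piece_append hTred
            intro b hb hrb
            rw [hTh] at hb
            simp only [Option.mem_def, Option.some.injEq] at hb
            subst hb
            simp only at hrb ⊢
            exfalso
            have hend2 : rl (- sg σ + ((157 - m' : ℕ) : ℤ) * (sg !σ)) =
                rl (sg σ + sg σ + m' * sg σ) := by
              apply rl_congr
              have : ((157 - m' : ℕ) : ℤ) = 157 - m' := by omega
              rw [this, sg_not]
              rcases sg_cases σ with h2 | h2 <;> rw [h2] <;> ring_nf <;> omega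
            rw [hend2] at hrb
            rcases rl_inj hrb with ⟨q1, q2⟩ | q
            · rcases sg_cases σ with h2 | h2 <;> rw [h2] at ho1 q1 <;> omega
            · apply hnc
              rcases sg_cases σ with h2 | h2 <;> rw [h2] at q ⊢ <;> omega
          · intro a ha
            rcases List.mem_append.1 ha with ha | ha
            · exact no79_piece σ (by omega) a ha
            · exact hRZ79 a (by rw [hTT]; exact List.mem_cons_of_mem _ ha)
          · rw [hval2, hP, hTT, val_append, val_append, mul_assoc]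
            congr 1
            have := val_cancel none (!σ) T
            rw [Bool.not_not] at this
            exact this.symm
          · rw [zero_sub, show 160 - (m' + 1) - 1 = 158 - m' by omega]; rfl
        · exfalso
          apply hnc
          rcases sg_cases σ with h2 | h2 <;> rw [h2] at hcon ⊢ <;> omega
      · refine ⟨piece (!σ) (- sg σ) (159 - m') ++ RZ, ?_, ?_, (val_append _ _).trans hval2.symm, [],
          (some 79, σ) :: W, _, rfl, rfl, Or.inr ⟨σ, 0, m' + 1, 0, Z, RZ, by omega, hm, by omega,
            hWp, ?_⟩⟩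
        · rw [e159]
          apply red_piece_append hRZred
          intro b hb hrb
          rw [e2] at hb
          simp only [List.head?_cons, Option.mem_def, Option.some.injEq] at hb
          subst hb
          simp only at hrb ⊢
          rw [hend] at hrb
          by_contra hne
          apply hcan
          refine ⟨?_, hrb⟩
          cases σ <;> cases σ1 <;> simp_all
        · intro a ha
          rcases List.mem_append.1 ha with ha | ha
          · exact no79_piece σ (by omega) a ha
          · exact hRZ79 a ha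
        · rw [zero_sub, show 160 - (m' + 1) - 0 = 159 - m' by omega]; rfl
  · have hred : IsReduced (b :: t3 ++ RZ) := by
      rw [hRt, ht, List.append_assoc] at hR
      exact (red_append.1 hR).2.1
    refine ⟨piece (!σ) (- sg σ) (159 - m') ++ (b :: t3 ++ RZ), ?_, ?_, ?_, [],
          (some 79, σ) :: W, _, rfl, rfl, Or.inr ⟨σ, 0, m' + 1, 0, b :: t3 ++ Z, b :: t3 ++ RZ,
            by omega, hm, by omega, hWp, ?_⟩⟩
    · rw [e159]
      apply red_piece_append hred
      intro d hd hrb
      simp only [List.cons_append, List.head?_cons, Option.mem_def, Option.some.injEq] at hd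
      subst hd
      rw [hend] at hrb
      by_contra hne
      apply hb
      obtain ⟨b1, b2⟩ := b
      simp only at hrb hne
      rw [← hrb]
      congr 1
      cases b2 <;> cases σ <;> simp_all
    · intro a ha
      rcases List.mem_append.1 ha with ha | ha
      · exact no79_piece σ (by omega) a ha
      · apply h79 a
        rw [hRt, ht, List.append_assoc]
        exact List.mem_append_right _ ha
    · rw [hv, hRt, ht, List.append_assoc, val_append, ← hcomp, mul_assoc, ← val_append]
    · rw [zero_sub, show 160 - (m' + 1) - 0 = 159 - m' by omega]; rfl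

theorem step {c : XL} {W R : List XL} (hn : NoWin (c :: W)) (hr : IsReduced (c :: W))
    (h : Inv W R) : ∃ R', Inv (c :: W) R' := by
  by_cases hc : c.1 = some 79
  · obtain ⟨o, σ⟩ := c
    simp only at hc
    subst hc
    exact step_b hn hr h
  · exact step_a hn hr h hc

theorem exists_inv (W : List XL) (hn : NoWin W) (hr : IsReduced W) : ∃ R, Inv W R := by
  induction W with
  | nil =>
    exact ⟨[], IsReduced.nil, by simp, rfl, [], [], [], rfl, rfl, Or.inl ⟨rfl, rfl⟩⟩
  | cons c W ih =>
    have h1 := hn.tail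
    have h2 : IsReduced W := (red_cons.1 hr).2
    obtain ⟨R, hR⟩ := ih h1 h2
    exact step hn hr hR

theorem Inv.ne_nil {W R : List XL} (h : Inv W R) (hW : W ≠ []) : R ≠ [] := by
  obtain ⟨_, _, _, t, Z, RZ, h1, h2, h3⟩ := h
  rintro rfl
  have h4 := List.append_eq_nil_iff.1 h2.symm
  obtain ⟨rfl, rfl⟩ := h4
  rcases h3 with ⟨rfl, _⟩ | ⟨σ, p, m, δ, Z', rest, q1, q2, q3, q4, q5⟩
  · exact hW h1
  · rw [show 160 - m - δ = (159 - m - δ) + 1 by omega] at q5
    simp [piece] at q5

/-- retraction to the bigger free group on words without `u_79` -/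
def Ps : G0 →* FreeGroup (Option (Fin 80)) :=
  FreeGroup.map (Option.map (Fin.castSucc : Fin 79 → Fin 80))

theorem Ps_letter (o : Option (Fin 80)) (ho : o ≠ some 79) :
    Ps (val [(o, true)]) = FreeGroup.of o := by
  cases o with
  | none => rw [val_none]; simp [Ps, x0]
  | some j =>
    have hj : (j : ℕ) < 79 := by
      by_contra h
      apply ho
      congr 1
      apply Fin.ext
      have := j.isLt
      have h79 : ((79 : Fin 80) : ℕ) = 79 := rfl
      omega
    rw [val_some]
    unfold u0 g0
    rw [if_pos hj, dif_pos hj]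
    simp only [Ps, FreeGroup.map.of, Option.map_some]
    congr 1

theorem Ps_letter' (o : Option (Fin 80)) (σ : Bool) (ho : o ≠ some 79) :
    Ps (val [(o, σ)]) = FreeGroup.mk [(o, σ)] := by
  cases σ with
  | true => exact Ps_letter o ho
  | false =>
    have h : val [(o, false)] = (val [(o, true)])⁻¹ := val_neg o true
    rw [h, map_inv, Ps_letter o ho]
    rfl

theorem Ps_val (R : List XL) (h : ∀ a ∈ R, a.1 ≠ some 79) : Ps (val R) = FreeGroup.mk R := by
  induction R with
  | nil => rw [val_nil, map_one]; rfl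
  | cons a R ih =>
    obtain ⟨o, σ⟩ := a
    rw [val_cons, map_mul, ih fun b hb => h b (List.mem_cons_of_mem _ hb),
      Ps_letter' o σ (h _ List.mem_cons_self), FreeGroup.mul_mk]
    rfl

theorem main_letters {W : List XL} (hW : W ≠ []) (hr : IsReduced W) (hv : val W = 1) :
    ∃ (σ : Bool) (p : ℤ) (X1 X2 : List XL), p % 2 = 1 ∧ W = X1 ++ piece σ p 157 ++ X2 := by
  by_contra hcon
  push Not at hcon
  have hn : NoWin W := hcon
  obtain ⟨R, hR⟩ := exists_inv W hn hr
  have h1 := hR.ne_nil hW
  obtain ⟨h2, h3, h4, _⟩ := hR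
  have h5 := Ps_val R h3
  rw [h4, hv, map_one] at h5
  apply h1
  rw [← h2.reduce_eq]
  have h6 : FreeGroup.mk R = FreeGroup.mk [] := h5.symm
  have := FreeGroup.reduce.sound h6
  rw [this]; rfl

/-! ### from letters to alternating words -/

theorem mem_AA {g : G0} (hg : g ∈ AA) :
    ∃ w : List XL, IsReduced w ∧ (∀ b ∈ w, b.1 ≠ none) ∧ val w = g := by
  have hle : AA ≤ (FreeGroup.lift (fun j : Fin 80 => u0 j)).range := by
    rw [AA, Subgroup.closure_le]
    rintro _ ⟨j, rfl⟩
    by_cases hj : j < 80
    · exact ⟨FreeGroup.of ⟨j, hj⟩, by simp⟩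
    · refine ⟨FreeGroup.of 79, ?_⟩
      simp only [FreeGroup.lift_apply_of]
      unfold u0
      rw [if_neg (by omega), if_neg]
      have h79 : ((79 : Fin 80) : ℕ) = 79 := rfl
      omega
  obtain ⟨f, hf⟩ := hle hg
  refine ⟨f.toWord.map (fun b => (some b.1, b.2)), ?_, ?_, ?_⟩
  · have h1 : IsReduced f.toWord := FreeGroup.isReduced_toWord
    unfold FreeGroup.IsReduced at h1 ⊢
    rw [List.isChain_map]
    refine h1.imp ?_
    intro a b h2 h3
    simp only [Option.some.injEq] at h3
    exact h2 h3
  · intro b hb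
    rw [List.mem_map] at hb
    obtain ⟨c, _, rfl⟩ := hb
    simp
  · rw [← hf]
    have h2 : f = FreeGroup.mk f.toWord := FreeGroup.mk_toWord.symm
    conv_rhs => rw [h2]
    generalize f.toWord = w
    unfold val Th
    rw [FreeGroup.lift_mk, FreeGroup.lift_mk, List.map_map]
    rfl

open Classical in
/-- chosen word of an element of `AA` -/
noncomputable def wd (a : AA) : List XL :=
  if a = 1 then [] else (mem_AA a.2).choose

theorem wd_one : wd 1 = [] := by simp [wd]

theorem wd_red (a : AA) : IsReduced (wd a) := by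
  unfold wd
  split_ifs with h
  · exact IsReduced.nil
  · exact (mem_AA a.2).choose_spec.1

theorem wd_none (a : AA) : ∀ b ∈ wd a, b.1 ≠ none := by
  unfold wd
  split_ifs with h
  · simp
  · exact (mem_AA a.2).choose_spec.2.1

theorem wd_val (a : AA) : val (wd a) = a := by
  unfold wd
  split_ifs with h
  · rw [h, val_nil]; rfl
  · exact (mem_AA a.2).choose_spec.2.2

theorem wd_nil {a : AA} (h : wd a = []) : a = 1 := by
  apply Subtype.ext
  rw [← wd_val a, h, val_nil]; rfl

noncomputable def wl (a0 : AA) : List (Bool × AA) → List XL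
  | [] => wd a0
  | (p :: l) => wd p.2 ++ (none, p.1) :: wl a0 l

theorem wl_val (a0 : AA) (l : List (Bool × AA)) : val (wl a0 l) = alt0 a0 l := by
  induction l with
  | nil => exact wd_val a0
  | cons p l ih =>
    obtain ⟨e, a⟩ := p
    simp only [wl, alt0]
    rw [val_append, val_cons, ih, wd_val, mul_assoc]
    congr 2
    cases e with
    | true => simp [val_none]
    | false =>
      have := val_neg none true
      rw [val_none] at this
      simpa using this

theorem wl_ne_nil (a0 : AA) {l : List (Bool × AA)} (h : l ≠ []) : wl a0 l ≠ [] := by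
  cases l with
  | nil => exact absurd rfl h
  | cons p l => simp [wl]

theorem wl_red (a0 : AA) (l : List (Bool × AA))
    (h : ¬ ∃ l1 l2 e q, l = l1 ++ (e, q) :: (!e, 1) :: l2) : IsReduced (wl a0 l) := by
  induction l with
  | nil => exact wd_red a0
  | cons p l ih =>
    obtain ⟨e, a⟩ := p
    have h1 : ¬ ∃ l1 l2 e q, l = l1 ++ (e, q) :: (!e, 1) :: l2 := by
      rintro ⟨l1, l2, e', q, rfl⟩
      exact h ⟨(e, a) :: l1, l2, e', q, rfl⟩
    have h2 := ih h1
    simp only [wl]
    rw [red_append]
    refine ⟨wd_red a, ?_, ?_⟩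
    · rw [red_cons]
      refine ⟨?_, h2⟩
      intro b hb hb1
      simp only at hb1 ⊢
      cases l with
      | nil =>
        simp only [wl] at hb
        exact absurd hb1.symm (wd_none a0 b (List.mem_of_mem_head? hb))
      | cons p' l' =>
        obtain ⟨e', a'⟩ := p'
        simp only [wl] at hb
        cases hwd : wd a' with
        | nil =>
          rw [hwd] at hb
          simp only [List.nil_append, List.head?_cons, Option.mem_def, Option.some.injEq] at hb
          subst hb
          simp only
          have ha' := wd_nil hwd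
          subst ha'
          by_contra hne
          apply h
          refine ⟨[], l', e, a, ?_⟩
          cases e <;> cases e' <;> simp_all
        | cons c w =>
          rw [hwd] at hb
          simp only [List.cons_append, List.head?_cons, Option.mem_def, Option.some.injEq] at hb
          subst hb
          exact absurd hb1.symm (wd_none a' c (by rw [hwd]; simp))
    · intro b hb c hc hbc
      simp only [List.head?_cons, Option.mem_def, Option.some.injEq] at hc
      subst hc
      exact absurd hbc (wd_none a b (List.mem_of_getLast? hb))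

theorem parse (a0 : AA) {σ : Bool} {Y : List XL} (l : List (Bool × AA)) :
    ∀ X1, wl a0 l = X1 ++ (none, σ) :: Y →
    ∃ l1 a l'', l = l1 ++ (σ, a) :: l'' ∧ wl a0 l'' = Y := by
  induction l with
  | nil =>
    intro X1 h
    simp only [wl] at h
    exact absurd rfl (wd_none a0 (none, σ) (by rw [h]; simp))
  | cons p l ih =>
    intro X1 h
    obtain ⟨e, a⟩ := p
    simp only [wl] at h
    rw [List.append_eq_append_iff] at h
    have key : ∀ c : List XL, (none, e) :: wl a0 l = c ++ (none, σ) :: Y →
        ∃ l1 a' l'', (e, a) :: l = l1 ++ (σ, a') :: l'' ∧ wl a0 l'' = Y := by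
      intro c hc
      rcases c with _ | ⟨c0, c⟩
      · simp only [List.nil_append, List.cons.injEq, Prod.mk.injEq, true_and] at hc
        exact ⟨[], a, l, by rw [hc.1]; rfl, hc.2⟩
      · simp only [List.cons_append, List.cons.injEq] at hc
        obtain ⟨l1, a', l'', h1, h2⟩ := ih c hc.2
        exact ⟨(e, a) :: l1, a', l'', by rw [h1]; rfl, h2⟩
    rcases h with ⟨c, _, hc⟩ | ⟨c, hc1, hc2⟩
    · exact key c hc
    · rcases c with _ | ⟨c0, c⟩
      · exact key [] hc2.symm
      · simp only [List.cons_append, List.cons.injEq] at hc2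
        exact absurd rfl (wd_none a (none, σ) (by rw [hc1, ← hc2.1]; simp))

theorem parse2 (a0 : AA) {j : Fin 80} {σ τ : Bool} {Y : List XL} {l : List (Bool × AA)}
    (h : wl a0 l = (some j, σ) :: (none, τ) :: Y) :
    ∃ a l', l = (τ, a) :: l' ∧ (a : G0) = val [(some j, σ)] ∧ wl a0 l' = Y := by
  cases l with
  | nil =>
    simp only [wl] at h
    exact absurd rfl (wd_none a0 (none, τ) (by rw [h]; simp))
  | cons p l =>
    obtain ⟨e, a⟩ := p
    simp only [wl] at h
    cases hwd : wd a with
    | nil =>
      rw [hwd] at h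
      simp at h
    | cons b w =>
      rw [hwd] at h
      cases w with
      | nil =>
        simp only [List.cons_append, List.nil_append, List.cons.injEq, Prod.mk.injEq,
          true_and] at h
        refine ⟨a, l, by rw [h.2.1], ?_, h.2.2⟩
        rw [← wd_val a, hwd, h.1]
      | cons b' w =>
        simp only [List.cons_append, List.cons.injEq] at h
        exact absurd rfl (wd_none a (none, τ) (by rw [hwd, ← h.2.1]; simp))

theorem parse_pos (a0 : AA) (a : ℕ) (Y : List XL) (k : ℕ) : ∀ (l : List (Bool × AA)) (P : ℤ),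
    P % 2 = 0 → (79 - P / 2) % 80 = ((a : ℤ) + k - 1) % 80 →
    wl a0 l = piece true P (2 * k) ++ Y →
    ∃ l', l = ((List.range k).reverse.map fun i => (true, au ((a + i) % 80))) ++ l' ∧
      wl a0 l' = Y := by
  induction k with
  | zero =>
    intro l P _ _ h
    exact ⟨l, by simp, by simpa [piece] using h⟩
  | succ k ih =>
    intro l P hP hPk h
    rw [show 2 * (k + 1) = (2 * k) + 1 + 1 by ring] at h
    simp only [piece, sg, if_true, List.cons_append] at h
    rw [rl_odd (show (P + 1) % 2 = 1 by omega), rl_even hP] at h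
    obtain ⟨b, l', h1, h2, h3⟩ := parse2 a0 h
    obtain ⟨l'', h4, h5⟩ := ih l' (P + 1 + 1) (by omega) (by push_cast at hPk; omega) h3
    refine ⟨l'', ?_, h5⟩
    rw [h1, List.range_succ, List.reverse_append, h4]
    simp only [List.reverse_cons, List.reverse_nil, List.nil_append, List.map_cons,
      List.cons_append]
    congr 2
    apply Subtype.ext
    rw [h2, val_some]
    show u0 _ = u0 _
    congr 1
    push_cast at hPk
    simp only []
    omega

theorem parse_neg (a0 : AA) (a : ℕ) (Y : List XL) (k : ℕ) : ∀ (l : List (Bool × AA)) (P : ℤ),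
    P % 2 = 0 → (79 - P / 2) % 80 = ((a : ℤ) - k + 1) % 80 →
    wl a0 l = piece false P (2 * k) ++ Y →
    ∃ l', l = ((List.range k).reverse.map fun i => (false, (au ((a + 79 * i) % 80))⁻¹)) ++ l' ∧
      wl a0 l' = Y := by
  induction k with
  | zero =>
    intro l P _ _ h
    exact ⟨l, by simp, by simpa [piece] using h⟩
  | succ k ih =>
    intro l P hP hPk h
    rw [show 2 * (k + 1) = (2 * k) + 1 + 1 by ring] at h
    simp only [piece, sg, List.cons_append] at h
    norm_num at h
    rw [rl_odd (show (P + -1) % 2 = 1 by omega), rl_even hP] at h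
    obtain ⟨b, l', h1, h2, h3⟩ := parse2 a0 h
    obtain ⟨l'', h4, h5⟩ := ih l' (P + -1 + -1) (by omega) (by push_cast at hPk; omega) h3
    refine ⟨l'', ?_, h5⟩
    rw [h1, List.range_succ, List.reverse_append, h4]
    simp only [List.reverse_cons, List.reverse_nil, List.nil_append, List.map_cons,
      List.cons_append]
    congr 2
    apply Subtype.ext
    have hv := val_neg (some (⟨((79 - P / 2) % 80).toNat, by omega⟩ : Fin 80)) true
    rw [Bool.not_true] at hv
    rw [h2, hv, val_some]
    show (u0 _)⁻¹ = (u0 _)⁻¹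
    congr 2
    push_cast at hPk
    simp only []
    omega

end DEHN0

theorem dehn0 : DEHN0 := by
  intro a0 l hl hal
  by_cases hb : ∃ l1 l2 e q, l = l1 ++ (e, q) :: (!e, 1) :: l2
  · exact Or.inl hb
  right
  obtain ⟨σ, p, X1, X2, hp, hW⟩ := DEHN0.main_letters (DEHN0.wl_ne_nil a0 hl)
    (DEHN0.wl_red a0 l hb) (by rw [DEHN0.wl_val, hal])
  have e1 : DEHN0.piece σ p 157 = (none, σ) :: DEHN0.piece σ (p + DEHN0.sg σ) (2 * 78) := by
    rw [← DEHN0.rl_odd hp]; rfl
  rw [e1, List.append_assoc, List.cons_append] at hW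
  obtain ⟨l1, q, l'', h1, h2⟩ := DEHN0.parse a0 l X1 hW
  cases σ with
  | true =>
    left
    have hsg : DEHN0.sg true = 1 := rfl
    rw [hsg] at h2
    obtain ⟨l2, h3, _⟩ := DEHN0.parse_pos a0 ((2 - (p + 1) / 2) % 80).toNat X2 78 l'' (p + 1)
      (by omega) (by omega) h2
    refine ⟨l1, l2, ((2 - (p + 1) / 2) % 80).toNat, q, by omega, ?_⟩
    rw [h1, h3]
    simp [wpos0]
  | false =>
    right
    have hsg : DEHN0.sg false = -1 := rfl
    rw [hsg] at h2
    obtain ⟨l2, h3, _⟩ := DEHN0.parse_neg a0 ((76 - (p + -1) / 2) % 80).toNat X2 78 l'' (p + -1)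
      (by omega) (by omega) h2
    refine ⟨l1, l2, ((76 - (p + -1) / 2) % 80).toNat, q, by omega, ?_⟩
    rw [h1, h3]
    simp [wneg0]

end Crest.Agent.R191
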