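import Crest.Agent.R191.Stmts

/-! Row 191, task DEHNB: Dehn-type lemma in `Γ` from the one in `G0`, by Britton's lemma. -/

set_option autoImplicit false

namespace Crest.Agent.R191

namespace DEHNB

def wposQ (a : ℕ) (q : QQ) : List (Bool × QQ) :=
  (true, q) :: ((List.range 78).reverse.map fun i => (true, uu ((a + i) % 80)))

def wnegQ (b : ℕ) (q : QQ) : List (Bool × QQ) :=
  (false, q) :: ((List.range 78).reverse.map fun i => (false, (uu ((b + 79 * i) % 80))⁻¹))

def Bad (l : List (Bool × QQ)) : Prop :=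
  (∃ l1 l2 e q, l = l1 ++ (e, q) :: (!e, 1) :: l2) ∨
  (∃ l1 l2 a q, a < 80 ∧ l = l1 ++ wposQ a q ++ l2) ∨
  (∃ l1 l2 b q, b < 80 ∧ l = l1 ++ wnegQ b q ++ l2)

theorem Bad.append {l : List (Bool × QQ)} (h : Bad l) (l' : List (Bool × QQ)) :
    Bad (l ++ l') := by
  rcases h with ⟨l1, l2, e, q, h⟩ | ⟨l1, l2, a, q, ha, h⟩ | ⟨l1, l2, a, q, ha, h⟩
  · exact Or.inl ⟨l1, l2 ++ l', e, q, by rw [h]; simp⟩
  · exact Or.inr (Or.inl ⟨l1, l2 ++ l', a, q, ha, by rw [h]; simp⟩)
  · exact Or.inr (Or.inr ⟨l1, l2 ++ l', a, q, ha, by rw [h]; simp⟩)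

theorem Bad.cons {l : List (Bool × QQ)} (h : Bad l) (p : Bool × QQ) : Bad (p :: l) := by
  rcases h with ⟨l1, l2, e, q, h⟩ | ⟨l1, l2, a, q, ha, h⟩ | ⟨l1, l2, a, q, ha, h⟩
  · exact Or.inl ⟨p :: l1, l2, e, q, by rw [h]; simp⟩
  · exact Or.inr (Or.inl ⟨p :: l1, l2, a, q, ha, by rw [h]; simp⟩)
  · exact Or.inr (Or.inr ⟨p :: l1, l2, a, q, ha, by rw [h]; simp⟩)

theorem Bad.head {e : Bool} {q : QQ} {M : List (Bool × QQ)} (h : Bad ((e, q) :: M)) (q' : QQ) :
    Bad ((e, q') :: M) := by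
  rcases h with ⟨l1, l2, e1, q1, h⟩ | ⟨l1, l2, a, q1, ha, h⟩ | ⟨l1, l2, a, q1, ha, h⟩
  · rcases l1 with _ | ⟨p, l1⟩
    · simp only [List.nil_append, List.cons.injEq, Prod.mk.injEq] at h
      exact Or.inl ⟨[], l2, e1, q', by rw [h.1.1, h.2]; rfl⟩
    · simp only [List.cons_append, List.cons.injEq] at h
      exact Or.inl ⟨(e, q') :: l1, l2, e1, q1, by rw [h.2]; rfl⟩
  · rcases l1 with _ | ⟨p, l1⟩
    · simp only [List.nil_append, wposQ, List.cons_append, List.cons.injEq, Prod.mk.injEq] at h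
      exact Or.inr (Or.inl ⟨[], l2, a, q', ha, by rw [h.1.1, h.2]; rfl⟩)
    · simp only [List.cons_append, List.cons.injEq] at h
      exact Or.inr (Or.inl ⟨(e, q') :: l1, l2, a, q1, ha, by rw [h.2]; rfl⟩)
  · rcases l1 with _ | ⟨p, l1⟩
    · simp only [List.nil_append, wnegQ, List.cons_append, List.cons.injEq, Prod.mk.injEq] at h
      exact Or.inr (Or.inr ⟨[], l2, a, q', ha, by rw [h.1.1, h.2]; rfl⟩)
    · simp only [List.cons_append, List.cons.injEq] at h
      exact Or.inr (Or.inr ⟨(e, q') :: l1, l2, a, q1, ha, by rw [h.2]; rfl⟩)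

def emb (p : Bool × AA) : Bool × QQ := (p.1, ((p.2, 1) : QQ))
def pr (p : Bool × QQ) : Bool × AA := (p.1, p.2.1)

theorem emb_wpos (a : ℕ) (q : AA) : (wpos0 a q).map emb = wposQ a (q, 1) := by
  simp only [wpos0, wposQ, List.map_cons, List.map_map]
  rfl

theorem emb_wneg (a : ℕ) (q : AA) : (wneg0 a q).map emb = wnegQ a (q, 1) := by
  simp only [wneg0, wnegQ, List.map_cons, List.map_map]
  rfl

theorem bad_of (h0 : DEHN0) (b : AA) (e : Bool) (g' : AA) (q : QQ) (M : List (Bool × QQ))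
    (hM : ∀ p ∈ M, p.2.2 = 1) (h : alt0 b ((e, g') :: M.map pr) = 1) : Bad ((e, q) :: M) := by
  have h1 : ((e, g') :: M.map pr).map emb = (e, (g', 1)) :: M := by
    rw [List.map_cons, List.map_map]
    congr 1
    conv_rhs => rw [← List.map_id M]
    apply List.map_congr_left
    intro p hp
    have := hM p hp
    obtain ⟨p1, p2, p3⟩ := p
    simp only at this
    subst this
    rfl
  have h2 : Bad (((e, g') :: M.map pr).map emb) := by
    rcases h0 b _ (by simp) h with ⟨l1, l2, e1, q1, h⟩ | ⟨l1, l2, a, q1, ha, h⟩ |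
      ⟨l1, l2, a, q1, ha, h⟩
    · rw [h]
      exact Or.inl ⟨l1.map emb, l2.map emb, e1, (q1, 1), by simp [emb]; rfl⟩
    · rw [h]
      exact Or.inr (Or.inl ⟨l1.map emb, l2.map emb, a, (q1, 1), ha, by simp [← emb_wpos]⟩)
    · rw [h]
      exact Or.inr (Or.inr ⟨l1.map emb, l2.map emb, a, (q1, 1), ha, by simp [← emb_wneg]⟩)
  rw [h1] at h2
  exact h2.head q

theorem toG_iQ (q : QQ) : toG (iQ q) = ofG (q.1 : G0) * zG ^ (Multiplicative.toAdd q.2) := by
  have h := Monoid.Coprod.lift_apply_inl toGQ (zpowersHom GG (ofG x0)) q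
  exact h

theorem toG_xe (e : Bool) : toG (xe e) = ofG (if e then x0 else x0⁻¹) := by
  have h : toG xx = ofG x0 := by
    have h := Monoid.Coprod.lift_apply_inr toGQ (zpowersHom GG (ofG x0)) (Multiplicative.ofAdd 1)
    have h2 : zpowersHom GG (ofG x0) (Multiplicative.ofAdd 1) = ofG x0 := by simp
    rw [h2] at h
    exact h
  cases e with
  | true => simp [xe, h]
  | false => simp [xe, h]

def pw (w : List (ℤˣ × G0)) : GG := (w.map (fun x => zG ^ (x.1 : ℤ) * ofG x.2)).prod

def Ch (w : List (ℤˣ × G0)) : Prop :=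
  w.IsChain (fun a b => a.2 ∈ AA → a.1 = b.1)

theorem zword (n : ℤ) (hn : n ≠ 0) (h' : G0) (w : List (ℤˣ × G0)) (hw : Ch w)
    (hc : h' ∉ AA ∨ w = []) : ∃ w', w' ≠ [] ∧ pw w' = zG ^ n * ofG h' * pw w ∧ Ch w' := by
  have key : ∀ (u : ℤˣ) (k : ℕ), ∃ w', (∃ g w'', w' = (u, g) :: w'') ∧
      pw w' = (zG ^ (u : ℤ)) ^ (k + 1) * ofG h' * pw w ∧ Ch w' := by
    intro u k
    induction k with
    | zero =>
      refine ⟨(u, h') :: w, ⟨h', w, rfl⟩, ?_, ?_⟩
      · simp [pw]
      · unfold Ch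
        rw [List.isChain_cons]
        refine ⟨?_, hw⟩
        intro b hb hmem
        rcases hc with hc | rfl
        · exact absurd hmem hc
        · simp at hb
    | succ k ih =>
      obtain ⟨w', ⟨g, w'', h1⟩, h2, h3⟩ := ih
      refine ⟨(u, 1) :: w', ⟨1, w', rfl⟩, ?_, ?_⟩
      · have : pw ((u, 1) :: w') = zG ^ (u : ℤ) * pw w' := by simp [pw]
        rw [this, h2, pow_succ' _ (k + 1)]
        simp only [mul_assoc]
      · unfold Ch
        rw [List.isChain_cons]
        refine ⟨?_, h3⟩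
        intro b hb _
        rw [h1] at hb
        simp only [List.head?_cons, Option.mem_def, Option.some.injEq] at hb
        rw [← hb]
  rcases lt_or_gt_of_ne hn with h | h
  · obtain ⟨w', ⟨g, w'', h1⟩, h2, h3⟩ := key (-1) (n.natAbs - 1)
    refine ⟨w', by rw [h1]; simp, ?_, h3⟩
    have h4 : ((-1 : ℤˣ) : ℤ) * (n.natAbs : ℤ) = n := by
      have : ((-1 : ℤˣ) : ℤ) = -1 := rfl
      rw [this]; omega
    rw [h2, show n.natAbs - 1 + 1 = n.natAbs by omega, ← zpow_natCast, ← zpow_mul, h4]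
  · obtain ⟨w', ⟨g, w'', h1⟩, h2, h3⟩ := key 1 (n.natAbs - 1)
    refine ⟨w', by rw [h1]; simp, ?_, h3⟩
    have h4 : ((1 : ℤˣ) : ℤ) * (n.natAbs : ℤ) = n := by
      have : ((1 : ℤˣ) : ℤ) = 1 := rfl
      rw [this]; omega
    rw [h2, show n.natAbs - 1 + 1 = n.natAbs by omega, ← zpow_natCast, ← zpow_mul, h4]

def St (q0 : QQ) (l : List (Bool × QQ)) : Prop :=
  ∃ (w : List (ℤˣ × G0)) (h : G0) (b : AA) (M l' : List (Bool × QQ)),
    toG (alt q0 l) = ofG h * pw w ∧ Ch w ∧ l = M ++ l' ∧ (∀ p ∈ M, p.2.2 = 1) ∧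
    h = alt0 b (M.map pr) ∧ (w = [] → l' = [])

theorem exists_st (h0 : DEHN0) (q0 : QQ) (l : List (Bool × QQ)) : Bad l ∨ St q0 l := by
  induction l with
  | nil =>
    right
    by_cases hn : Multiplicative.toAdd q0.2 = 0
    · refine ⟨[], q0.1, q0.1, [], [], ?_, List.isChain_nil, rfl, by simp, rfl, fun _ => rfl⟩
      show toG (iQ q0) = _
      rw [toG_iQ, hn]
      simp [pw]
    · obtain ⟨w', h1, h2, h3⟩ := zword _ hn 1 [] List.isChain_nil (Or.inr rfl)
      refine ⟨w', q0.1, q0.1, [], [], ?_, h3, rfl, by simp, rfl, fun _ => rfl⟩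
      show toG (iQ q0) = _
      rw [toG_iQ, h2]
      simp [pw]
  | cons p l ih =>
    obtain ⟨e, q⟩ := p
    rcases ih with hb | ⟨w, h, b, M, l', h1, h2, h3, h4, h5, h6⟩
    · exact Or.inl (hb.cons _)
    · have hval : toG (alt q0 ((e, q) :: l)) = ofG (q.1 : G0) * zG ^ (Multiplicative.toAdd q.2) *
          ofG (if e then x0 else x0⁻¹) * (ofG h * pw w) := by
        rw [← h1, ← toG_iQ, ← toG_xe, ← map_mul, ← map_mul]
        rfl
      by_cases hn : Multiplicative.toAdd q.2 = 0
      · right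
        refine ⟨w, q.1 * (if e then x0 else x0⁻¹) * h, b, (e, q) :: M, l', ?_, h2, ?_, ?_, ?_, h6⟩
        · rw [hval, hn, map_mul, map_mul]
          simp only [zpow_zero, mul_one, mul_assoc]
        · rw [h3]; rfl
        · intro p hp
          rcases List.mem_cons.1 hp with rfl | hp
          · exact hn
          · exact h4 p hp
        · rw [h5]; rfl
      · by_cases hc : (if e then x0 else x0⁻¹) * h ∉ AA ∨ w = []
        · right
          obtain ⟨w', q1, q2, q3⟩ := zword _ hn ((if e then x0 else x0⁻¹) * h) w h2 hc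
          refine ⟨w', q.1, q.1, [], (e, q) :: l, ?_, q3, rfl, by simp, rfl,
            fun hw => absurd hw q1⟩
          rw [hval, q2, map_mul]
          simp only [mul_assoc]
        · left
          push Not at hc
          obtain ⟨hc1, _⟩ := hc
          have hb : Bad ((e, q) :: M) := by
            refine bad_of h0 b e (⟨_, hc1⟩⁻¹) q M h4 ?_
            simp only [alt0, InvMemClass.coe_inv]
            rw [← h5]
            group
          rw [h3, ← List.cons_append]
          exact hb.append l'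

theorem stepA (h0 : DEHN0) (q0 : QQ) (l : List (Bool × QQ)) (hl : l ≠ [])
    (hval : toG (alt q0 l) = 1) : Bad l := by
  rcases exists_st h0 q0 l with hb | ⟨w, h, b, M, l', h1, h2, h3, h4, h5, h6⟩
  · exact hb
  · rw [hval] at h1
    have hch : w.IsChain (fun a b => a.2 ∈ HNNExtension.toSubgroup AA AA a.1 → a.1 = b.1) := by
      refine List.IsChain.imp ?_ h2
      intro a b hab hmem
      apply hab
      rcases Int.units_eq_one_or a.1 with h | h
      · rw [h] at hmem; exact hmem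
      · rw [h] at hmem; exact hmem
    let W : HNNExtension.NormalWord.ReducedWord G0 AA AA := ⟨h, w, hch⟩
    have hW : W.prod (MulEquiv.refl AA) = (1 : HNNExtension G0 AA AA (MulEquiv.refl AA)) := h1.symm
    have hw : w = [] := by
      refine HNNExtension.ReducedWord.toList_eq_nil_of_mem_of_range (MulEquiv.refl AA) W ?_
      rw [hW]
      exact one_mem _
    have hl' := h6 hw
    subst hw hl'
    rw [List.append_nil] at h3
    subst h3
    have hh : h = 1 := by
      have h7 : (HNNExtension.of h : HNNExtension G0 AA AA (MulEquiv.refl AA)) =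
          HNNExtension.of 1 := by
        rw [map_one]
        have : pw [] = 1 := rfl
        rw [this, mul_one] at h1
        exact h1.symm
      exact HNNExtension.of_injective _ h7
    rcases l with _ | ⟨⟨e, q⟩, M⟩
    · exact absurd rfl hl
    · refine bad_of h0 b e q.1 q M (fun p hp => h4 p (List.mem_cons_of_mem _ hp)) ?_
      rw [← hh, h5]
      rfl

theorem wposQ_eq (a : ℕ) (q : QQ) : wposQ a q = wpos ((a + 1) % 80) q ++ [(true, uu (a % 80))] := by
  unfold wposQ wpos
  rw [show 78 = 77 + 1 by norm_num, List.range_succ_eq_map, List.reverse_cons, List.map_append,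
    ← List.map_reverse, List.map_map, List.cons_append]
  congr 2
  apply List.map_congr_left
  intro i _
  simp only [Function.comp]
  congr 2
  rw [Nat.succ_eq_add_one]
  omega

theorem wnegQ_eq (b : ℕ) (q : QQ) :
    wnegQ b q = wneg ((b + 79) % 80) q ++ [(false, (uu (b % 80))⁻¹)] := by
  unfold wnegQ wneg
  rw [show 78 = 77 + 1 by norm_num, List.range_succ_eq_map, List.reverse_cons, List.map_append,
    ← List.map_reverse, List.map_map, List.cons_append]
  congr 2
  apply List.map_congr_left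
  intro i _
  simp only [Function.comp]
  congr 3
  rw [Nat.succ_eq_add_one]
  omega

def Good (l : List (Bool × QQ)) : Prop :=
  (∃ l1 l2 e q, l = l1 ++ (e, q) :: (!e, 1) :: l2) ∨
  (∃ l1 l2 a q, a < 80 ∧ l = l1 ++ wpos a q ++ l2) ∨
  (∃ l1 l2 b q, b < 80 ∧ l = l1 ++ wneg b q ++ l2)

theorem Bad.good {l : List (Bool × QQ)} (h : Bad l) (l' : List (Bool × QQ)) : Good (l ++ l') := by
  rcases h with ⟨l1, l2, e, q, h⟩ | ⟨l1, l2, a, q, ha, h⟩ | ⟨l1, l2, a, q, ha, h⟩
  · exact Or.inl ⟨l1, l2 ++ l', e, q, by rw [h]; simp⟩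
  · exact Or.inr (Or.inl ⟨l1, [(true, uu (a % 80))] ++ l2 ++ l', (a + 1) % 80, q,
      Nat.mod_lt _ (by norm_num), by rw [h, wposQ_eq]; simp⟩)
  · exact Or.inr (Or.inr ⟨l1, [(false, (uu (a % 80))⁻¹)] ++ l2 ++ l', (a + 79) % 80, q,
      Nat.mod_lt _ (by norm_num), by rw [h, wnegQ_eq]; simp⟩)

theorem alt_append_one (q0 : QQ) (e : Bool) (l : List (Bool × QQ)) :
    alt 1 (l ++ [(e, q0)]) = alt q0 l * xe e := by
  induction l with
  | nil => simp [alt]
  | cons p l ih =>
    simp only [List.cons_append, alt, ih, mul_assoc]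

theorem drop_last_eq {l X Y : List (Bool × QQ)} {y : Bool × QQ} (hY : Y ≠ [])
    (h : l ++ [y] = X ++ Y) : l = X ++ Y.dropLast := by
  have := congrArg List.dropLast h
  rwa [List.dropLast_concat, List.dropLast_append_of_ne_nil hY] at this

end DEHNB

theorem dehn_of (h0 : DEHN0) (hq : GRP_iQ) : DEHN := by
  intro q0 l hval
  have h1 : toG (alt 1 (l ++ [(false, q0)])) = 1 := by
    rw [DEHNB.alt_append_one, map_mul, hval]
    simp [xe]
  rcases DEHNB.stepA h0 1 _ (by simp) h1 with ⟨l1, l2, e, q, h⟩ | ⟨l1, l2, a, q, ha, h⟩ |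
    ⟨l1, l2, a, q, ha, h⟩
  · by_cases hl2 : l2 = []
    · subst hl2
      have h2 : l1 ++ (e, q) :: (!e, 1) :: [] = (l1 ++ [(e, q)]) ++ [(!e, 1)] := by simp
      rw [h2] at h
      have h3 := List.append_inj' h rfl
      obtain ⟨h3, h4⟩ := h3
      simp only [List.cons.injEq, Prod.mk.injEq, and_true] at h4
      obtain ⟨h4, rfl⟩ := h4
      have he : e = true := by
        cases e
        · exact absurd h4 (by decide)
        · rfl
      subst he
      subst h3
      have h5 : toG (alt q l1) = 1 := by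
        have h6 := DEHNB.alt_append_one q true l1
        have h7 : xe true = xx := rfl
        rw [h6, h7, map_mul] at hval
        simpa using hval
      rcases eq_or_ne l1 [] with rfl | hl1
      · left
        have := hq q h5
        exact ⟨rfl, by rw [this]; rfl⟩
      · right
        exact (DEHNB.stepA h0 q l1 hl1 h5).good _
    · right; left
      have := DEHNB.drop_last_eq (X := l1 ++ [(e, q), (!e, 1)]) (Y := l2) hl2
        (by rw [h]; simp)
      exact ⟨l1, l2.dropLast, e, q, by rw [this]; simp⟩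
  · right; right; left
    have := DEHNB.drop_last_eq (X := l1 ++ wpos ((a + 1) % 80) q)
      (Y := [(true, uu (a % 80))] ++ l2) (by simp) (by rw [h, DEHNB.wposQ_eq]; simp)
    exact ⟨l1, _, _, q, Nat.mod_lt _ (by norm_num), this⟩
  · right; right; right
    have := DEHNB.drop_last_eq (X := l1 ++ wneg ((a + 79) % 80) q)
      (Y := [(false, (uu (a % 80))⁻¹)] ++ l2) (by simp) (by rw [h, DEHNB.wnegQ_eq]; simp)
    exact ⟨l1, _, _, q, Nat.mod_lt _ (by norm_num), this⟩

end Crest.Agent.R191
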