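import Crest.Agent.R191.Stmts

/-!
# Row 191, task EQV
-/

set_option autoImplicit false

namespace Crest.Agent.R191

open MeasureTheory

namespace EQV

section
variable {X G ι : Type} [Group G] [MulAction G X]

/-- one step relation -/
def R (w : ι → G) (B : ι → Set X) (a b : X) : Prop := ∃ i, a ∈ B i ∧ b = w i • a

/-- points connected to `h • y` by `≤ n` steps with value `h` -/
def D (w : ι → G) (B : ι → Set X) : ℕ → G → Set X
  | 0, h => {_y | h = 1}
  | (n + 1), h => ⋃ i : ι, ({y | y ∈ D w B n ((w i)⁻¹ * h) ∧ ((w i)⁻¹ * h) • y ∈ B i} ∪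
      {y | y ∈ D w B n (w i * h) ∧ h • y ∈ B i})

theorem eqvGen_iff (r : X → X → Prop) (a b : X) :
    Relation.EqvGen r a b ↔ Relation.ReflTransGen (fun a b => r a b ∨ r b a) a b := by
  constructor
  · intro h
    induction h with
    | rel a b h => exact Relation.ReflTransGen.single (Or.inl h)
    | refl a => exact Relation.ReflTransGen.refl
    | symm a b h0 ih =>
      clear h0
      induction ih with
      | refl => exact Relation.ReflTransGen.refl
      | tail _ h2 ih => exact Relation.ReflTransGen.head (Or.symm h2) ih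
    | trans a b c _ _ ih1 ih2 => exact ih1.trans ih2
  · intro h
    induction h with
    | refl => exact Relation.EqvGen.refl _
    | tail _ h2 ih =>
      refine ih.trans _ _ _ ?_
      rcases h2 with h2 | h2
      · exact Relation.EqvGen.rel _ _ h2
      · exact Relation.EqvGen.symm _ _ (Relation.EqvGen.rel _ _ h2)

theorem mem_D {w : ι → G} {B : ι → Set X} {n : ℕ} {h : G} {y : X} (hy : y ∈ D w B n h) :
    Relation.EqvGen (R w B) y (h • y) := by
  induction n generalizing h with
  | zero =>
    have : h = 1 := hy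
    rw [this, one_smul]
    exact Relation.EqvGen.refl _
  | succ n ih =>
    obtain ⟨i, h1 | h1⟩ := Set.mem_iUnion.1 hy
    · refine (ih h1.1).trans _ _ _ (Relation.EqvGen.rel _ _ ⟨i, h1.2, ?_⟩)
      rw [← mul_smul, mul_inv_cancel_left]
    · refine (ih h1.1).trans _ _ _ (Relation.EqvGen.symm _ _ (Relation.EqvGen.rel _ _ ⟨i, h1.2, ?_⟩))
      rw [mul_smul]

theorem exists_D {w : ι → G} {B : ι → Set X} {y y' : X}
    (h : Relation.EqvGen (R w B) y y') : ∃ n h, y ∈ D w B n h ∧ h • y = y' := by
  rw [eqvGen_iff] at h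
  induction h with
  | refl => exact ⟨0, 1, rfl, one_smul _ _⟩
  | tail _ h2 ih =>
    obtain ⟨n, h, hy, rfl⟩ := ih
    rcases h2 with ⟨i, h3, rfl⟩ | ⟨i, h3, h4⟩
    · refine ⟨n + 1, w i * h, Set.mem_iUnion.2 ⟨i, Or.inl ⟨?_, ?_⟩⟩, mul_smul _ _ _⟩
      · rw [inv_mul_cancel_left]; exact hy
      · rw [inv_mul_cancel_left]; exact h3
    · refine ⟨n + 1, (w i)⁻¹ * h, Set.mem_iUnion.2 ⟨i, Or.inr ⟨?_, ?_⟩⟩, ?_⟩
      · rw [mul_inv_cancel_left]; exact hy
      · rw [mul_smul, h4, inv_smul_smul]; exact h3
      · rw [mul_smul, h4, inv_smul_smul]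

end

end EQV

open EQV in
theorem eqv : EQV := by
  intro X G ι _ _ _ _ _ _ _ w B hB g
  have hD : ∀ (n : ℕ) (h : G), MeasurableSet (D w B n h) := by
    intro n
    induction n with
    | zero =>
      intro h
      exact MeasurableSet.const _
    | succ n ih =>
      intro h
      refine MeasurableSet.iUnion (fun i => MeasurableSet.union ?_ ?_)
      · exact (ih _).inter (measurable_const_smul _ (hB i))
      · exact (ih _).inter (measurable_const_smul _ (hB i))
  have h1 : {y : X | Relation.EqvGen (fun a b => ∃ i, a ∈ B i ∧ b = w i • a) y (g • y)} =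
      ⋃ n : ℕ, ⋃ h : G, (D w B n h ∩ {y | h • y = g • y}) := by
    ext y
    simp only [Set.mem_ofPred_eq, Set.mem_iUnion, Set.mem_inter_iff]
    constructor
    · intro hy
      obtain ⟨n, h, h2, h3⟩ := exists_D (w := w) (B := B) hy
      exact ⟨n, h, h2, h3⟩
    · rintro ⟨n, h, h2, h3⟩
      rw [← h3]
      exact mem_D h2
  rw [h1]
  exact MeasurableSet.iUnion fun n => MeasurableSet.iUnion fun h =>
    (hD n h).inter (measurableSet_eq_fun (measurable_const_smul _) (measurable_const_smul _))

end Crest.Agent.R191
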