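import Crest.Agent.R191.Stmts

/-!
# Row 191: EXPB (expansion for Bernoulli shifts from random permutations)
-/

set_option autoImplicit false

namespace Crest.Agent.R191

open MeasureTheory ProbabilityTheory
open scoped ENNReal

namespace EXPB

/-- the product measure on `J → [0,1]` -/
noncomputable def PP (J : Type) : Measure (J → unitInterval) :=
  Measure.infinitePi (fun _ : J => (volume : Measure unitInterval))

instance (J : Type) : IsProbabilityMeasure (PP J) :=
  inferInstanceAs (IsProbabilityMeasure
    (Measure.infinitePi (fun _ : J => (volume : Measure unitInterval))))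

/-- `D` only depends on the coordinates in `I` -/
def Det {G : Type} (I : Finset G) (D : Set (G → unitInterval)) : Prop :=
  ∀ y y' : G → unitInterval, (∀ g ∈ I, y g = y' g) → (y ∈ D ↔ y' ∈ D)

section law

variable {G J : Type}

open Classical in
/-- extension by zero -/
noncomputable def ext0 (I : Finset G) (z : I → unitInterval) : G → unitInterval :=
  fun g => if h : g ∈ I then z ⟨g, h⟩ else 0

theorem measurable_ext0 (I : Finset G) : Measurable (ext0 I) := by
  rw [measurable_pi_iff]
  intro g
  unfold ext0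
  by_cases h : g ∈ I
  · simp only [h, dite_true]
    exact measurable_pi_apply _
  · simp only [h, dite_false]
    exact measurable_const

theorem map_of_inj {α : Type} (f : α → J) (hf : Function.Injective f) :
    (PP J).map (fun ω i => ω (f i)) = PP α := by
  unfold PP
  exact Measure.map_infinitePi_infinitePi_of_inj (P := fun _ : J => (volume : Measure unitInterval)) hf

theorem measurable_reind {α : Type} (f : α → J) :
    Measurable (fun (ω : J → unitInterval) (i : α) => ω (f i)) := by
  rw [measurable_pi_iff]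
  intro i
  exact measurable_pi_apply _

/-- law of the pull-back of the labels -/
theorem law (κ : G → J) (I : Finset G) (hκ : ∀ g ∈ I, ∀ g' ∈ I, κ g = κ g' → g = g')
    (D : Set (G → unitInterval)) (hD : MeasurableSet D) (hdet : Det I D) :
    PP J {l | (fun g => l (κ g)) ∈ D} = PP G D := by
  have h1 := map_of_inj (J := J) (fun c : I => κ c) (by
    intro a b hab
    exact Subtype.ext (hκ a a.2 b b.2 hab))
  have h2 := map_of_inj (J := G) (fun c : I => (c : G)) Subtype.val_injective
  set D1 : Set (I → unitInterval) := ext0 I ⁻¹' D with hD1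
  have hD1m : MeasurableSet D1 := measurable_ext0 I hD
  have e1 : {l : J → unitInterval | (fun g => l (κ g)) ∈ D} =
      (fun (ω : J → unitInterval) (i : I) => ω (κ i)) ⁻¹' D1 := by
    ext l
    simp only [Set.mem_ofPred_eq, Set.mem_preimage, hD1]
    apply hdet
    intro g hg
    simp [ext0, hg]
  have e2 : D = (fun (ω : G → unitInterval) (i : I) => ω (i : G)) ⁻¹' D1 := by
    ext l
    simp only [Set.mem_preimage, hD1]
    apply hdet
    intro g hg
    simp [ext0, hg]
  rw [e1, ← Measure.map_apply (measurable_reind _) hD1m, h1]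
  conv_rhs => rw [e2, ← Measure.map_apply (measurable_reind _) hD1m, h2]

/-- independence of pull-backs with disjoint coordinates -/
theorem indep (κ κ' : G → J) (I : Finset G) (hdisj : ∀ g ∈ I, ∀ g' ∈ I, κ g ≠ κ' g')
    (D : Set (G → unitInterval)) (hD : MeasurableSet D) (hdet : Det I D) :
    PP J ({l | (fun g => l (κ g)) ∈ D} ∩ {l | (fun g => l (κ' g)) ∈ D}) =
      PP J {l | (fun g => l (κ g)) ∈ D} * PP J {l | (fun g => l (κ' g)) ∈ D} := by
  classical
  have hind : iIndepFun (fun (i : J) (ω : J → unitInterval) => ω i) (PP J) := by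
    unfold PP
    exact iIndepFun_infinitePi (X := fun _ x => x) (fun _ => measurable_id)
  have hST : Disjoint (I.image κ) (I.image κ') := by
    rw [Finset.disjoint_left]
    intro a ha hb
    rw [Finset.mem_image] at ha hb
    obtain ⟨g, hg, rfl⟩ := ha
    obtain ⟨g', hg', h⟩ := hb
    exact hdisj g hg g' hg' h.symm
  have h1 := hind.indepFun_finset (I.image κ) (I.image κ') hST (fun i => measurable_pi_apply i)
  set D1 : Set (I → unitInterval) := ext0 I ⁻¹' D with hD1
  have hD1m : MeasurableSet D1 := measurable_ext0 I hD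
  have key : ∀ κ : G → J, ∃ E : Set (↥(I.image κ) → unitInterval), MeasurableSet E ∧
      {l : J → unitInterval | (fun g => l (κ g)) ∈ D} =
        (fun (a : J → unitInterval) (i : ↥(I.image κ)) => a i) ⁻¹' E := by
    intro κ
    refine ⟨(fun (z : ↥(I.image κ) → unitInterval) (c : I) =>
      z ⟨κ c, Finset.mem_image_of_mem κ c.2⟩) ⁻¹' D1, ?_, ?_⟩
    · apply MeasurableSet.preimage hD1m
      rw [measurable_pi_iff]
      intro i
      exact measurable_pi_apply _
    · ext l
      simp only [Set.mem_ofPred_eq, Set.mem_preimage, hD1]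
      apply hdet
      intro g hg
      simp [ext0, hg]
  obtain ⟨E, hE, eE⟩ := key κ
  obtain ⟨E', hE', eE'⟩ := key κ'
  rw [eE, eE']
  exact h1.measure_inter_preimage_eq_mul E E' hE hE'

end law

section trans

theorem transversal {F G : Type} [Group F] [Group G] (φ : F →* G) (hφ : Function.Injective φ) :
    ∃ (w : G → F) (s : G → G), (∀ g, φ (w g) * s g = g) ∧
      (∀ a g, w (φ a * g) = a * w g) ∧ (∀ a g, s (φ a * g) = s g) := by
  classical
  let r : Setoid G :=
    { r := fun g g' => ∃ a, φ a * g = g'
      iseqv :=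
        { refl := fun g => ⟨1, by simp⟩
          symm := by
            rintro g g' ⟨a, rfl⟩
            exact ⟨a⁻¹, by simp⟩
          trans := by
            rintro g g' g'' ⟨a, rfl⟩ ⟨b, rfl⟩
            exact ⟨b * a, by simp [mul_assoc]⟩ } }
  let s : G → G := fun g => Quotient.out (Quotient.mk r g)
  have hs : ∀ g, ∃ a, φ a * s g = g := fun g => Quotient.mk_out (s := r) g
  choose w hw using hs
  have hsa : ∀ a g, s (φ a * g) = s g := by
    intro a g
    have : (Quotient.mk r (φ a * g)) = Quotient.mk r g := by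
      apply Quotient.sound
      exact ⟨a⁻¹, by simp⟩
    simp only [s, this]
  refine ⟨w, s, hw, ?_, hsa⟩
  intro a g
  apply hφ
  have h1 := hw (φ a * g)
  rw [hsa] at h1
  have h2 := hw g
  have h3 : φ (w (φ a * g)) * s g = φ (a * w g) * s g := by
    rw [h1, map_mul, mul_assoc, h2]
  exact mul_right_cancel h3

end trans

section fin

/-- numerical inequality used pointwise -/
theorem pointwise_ineq (n a F Gs : ℝ) (hn : 0 < n) (ha : a ≤ 29 / 10 ^ 18)
    (hFn : F ≤ n) (hG0 : 0 ≤ Gs) (hexp : F ≤ 3 / 10 ^ 17 * n → 70 * F ≤ Gs) :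
    70 * (F - (F - n * a) ^ 2 / (n * (1 / 10 ^ 18) ^ 2)) ≤ Gs := by
  have hden : (0 : ℝ) < n * (1 / 10 ^ 18) ^ 2 := by positivity
  by_cases h : F ≤ 3 / 10 ^ 17 * n
  · have h1 := hexp h
    have h2 : 0 ≤ (F - n * a) ^ 2 / (n * (1 / 10 ^ 18) ^ 2) := by positivity
    linarith
  · push Not at h
    have h1 : n * (1 / 10 ^ 18) ≤ F - n * a := by
      have h3 : n * a ≤ n * (29 / 10 ^ 18) := mul_le_mul_of_nonneg_left ha hn.le
      have h4 : (3 / 10 ^ 17 : ℝ) * n = n * (29 / 10 ^ 18) + n * (1 / 10 ^ 18) := by ring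
      linarith
    have h2 : (n * (1 / 10 ^ 18)) ^ 2 ≤ (F - n * a) ^ 2 :=
      pow_le_pow_left₀ (by positivity) h1 2
    have h3 : n ≤ (F - n * a) ^ 2 / (n * (1 / 10 ^ 18) ^ 2) := by
      rw [le_div_iff₀ hden]
      calc n * (n * (1 / 10 ^ 18) ^ 2) = (n * (1 / 10 ^ 18)) ^ 2 := by ring
        _ ≤ _ := h2
    linarith

set_option linter.constructorNameAsVariable false in
open Classical in
/-- the counting estimates for one set of labels, in real numbers -/
theorem fin_main {G : Type} [Group G] (t : Fin 79 → G) (n : ℕ) (hn : 0 < n)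
    (π : Fin 79 → Equiv.Perm (Fin n)) (w : G → FreeGroup (Fin 79)) (s : G → G)
    (hw : ∀ (a : FreeGroup (Fin 79)) (g : G), w (FreeGroup.lift t a * g) = a * w g)
    (hs : ∀ (a : FreeGroup (Fin 79)) (g : G), s (FreeGroup.lift t a * g) = s g)
    (I : Finset G) (U V : Set (G → unitInterval)) (hU : MeasurableSet U) (hV : MeasurableSet V)
    (hUI : Det I U) (hVI : Det I V) (hUV : U ⊆ V)
    (hUVt : ∀ j, ∀ y ∈ U, (fun h => y ((t j)⁻¹ * h)) ∈ V)
    (bad : Finset (Fin n))
    (hbad : ∀ v ∉ bad, ∀ g ∈ I, ∀ g' ∈ I, s g = s g' →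
      (FreeGroup.lift π (w g))⁻¹ v = (FreeGroup.lift π (w g'))⁻¹ v → g = g')
    (hexp : ∀ S : Finset (Fin n), (S.card : ℝ) ≤ 3 / 10 ^ 17 * n →
      70 * S.card ≤ (S ∪ Finset.univ.biUnion (fun j => S.image (π j))).card)
    (hsmall : (PP G).real U ≤ 29 / 10 ^ 18) :
    70 * ((n * (PP G).real U - bad.card) -
      (4 * n * bad.card + n * (I.card : ℝ) ^ 2) / (n * (1 / 10 ^ 18) ^ 2)) ≤
        n * (PP G).real V + bad.card := by
  have hnr : (0 : ℝ) < n := by exact_mod_cast hn
  set ρ : FreeGroup (Fin 79) →* Equiv.Perm (Fin n) := FreeGroup.lift π with hρ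
  let J := Fin n × G
  let κ : Fin n → G → J := fun v g => ((ρ (w g))⁻¹ v, s g)
  let A : Fin n → Set (J → unitInterval) := fun v => {l | (fun g => l (κ v g)) ∈ U}
  let B : Fin n → Set (J → unitInterval) := fun v => {l | (fun g => l (κ v g)) ∈ V}
  have hA : ∀ v, MeasurableSet (A v) := fun v => measurable_reind (κ v) hU
  have hB : ∀ v, MeasurableSet (B v) := fun v => measurable_reind (κ v) hV
  set a : ℝ := (PP G).real U with ha
  have ha0 : 0 ≤ a := measureReal_nonneg
  have ha1 : a ≤ 1 := by
    refine le_trans hsmall (by norm_num)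
  have hinj : ∀ v ∉ bad, ∀ g ∈ I, ∀ g' ∈ I, κ v g = κ v g' → g = g' := by
    intro v hv g hg g' hg' h
    have h1 : (ρ (w g))⁻¹ v = (ρ (w g'))⁻¹ v := congrArg Prod.fst h
    have h2 : s g = s g' := congrArg Prod.snd h
    exact hbad v hv g hg g' hg' h2 h1
  have hPA : ∀ v ∉ bad, (PP J).real (A v) = a := by
    intro v hv
    rw [ha, Measure.real, Measure.real]
    rw [law (κ v) I (hinj v hv) U hU hUI]
  have hPB : ∀ v ∉ bad, (PP J).real (B v) = (PP G).real V := by
    intro v hv
    rw [Measure.real, Measure.real]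
    rw [law (κ v) I (hinj v hv) V hV hVI]
  let F : (J → unitInterval) → ℝ := fun l => ∑ v, (A v).indicator 1 l
  let Gs : (J → unitInterval) → ℝ := fun l => ∑ v, (B v).indicator 1 l
  -- integrability
  have hintA : ∀ v, Integrable ((A v).indicator (1 : (J → unitInterval) → ℝ)) (PP J) := fun v =>
    (integrable_const (1 : ℝ)).indicator (hA v)
  have hintB : ∀ v, Integrable ((B v).indicator (1 : (J → unitInterval) → ℝ)) (PP J) := fun v =>
    (integrable_const (1 : ℝ)).indicator (hB v)
  have hintAA : ∀ v v', Integrable ((A v ∩ A v').indicator (1 : (J → unitInterval) → ℝ)) (PP J) :=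
    fun v v' => (integrable_const (1 : ℝ)).indicator ((hA v).inter (hA v'))
  have hintF : Integrable F (PP J) := by
    apply integrable_finsetSum
    intro v _
    exact hintA v
  have hintG : Integrable Gs (PP J) := by
    apply integrable_finsetSum
    intro v _
    exact hintB v
  have hF2 : ∀ l, F l ^ 2 = ∑ v, ∑ v', (A v ∩ A v').indicator (1 : (J → unitInterval) → ℝ) l := by
    intro l
    simp only [F]
    rw [sq, Finset.sum_mul_sum]
    apply Finset.sum_congr rfl
    intro v _
    apply Finset.sum_congr rfl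
    intro v' _
    rw [Set.inter_indicator_one]
    rfl
  have hintF2 : Integrable (fun l => F l ^ 2) (PP J) := by
    simp only [hF2]
    apply integrable_finsetSum
    intro v _
    apply integrable_finsetSum
    intro v' _
    exact hintAA v v'
  have hFint : ∫ l, F l ∂(PP J) = ∑ v, (PP J).real (A v) := by
    simp only [F]
    rw [integral_finsetSum _ (fun v _ => hintA v)]
    apply Finset.sum_congr rfl
    intro v _
    exact integral_indicator_one (hA v)
  have hGint : ∫ l, Gs l ∂(PP J) = ∑ v, (PP J).real (B v) := by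
    simp only [Gs]
    rw [integral_finsetSum _ (fun v _ => hintB v)]
    apply Finset.sum_congr rfl
    intro v _
    exact integral_indicator_one (hB v)
  have hF2int : ∫ l, F l ^ 2 ∂(PP J) = ∑ v, ∑ v', (PP J).real (A v ∩ A v') := by
    simp only [hF2]
    rw [integral_finsetSum _ (fun v _ => integrable_finsetSum _ (fun v' _ => hintAA v v'))]
    apply Finset.sum_congr rfl
    intro v _
    rw [integral_finsetSum _ (fun v' _ => hintAA v v')]
    apply Finset.sum_congr rfl
    intro v' _
    exact integral_indicator_one ((hA v).inter (hA v'))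
  -- estimates of the integrals
  have hcardn : (Finset.univ : Finset (Fin n)).card = n := by simp
  have hG_le : ∑ v, (PP J).real (B v) ≤ n * (PP G).real V + bad.card := by
    calc ∑ v, (PP J).real (B v) ≤ ∑ v : Fin n, ((PP G).real V + if v ∈ bad then (1 : ℝ) else 0) := by
          apply Finset.sum_le_sum
          intro v _
          split_ifs with hv
          · have h1 : (PP J).real (B v) ≤ 1 := measureReal_le_one
            have h2 : 0 ≤ (PP G).real V := measureReal_nonneg
            linarith
          · rw [hPB v hv]; simp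
      _ = _ := by
          rw [Finset.sum_add_distrib, Finset.sum_const, hcardn, nsmul_eq_mul]
          simp
  have hF_ge : n * a - bad.card ≤ ∑ v, (PP J).real (A v) := by
    have : ∑ v : Fin n, (a - if v ∈ bad then (1 : ℝ) else 0) ≤ ∑ v, (PP J).real (A v) := by
      apply Finset.sum_le_sum
      intro v _
      split_ifs with hv
      · have h1 : 0 ≤ (PP J).real (A v) := measureReal_nonneg
        linarith
      · rw [hPA v hv]; simp
    rw [Finset.sum_sub_distrib, Finset.sum_const, hcardn, nsmul_eq_mul] at this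
    simpa using this
  let ov : Fin n → Finset (Fin n) := fun v =>
    (I ×ˢ I).image (fun p => ρ (w p.2) ((ρ (w p.1))⁻¹ v))
  have hov : ∀ v, ((ov v).card : ℝ) ≤ (I.card : ℝ) ^ 2 := by
    intro v
    have h1 : (ov v).card ≤ (I ×ˢ I).card := Finset.card_image_le
    rw [Finset.card_product] at h1
    calc ((ov v).card : ℝ) ≤ ((I.card * I.card : ℕ) : ℝ) := by exact_mod_cast h1
      _ = _ := by push_cast; ring
  have hF2_le : ∑ v, ∑ v', (PP J).real (A v ∩ A v') ≤
      (n : ℝ) ^ 2 * a ^ 2 + 2 * n * bad.card + n * (I.card : ℝ) ^ 2 := by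
    have h1 : ∀ v v' : Fin n, (PP J).real (A v ∩ A v') ≤ a ^ 2 + (if v ∈ bad then (1 : ℝ) else 0) +
        (if v' ∈ bad then (1 : ℝ) else 0) + (if v' ∈ ov v then (1 : ℝ) else 0) := by
      intro v v'
      have h1 : (PP J).real (A v ∩ A v') ≤ 1 := measureReal_le_one
      have h2 : 0 ≤ a ^ 2 := by positivity
      by_cases hv : v ∈ bad
      · rw [if_pos hv]
        split_ifs <;> linarith
      · by_cases hv' : v' ∈ bad
        · rw [if_neg hv, if_pos hv']
          split_ifs <;> linarith
        · by_cases ho : v' ∈ ov v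
          · rw [if_neg hv, if_neg hv', if_pos ho]
            linarith
          · rw [if_neg hv, if_neg hv', if_neg ho]
            have h3 := indep (κ v) (κ v') I (by
              intro g hg g' hg' h
              apply ho
              have h1 : (ρ (w g))⁻¹ v = (ρ (w g'))⁻¹ v' := congrArg Prod.fst h
              simp only [ov, Finset.mem_image, Finset.mem_product]
              refine ⟨(g, g'), ⟨hg, hg'⟩, ?_⟩
              simp only
              rw [h1]
              exact Equiv.apply_symm_apply _ _) U hU hUI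
            have h4 : (PP J).real (A v ∩ A v') = a ^ 2 := by
              have e1 := hPA v hv
              have e2 := hPA v' hv'
              rw [Measure.real] at e1 e2 ⊢
              change (PP J) (A v ∩ A v') = (PP J) (A v) * (PP J) (A v') at h3
              rw [h3, ENNReal.toReal_mul, e1, e2, sq]
            rw [h4]; linarith
    calc ∑ v, ∑ v', (PP J).real (A v ∩ A v') ≤ ∑ v : Fin n, ∑ v' : Fin n,
        (a ^ 2 + (if v ∈ bad then (1 : ℝ) else 0) +
        (if v' ∈ bad then (1 : ℝ) else 0) + (if v' ∈ ov v then (1 : ℝ) else 0)) :=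
          Finset.sum_le_sum (fun v _ => Finset.sum_le_sum (fun v' _ => h1 v v'))
      _ = ∑ v : Fin n, (n * a ^ 2 + n * (if v ∈ bad then (1 : ℝ) else 0) + bad.card +
            (ov v).card) := by
          apply Finset.sum_congr rfl
          intro v _
          rw [Finset.sum_add_distrib, Finset.sum_add_distrib, Finset.sum_add_distrib,
            Finset.sum_const, Finset.sum_const, hcardn, nsmul_eq_mul, nsmul_eq_mul]
          simp
      _ ≤ ∑ v : Fin n, (n * a ^ 2 + n * (if v ∈ bad then (1 : ℝ) else 0) + bad.card +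
            (I.card : ℝ) ^ 2) := by
          apply Finset.sum_le_sum
          intro v _
          have := hov v
          linarith
      _ = _ := by
          rw [Finset.sum_add_distrib, Finset.sum_add_distrib, Finset.sum_add_distrib,
            Finset.sum_const, Finset.sum_const, Finset.sum_const, hcardn, nsmul_eq_mul,
            nsmul_eq_mul, nsmul_eq_mul, ← Finset.mul_sum]
          simp
          ring
  -- pointwise inequality
  have hpt : ∀ l, 70 * (F l - (F l - n * a) ^ 2 / (n * (1 / 10 ^ 18) ^ 2)) ≤ Gs l := by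
    intro l
    set S : Finset (Fin n) := Finset.univ.filter (fun v => l ∈ A v) with hS
    set S' : Finset (Fin n) := Finset.univ.filter (fun v => l ∈ B v) with hS'
    have hFS : F l = S.card := by
      simp only [F, Set.indicator_apply, Pi.one_apply]
      rw [← Finset.sum_filter]
      simp [hS]
    have hGS : Gs l = S'.card := by
      simp only [Gs, Set.indicator_apply, Pi.one_apply]
      rw [← Finset.sum_filter]
      simp [hS']
    have hsub : S ∪ Finset.univ.biUnion (fun j => S.image (π j)) ⊆ S' := by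
      intro v hv
      rw [Finset.mem_union] at hv
      rw [hS', Finset.mem_filter]
      refine ⟨Finset.mem_univ _, ?_⟩
      rcases hv with hv | hv
      · rw [hS, Finset.mem_filter] at hv
        exact hUV hv.2
      · rw [Finset.mem_biUnion] at hv
        obtain ⟨j, _, hj⟩ := hv
        rw [Finset.mem_image] at hj
        obtain ⟨u, hu, rfl⟩ := hj
        rw [hS, Finset.mem_filter] at hu
        have h1 := hUVt j _ hu.2
        have h2 : (fun h => (fun g => l (κ u g)) ((t j)⁻¹ * h)) = (fun g => l (κ (π j u) g)) := by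
          funext g
          simp only [κ]
          have e1 : (t j)⁻¹ = FreeGroup.lift t (FreeGroup.of j)⁻¹ := by
            rw [map_inv, FreeGroup.lift_apply_of]
          rw [e1, hw, hs]
          congr 2
          rw [map_mul, map_inv, hρ, FreeGroup.lift_apply_of, mul_inv_rev, inv_inv]
          rfl
        rw [h2] at h1
        exact h1
    have hcard : (S ∪ Finset.univ.biUnion (fun j => S.image (π j))).card ≤ S'.card :=
      Finset.card_le_card hsub
    apply pointwise_ineq n a (F l) (Gs l) hnr hsmall
    · rw [hFS]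
      have : S.card ≤ n := by
        have := Finset.card_le_univ S
        simpa using this
      exact_mod_cast this
    · rw [hGS]; positivity
    · intro h
      rw [hFS] at h
      have h1 := le_trans (hexp S h) hcard
      rw [hFS, hGS]
      exact_mod_cast h1
  -- integrate
  have hden : (0 : ℝ) < n * (1 / 10 ^ 18) ^ 2 := by positivity
  have hint1 : Integrable (fun l => (F l - n * a) ^ 2) (PP J) := by
    have : (fun l => (F l - n * a) ^ 2) = fun l => F l ^ 2 - 2 * (n * a) * F l + (n * a) ^ 2 := by
      funext l; ring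
    rw [this]
    exact (hintF2.sub (hintF.const_mul _)).add (integrable_const _)
  have hQ : ∫ l, (F l - n * a) ^ 2 ∂(PP J) ≤ 4 * n * bad.card + n * (I.card : ℝ) ^ 2 := by
    have e1 : ∫ l, (F l - n * a) ^ 2 ∂(PP J) =
        (∫ l, F l ^ 2 ∂(PP J)) - 2 * (n * a) * (∫ l, F l ∂(PP J)) + (n * a) ^ 2 := by
      have : (fun l => (F l - n * a) ^ 2) = fun l => F l ^ 2 - 2 * (n * a) * F l + (n * a) ^ 2 := by
        funext l; ring
      rw [this]
      have e2 : ∫ l, (F l ^ 2 - 2 * (n * a) * F l + (n * a) ^ 2) ∂(PP J) =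
          (∫ l, (F l ^ 2 - 2 * (n * a) * F l) ∂(PP J)) + ∫ _l, (n * a) ^ 2 ∂(PP J) :=
        integral_add (hintF2.sub (hintF.const_mul _)) (integrable_const _)
      have e3 : ∫ l, (F l ^ 2 - 2 * (n * a) * F l) ∂(PP J) =
          (∫ l, F l ^ 2 ∂(PP J)) - ∫ l, 2 * (n * a) * F l ∂(PP J) :=
        integral_sub hintF2 (hintF.const_mul _)
      rw [e2, e3, integral_const_mul]
      simp
    rw [e1, hFint, hF2int]
    have h3 : 2 * (n * a) * (n * a - bad.card) ≤ 2 * (n * a) * ∑ v, (PP J).real (A v) :=
      mul_le_mul_of_nonneg_left hF_ge (by positivity)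
    have h4 : 2 * (n * a) * (bad.card : ℝ) ≤ 2 * n * bad.card := by
      have : (0 : ℝ) ≤ 2 * n * bad.card := by positivity
      calc 2 * (n * a) * (bad.card : ℝ) = a * (2 * n * bad.card) := by ring
        _ ≤ 1 * (2 * n * bad.card) := mul_le_mul_of_nonneg_right ha1 this
        _ = _ := by ring
    nlinarith
  have hfin : ∫ l, 70 * (F l - (F l - n * a) ^ 2 / (n * (1 / 10 ^ 18) ^ 2)) ∂(PP J) ≤
      ∫ l, Gs l ∂(PP J) := by
    apply integral_mono _ hintG hpt
    exact (hintF.sub (hint1.div_const _)).const_mul _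
  rw [integral_const_mul, integral_sub hintF (hint1.div_const _), integral_div, hFint, hGint] at hfin
  have h5 : (∫ l, (F l - n * a) ^ 2 ∂(PP J)) / (n * (1 / 10 ^ 18) ^ 2) ≤
      (4 * n * bad.card + n * (I.card : ℝ) ^ 2) / (n * (1 / 10 ^ 18) ^ 2) :=
    div_le_div_of_nonneg_right hQ hden.le
  linarith

end fin

section cyl

variable {G : Type} [Group G]

/-- translate -/
def tr (g : G) (D : Set (G → unitInterval)) : Set (G → unitInterval) :=
  {y | (fun h => y (g * h)) ∈ D}

theorem measurableSet_tr (g : G) {D : Set (G → unitInterval)} (hD : MeasurableSet D) :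
    MeasurableSet (tr g D) := measurable_reind (fun h => g * h) hD

theorem PP_tr (g : G) {D : Set (G → unitInterval)} (hD : MeasurableSet D) :
    PP G (tr g D) = PP G D := by
  have h1 := map_of_inj (J := G) (fun h : G => g * h) (mul_right_injective g)
  conv_rhs => rw [← h1, Measure.map_apply (measurable_reind _) hD]
  rfl

/-- the enlarged set -/
def enl (t : Fin 79 → G) (U : Set (G → unitInterval)) : Set (G → unitInterval) :=
  U ∪ ⋃ j, tr (t j) U

theorem measurableSet_enl (t : Fin 79 → G) {U : Set (G → unitInterval)} (hU : MeasurableSet U) :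
    MeasurableSet (enl t U) :=
  hU.union (MeasurableSet.iUnion fun j => measurableSet_tr (t j) hU)

omit [Group G] in
theorem det_mono {I I' : Finset G} (h : I ⊆ I') {D : Set (G → unitInterval)} (hD : Det I D) :
    Det I' D := fun y y' hy => hD y y' (fun g hg => hy g (h hg))

open Classical in
theorem cyl_case (hP : PERM) (t : Fin 79 → G) (ht : Function.Injective (FreeGroup.lift t))
    (I0 : Finset G) (U : Set (G → unitInterval)) (hU : MeasurableSet U) (hUI : Det I0 U)
    (hsmall : (PP G).real U ≤ 29 / 10 ^ 18) :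
    70 * (PP G).real U ≤ (PP G).real (enl t U) := by
  obtain ⟨w, s, h1, hw, hs⟩ := transversal (FreeGroup.lift t) ht
  set I : Finset G := I0 ∪ Finset.univ.biUnion (fun j => I0.image (fun h => t j * h)) with hI
  have hUI' : Det I U := det_mono Finset.subset_union_left hUI
  have hVI' : Det I (enl t U) := by
    intro y y' hy
    have e1 : y ∈ U ↔ y' ∈ U := hUI' y y' hy
    have e2 : ∀ j, y ∈ tr (t j) U ↔ y' ∈ tr (t j) U := by
      intro j
      apply hUI
      intro g hg
      apply hy
      rw [hI, Finset.mem_union]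
      right
      rw [Finset.mem_biUnion]
      exact ⟨j, Finset.mem_univ _, Finset.mem_image_of_mem _ hg⟩
    simp only [enl, Set.mem_union, Set.mem_iUnion, e1, e2]
  set W : Finset (FreeGroup (Fin 79)) := ((I ×ˢ I).filter (fun p => p.1 ≠ p.2 ∧ s p.1 = s p.2)).image
    (fun p => w p.1 * (w p.2)⁻¹) with hW
  have hW1 : ∀ x ∈ W, x ≠ 1 := by
    intro x hx hx1
    rw [hW, Finset.mem_image] at hx
    obtain ⟨p, hp, rfl⟩ := hx
    rw [Finset.mem_filter] at hp
    apply hp.2.1
    have e1 : w p.1 = w p.2 := by
      rwa [mul_inv_eq_one] at hx1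
    rw [← h1 p.1, ← h1 p.2, e1, hp.2.2]
  apply le_of_forall_pos_le_add
  intro ε hε
  set K : ℝ := 71 + 350 / (1 / 10 ^ 18) ^ 2 with hK
  have hK0 : 0 < K := by rw [hK]; positivity
  set δ : ℝ := ε / K with hδ
  have hδ0 : 0 < δ := by positivity
  obtain ⟨N0, hN0⟩ := hP W hW1 δ hδ0
  obtain ⟨N1, hN1⟩ := exists_nat_ge ((I.card : ℝ) ^ 2 / δ)
  set n : ℕ := N0 + N1 + 1 with hn
  have hnpos : 0 < n := by omega
  obtain ⟨π, hexp, hbadc⟩ := hN0 n (by omega)
  set bad : Finset (Fin n) := Finset.univ.filter (fun v : Fin n => ∃ w ∈ W, FreeGroup.lift π w v = v)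
    with hbad
  have hnr : (0 : ℝ) < n := by exact_mod_cast hnpos
  have hmain := fin_main t n hnpos π w s hw hs I U (enl t U) hU (measurableSet_enl t hU) hUI' hVI'
    Set.subset_union_left (by
      intro j y hy
      right
      rw [Set.mem_iUnion]
      refine ⟨j, ?_⟩
      change (fun h => y ((t j)⁻¹ * (t j * h))) ∈ U
      simpa using hy) bad (by
      intro v hv g hg g' hg' hsg hρ
      by_contra hne
      apply hv
      rw [hbad, Finset.mem_filter]
      refine ⟨Finset.mem_univ _, w g * (w g')⁻¹, ?_, ?_⟩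
      · rw [hW, Finset.mem_image]
        exact ⟨(g, g'), Finset.mem_filter.mpr ⟨Finset.mem_product.mpr ⟨hg, hg'⟩, hne, hsg⟩, rfl⟩
      · rw [map_mul, map_inv, Equiv.Perm.mul_apply, ← hρ]
        exact Equiv.apply_symm_apply _ _) hexp hsmall
  set a := (PP G).real U with ha
  set b := (PP G).real (enl t U) with hb
  have hc : (I.card : ℝ) ^ 2 ≤ δ * n := by
    have e1 : (I.card : ℝ) ^ 2 / δ ≤ n := by
      refine le_trans hN1 ?_
      exact_mod_cast (by omega : N1 ≤ n)
    rw [div_le_iff₀ hδ0] at e1
    linarith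
  have hη : (0 : ℝ) < (1 / 10 ^ 18) ^ 2 := by positivity
  have e1 : (4 * n * (bad.card : ℝ) + n * (I.card : ℝ) ^ 2) / (n * (1 / 10 ^ 18) ^ 2) ≤
      n * (5 * δ / (1 / 10 ^ 18) ^ 2) := by
    rw [div_le_iff₀ (by positivity)]
    have e2 : (n : ℝ) * (5 * δ / (1 / 10 ^ 18) ^ 2) * (n * (1 / 10 ^ 18) ^ 2) = n * (5 * (δ * n)) := by
      field_simp
    rw [e2]
    have e3 : (n : ℝ) * (4 * bad.card + (I.card : ℝ) ^ 2) ≤ n * (5 * (δ * n)) := by
      apply mul_le_mul_of_nonneg_left _ hnr.le
      linarith
    linarith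
  have e4 : (n : ℝ) * (70 * a) ≤ n * (b + ε) := by
    have e5 : (n : ℝ) * ε = 71 * (δ * n) + 70 * (n * (5 * δ / (1 / 10 ^ 18) ^ 2)) := by
      have : ε = δ * K := by rw [hδ]; field_simp
      rw [this, hK]
      field_simp
      ring
    have e6 : (n : ℝ) * (b + ε) = n * b + n * ε := by ring
    rw [e6, e5]
    linarith
  exact le_of_mul_le_mul_left e4 hnr

theorem enl_sub (t : Fin 79 → G) (U U' : Set (G → unitInterval)) :
    enl t U' ⊆ enl t U ∪ ((U' \ U) ∪ ⋃ j, tr (t j) (U' \ U)) := by
  intro y hy
  rcases hy with hy | hy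
  · by_cases h : y ∈ U
    · exact Or.inl (Or.inl h)
    · exact Or.inr (Or.inl ⟨hy, h⟩)
  · rw [Set.mem_iUnion] at hy
    obtain ⟨j, hj⟩ := hy
    by_cases h : y ∈ tr (t j) U
    · exact Or.inl (Or.inr (Set.mem_iUnion.mpr ⟨j, h⟩))
    · exact Or.inr (Or.inr (Set.mem_iUnion.mpr ⟨j, ⟨hj, h⟩⟩))

theorem sum80 (x : ℝ≥0∞) : x + ∑ _j : Fin 79, x = 80 * x := by
  rw [Finset.sum_const, Finset.card_univ, Fintype.card_fin, nsmul_eq_mul]
  have : (80 : ℝ≥0∞) = 1 + ((79 : ℕ) : ℝ≥0∞) := by norm_num
  rw [this, add_mul, one_mul]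

theorem gen_case (hP : PERM) (t : Fin 79 → G) (ht : Function.Injective (FreeGroup.lift t))
    (U : Set (G → unitInterval)) (hU : MeasurableSet U) (hsmall : PP G U ≤ al) :
    70 * PP G U ≤ PP G (enl t U) := by
  apply ENNReal.le_of_forall_pos_le_add
  intro ε0 hε0 _
  -- choice of epsilon
  set ε : ℝ := min (ε0 / 150) (9 / 10 ^ 18) with hε
  have hεpos : 0 < ε := by
    rw [hε]
    apply lt_min
    · have : (0 : ℝ) < ε0 := by exact_mod_cast hε0
      positivity
    · positivity
  have hdense : (PP G).MeasureDense (measurableCylinders (fun _ : G => unitInterval)) :=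
    Measure.MeasureDense.of_generateFrom_isSetAlgebra_finite (PP G) isSetAlgebra_measurableCylinders
      generateFrom_measurableCylinders.symm
  obtain ⟨U', hU'c, hU'⟩ := hdense.approx U hU (measure_ne_top _ _) ε hεpos
  rw [mem_measurableCylinders] at hU'c
  obtain ⟨I, D0, hD0, rfl⟩ := hU'c
  set U' : Set (G → unitInterval) := cylinder I D0 with hU'def
  have hU'm : MeasurableSet U' := MeasurableSet.cylinder I hD0
  have hdet : Det I U' := by
    intro y y' hy
    rw [hU'def, mem_cylinder, mem_cylinder]
    have : I.restrict y = I.restrict y' := by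
      funext c
      exact hy c c.2
    rw [this]
  have hd1 : PP G (U \ U') ≤ ENNReal.ofReal ε :=
    le_trans (measure_mono (by
      intro y hy
      exact Or.inl hy)) hU'.le
  have hd2 : PP G (U' \ U) ≤ ENNReal.ofReal ε :=
    le_trans (measure_mono (by
      intro y hy
      exact Or.inr hy)) hU'.le
  have hU'small : (PP G).real U' ≤ 29 / 10 ^ 18 := by
    have e1 : PP G U' ≤ ENNReal.ofReal (29 / 10 ^ 18) := by
      calc PP G U' ≤ PP G (U ∪ (U' \ U)) := measure_mono (by
            intro y hy
            by_cases h : y ∈ U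
            · exact Or.inl h
            · exact Or.inr ⟨hy, h⟩)
        _ ≤ PP G U + PP G (U' \ U) := measure_union_le _ _
        _ ≤ ENNReal.ofReal (2 / 10 ^ 17) + ENNReal.ofReal (9 / 10 ^ 18) := by
            apply add_le_add hsmall
            refine le_trans hd2 (ENNReal.ofReal_le_ofReal (min_le_right _ _))
        _ = ENNReal.ofReal (29 / 10 ^ 18) := by
            rw [← ENNReal.ofReal_add (by positivity) (by positivity)]
            norm_num
    rw [Measure.real]
    exact ENNReal.toReal_le_of_le_ofReal (by positivity) e1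
  have hcyl := cyl_case hP t ht I U' hU'm hdet hU'small
  have hcyl' : 70 * PP G U' ≤ PP G (enl t U') := by
    have e1 : (70 * PP G U').toReal ≤ (PP G (enl t U')).toReal := by
      rw [ENNReal.toReal_mul]
      simpa [Measure.real] using hcyl
    exact (ENNReal.toReal_le_toReal (ENNReal.mul_ne_top (by simp) (measure_ne_top _ _))
      (measure_ne_top _ _)).mp e1
  have henl : PP G (enl t U') ≤ PP G (enl t U) + 80 * ENNReal.ofReal ε := by
    calc PP G (enl t U') ≤ PP G (enl t U ∪ ((U' \ U) ∪ ⋃ j, tr (t j) (U' \ U))) :=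
          measure_mono (enl_sub t U U')
      _ ≤ PP G (enl t U) + PP G ((U' \ U) ∪ ⋃ j, tr (t j) (U' \ U)) := measure_union_le _ _
      _ ≤ PP G (enl t U) + (PP G (U' \ U) + PP G (⋃ j, tr (t j) (U' \ U))) := by
          gcongr
          exact measure_union_le _ _
      _ ≤ PP G (enl t U) + (PP G (U' \ U) + ∑ j, PP G (tr (t j) (U' \ U))) := by
          gcongr
          exact measure_iUnion_fintype_le _ _
      _ = PP G (enl t U) + (PP G (U' \ U) + ∑ _j : Fin 79, PP G (U' \ U)) := by
          congr 2
          apply Finset.sum_congr rfl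
          intro j _
          exact PP_tr (t j) (hU'm.diff hU)
      _ ≤ PP G (enl t U) + (ENNReal.ofReal ε + ∑ _j : Fin 79, ENNReal.ofReal ε) := by
          gcongr
      _ = _ := by rw [sum80]
  have hε150 : 150 * ENNReal.ofReal ε ≤ ε0 := by
    have e1 : (150 : ℝ≥0∞) = ENNReal.ofReal 150 := by simp
    rw [e1, ← ENNReal.ofReal_mul (by norm_num)]
    have e2 : 150 * ε ≤ ε0 := by
      have : ε ≤ ε0 / 150 := min_le_left _ _
      linarith
    refine le_trans (ENNReal.ofReal_le_ofReal e2) ?_
    simp
  calc 70 * PP G U ≤ 70 * (PP G U' + ENNReal.ofReal ε) := by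
        gcongr
        calc PP G U ≤ PP G (U' ∪ (U \ U')) := measure_mono (by
              intro y hy
              by_cases h : y ∈ U'
              · exact Or.inl h
              · exact Or.inr ⟨hy, h⟩)
          _ ≤ PP G U' + PP G (U \ U') := measure_union_le _ _
          _ ≤ _ := by gcongr
    _ = 70 * PP G U' + 70 * ENNReal.ofReal ε := by rw [mul_add]
    _ ≤ (PP G (enl t U) + 80 * ENNReal.ofReal ε) + 70 * ENNReal.ofReal ε := by
        gcongr
        exact le_trans hcyl' henl
    _ = PP G (enl t U) + 150 * ENNReal.ofReal ε := by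
        rw [add_assoc, ← add_mul]
        norm_num
    _ ≤ _ := by gcongr

end cyl

end EXPB

open EXPB in
theorem expb_of (h : PERM) : EXPB := by
  intro G _ _ t ht U hU hsmall
  have h1 := gen_case h t ht U hU hsmall
  have h2 : enl t U = (U ∪ ⋃ j : Fin 79, (fun y : BernX G => t j • y) '' U) := by
    unfold enl
    congr 1
    apply Set.iUnion_congr
    intro j
    ext y
    constructor
    · intro hy
      refine ⟨(fun h => y (t j * h)), hy, ?_⟩
      funext h
      change y (t j * ((t j)⁻¹ * h)) = y h
      simp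
    · rintro ⟨z, hz, rfl⟩
      have e : (fun h => z ((t j)⁻¹ * (t j * h))) = z := by
        funext h
        rw [inv_mul_cancel_left]
      change (fun h => z ((t j)⁻¹ * (t j * h))) ∈ U
      rw [e]
      exact hz
  rw [h2] at h1
  exact h1

end Crest.Agent.R191
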