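import Crest.Agent.R191.Stmts

/-!
# Row 191, task GRP: the groups
-/

set_option autoImplicit false

namespace Crest.Agent.R191

namespace GRP

theorem toG_iQ (q : QQ) : toG (iQ q) = ofG (q.1 : AA) * zG ^ (Multiplicative.toAdd q.2) := by
  have h1 : toG (iQ q) = toGQ q := Monoid.Coprod.lift_apply_inl _ _ _
  rw [h1]
  rfl

theorem toG_xx : toG xx = ofG x0 := by
  have h1 : toG xx = zpowersHom GG (ofG x0) (Multiplicative.ofAdd (1 : ℤ)) :=
    Monoid.Coprod.lift_apply_inr _ _ _
  rw [h1]
  simp

theorem toG_uu (j : ℕ) : toG (iQ (uu j)) = ofG (u0 j) := by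
  rw [toG_iQ]
  simp [uu]

theorem toG_zz : toG (iQ zz) = zG := by
  rw [toG_iQ]
  simp [zz]

/-- `s_j` -/
def s0 : ℕ → G0
  | 0 => 1
  | (j + 1) => u0 j * x0 * s0 j

theorem toG_tau (j : ℕ) : toG (tau j) = ofG (s0 j) := by
  induction j with
  | zero => simp [tau, s0]
  | succ j ih =>
    rw [tau, s0, map_mul, map_mul, toG_uu, toG_xx, ih, map_mul, map_mul]

theorem s0_eq (j : ℕ) (hj : j ≤ 79) : s0 j = t0 j := by
  induction j with
  | zero => rfl
  | succ j ih =>
    have h1 : u0 j = g0 j := by
      unfold u0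
      rw [if_pos (by omega)]
    rw [s0, t0, ih (by omega), h1]

theorem ofG_injective : Function.Injective ofG :=
  HNNExtension.of_injective (A := AA) (B := AA) (φ := MulEquiv.refl AA)

theorem of_mem_range (o : Option (Fin 79)) : ofG (FreeGroup.of o) ∈ toG.range := by
  cases o with
  | none => exact ⟨xx, toG_xx⟩
  | some j =>
    refine ⟨iQ (uu j), ?_⟩
    rw [toG_uu]
    unfold u0 g0
    rw [if_pos j.2, dif_pos j.2]

theorem ofG_mem_range (g : G0) : ofG g ∈ toG.range := by
  induction g using FreeGroup.induction_on with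
  | C1 => rw [map_one]; exact one_mem _
  | of o => exact of_mem_range o
  | inv_of o h => rw [map_inv]; exact inv_mem h
  | mul a b ha hb => rw [map_mul]; exact mul_mem ha hb

/-- projection to `ℤ` -/
def eZ : GG →* Multiplicative ℤ :=
  HNNExtension.lift (A := AA) (B := AA) (φ := MulEquiv.refl AA) (1 : G0 →* Multiplicative ℤ)
    (Multiplicative.ofAdd 1) (by intro a; simp)

theorem eZ_ofG (g : G0) : eZ (ofG g) = 1 := by
  have := HNNExtension.lift_of (A := AA) (B := AA) (φ := MulEquiv.refl AA)
    (1 : G0 →* Multiplicative ℤ) (Multiplicative.ofAdd 1) (by intro a; simp) g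
  exact this

theorem eZ_zG : eZ zG = Multiplicative.ofAdd 1 := by
  have := HNNExtension.lift_t (A := AA) (B := AA) (φ := MulEquiv.refl AA)
    (1 : G0 →* Multiplicative ℤ) (Multiplicative.ofAdd 1) (by intro a; simp)
  exact this

/-- retraction `G0 → F_79` -/
def psi : G0 →* FreeGroup (Fin 79) :=
  FreeGroup.lift (fun o : Option (Fin 79) => match o with
    | none => 1
    | some j => if h : (j : ℕ) = 0 then FreeGroup.of j else
        FreeGroup.of j * (FreeGroup.of ⟨(j : ℕ) - 1, by omega⟩)⁻¹)

theorem psi_x0 : psi x0 = 1 := by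
  unfold psi x0
  rw [FreeGroup.lift_apply_of]

theorem psi_t0 (j : ℕ) (hj : j < 79) : psi (t0 (j + 1)) = FreeGroup.of ⟨j, hj⟩ := by
  induction j with
  | zero =>
    rw [t0, t0, map_mul, map_mul, psi_x0, map_one, mul_one, mul_one]
    unfold g0
    rw [dif_pos hj]
    unfold psi
    rw [FreeGroup.lift_apply_of]
    simp
  | succ j ih =>
    rw [t0, map_mul, map_mul, psi_x0, mul_one, ih (by omega)]
    unfold g0
    rw [dif_pos hj]
    unfold psi
    rw [FreeGroup.lift_apply_of]
    simp

end GRP

open GRP

theorem grp_surj : GRP_surj := by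
  intro x
  have : x ∈ toG.range := by
    refine HNNExtension.induction_on (A := AA) (B := AA) (φ := MulEquiv.refl AA)
      (motive := fun x => (x : GG) ∈ toG.range) x ?_ ?_ ?_ ?_
    · exact ofG_mem_range
    · exact ⟨iQ zz, toG_zz⟩
    · intro a b ha hb
      exact mul_mem ha hb
    · intro a ha
      exact inv_mem ha
  exact this

theorem grp_fg : GRP_fg := by
  let f : FreeGroup (Option (Fin 79) ⊕ Unit) →* GG :=
    FreeGroup.lift (Sum.elim (fun o => ofG (FreeGroup.of o)) (fun _ => zG))
  have hf : Function.Surjective f := by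
    intro x
    have h1 : ∀ g : G0, ofG g ∈ f.range := by
      intro g
      induction g using FreeGroup.induction_on with
      | C1 => rw [map_one]; exact one_mem _
      | of o =>
        refine ⟨FreeGroup.of (Sum.inl o), ?_⟩
        show FreeGroup.lift _ _ = _
        rw [FreeGroup.lift_apply_of]
        rfl
      | inv_of o h => rw [map_inv]; exact inv_mem h
      | mul a b ha hb => rw [map_mul]; exact mul_mem ha hb
    have : x ∈ f.range := by
      refine HNNExtension.induction_on (A := AA) (B := AA) (φ := MulEquiv.refl AA)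
        (motive := fun x => (x : GG) ∈ f.range) x ?_ ?_ ?_ ?_
      · exact h1
      · refine ⟨FreeGroup.of (Sum.inr ()), ?_⟩
        show FreeGroup.lift _ _ = _
        rw [FreeGroup.lift_apply_of]
        rfl
      · intro a b ha hb
        exact mul_mem ha hb
      · intro a ha
        exact inv_mem ha
    exact this
  exact Group.fg_of_surjective hf

theorem grp_iQ : GRP_iQ := by
  intro q h
  rw [toG_iQ] at h
  have h1 : Multiplicative.toAdd q.2 = 0 := by
    have h2 := congrArg eZ h
    rw [map_mul, map_zpow, eZ_ofG, eZ_zG, map_one eZ, one_mul, ← ofAdd_zsmul] at h2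
    have h3 := congrArg Multiplicative.toAdd h2
    simpa using h3
  rw [h1, zpow_zero, mul_one] at h
  have h3 : (q.1 : G0) = 1 := by
    apply ofG_injective
    rw [h, map_one]
  have h4 : q.1 = 1 := Subtype.ext h3
  have h5 : q.2 = 1 := by
    have := congrArg Multiplicative.ofAdd h1
    simpa using this
  exact Prod.ext h4 h5

theorem grp_rr : GRP_rr := by
  show toG (tau 80) = 1
  rw [tau, map_mul, map_mul, toG_uu, toG_xx, toG_tau, ← map_mul, ← map_mul, s0_eq 79 le_rfl]
  have : u0 79 * x0 * t0 79 = 1 := by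
    unfold u0
    rw [if_neg (by norm_num)]
    group
  rw [this, map_one]

theorem grp_free : GRP_free := by
  have h1 : FreeGroup.lift (fun j : Fin 79 => toG (tau ((j : ℕ) + 1))) =
      ofG.comp (FreeGroup.lift (fun j : Fin 79 => t0 ((j : ℕ) + 1))) := by
    ext j
    rw [MonoidHom.comp_apply, FreeGroup.lift_apply_of, FreeGroup.lift_apply_of, toG_tau,
      s0_eq _ (by omega)]
  show Function.Injective (FreeGroup.lift (fun j : Fin 79 => toG (tau ((j : ℕ) + 1))))
  rw [h1]
  have h2 : psi.comp (FreeGroup.lift (fun j : Fin 79 => t0 ((j : ℕ) + 1))) =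
      MonoidHom.id (FreeGroup (Fin 79)) := by
    ext j
    rw [MonoidHom.comp_apply, FreeGroup.lift_apply_of, psi_t0 _ j.2, MonoidHom.id_apply]
  have h3 : Function.Injective (FreeGroup.lift (fun j : Fin 79 => t0 ((j : ℕ) + 1))) := by
    intro a b hab
    have h4 := congrArg psi hab
    rw [← MonoidHom.comp_apply, ← MonoidHom.comp_apply, h2] at h4
    exact h4
  exact ofG_injective.comp h3

theorem grp_tau : GRP_tau := by
  have key : ∀ j : ℕ, ∀ hj : j < 79, toG (tau (j + 1)) =
      FreeGroup.lift (fun j : Fin 79 => toG (tau ((j : ℕ) + 1))) (FreeGroup.of ⟨j, hj⟩) := by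
    intro j hj
    rw [FreeGroup.lift_apply_of]
  have hne : ∀ j : Fin 79, (FreeGroup.of j : FreeGroup (Fin 79)) ≠ 1 := by
    intro j h
    have h1 := congrArg (FreeGroup.lift (fun _ : Fin 79 => Multiplicative.ofAdd (1 : ℤ))) h
    rw [FreeGroup.lift_apply_of, map_one (FreeGroup.lift _)] at h1
    exact absurd h1 (by decide)
  intro i hi j hj h
  rcases i with _ | i <;> rcases j with _ | j
  · rfl
  · exfalso
    rw [key j (by omega)] at h
    have h0 : toG (tau 0) = FreeGroup.lift (fun j : Fin 79 => toG (tau ((j : ℕ) + 1))) 1 := by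
      rw [map_one]; simp [tau]
    rw [h0] at h
    exact hne _ (grp_free h).symm
  · exfalso
    rw [key i (by omega)] at h
    have h0 : toG (tau 0) = FreeGroup.lift (fun j : Fin 79 => toG (tau ((j : ℕ) + 1))) 1 := by
      rw [map_one]; simp [tau]
    rw [h0] at h
    exact hne _ (grp_free h)
  · rw [key i (by omega), key j (by omega)] at h
    have h1 := FreeGroup.of_injective (grp_free h)
    rw [Fin.mk.injEq] at h1
    omega

end Crest.Agent.R191
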