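import Crest.Agent.R191.Stmts

/-! Row 191, task LOWER: the Bernoulli shift has cost at least `1 + κ`. -/

set_option autoImplicit false

namespace Crest.Agent.R191

open MeasureTheory
open scoped ENNReal

namespace LOWER

/-- largest invariant set avoiding `N0` -/
def inv (N0 : Set (BernX GG)) : Set (BernX GG) := {y | ∀ g : GG, g • y ∉ N0}

theorem inv_smul {N0 : Set (BernX GG)} {y : BernX GG} (hy : y ∈ inv N0) (g : GG) :
    g • y ∈ inv N0 := by
  intro h
  rw [smul_smul]
  exact hy _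

theorem inv_smul_iff {N0 : Set (BernX GG)} {y : BernX GG} (g : GG) :
    g • y ∈ inv N0 ↔ y ∈ inv N0 := by
  constructor
  · intro h
    have := inv_smul h g⁻¹
    rwa [inv_smul_smul] at this
  · exact fun h => inv_smul h g

def XS (N0 : Set (BernX GG)) : Type := inv N0

instance (N0 : Set (BernX GG)) : MeasurableSpace (XS N0) :=
  inferInstanceAs (MeasurableSpace (inv N0))

def vl (N0 : Set (BernX GG)) : XS N0 → BernX GG := Subtype.val

instance (N0 : Set (BernX GG)) : MulAction FF (XS N0) where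
  smul f y := ⟨toG f • y.1, inv_smul y.2 _⟩
  one_smul y := by
    apply Subtype.ext
    change toG 1 • y.1 = y.1
    rw [map_one, one_smul]
  mul_smul a b y := by
    apply Subtype.ext
    change toG (a * b) • y.1 = toG a • toG b • y.1
    rw [map_mul, mul_smul]

def mkX {N0 : Set (BernX GG)} (y : BernX GG) (hy : y ∈ inv N0) : XS N0 := ⟨y, hy⟩

@[simp] theorem vl_mkX {N0 : Set (BernX GG)} (y : BernX GG) (hy : y ∈ inv N0) :
    vl N0 (mkX y hy) = y := rfl

theorem vl_smul (N0 : Set (BernX GG)) (f : FF) (y : XS N0) : vl N0 (f • y) = toG f • vl N0 y := rfl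

theorem vl_inj (N0 : Set (BernX GG)) : Function.Injective (vl N0) := Subtype.val_injective

theorem range_vl (N0 : Set (BernX GG)) : Set.range (vl N0) = inv N0 := Subtype.range_val

variable (hact : ∀ g : GG, MeasurePreserving (fun y : BernX GG => g • y) (bernM GG) (bernM GG))

include hact

theorem meas_inv {N0 : Set (BernX GG)} (h : MeasurableSet N0) : MeasurableSet (inv N0) := by
  have : inv N0 = ⋂ g : GG, (fun y : BernX GG => g • y) ⁻¹' N0ᶜ := by
    ext y
    simp [inv]
  rw [this]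
  exact MeasurableSet.iInter fun g => (hact g).measurable h.compl

theorem emb_vl {N0 : Set (BernX GG)} (h : MeasurableSet N0) : MeasurableEmbedding (vl N0) :=
  MeasurableEmbedding.subtype_coe (meas_inv hact h)

theorem sb {N0 : Set (BernX GG)} (h : MeasurableSet N0) : StandardBorelSpace (XS N0) :=
  (meas_inv hact h).standardBorel

theorem mcs (N0 : Set (BernX GG)) : MeasurableConstSMul FF (XS N0) := by
  constructor
  intro f
  refine Measurable.subtype_mk ?_
  exact (hact (toG f)).measurable.comp measurable_subtype_coe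

theorem null_inv {N0 : Set (BernX GG)} (h0 : bernM GG N0 = 0) :
    bernM GG (inv N0)ᶜ = 0 := by
  have : (inv N0)ᶜ = ⋃ g : GG, (fun y : BernX GG => g • y) ⁻¹' N0 := by
    ext y
    simp [inv]
  rw [this]
  refine measure_iUnion_null fun g => ?_
  exact (hact g).quasiMeasurePreserving.preimage_null h0

omit hact in
/-- restricted measure -/
noncomputable def mu' (N0 : Set (BernX GG)) : Measure (XS N0) := (bernM GG).comap (vl N0)

theorem mu'_apply {N0 : Set (BernX GG)} (h : MeasurableSet N0) (s : Set (XS N0)) :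
    mu' N0 s = bernM GG (vl N0 '' s) := (emb_vl hact h).comap_apply _ s

theorem prob {N0 : Set (BernX GG)} (h : MeasurableSet N0) (h0 : bernM GG N0 = 0) :
    IsProbabilityMeasure (mu' N0) := by
  constructor
  rw [mu'_apply hact h, Set.image_univ, range_vl]
  have := prob_compl_eq_zero_iff (μ := bernM GG) (meas_inv hact h)
  exact this.1 (null_inv hact h0)

theorem mp {N0 : Set (BernX GG)} (h : MeasurableSet N0) (f : FF) :
    MeasurePreserving (fun y : XS N0 => f • y) (mu' N0) (mu' N0) := by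
  have hm := mcs hact N0
  refine ⟨measurable_const_smul f, ?_⟩
  ext B hB
  rw [Measure.map_apply (measurable_const_smul f) hB, mu'_apply hact h, mu'_apply hact h]
  have h1 : vl N0 '' ((fun y : XS N0 => f • y) ⁻¹' B) =
      (fun y : BernX GG => toG f • y) ⁻¹' (vl N0 '' B) := by
    ext y
    constructor
    · rintro ⟨y', hy', rfl⟩
      exact ⟨f • y', hy', rfl⟩
    · rintro ⟨y', hy', hy2⟩
      have hy : y ∈ inv N0 := by
        rw [← inv_smul_iff (toG f)]
        change vl N0 y' = toG f • y at hy2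
        rw [← hy2]
        exact y'.2
      refine ⟨mkX y hy, ?_, rfl⟩
      have : f • mkX y hy = y' := by
        apply vl_inj
        rw [hy2]; rfl
      change f • mkX y hy ∈ B
      rw [this]; exact hy'
  rw [h1]
  exact (hact (toG f)).measure_preimage
    ((emb_vl hact h).measurableSet_image.2 hB).nullMeasurableSet

theorem sys {N0 : Set (BernX GG)} (h : MeasurableSet N0) (he : EXPB) (hfree : GRP_free)
    (hfix : ∀ g : GG, g ≠ 1 → ∀ y : BernX GG, g • y = y → y ∈ N0) :
    Sys (XS N0) (mu' N0) := by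
  refine ⟨mp hact h, ?_, ?_⟩
  · intro g y
    constructor
    · intro hg
      by_contra hne
      have h1 := hfix (toG g) hne y.1 (congrArg (vl N0) hg)
      have h2 := y.2 1
      rw [one_smul] at h2
      exact h2 h1
    · intro hg
      apply vl_inj
      rw [vl_smul, hg, one_smul]
  · intro U hU hUa
    rw [mu'_apply hact h] at hUa ⊢
    rw [mu'_apply hact h]
    have h1 := he GG (fun j : Fin 79 => toG (tau ((j : ℕ) + 1))) hfree (vl N0 '' U)
      ((emb_vl hact h).measurableSet_image.2 hU) hUa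
    refine h1.trans (measure_mono ?_)
    intro y hy
    rcases hy with ⟨u, hu, rfl⟩ | hy
    · refine ⟨u, ?_, rfl⟩
      refine Set.mem_iUnion.2 ⟨0, u, hu, ?_⟩
      simp [tau]
    · obtain ⟨j, hj⟩ := Set.mem_iUnion.1 hy
      obtain ⟨_, ⟨u, hu, rfl⟩, rfl⟩ := hj
      refine ⟨tau ((j : ℕ) + 1) • u, ?_, rfl⟩
      exact Set.mem_iUnion.2 ⟨⟨(j : ℕ) + 1, by omega⟩, u, hu, rfl⟩

omit hact in
/-- lifting chains to the invariant subset -/
theorem lift_eqv {N0 : Set (BernX GG)} {Ψ : ℕ → GG × Set (BernX GG)} {w : ℕ → FF}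
    (hw : ∀ n, toG (w n) = (Ψ n).1) {a b : BernX GG}
    (h : Relation.EqvGen (fun a b => b = toG (iQ zz) • a ∨ Crest.Dynamics.GraphingStep Ψ a b) a b) :
    (a ∈ inv N0 ↔ b ∈ inv N0) ∧ ∀ (ha : a ∈ inv N0) (hb : b ∈ inv N0),
      Relation.EqvGen (StepQ (X := XS N0) w (fun n => vl N0 ⁻¹' (Ψ n).2)) (mkX a ha)
        (mkX b hb) := by
  induction h with
  | rel a b h =>
    rcases h with h | ⟨i, h1, h2⟩
    · subst h
      refine ⟨(inv_smul_iff _).symm, ?_⟩
      intro ha hb
      exact Relation.EqvGen.rel _ _ (Or.inl ⟨zz, rfl⟩)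
    · subst h2
      refine ⟨(inv_smul_iff _).symm, ?_⟩
      intro ha hb
      refine Relation.EqvGen.rel _ _ (Or.inr ⟨i, h1, ?_⟩)
      apply vl_inj
      rw [vl_smul, hw, vl_mkX, vl_mkX]
  | refl a => exact ⟨Iff.rfl, fun ha hb => Relation.EqvGen.refl _⟩
  | symm a b _ ih => exact ⟨ih.1.symm, fun ha hb => (ih.2 hb ha).symm⟩
  | trans a b c _ _ ih1 ih2 =>
    refine ⟨ih1.1.trans ih2.1, fun ha hc => ?_⟩
    exact (ih1.2 ha (ih1.1.1 ha)).trans _ _ _ (ih2.2 (ih1.1.1 ha) hc)

end LOWER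

theorem z_inf (hq : GRP_iQ) (n : ℕ) (hn : 0 < n) : toG (iQ zz) ^ n ≠ 1 := by
  intro h
  rw [← map_pow, ← map_pow] at h
  have h1 := hq _ h
  have h2 : (Multiplicative.ofAdd (1 : ℤ)) ^ n = 1 := congrArg Prod.snd h1
  rw [← ofAdd_nsmul] at h2
  have h3 : n • (1 : ℤ) = 0 := h2
  simp at h3
  omega

theorem GG_infinite (hq : GRP_iQ) : Infinite GG := by
  refine Infinite.of_injective (fun n : ℕ => toG (iQ zz) ^ n) ?_
  have h : orderOf (toG (iQ zz)) = 0 := by
    rw [orderOf_eq_zero_iff']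
    exact z_inf hq
  exact injective_pow_iff_not_isOfFinOrder.2 (orderOf_eq_zero_iff.1 h)

theorem lower_of (hm : MAINC) (hc : C1) (hf : BERN_free) (hmk : BERN_marker) (he : EXPB)
    (hq : GRP_iQ) (hs : GRP_surj) (hfree : GRP_free) : LOWER := by
  have hinf := GG_infinite hq
  have hB := hf GG
  refine ⟨hB, ?_⟩
  by_contra hcon
  rw [not_le] at hcon
  unfold Crest.Dynamics.actionCost at hcon
  rw [sInf_lt_iff] at hcon
  obtain ⟨_, ⟨Φ, hΦ, rfl⟩, hcost⟩ := hcon
  obtain ⟨r, hr0, hr⟩ := ENNReal.lt_iff_exists_add_pos_lt.1 hcost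
  -- marker
  obtain ⟨ε, hεr, hε1, hε0⟩ : ∃ ε : ℝ, ε ≤ r ∧ ε ≤ 1 ∧ 0 < ε := by
    have : (0 : ℝ) < r := hr0
    exact ⟨min r 1, min_le_left _ _, min_le_right _ _, lt_min this one_pos⟩
  obtain ⟨hM1, hM2⟩ := hmk GG (toG (iQ zz)) (z_inf hq) ε hε0 hε1
  have hMm : MeasurableSet {y : BernX GG | ((y 1 : unitInterval) : ℝ) < ε} := by
    have h1 : Measurable (fun y : BernX GG => ((y 1 : unitInterval) : ℝ)) :=
      measurable_subtype_coe.comp (measurable_pi_apply 1)
    exact measurableSet_lt h1 measurable_const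
  have hlt : Crest.Dynamics.graphingCost (bernM GG) Φ +
      bernM GG {y : BernX GG | ((y 1 : unitInterval) : ℝ) < ε} < 1 + kap := by
    refine lt_of_le_of_lt ?_ hr
    gcongr
    rw [hM1]
    refine (ENNReal.ofReal_le_ofReal hεr).trans ?_
    rw [ENNReal.ofReal_coe_nnreal]
  obtain ⟨Ψ, hΨm, hΨs, hΨ⟩ := hc GG (BernX GG) (bernM GG) hB.1 (toG (iQ zz)) _ hMm hM2 Φ kap hΦ hlt
  -- bad set
  set Bd : Set (BernX GG) := {y | ¬ ∀ g : GG, Relation.EqvGen
      (fun a b => b = toG (iQ zz) • a ∨ Crest.Dynamics.GraphingStep Ψ a b) y (g • y)} ∪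
      ⋃ g : GG, {y | g ≠ 1 ∧ g • y = y} with hBd
  have hBd0 : bernM GG Bd = 0 := by
    rw [hBd]
    refine measure_union_null hΨ (measure_iUnion_null fun g => ?_)
    by_cases hg : g = 1
    · simp [hg]
    · refine measure_mono_null ?_ (hB.2 g hg)
      rintro y ⟨_, h⟩
      exact h
  set N0 : Set (BernX GG) := toMeasurable (bernM GG) Bd with hN0
  have hN0m : MeasurableSet N0 := measurableSet_toMeasurable _ _
  have hN00 : bernM GG N0 = 0 := by rw [hN0, measure_toMeasurable, hBd0]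
  have hsub : Bd ⊆ N0 := subset_toMeasurable _ _
  have i1 := LOWER.sb hB.1 hN0m
  have i2 := LOWER.mcs hB.1 N0
  have i3 := LOWER.prob hB.1 hN0m hN00
  have hsys : Sys (LOWER.XS N0) (LOWER.mu' N0) := by
    refine LOWER.sys hB.1 hN0m he hfree ?_
    intro g hg y hy
    apply hsub
    right
    exact Set.mem_iUnion.2 ⟨g, hg, hy⟩
  choose w hw using fun n => hs (Ψ n).1
  refine hm (LOWER.XS N0) (LOWER.mu' N0) hsys w (fun n => LOWER.vl N0 ⁻¹' (Ψ n).2) ?_ ?_ ?_
  · intro n
    exact (LOWER.emb_vl hB.1 hN0m).measurable (hΨm n)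
  · refine lt_of_le_of_lt (ENNReal.tsum_le_tsum fun n => ?_) hΨs
    rw [LOWER.mu'_apply hB.1 hN0m]
    exact measure_mono (Set.image_preimage_subset _ _)
  · intro y
    have hy : y.1 ∉ Bd := by
      intro h
      have := y.2 1
      rw [one_smul] at this
      exact this (hsub h)
    have hy1 : ∀ g : GG, Relation.EqvGen
      (fun a b => b = toG (iQ zz) • a ∨ Crest.Dynamics.GraphingStep Ψ a b) y.1 (g • y.1) := by
      by_contra h
      exact hy (Or.inl h)
    exact (LOWER.lift_eqv hw (hy1 (toG xx))).2 y.2 (xx • y).2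

end Crest.Agent.R191
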