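import Crest.Agent.R191.Stmts

/-! # Row 191, task MTP (helper13) -/

set_option autoImplicit false

namespace Crest.Agent.R191

open MeasureTheory
open scoped ENNReal

theorem mtp : MTP := by
  intro Ω G _ _ _ _ m hmp hfix F hF
  classical
  obtain ⟨code, hcode⟩ := exists_injective_nat G
  let Mn : Ω → Set G := fun ω => {g | ∀ g', code g' < code g → g' • ω ≠ g • ω}
  have hleast : ∀ (ω ω' : Ω), ω' ∈ MulAction.orbit G ω → ∃ g ∈ Mn ω, g • ω = ω' := by
    intro ω ω' h
    let p : ℕ → Prop := fun n => ∃ g : G, code g = n ∧ g • ω = ω'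
    have hp : ∃ n, p n := by
      obtain ⟨g, hg⟩ := h
      exact ⟨_, g, rfl, hg⟩
    obtain ⟨g, h1, h2⟩ := Nat.find_spec hp
    refine ⟨g, fun g' hlt heq => ?_, h2⟩
    rw [h1] at hlt
    exact Nat.find_min hp hlt ⟨g', rfl, by rw [heq, h2]⟩
  have huniq : ∀ (ω : Ω) (g g' : G), g ∈ Mn ω → g' ∈ Mn ω → g • ω = g' • ω → g = g' := by
    intro ω g g' h h' heq
    rcases lt_trichotomy (code g) (code g') with hlt | hlt | hlt
    · exact (h' g hlt heq).elim
    · exact hcode hlt
    · exact (h g' hlt heq.symm).elim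
  have mMn : ∀ g, MeasurableSet {ω | g ∈ Mn ω} := by
    intro g
    have : {ω | g ∈ Mn ω} = ⋂ g' : G, ⋂ (_ : code g' < code g), {ω | (g⁻¹ * g') • ω = ω}ᶜ := by
      ext ω
      simp only [Mn, Set.mem_ofPred_eq, Set.mem_iInter, Set.mem_compl_iff]
      refine forall_congr' fun g' => forall_congr' fun _ => ?_
      rw [mul_smul, inv_smul_eq_iff]
    rw [this]
    exact MeasurableSet.iInter fun g' => MeasurableSet.iInter fun _ => (hfix _).compl
  have hL : ∀ ω, ∑' ω' : MulAction.orbit G ω, F ω ω' =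
      ∑' g : G, (if g ∈ Mn ω then F ω (g • ω) else 0) := by
    intro ω
    have h1 : MulAction.orbit G ω = (fun g : G => g • ω) '' Mn ω := by
      ext ω'
      constructor
      · intro h
        obtain ⟨g, h1, h2⟩ := hleast ω ω' h
        exact ⟨g, h1, h2⟩
      · rintro ⟨g, _, rfl⟩
        exact ⟨g, rfl⟩
    rw [h1, tsum_image (fun ω' => F ω ω') (fun g h g' h' heq => huniq ω g g' h h' heq),
      tsum_subtype (Mn ω) (fun g => F ω (g • ω))]
    rfl
  have hR : ∀ ω, ∑' ω' : MulAction.orbit G ω, F ω' ω =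
      ∑' g : G, (if g ∈ Mn (g⁻¹ • ω) then F (g⁻¹ • ω) ω else 0) := by
    intro ω
    have h1 : MulAction.orbit G ω = (fun g : G => g⁻¹ • ω) '' {g | g ∈ Mn (g⁻¹ • ω)} := by
      ext ω'
      constructor
      · intro h
        obtain ⟨g, h1, h2⟩ := hleast ω' ω (MulAction.mem_orbit_symm.1 h)
        have h3 : g⁻¹ • ω = ω' := by rw [← h2, inv_smul_smul]
        exact ⟨g, by rw [Set.mem_ofPred_eq, h3]; exact h1, h3⟩
      · rintro ⟨g, _, rfl⟩
        exact ⟨g⁻¹, rfl⟩
    rw [h1, tsum_image (fun ω' => F ω' ω) ?_,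
      tsum_subtype {g | g ∈ Mn (g⁻¹ • ω)} (fun g => F (g⁻¹ • ω) ω)]
    · rfl
    · intro g h g' h' heq
      have heq' : g⁻¹ • ω = g'⁻¹ • ω := heq
      refine huniq (g⁻¹ • ω) g g' h ?_ ?_
      · rw [heq']; exact h'
      · rw [smul_inv_smul, heq', smul_inv_smul]
  simp_rw [hL, hR]
  have mφ : ∀ g, Measurable fun ω => (if g ∈ Mn ω then F ω (g • ω) else 0) := fun g =>
    Measurable.ite (mMn g) (hF g) measurable_const
  rw [lintegral_tsum fun g => (mφ g).aemeasurable, lintegral_tsum]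
  · refine tsum_congr fun g => ?_
    have := (hmp g⁻¹).lintegral_comp (mφ g)
    rw [← this]
    refine lintegral_congr fun ω => ?_
    simp only [smul_inv_smul]
  · intro g
    have := (mφ g).comp (hmp g⁻¹).measurable
    refine Measurable.aemeasurable ?_
    convert this using 2
    rename_i ω
    simp [Function.comp]

end Crest.Agent.R191
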