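import Crest.Agent.R191.ATT1

/-! # Row 191, task ATT2 (helper13) -/

set_option autoImplicit false

namespace Crest.Agent.R191

open MeasureTheory
open scoped ENNReal

namespace ATT2

variable {X : Type} [MeasurableSpace X] [MulAction FF X] [MeasurableConstSMul FF X]

omit [MeasurableConstSMul FF X] in
theorem adj_mono {𝒢 : Gpd X} {S S' : FF → Set X} (h : ∀ g, S g ⊆ S' g) {g : FF} {y : X}
    (ha : Adj 𝒢 S g y) : Adj 𝒢 S' g y := by
  induction ha with
  | base g y h1 => exact Adj.base _ _ h1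
  | gen g y h1 => exact Adj.gen _ _ (h g h1)
  | mul g h y _ _ ih1 ih2 => exact Adj.mul _ _ _ ih1 ih2
  | inv g y _ ih => exact Adj.inv _ _ ih

theorem attG_mono (𝒢 : Gpd X) {D D' : Set (Om 𝒢)} (hD : MeasurableSet D)
    (hD' : MeasurableSet D') (h : D ⊆ D') : (attG 𝒢 D hD).le (attG 𝒢 D' hD') := by
  intro g y hy
  refine adj_mono ?_ hy
  rintro g y ⟨k, h1, h2⟩
  exact ⟨k, h1, h h2⟩

theorem map_attMap (𝒢 : Gpd X) {D D' : Set (Om 𝒢)} (hD : MeasurableSet D)
    (hD' : MeasurableSet D') (h : D ⊆ D') (ω : Om 𝒢) :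
    Om.map (attG_mono 𝒢 hD hD' h) (attMap 𝒢 D hD ω) = attMap 𝒢 D' hD' ω := by
  induction ω using Om.ind with
  | h g y => rfl

end ATT2

open ATT2 in
theorem att_cross : ATT_cross := by
  intro X _ _ _ _ μ _ hs σ D D' hD hD' hDD
  have h1 : (σ.attach D' hD').C ⊆ Om.map (attG_mono σ.G hD hD' hDD) '' (σ.attach D hD).C ∪
      attMap σ.G D' hD' '' (D' \ D) := by
    rintro ω (⟨ω', h1, rfl⟩ | ⟨ω', h1, rfl⟩)
    · left
      exact ⟨attMap σ.G D hD ω', Or.inl ⟨ω', h1, rfl⟩, map_attMap _ _ _ hDD _⟩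
    · by_cases h2 : ω' ∈ D
      · left
        exact ⟨attMap σ.G D hD ω', Or.inr ⟨ω', h2, rfl⟩, map_attMap _ _ _ hDD _⟩
      · right
        exact ⟨ω', ⟨h1, h2⟩, rfl⟩
  refine (measure_mono h1).trans ((measure_union_le _ _).trans (add_le_add ?_ ?_))
  · exact om_map X μ hs _ _ _ _ (σ.attach D hD).hC
  · exact om_map X μ hs _ _ _ _ (hD'.diff hD)

open ATT2 ATT1 in
theorem att_pot_of (hr : GRP_rr) : ATT_pot := by
  intro X _ _ _ _ μ _ hs σ D hD hDA hb hal
  classical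
  set 𝒢' := attG σ.G D hD with h𝒢'
  set f := attMap σ.G D hD with hf
  have hb' := base hs hr σ D hD hDA hb
  have mfT : MeasurableSet (f '' σ.T) := measurableSet_map_image _ σ.hT
  have mfC : MeasurableSet (f '' σ.C) := measurableSet_map_image _ σ.hC
  have mfD : MeasurableSet (f '' D) := measurableSet_map_image _ hD
  set F : Set (Om 𝒢') := f '' D \ f '' σ.C with hF
  have mF : MeasurableSet F := mfD.diff mfC
  have hfCT : ∀ ω ∈ f '' σ.C, ∀ j < 80, tau j • ω ∈ f '' σ.T := by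
    rintro _ ⟨ω, hω, rfl⟩ j hj
    exact ⟨tau j • ω, hb.bd ω hω j hj, attMap_smul _ _ _ _ _⟩
  -- new edges
  set Fj : Fin 80 → Set (Om 𝒢') := fun j => F ∩ {ω | tau (j : ℕ) • ω ∉ f '' σ.T} with hFj
  have mFj : ∀ j, MeasurableSet (Fj j) := fun j =>
    mF.inter (measurable_smul_om 𝒢' _ mfT).compl
  have hT' : (σ.attach D hD).T ⊆ f '' σ.T ∪ ⋃ j : Fin 80, (fun ω => tau (j : ℕ) • ω) '' Fj j := by
    rintro e (he | he)
    · exact Or.inl he
    · obtain ⟨j, hj⟩ := Set.mem_iUnion.1 he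
      obtain ⟨ω, hω, rfl⟩ := hj
      by_cases h1 : (fun ω => tau (j : ℕ) • ω) ω ∈ f '' σ.T
      · exact Or.inl h1
      · right
        refine Set.mem_iUnion.2 ⟨j, ω, ⟨⟨hω, fun h2 => h1 (hfCT ω h2 j j.2)⟩, h1⟩, rfl⟩
  have hsum : ∑ j : Fin 80, mO μ 𝒢' (Fj j) ≤ 2 * mO μ 𝒢' F := by
    have h1 : ∀ ω, ∑ j : Fin 80, (Fj j).indicator (1 : Om 𝒢' → ℝ≥0∞) ω ≤
        F.indicator (fun _ => (2 : ℝ≥0∞)) ω := by
      intro ω
      by_cases hω : ω ∈ F
      · rw [Set.indicator_of_mem hω]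
        obtain ⟨⟨d, hd, hdω⟩, _⟩ := hω
        obtain ⟨j0, hj0, hA⟩ := hDA hd
        have hfix := rr_fix hs hr σ.G D hD d hd
        have h2 : ∀ j : Fin 80, ω ∈ Fj j → j = ⟨(j0 + 78) % 80, Nat.mod_lt _ (by norm_num)⟩ ∨
            j = ⟨(j0 + 79) % 80, Nat.mod_lt _ (by norm_num)⟩ := by
          intro j hj
          by_contra hne
          push Not at hne
          apply hj.2
          -- j = (j0+i) % 80 with i < 78
          have hj0' : ∃ i < 78, (j0 + i) % 80 = (j : ℕ) := by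
            have h3 : (j : ℕ) ≠ (j0 + 78) % 80 := fun h => hne.1 (Fin.ext h)
            have h4 : (j : ℕ) ≠ (j0 + 79) % 80 := fun h => hne.2 (Fin.ext h)
            have h5 := j.2
            by_cases h6 : j0 ≤ (j : ℕ)
            · exact ⟨j - j0, by omega, by omega⟩
            · exact ⟨j + 80 - j0, by omega, by omega⟩
          obtain ⟨i, hi, hij⟩ := hj0'
          refine ⟨pp (j0 + i) • d, hA i hi, ?_⟩
          rw [← hdω, ← hij, ← pp_mod hfix]
          exact attMap_smul _ _ _ _ _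
        calc ∑ j : Fin 80, (Fj j).indicator (1 : Om 𝒢' → ℝ≥0∞) ω
            ≤ ∑ j : Fin 80, (if j = ⟨(j0 + 78) % 80, Nat.mod_lt _ (by norm_num)⟩ ∨
              j = ⟨(j0 + 79) % 80, Nat.mod_lt _ (by norm_num)⟩ then (1 : ℝ≥0∞) else 0) := by
              refine Finset.sum_le_sum fun j _ => ?_
              by_cases hj : ω ∈ Fj j
              · rw [Set.indicator_of_mem hj, if_pos (h2 j hj)]
                rfl
              · rw [Set.indicator_of_notMem hj]
                exact bot_le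
          _ ≤ ∑ j ∈ ({⟨(j0 + 78) % 80, Nat.mod_lt _ (by norm_num)⟩,
              ⟨(j0 + 79) % 80, Nat.mod_lt _ (by norm_num)⟩} : Finset (Fin 80)), (1 : ℝ≥0∞) := by
              rw [← Finset.sum_filter]
              refine Finset.sum_le_sum_of_subset ?_
              intro j hj
              simpa using hj
          _ ≤ 2 := by
              rw [Finset.sum_const, nsmul_eq_mul, mul_one]
              exact_mod_cast Finset.card_le_two
      · rw [Set.indicator_of_notMem hω]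
        refine le_of_eq (Finset.sum_eq_zero fun j _ => ?_)
        exact Set.indicator_of_notMem (fun h => hω h.1) _
    calc ∑ j : Fin 80, mO μ 𝒢' (Fj j)
        = ∑ j : Fin 80, ∫⁻ ω, (Fj j).indicator (1 : Om 𝒢' → ℝ≥0∞) ω ∂(mO μ 𝒢') := by
          refine Finset.sum_congr rfl fun j _ => (lintegral_indicator_one (mFj j)).symm
      _ = ∫⁻ ω, ∑ j : Fin 80, (Fj j).indicator (1 : Om 𝒢' → ℝ≥0∞) ω ∂(mO μ 𝒢') := by
          rw [lintegral_finsetSum]
          exact fun j _ => measurable_one.indicator (mFj j)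
      _ ≤ ∫⁻ ω, F.indicator (fun _ => (2 : ℝ≥0∞)) ω ∂(mO μ 𝒢') := lintegral_mono h1
      _ = 2 * mO μ 𝒢' F := by rw [lintegral_indicator_const mF]
  have hmT' : mO μ 𝒢' (σ.attach D hD).T ≤ mO μ 𝒢' (f '' σ.T) + 2 * mO μ 𝒢' F := by
    refine (measure_mono hT').trans ((measure_union_le _ _).trans ?_)
    refine add_le_add le_rfl (le_trans ?_ hsum)
    refine (measure_iUnion_le (fun j : Fin 80 => (fun ω : Om 𝒢' => tau (j : ℕ) • ω) '' Fj j)).trans ?_
    rw [tsum_fintype]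
    refine Finset.sum_le_sum fun j _ => ?_
    rw [smul_image_measure hs]
  have hmC' : mO μ 𝒢' (σ.attach D hD).C = mO μ 𝒢' (f '' σ.C) + mO μ 𝒢' F := by
    have : (σ.attach D hD).C = f '' σ.C ∪ F := by
      change f '' σ.C ∪ f '' D = _
      rw [hF, Set.union_sdiff_self]
    rw [this, measure_union _ mF]
    exact Set.disjoint_sdiff_right
  have hloss := om_loss X μ hs σ.G 𝒢' (σ.G.le_adjoin _ _) σ.T σ.C σ.hT σ.hC hb.T_fin hal hb.bd
  have hcc : mO μ 𝒢' (f '' σ.C) ≤ mO μ σ.G σ.C := om_map X μ hs _ _ _ _ σ.hC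
  have haa : mO μ 𝒢' (f '' σ.T) ≤ mO μ σ.G σ.T := om_map X μ hs _ _ _ _ σ.hT
  have fT := hb.T_fin
  have fC : mO μ σ.G σ.C ≠ ∞ := ne_top_of_le_ne_top fT (measure_mono (mO_C_le_T hb))
  have ffT := ne_top_of_le_ne_top fT haa
  have ffC := ne_top_of_le_ne_top fC hcc
  have fC' : mO μ 𝒢' (σ.attach D hD).C ≠ ∞ :=
    ne_top_of_le_ne_top hb'.T_fin (measure_mono (mO_C_le_T hb'))
  have fF : mO μ 𝒢' F ≠ ∞ := by
    refine ne_top_of_le_ne_top fC' ?_
    rw [hmC']; exact le_add_self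
  have fT' : mO μ 𝒢' (σ.attach D hD).T ≠ ∞ := hb'.T_fin
  -- pass to reals
  have r1 : (mO μ 𝒢' (σ.attach D hD).T).toReal ≤
      (mO μ 𝒢' (f '' σ.T)).toReal + 2 * (mO μ 𝒢' F).toReal := by
    have h := ENNReal.toReal_mono (by finiteness) hmT'
    rwa [ENNReal.toReal_add ffT (by finiteness), ENNReal.toReal_mul, ENNReal.toReal_ofNat] at h
  have r2 : (mO μ 𝒢' (σ.attach D hD).C).toReal =
      (mO μ 𝒢' (f '' σ.C)).toReal + (mO μ 𝒢' F).toReal := by
    rw [hmC', ENNReal.toReal_add ffC fF]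
  have r3 : (mO μ 𝒢' (f '' σ.T)).toReal + 70 * (mO μ σ.G σ.C).toReal ≤
      (mO μ σ.G σ.T).toReal + 70 * (mO μ 𝒢' (f '' σ.C)).toReal := by
    have h := ENNReal.toReal_mono (by finiteness) hloss
    rw [ENNReal.toReal_add (by exact ffT) (by finiteness), ENNReal.toReal_add fT (by finiteness),
      ENNReal.toReal_mul, ENNReal.toReal_mul, ENNReal.toReal_ofNat] at h
    exact h
  have r4 : (mO μ 𝒢' (f '' σ.C)).toReal ≤ (mO μ σ.G σ.C).toReal := ENNReal.toReal_mono fC hcc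
  change (mO μ 𝒢' (σ.attach D hD).T).toReal - 2 * (mO μ 𝒢' (σ.attach D hD).C).toReal ≤
    (mO μ σ.G σ.T).toReal - 2 * (mO μ σ.G σ.C).toReal
  linarith

end Crest.Agent.R191
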