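import Crest.Agent.R191.ATT2

/-! # Row 191, task ATT3 (helper13) -/

set_option autoImplicit false

namespace Crest.Agent.R191

open MeasureTheory
open scoped ENNReal

namespace ATT3

variable {Ω : Type} [MulAction FF Ω]

theorem one_le_deg_out {T : Set Ω} {e : Ω} (h : e ∈ T) : 1 ≤ deg T e := by
  have h1 : (1 : QQ) ∈ {q : QQ | iQ q • e ∈ T} := by
    change iQ 1 • e ∈ T
    rw [map_one, one_smul]; exact h
  exact (Set.one_le_encard_iff_nonempty.2 ⟨_, h1⟩).trans le_self_add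

theorem one_le_deg_in {T : Set Ω} {e : Ω} (h : e ∈ T) : 1 ≤ deg T (xx • e) := by
  have h1 : (1 : QQ) ∈ {q : QQ | xx⁻¹ • iQ q • xx • e ∈ T} := by
    change xx⁻¹ • iQ 1 • xx • e ∈ T
    rw [map_one, one_smul, inv_smul_smul]; exact h
  exact (Set.one_le_encard_iff_nonempty.2 ⟨_, h1⟩).trans le_add_self

/-- cell edges have both endpoints of degree at least two -/
theorem two_le_tail {T : Set Ω} {ω : Ω} (hr : rr • ω = ω) (h : ∀ j < 80, tau j • ω ∈ T)
    {j : ℕ} (hj : j < 80) : 2 ≤ deg T (tau j • ω) := by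
  rw [← pp_lt hj]; exact two_le_deg_pp hr h j

theorem two_le_head {T : Set Ω} {ω : Ω} (hr : rr • ω = ω) (h : ∀ j < 80, tau j • ω ∈ T)
    {j : ℕ} (hj : j < 80) : 2 ≤ deg T (xx • tau j • ω) := by
  rw [← pp_lt hj, xx_pp, ← map_inv, deg_iQ]
  exact two_le_deg_pp hr h (j + 1)

end ATT3

open ATT1 ATT2 ATT3 in
theorem att_leaf_of (hr : GRP_rr) : ATT_leaf := by
  intro X _ _ _ _ μ _ hs σ D hD hDA hb
  set 𝒢' := attG σ.G D hD with h𝒢'
  set f := attMap σ.G D hD with hf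
  have hb' := base hs hr σ D hD hDA hb
  have hfs : ∀ (g : FF) (ω : Om σ.G), f (g • ω) = g • f ω := attMap_smul _ _ _
  have hT : ∀ ω ∈ σ.T, f ω ∈ (σ.attach D hD).T := fun ω hω => Or.inl ⟨ω, hω, rfl⟩
  have hsec : ∀ ω : Om σ.G, f ω ∉ Set.range (sec 𝒢') → ω ∉ Set.range (sec σ.G) := by
    rintro ω h ⟨y, rfl⟩
    exact h ⟨y, rfl⟩
  have hold : ∀ e ∈ (σ.attach D hD).T, e ∈ f '' σ.T ∨
      ∃ c ∈ (σ.attach D hD).C, ∃ j < 80, e = tau j • c := by
    rintro e (he | he)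
    · exact Or.inl he
    · obtain ⟨j, ω, hω, rfl⟩ := Set.mem_iUnion.1 he
      exact Or.inr ⟨ω, Or.inr hω, j, j.2, rfl⟩
  have two : ¬ ((2 : ℕ∞) ≤ 1) := by norm_num
  have hout : (σ.attach D hD).T ∩ Leaf (σ.attach D hD).T (Set.range (sec (σ.attach D hD).G)) ⊆
      f '' (σ.T ∩ Leaf σ.T (Set.range (sec σ.G))) := by
    rintro e ⟨he, hR, hd⟩
    rcases hold e he with ⟨ω, hω, rfl⟩ | ⟨c, hc, j, hj, rfl⟩
    · refine ⟨ω, ⟨hω, hsec ω hR, ?_⟩, rfl⟩
      refine le_antisymm ?_ (one_le_deg_out hω)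
      rw [← hd]
      exact deg_mono f hfs hT ω
    · exfalso
      have := two_le_tail (hb'.r_fix c hc) (hb'.bd c hc) hj
      rw [hd] at this
      exact two this
  have hin : {ω | ω ∈ (σ.attach D hD).T ∧
      xx • ω ∈ Leaf (σ.attach D hD).T (Set.range (sec (σ.attach D hD).G))} ⊆
      f '' {ω | ω ∈ σ.T ∧ xx • ω ∈ Leaf σ.T (Set.range (sec σ.G))} := by
    rintro e ⟨he, hR, hd⟩
    rcases hold e he with ⟨ω, hω, rfl⟩ | ⟨c, hc, j, hj, rfl⟩
    · have hx : f (xx • ω) = xx • f ω := hfs _ _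
      refine ⟨ω, ⟨hω, hsec _ (by rw [hx]; exact hR), ?_⟩, rfl⟩
      refine le_antisymm ?_ (one_le_deg_in hω)
      rw [← hd]
      have := deg_mono f hfs hT (xx • ω)
      rw [hx] at this
      exact this
    · exfalso
      have := two_le_head (hb'.r_fix c hc) (hb'.bd c hc) hj
      rw [hd] at this
      exact two this
  have hRm := (om_sec X μ hs σ.G).1
  have mL : MeasurableSet (Leaf σ.T (Set.range (sec σ.G))) :=
    measurableSet_Leaf (measurable_smul_om σ.G) σ.hT hRm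
  unfold leafH HE
  refine add_le_add ?_ ?_
  · exact (measure_mono hout).trans (om_map X μ hs _ _ _ _ (σ.hT.inter mL))
  · exact (measure_mono hin).trans (om_map X μ hs _ _ _ _
      (σ.hT.inter (measurable_smul_om σ.G xx mL)))

end Crest.Agent.R191
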