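import Crest.Agent.R191.ATT1
import Crest.Agent.R191.ATT2
import Crest.Agent.R191.ATT3

/-! Row 191, task PROC: the cell attaching process. -/

set_option autoImplicit false

namespace Crest.Agent.R191

open MeasureTheory
open scoped ENNReal

namespace PROC

/-- finite covers of the line by sets of small measure -/
theorem cover (ν : Measure ℝ) [IsFiniteMeasure ν] (h0 : ∀ x, ν {x} = 0) (δ : ℝ≥0∞)
    (hδ : 0 < δ) :
    ∃ (N : ℕ) (U : ℕ → Set ℝ), (∀ k, MeasurableSet (U k)) ∧ (∀ x, ∃ k < N, x ∈ U k) ∧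
      ∀ k, ν (U k) ≤ δ := by
  classical
  obtain ⟨K, _, hK, hK2⟩ := MeasurableSet.univ.exists_isCompact_diff_lt (μ := ν)
    (measure_ne_top ν _) hδ.ne'
  have hU : ∀ x, ∃ U : Set ℝ, IsOpen U ∧ x ∈ U ∧ ν U < δ := by
    intro x
    obtain ⟨U, hU1, hU2, hU3⟩ := Set.exists_isOpen_lt_of_lt ({x} : Set ℝ) δ (by rw [h0]; exact hδ)
    exact ⟨U, hU2, hU1 rfl, hU3⟩
  choose U hU1 hU2 hU3 using hU
  obtain ⟨t, _, ht⟩ := hK.elim_nhds_subcover U (fun x _ => (hU1 x).mem_nhds (hU2 x))
  refine ⟨t.toList.length + 1, fun k => match k with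
    | 0 => Kᶜ
    | (k + 1) => if h : k < t.toList.length then U (t.toList[k]) else ∅, ?_, ?_, ?_⟩
  · intro k
    cases k with
    | zero => exact hK.isClosed.measurableSet.compl
    | succ k =>
      by_cases h : k < t.toList.length
      · simp only [h, dif_pos]
        exact (hU1 _).measurableSet
      · simp only [h, dif_neg, not_false_iff]
        exact MeasurableSet.empty
  · intro x
    by_cases hx : x ∈ K
    · obtain ⟨z, hz, hxz⟩ := Set.mem_iUnion₂.1 (ht hx)
      obtain ⟨k, hk, hkz⟩ := List.getElem_of_mem (Finset.mem_toList.2 hz)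
      refine ⟨k + 1, by omega, ?_⟩
      simp only [hk, dif_pos, hkz]
      exact hxz
    · exact ⟨0, by omega, hx⟩
  · intro k
    cases k with
    | zero =>
      change ν Kᶜ ≤ δ
      rw [Set.compl_eq_univ_sdiff]
      exact hK2.le
    | succ k =>
      by_cases h : k < t.toList.length
      · simp only [h, dif_pos]
        exact (hU3 _).le
      · simp only [h, dif_neg, not_false_iff]
        simp

section
variable {X : Type} [MeasurableSpace X] [StandardBorelSpace X] [MulAction FF X]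
  [MeasurableConstSMul FF X]

omit [MeasurableConstSMul FF X] in
/-- points have measure zero -/
theorem atomless (hq : GRP_iQ) (μ : Measure X) [IsProbabilityMeasure μ] (hs : Sys X μ) (y : X) :
    μ {y} = 0 := by
  by_contra hne
  have hinj : Function.Injective (fun n : ℕ => iQ (zz ^ n) • y) := by
    intro n m hnm
    have h1 : iQ (zz ^ n) • y = iQ (zz ^ m) • y := hnm
    have h2 : ((iQ (zz ^ m))⁻¹ * iQ (zz ^ n)) • y = y := by
      rw [mul_smul, h1, inv_smul_smul]
    have h3 := (hs.free _ _).1 h2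
    rw [← map_inv, ← map_mul] at h3
    have h4 := hq _ h3
    have h5 : zz ^ n = zz ^ m := by
      have := congrArg (fun z => zz ^ m * z) h4
      simpa using this
    have h6 : ∀ k : ℕ, zz ^ k = ((1 : AA), Multiplicative.ofAdd (k : ℤ)) := by
      intro k
      induction k with
      | zero => rfl
      | succ k ih =>
        rw [pow_succ, ih]
        apply Prod.ext
        · change (1 : AA) * 1 = 1
          rw [one_mul]
        · change Multiplicative.ofAdd (k : ℤ) * Multiplicative.ofAdd (1 : ℤ) = _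
          rw [← ofAdd_add]
          push_cast
          rfl
    rw [h6, h6] at h5
    have h7 := congrArg Prod.snd h5
    have h8 : ((n : ℕ) : ℤ) = (m : ℤ) := h7
    exact_mod_cast h8
  have hmeas : ∀ g : FF, μ {g • y} = μ {y} := by
    intro g
    have h1 := (hs.mp g).measure_preimage (measurableSet_singleton (g • y)).nullMeasurableSet
    rw [← h1]
    congr 1
    ext z
    simp
  have h1 : μ (⋃ n : ℕ, {iQ (zz ^ n) • y}) = ∑' n : ℕ, μ {iQ (zz ^ n) • y} := by
    apply measure_iUnion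
    · intro n m hnm
      rw [Function.onFun, Set.disjoint_singleton]
      exact fun h => hnm (hinj h)
    · intro n
      exact measurableSet_singleton _
  simp only [hmeas] at h1
  rw [ENNReal.tsum_const_eq_top_of_ne_zero hne] at h1
  exact measure_ne_top μ _ h1

theorem attach_congr (σ : St X) {D D' : Set (Om σ.G)} (h : D = D') (hD : MeasurableSet D)
    (hD' : MeasurableSet D') : σ.attach D hD = σ.attach D' hD' := by
  subst h
  rfl

theorem C_fin {μ : Measure X} {σ : St X} (hb : Base μ σ) : mO μ σ.G σ.C ≠ ∞ :=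
  ne_top_of_le_ne_top hb.T_fin (measure_mono (ATT1.mO_C_le_T hb))

/-- exact stopping between two stages -/
theorem stop (hr : GRP_rr) (hq : GRP_iQ) (μ : Measure X) [IsProbabilityMeasure μ] (hs : Sys X μ)
    (σ : St X) (hσ : GoodS μ σ) (h1 : Fm μ σ < Fs) (h2 : Fs ≤ Fm μ σ.next) :
    ∃ (D : Set (Om σ.G)) (hD : MeasurableSet D), D ⊆ Att σ.T ∧ Fs ≤ Fm μ (σ.attach D hD) ∧
      Fm μ (σ.attach D hD) ≤ 11 / 10 * Fs := by
  classical
  have hFs : (0 : ℝ) < Fs := by unfold Fs; positivity
  have hAtt := measurableSet_Att σ.hT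
  obtain ⟨b, hb, hbi, -⟩ := om_sp X μ hs
  have hbm : Measurable (fun ω : Om σ.G => b (pr σ.G ω)) := hb.comp (measurable_pr σ.G)
  have hAfin : mO μ σ.G (Att σ.T) ≠ ∞ := by
    refine ne_top_of_le_ne_top ?_ (ATT1.Att_le hs σ.G σ.T)
    exact ENNReal.mul_ne_top (by norm_num) hσ.T_fin
  let ν : Measure ℝ := ((mO μ σ.G).restrict (Att σ.T)).map (fun ω => b (pr σ.G ω))
  have hνapp : ∀ S : Set ℝ, MeasurableSet S →
      ν S = mO μ σ.G (Att σ.T ∩ {ω | b (pr σ.G ω) ∈ S}) := by
    intro S hS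
    change (((mO μ σ.G).restrict (Att σ.T)).map (fun ω => b (pr σ.G ω))) S = _
    rw [Measure.map_apply hbm hS, Measure.restrict_apply (hbm hS), Set.inter_comm]
    rfl
  haveI : IsFiniteMeasure ν := by
    constructor
    rw [hνapp _ MeasurableSet.univ]
    exact lt_of_le_of_lt (measure_mono Set.inter_subset_left) (lt_top_iff_ne_top.2 hAfin)
  have hν0 : ∀ x, ν {x} = 0 := by
    intro x
    rw [hνapp _ (measurableSet_singleton x)]
    have hms : MeasurableSet (Att σ.T ∩ {ω | b (pr σ.G ω) ∈ ({x} : Set ℝ)}) :=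
      hAtt.inter (hbm (measurableSet_singleton x))
    rw [om_count X μ hs σ.G _ hms]
    have hz : ∀ᵐ y ∂μ, b y ≠ x := by
      by_cases hx : ∃ y0, b y0 = x
      · obtain ⟨y0, hy0⟩ := hx
        have h3 : {y : X | ¬ b y ≠ x} ⊆ {y0} := by
          intro y hy
          simp only [Set.mem_ofPred_eq, not_not] at hy
          exact hbi (hy.trans hy0.symm)
        rw [ae_iff]
        exact measure_mono_null h3 (atomless hq μ hs y0)
      · exact Filter.Eventually.of_forall (fun y hy => hx ⟨y, hy⟩)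
    rw [lintegral_eq_zero_of_ae_eq_zero]
    filter_upwards [hz] with y hy
    have h4 : (Att σ.T ∩ {ω | b (pr σ.G ω) ∈ ({x} : Set ℝ)}) ∩ pr σ.G ⁻¹' {y} = ∅ := by
      ext ω
      simp only [Set.mem_inter_iff, Set.mem_ofPred_eq, Set.mem_singleton_iff, Set.mem_preimage,
        Set.mem_empty_iff_false, iff_false, not_and]
      rintro ⟨_, h5⟩ h6
      rw [h6] at h5
      exact hy h5
    rw [h4]
    simp
  have hδ : (0 : ℝ≥0∞) < ENNReal.ofReal (Fs / 10) := ENNReal.ofReal_pos.2 (by positivity)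
  obtain ⟨N, U, hU1, hU2, hU3⟩ := cover ν hν0 _ hδ
  -- the chain
  let W : ℕ → Set ℝ := fun k => ⋃ i ∈ Finset.range k, U i
  have hW : ∀ k, MeasurableSet (W k) := fun k =>
    Finset.measurableSet_biUnion _ (fun i _ => hU1 i)
  let D : ℕ → Set (Om σ.G) := fun k => Att σ.T ∩ {ω | b (pr σ.G ω) ∈ W k}
  have hD : ∀ k, MeasurableSet (D k) := fun k => hAtt.inter (hbm (hW k))
  have hDA : ∀ k, D k ⊆ Att σ.T := fun k => Set.inter_subset_left
  have hmono : ∀ k, D k ⊆ D (k + 1) := by
    intro k ω hω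
    refine ⟨hω.1, ?_⟩
    obtain ⟨i, hi, h3⟩ := Set.mem_iUnion₂.1 hω.2
    exact Set.mem_iUnion₂.2 ⟨i, Finset.mem_range.2 (by have := Finset.mem_range.1 hi; omega), h3⟩
  have hdiff : ∀ k, mO μ σ.G (D (k + 1) \ D k) ≤ ENNReal.ofReal (Fs / 10) := by
    intro k
    refine le_trans (measure_mono ?_) ((hνapp _ (hU1 k)).symm.le.trans (hU3 k))
    rintro ω ⟨h3, h4⟩
    refine ⟨h3.1, ?_⟩
    obtain ⟨i, hi, h5⟩ := Set.mem_iUnion₂.1 h3.2
    have hi' := Finset.mem_range.1 hi
    by_cases hik : i = k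
    · rw [← hik]; exact h5
    · exact absurd ⟨h3.1, Set.mem_iUnion₂.2 ⟨i, Finset.mem_range.2 (by omega), h5⟩⟩ h4
  have hgood : ∀ k, GoodS μ (σ.attach (D k) (hD k)) := fun k =>
    att_good_of hr X μ hs σ (D k) (hD k) (hDA k) hσ
  have hfin : ∀ k, mO μ (σ.attach (D k) (hD k)).G (σ.attach (D k) (hD k)).C ≠ ∞ := fun k =>
    C_fin (hgood k).toBase
  have hstep : ∀ k, Fm μ (σ.attach (D (k + 1)) (hD (k + 1))) ≤
      Fm μ (σ.attach (D k) (hD k)) + Fs / 10 := by
    intro k
    have h3 := att_cross X μ hs σ (D k) (D (k + 1)) (hD k) (hD (k + 1)) (hmono k)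
    have h4 := h3.trans (add_le_add_right (hdiff k) _)
    unfold Fm
    have h5 := ENNReal.toReal_mono (ENNReal.add_ne_top.2 ⟨hfin k, ENNReal.ofReal_ne_top⟩) h4
    rw [ENNReal.toReal_add (hfin k) ENNReal.ofReal_ne_top,
      ENNReal.toReal_ofReal (by positivity)] at h5
    exact h5
  have hzero : Fm μ (σ.attach (D 0) (hD 0)) < Fs := by
    refine lt_of_le_of_lt ?_ h1
    unfold Fm
    refine ENNReal.toReal_mono (C_fin hσ.toBase) ?_
    have h3 : (σ.attach (D 0) (hD 0)).C = attMap σ.G (D 0) (hD 0) '' σ.C := by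
      have h4 : D 0 = ∅ := by
        ext ω
        simp [D, W]
      change attMap σ.G (D 0) (hD 0) '' σ.C ∪ attMap σ.G (D 0) (hD 0) '' (D 0) = _
      have h5 : attMap σ.G (D 0) (hD 0) '' (D 0) = ∅ := by
        rw [Set.image_eq_empty]; exact h4
      rw [h5, Set.union_empty]
    rw [h3]
    exact om_map X μ hs _ _ _ _ σ.hC
  have hlast : Fs ≤ Fm μ (σ.attach (D N) (hD N)) := by
    have h3 : D N = Att σ.T := by
      ext ω
      simp only [D, Set.mem_inter_iff, Set.mem_ofPred_eq, and_iff_left_iff_imp]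
      intro _
      obtain ⟨k, hk, h4⟩ := hU2 (b (pr σ.G ω))
      exact Set.mem_iUnion₂.2 ⟨k, Finset.mem_range.2 hk, h4⟩
    rw [attach_congr σ h3 (hD N) hAtt]
    exact h2
  have hex : ∃ k, Fs ≤ Fm μ (σ.attach (D k) (hD k)) := ⟨N, hlast⟩
  have hmin := Nat.find_spec hex
  obtain ⟨k, hk⟩ : ∃ k, Nat.find hex = k + 1 := by
    refine ⟨Nat.find hex - 1, ?_⟩
    have : Nat.find hex ≠ 0 := by
      intro h0
      rw [h0] at hmin
      linarith
    omega
  have hlt : Fm μ (σ.attach (D k) (hD k)) < Fs := by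
    have := Nat.find_min hex (m := k) (by omega)
    exact not_le.1 this
  rw [hk] at hmin
  refine ⟨D (k + 1), hD (k + 1), hDA _, hmin, ?_⟩
  have := hstep k
  linarith

theorem iter_good (hr : GRP_rr) (μ : Measure X) [IsProbabilityMeasure μ] (hs : Sys X μ)
    (σ : St X) (hσ : GoodS μ σ) (i : ℕ) : GoodS μ (σ.iter i) := by
  induction i with
  | zero => exact hσ
  | succ i ih => exact att_good_of hr X μ hs _ _ _ le_rfl ih

theorem reach_Fs (hr : GRP_rr) (hcl : CLOS) (μ : Measure X) [IsProbabilityMeasure μ]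
    (hs : Sys X μ) (σ : St X) (hσ : GoodS μ σ) : ∃ i, Fs ≤ Fm μ (σ.iter i) := by
  by_contra hcon
  push Not at hcon
  have hFs : (0 : ℝ) < Fs := by unfold Fs; positivity
  have hgood := iter_good hr μ hs σ hσ
  let E : ℕ → Set X := fun i => {y | sec (σ.iter i).G y ∈ (σ.iter i).C}
  have hE : ∀ i, MeasurableSet (E i) := fun i => measurable_sec _ (σ.iter i).hC
  have hEm : ∀ i, μ (E i) ≤ ENNReal.ofReal Fs := by
    intro i
    have h1 := (om_sec X μ hs (σ.iter i).G).2 (E i) (hE i)
    rw [← h1.2]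
    have h2 : mO μ (σ.iter i).G (sec (σ.iter i).G '' E i) ≤ mO μ (σ.iter i).G (σ.iter i).C := by
      apply measure_mono
      rintro _ ⟨y, hy, rfl⟩
      exact hy
    refine h2.trans ?_
    have h3 := hcon i
    unfold Fm at h3
    rw [← ENNReal.ofReal_toReal (C_fin (hgood i).toBase)]
    exact ENNReal.ofReal_le_ofReal h3.le
  let F : ℕ → Set X := fun I => ⋂ i : ℕ, ⋂ (_ : I ≤ i), E i
  have hFmono : Monotone F := by
    intro I J hIJ y hy
    simp only [F, Set.mem_iInter] at hy ⊢
    exact fun i hi => hy i (hIJ.trans hi)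
  have hFuniv : ⋃ I, F I = Set.univ := by
    ext y
    simp only [Set.mem_iUnion, Set.mem_univ, iff_true, F, Set.mem_iInter]
    obtain ⟨I, hI⟩ := hcl X μ hs σ hσ.toBase y
    exact ⟨I, fun i hi => hI i hi⟩
  have hlim := tendsto_measure_iUnion_atTop (μ := μ) hFmono
  rw [hFuniv, measure_univ] at hlim
  have h1 : (1 : ℝ≥0∞) ≤ ENNReal.ofReal Fs := by
    refine le_of_tendsto hlim (Filter.Eventually.of_forall fun I => ?_)
    refine le_trans (measure_mono ?_) (hEm I)
    intro y hy
    simp only [F, Set.mem_iInter] at hy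
    exact hy I le_rfl
  have h2 : ENNReal.ofReal Fs < 1 := by
    rw [ENNReal.ofReal_lt_one]
    unfold Fs
    norm_num
  exact absurd h1 (not_le.2 h2)

end

end PROC

open PROC in
theorem proc_of (hr : GRP_rr) (hq : GRP_iQ) (hcl : CLOS) : PROC := by
  classical
  intro X _ _ _ _ μ _ hs σ hσ hF
  have hgood := iter_good hr μ hs σ hσ
  have hex := reach_Fs hr hcl μ hs σ hσ
  have hmin := Nat.find_spec hex
  have hal : ∀ τ : St X, GoodS μ τ → Fm μ τ < Fs → mO μ τ.G τ.C ≤ al := by
    intro τ hτ h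
    unfold Fm at h
    rw [← ENNReal.ofReal_toReal (C_fin hτ.toBase)]
    unfold al
    apply ENNReal.ofReal_le_ofReal
    unfold Fs at h
    refine h.le.trans ?_
    norm_num
  have hiter : ∀ i, (∀ j < i, Fm μ (σ.iter j) < Fs) →
      Pot μ (σ.iter i) ≤ Pot μ σ ∧ leafH μ (σ.iter i) ≤ leafH μ σ := by
    intro i
    induction i with
    | zero => exact fun _ => ⟨le_rfl, le_rfl⟩
    | succ i ih =>
      intro h
      have h1 := ih (fun j hj => h j (by omega))
      have h2 := att_pot_of hr X μ hs (σ.iter i) _ (measurableSet_Att (σ.iter i).hT) le_rfl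
        (hgood i).toBase (hal _ (hgood i) (h i (by omega)))
      have h3 := att_leaf_of hr X μ hs (σ.iter i) _ (measurableSet_Att (σ.iter i).hT) le_rfl
        (hgood i).toBase
      exact ⟨h2.trans h1.1, h3.trans h1.2⟩
  obtain ⟨i, hi⟩ : ∃ i, Nat.find hex = i + 1 := by
    refine ⟨Nat.find hex - 1, ?_⟩
    have : Nat.find hex ≠ 0 := by
      intro h0
      rw [h0] at hmin
      change Fs ≤ Fm μ σ at hmin
      linarith
    omega
  have hlt : ∀ j < i + 1, Fm μ (σ.iter j) < Fs := by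
    intro j hj
    exact not_le.1 (Nat.find_min hex (m := j) (by omega))
  rw [hi] at hmin
  obtain ⟨D, hD, hDA, h1, h2⟩ := stop hr hq μ hs (σ.iter i) (hgood i) (hlt i (by omega)) hmin
  have h3 := hiter i (fun j hj => hlt j (by omega))
  refine ⟨(σ.iter i).attach D hD, att_good_of hr X μ hs _ _ _ hDA (hgood i), h1, h2, ?_, ?_⟩
  · exact (att_pot_of hr X μ hs _ _ hD hDA (hgood i).toBase
      (hal _ (hgood i) (hlt i (by omega)))).trans h3.1
  · exact (att_leaf_of hr X μ hs _ _ hD hDA (hgood i).toBase).trans h3.2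

end Crest.Agent.R191
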