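import Crest.Agent.R191.RI1

/-!
# Row 191, task RI: the rank inequality for countable families.
-/

set_option autoImplicit false

namespace Crest.Agent.R191.RIT

open MeasureTheory Finsupp
open scoped ENNReal

variable {Ω G : Type} [MeasurableSpace Ω] [Group G] [MulAction G Ω]

/-- action of `G × ℤ` on `Ω × ℤ` -/
@[reducible] def act (Ω G : Type) [Group G] [MulAction G Ω] :
    MulAction (G × Multiplicative ℤ) (Ω × ℤ) where
  smul p x := (p.1 • x.1, p.2.toAdd + x.2)
  one_smul x := by
    change ((1 : G) • x.1, (0 : ℤ) + x.2) = x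
    rw [one_smul, zero_add]
  mul_smul p q x := by
    change ((p.1 * q.1) • x.1, (p.2.toAdd + q.2.toAdd) + x.2) =
      (p.1 • q.1 • x.1, p.2.toAdd + (q.2.toAdd + x.2))
    rw [mul_smul, add_assoc]

omit [Group G] [MulAction G Ω] in
theorem meas_iff {E : Set (Ω × ℤ)} : MeasurableSet E ↔ ∀ n : ℤ, MeasurableSet {ω | (ω, n) ∈ E} := by
  constructor
  · intro h n
    exact (measurable_id.prodMk measurable_const : Measurable fun ω : Ω => (ω, n)) h
  · intro h
    have : E = ⋃ n : ℤ, {ω | (ω, n) ∈ E} ×ˢ {n} := by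
      ext ⟨ω, n⟩; simp
    rw [this]
    exact MeasurableSet.iUnion fun n => (h n).prod (measurableSet_singleton n)

/-- product with counting measure -/
noncomputable def mz (m : Measure Ω) : Measure (Ω × ℤ) :=
  Measure.sum fun n : ℤ => m.map (fun ω => (ω, n))

omit [Group G] [MulAction G Ω] in
theorem mz_apply (m : Measure Ω) {E : Set (Ω × ℤ)} (hE : MeasurableSet E) :
    mz m E = ∑' n : ℤ, m {ω | (ω, n) ∈ E} := by
  rw [mz, Measure.sum_apply _ hE]
  refine tsum_congr fun n => ?_
  have h1 : Measurable (fun ω : Ω => (ω, n)) := measurable_id.prodMk measurable_const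
  rw [Measure.map_apply h1 hE]
  rfl

omit [MeasurableSpace Ω] in
open Classical in
theorem filter_map (D : Set Ω) (D' : Set (Ω × ℤ)) (hD' : ∀ ω, (ω, (-1 : ℤ)) ∈ D' ↔ ω ∈ D)
    (v : Ω →₀ ℚ) : (v.mapDomain (fun ω => (ω, (-1 : ℤ)))).filter (· ∈ D') =
      (v.filter (· ∈ D)).mapDomain (fun ω => (ω, (-1 : ℤ))) := by
  induction v using Finsupp.induction_linear with
  | zero =>
    rw [mapDomain_zero, filter_zero, filter_zero, mapDomain_zero]
  | add f g hf hg => rw [mapDomain_add, filter_add, hf, hg, filter_add, mapDomain_add]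
  | single a b =>
    rw [mapDomain_single]
    by_cases h : a ∈ D
    · rw [filter_single_of_pos _ ((hD' a).2 h), filter_single_of_pos _ h, mapDomain_single]
    · rw [filter_single_of_neg _ (fun h' => h ((hD' a).1 h')), filter_single_of_neg _ h,
        mapDomain_zero]

end Crest.Agent.R191.RIT

namespace Crest.Agent.R191

open MeasureTheory Finsupp RIT
open scoped ENNReal

theorem ri_of (h : RI1) : RI := by
  classical
  intro Ω G _ _ _ _ m hm hfix D A c hD hA hc hDf hspan
  by_cases hS : ∑' n, m (A n) = ∞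
  · rw [hS]; exact le_top
  set D' : Set (Ω × ℤ) := {x | x.1 ∈ D ∧ x.2 = -1} with hD'
  set A' : Set (Ω × ℤ) := {x | ∃ n : ℕ, x.2 = n ∧ x.1 ∈ A n} with hA'
  set c' : Ω × ℤ → (G × Multiplicative ℤ →₀ ℚ) := fun x =>
    (c x.2.toNat x.1).mapDomain (fun g => (g, Multiplicative.ofAdd (-1 - x.2))) with hc'
  let _ := act Ω G
  have hD'm : MeasurableSet D' := by
    rw [meas_iff]
    intro n
    by_cases hn : n = -1
    · simpa [hD', hn] using hD
    · simp [hD', hn]
  have hA'm : MeasurableSet A' := by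
    rw [meas_iff]
    intro n
    have : {ω | (ω, n) ∈ A'} = ⋃ k : ℕ, ⋃ (_ : n = k), A k := by
      ext ω; simp [hA']
    rw [this]
    exact MeasurableSet.iUnion fun k => MeasurableSet.iUnion fun _ => hA k
  have hc'm : ∀ a, MeasurableSet {x | c' x = a} := by
    intro a
    rw [meas_iff]
    intro n
    exact RI1T.fib_meas (hc n.toNat)
      (fun b => b.mapDomain (fun g => (g, Multiplicative.ofAdd (-1 - n))) = a)
  have hm' : ∀ p : G × Multiplicative ℤ, MeasurePreserving (fun x : Ω × ℤ => p • x) (mz m) (mz m) := by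
    intro p
    have hmeas : Measurable (fun x : Ω × ℤ => p • x) := by
      intro E hE
      rw [meas_iff] at hE ⊢
      intro n
      exact (hm p.1).measurable (hE (p.2.toAdd + n))
    refine ⟨hmeas, ?_⟩
    ext E hE
    rw [Measure.map_apply hmeas hE, mz_apply m (hmeas hE), mz_apply m hE]
    have h1 : ∀ n : ℤ, m {ω | (ω, n) ∈ (fun x : Ω × ℤ => p • x) ⁻¹' E} =
        m {ω | (ω, p.2.toAdd + n) ∈ E} := by
      intro n
      exact (hm p.1).measure_preimage ((meas_iff.1 hE (p.2.toAdd + n)).nullMeasurableSet)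
    rw [tsum_congr h1]
    exact (Equiv.addLeft p.2.toAdd).tsum_eq (fun n => m {ω | (ω, n) ∈ E})
  have hfix' : ∀ p : G × Multiplicative ℤ, MeasurableSet {x : Ω × ℤ | p • x = x} := by
    intro p
    rw [meas_iff]
    intro n
    have : {ω : Ω | (ω, n) ∈ {x : Ω × ℤ | p • x = x}} =
        {ω | p.1 • ω = ω} ∩ {_ω | p.2.toAdd + n = n} := by
      ext ω
      change (p.1 • ω, p.2.toAdd + n) = (ω, n) ↔ _
      rw [Prod.mk.injEq]
      rfl
    rw [this]
    exact (hfix p.1).inter (MeasurableSet.const _)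
  have hmD : mz m D' = m D := by
    rw [mz_apply m hD'm, tsum_eq_single (-1)]
    · congr 1; ext ω; simp [hD']
    · intro n hn
      have : {ω | (ω, n) ∈ D'} = ∅ := by ext ω; simp [hD', hn]
      rw [this, measure_empty]
  have hmA : mz m A' = ∑' n, m (A n) := by
    rw [mz_apply m hA'm]
    have h1 : ∀ k : ℕ, m (A k) = (fun n : ℤ => m {ω | (ω, n) ∈ A'}) (k : ℤ) := by
      intro k
      beta_reduce
      congr 1
      ext ω
      simp only [hA', Set.mem_ofPred_eq]
      constructor
      · intro hω; exact ⟨k, rfl, hω⟩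
      · rintro ⟨k', hk', hω⟩
        have : k = k' := by exact_mod_cast hk'
        rwa [this]
    rw [tsum_congr h1]
    symm
    refine Function.Injective.tsum_eq (g := fun k : ℕ => (k : ℤ))
      (f := fun n : ℤ => m {ω | (ω, n) ∈ A'}) (Nat.cast_injective (R := ℤ)) ?_
    intro n hn
    rw [Function.mem_support] at hn
    by_contra h2
    apply hn
    have : {ω | (ω, n) ∈ A'} = ∅ := by
      ext ω
      simp only [hA', Set.mem_ofPred_eq, Set.mem_empty_iff_false, iff_false, not_exists, not_and]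
      intro k hk
      exact absurd ⟨k, hk.symm⟩ h2
    rw [this, measure_empty]
  have hfin := h (Ω × ℤ) (G × Multiplicative ℤ) (mz m) hm' hfix' D' A' c' hD'm hA'm hc'm
    (by rw [hmD]; exact hDf) (by rw [hmA]; exact hS) ?_
  · rwa [hmD, hmA] at hfin
  · rintro ⟨ω, n⟩ ⟨hω, hn⟩
    change ω ∈ D at hω
    change n = -1 at hn
    subst hn
    have h1 := hspan ω hω
    have h2 := Submodule.mem_map_of_mem (f := Finsupp.lmapDomain ℚ ℚ (fun ω : Ω => (ω, (-1 : ℤ)))) h1
    rw [Submodule.map_span, Finsupp.lmapDomain_apply, mapDomain_single] at h2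
    refine Submodule.span_mono ?_ h2
    rintro v ⟨u, ⟨k, ω', hω', rfl⟩, rfl⟩
    refine ⟨(ω', (k : ℤ)), ⟨k, rfl, hω'⟩, ?_⟩
    rw [Finsupp.lmapDomain_apply]
    have h3 : rzG ((ω', (k : ℤ)) : Ω × ℤ) (c' (ω', (k : ℤ))) =
        (rzG ω' (c k ω')).mapDomain (fun ω => (ω, (-1 : ℤ))) := by
      rw [rzG, rzG, hc', ← mapDomain_comp, ← mapDomain_comp]
      simp only [Int.toNat_natCast]
      congr 1
      funext g
      change (g • ω', (-1 - (k : ℤ)) + (k : ℤ)) = (g • ω', (-1 : ℤ))
      rw [sub_add_cancel]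
    rw [h3]
    have h4 := filter_map D D' (fun ω => by simp [hD']) (rzG ω' (c k ω'))
    convert h4.symm

end Crest.Agent.R191
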