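import Crest.Agent.R191.Stmts

/-!
# Row 191, task RI1: the rank inequality, by an elementary `ℓ²`-trace argument.
-/

set_option autoImplicit false

namespace Crest.Agent.R191.RI1T

open MeasureTheory Finsupp
open scoped ENNReal

section alg

variable {Ω G : Type} [Group G] [MulAction G Ω]

/-- elementary operator `δ_ω ↦ u ω • δ_{gω}` -/
noncomputable def W (g : G) (u : Ω → ℝ) : Module.End ℝ (Ω →₀ ℝ) :=
  Finsupp.linearCombination ℝ (fun ω => Finsupp.single (g • ω) (u ω))

theorem W_single (g : G) (u : Ω → ℝ) (ω : Ω) (r : ℝ) :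
    W g u (single ω r) = single (g • ω) (r * u ω) := by
  simp [W]

theorem W_apply (g : G) (u : Ω → ℝ) (v : Ω →₀ ℝ) (ω : Ω) :
    W g u v ω = u (g⁻¹ • ω) * v (g⁻¹ • ω) := by
  classical
  induction v using Finsupp.induction_linear with
  | zero => simp
  | add f g hf hg => simp [hf, hg, mul_add]
  | single a b =>
    rw [W_single, single_apply, single_apply]
    by_cases h : g • a = ω
    · subst h; simp [mul_comm]
    · have h2 : ¬ (a = g⁻¹ • ω) := fun h3 => h (by rw [h3]; simp)
      simp [h, h2]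

theorem W_mul (g h : G) (u v : Ω → ℝ) :
    W g u * W h v = W (g * h) (fun ω => v ω * u (h • ω)) := by
  refine Finsupp.lhom_ext fun a b => ?_
  rw [Module.End.mul_apply, W_single, W_single, W_single, mul_smul, mul_assoc]

theorem W_smul (g : G) (u : Ω → ℝ) (c : ℝ) : c • W g u = W g (fun ω => c * u ω) := by
  refine Finsupp.lhom_ext fun a b => ?_
  rw [LinearMap.smul_apply, W_single, W_single, smul_single, smul_eq_mul]
  congr 1; ring

/-- the standard inner product -/
noncomputable def ip (f g : Ω →₀ ℝ) : ℝ := f.sum fun ω x => x * g ω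

theorem ip_eq_sum (f g : Ω →₀ ℝ) (s : Finset Ω) (hs : f.support ⊆ s) :
    ip f g = ∑ ω ∈ s, f ω * g ω := by
  rw [ip, Finsupp.sum]
  refine Finset.sum_subset hs fun x _ hx => ?_
  rw [Finsupp.notMem_support_iff.1 hx, zero_mul]

theorem ip_comm (f g : Ω →₀ ℝ) : ip f g = ip g f := by
  classical
  rw [ip_eq_sum f g (f.support ∪ g.support) Finset.subset_union_left,
    ip_eq_sum g f (f.support ∪ g.support) Finset.subset_union_right]
  exact Finset.sum_congr rfl fun x _ => mul_comm _ _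

theorem ip_add_left (f f' g : Ω →₀ ℝ) : ip (f + f') g = ip f g + ip f' g := by
  rw [ip, ip, ip, Finsupp.sum_add_index'] <;> intros <;> ring

theorem ip_smul_left (c : ℝ) (f g : Ω →₀ ℝ) : ip (c • f) g = c * ip f g := by
  rw [ip, ip, Finsupp.sum_smul_index' (by intros; ring), Finsupp.mul_sum]
  simp [mul_assoc]

theorem ip_single_left (ω : Ω) (r : ℝ) (g : Ω →₀ ℝ) : ip (single ω r) g = r * g ω := by
  rw [ip, Finsupp.sum_single_index (by ring)]

theorem ip_zero_left (g : Ω →₀ ℝ) : ip 0 g = 0 := by simp [ip]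

theorem ip_add_right (f g g' : Ω →₀ ℝ) : ip f (g + g') = ip f g + ip f g' := by
  rw [ip_comm, ip_add_left, ip_comm g, ip_comm g']

theorem ip_smul_right (c : ℝ) (f g : Ω →₀ ℝ) : ip f (c • g) = c * ip f g := by
  rw [ip_comm, ip_smul_left, ip_comm g]

theorem ip_neg_right (f g : Ω →₀ ℝ) : ip f (-g) = - ip f g := by
  rw [← neg_one_smul ℝ g, ip_smul_right]; ring

theorem ip_neg_left (f g : Ω →₀ ℝ) : ip (-f) g = - ip f g := by
  rw [ip_comm, ip_neg_right, ip_comm]

theorem ip_sub_left (f f' g : Ω →₀ ℝ) : ip (f - f') g = ip f g - ip f' g := by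
  rw [sub_eq_add_neg, ip_add_left, ip_neg_left]; ring

theorem ip_sub_right (f g g' : Ω →₀ ℝ) : ip f (g - g') = ip f g - ip f g' := by
  rw [sub_eq_add_neg, ip_add_right, ip_neg_right]; ring

/-- squared norm -/
noncomputable def nsq (f : Ω →₀ ℝ) : ℝ := ip f f

theorem nsq_eq_sum (f : Ω →₀ ℝ) (s : Finset Ω) (hs : f.support ⊆ s) :
    nsq f = ∑ ω ∈ s, f ω ^ 2 := by
  rw [nsq, ip_eq_sum f f s hs]
  exact Finset.sum_congr rfl fun x _ => (sq _).symm

theorem nsq_nonneg (f : Ω →₀ ℝ) : 0 ≤ nsq f := by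
  rw [nsq_eq_sum f _ subset_rfl]
  exact Finset.sum_nonneg fun x _ => sq_nonneg _

theorem nsq_smul (c : ℝ) (f : Ω →₀ ℝ) : nsq (c • f) = c ^ 2 * nsq f := by
  rw [nsq, ip_smul_left, ip_smul_right, nsq]; ring

theorem nsq_single (ω : Ω) (r : ℝ) : nsq (single ω r) = r ^ 2 := by
  rw [nsq, ip_single_left]; simp [sq]

theorem nsq_add_le (f g : Ω →₀ ℝ) : nsq (f + g) ≤ 2 * (nsq f + nsq g) := by
  have h1 : nsq (f + g) = nsq f + 2 * ip f g + nsq g := by
    rw [nsq, ip_add_left, ip_add_right, ip_add_right, ip_comm g f, nsq, nsq]; ring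
  have h2 : nsq (f - g) = nsq f - 2 * ip f g + nsq g := by
    rw [nsq, ip_sub_left, ip_sub_right, ip_sub_right, ip_comm g f, nsq, nsq]; ring
  have h3 := nsq_nonneg (f - g)
  linarith

theorem nsq_W_le (g : G) (u : Ω → ℝ) (B : ℝ) (hB : ∀ ω, |u ω| ≤ B) (v : Ω →₀ ℝ) :
    nsq (W g u v) ≤ B ^ 2 * nsq v := by
  classical
  have hs : (W g u v).support ⊆ v.support.image (fun ω => g • ω) := by
    intro ω hω
    rw [Finsupp.mem_support_iff, W_apply] at hω
    rw [Finset.mem_image]
    refine ⟨g⁻¹ • ω, ?_, by simp⟩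
    rw [Finsupp.mem_support_iff]
    exact fun h => hω (by rw [h, mul_zero])
  rw [nsq_eq_sum _ _ hs, nsq_eq_sum v _ subset_rfl,
    Finset.sum_image (fun a _ b _ h => MulAction.injective g h), Finset.mul_sum]
  refine Finset.sum_le_sum fun ω _ => ?_
  rw [W_apply, inv_smul_smul, mul_pow]
  refine mul_le_mul_of_nonneg_right ?_ (sq_nonneg _)
  rw [← sq_abs (u ω)]
  exact pow_le_pow_left₀ (abs_nonneg _) (hB ω) 2

theorem ip_W (g : G) (u : Ω → ℝ) (v w : Ω →₀ ℝ) :
    ip (W g u v) w = ip v (W g⁻¹ (fun ω => u (g⁻¹ • ω)) w) := by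
  induction v using Finsupp.induction_linear with
  | zero => simp [ip_zero_left]
  | add f g hf hg => rw [map_add, ip_add_left, ip_add_left, hf, hg]
  | single a b =>
    rw [W_single, ip_single_left, ip_single_left, W_apply, inv_inv, inv_smul_smul]; ring

end alg

section meas

set_option linter.unusedSectionVars false

variable {Ω G : Type} [MeasurableSpace Ω] [Group G] [MulAction G Ω]

/-- bounded measurable -/
def BM (u : Ω → ℝ) : Prop := Measurable u ∧ ∃ B : ℝ, ∀ ω, |u ω| ≤ B

variable (Ω G) in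
/-- the algebra of operators -/
noncomputable def OO : Submodule ℝ (Module.End ℝ (Ω →₀ ℝ)) :=
  Submodule.span ℝ {U | ∃ (g : G) (u : Ω → ℝ), BM u ∧ U = W g u}

theorem W_mem (g : G) (u : Ω → ℝ) (hu : BM u) : W g u ∈ OO Ω G :=
  Submodule.subset_span ⟨g, u, hu, rfl⟩

theorem BM.nonneg_bound {u : Ω → ℝ} (hu : BM u) : ∃ B : ℝ, 0 ≤ B ∧ ∀ ω, |u ω| ≤ B := by
  obtain ⟨B, hB⟩ := hu.2
  exact ⟨max B 0, le_max_right _ _, fun ω => (hB ω).trans (le_max_left _ _)⟩

theorem BM.mul {u v : Ω → ℝ} (hu : BM u) (hv : BM v) : BM (fun ω => u ω * v ω) := by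
  obtain ⟨B, hB0, hB⟩ := hu.nonneg_bound
  obtain ⟨C, hC0, hC⟩ := hv.nonneg_bound
  exact ⟨hu.1.mul hv.1, B * C, fun ω => by
    rw [abs_mul]; exact mul_le_mul (hB ω) (hC ω) (abs_nonneg _) hB0⟩

theorem BM.const_mul {u : Ω → ℝ} (hu : BM u) (c : ℝ) : BM (fun ω => c * u ω) :=
  BM.mul ⟨measurable_const, |c|, fun _ => le_rfl⟩ hu

theorem BM.comp [MeasurableConstSMul G Ω] {u : Ω → ℝ} (hu : BM u) (g : G) :
    BM (fun ω => u (g • ω)) :=
  ⟨hu.1.comp (measurable_const_smul g), hu.2.imp fun _ h _ => h _⟩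

theorem OO_mul [MeasurableConstSMul G Ω] {U V : Module.End ℝ (Ω →₀ ℝ)} (hU : U ∈ OO Ω G)
    (hV : V ∈ OO Ω G) : U * V ∈ OO Ω G := by
  induction hU using Submodule.span_induction with
  | mem U hU =>
    obtain ⟨g, u, hu, rfl⟩ := hU
    induction hV using Submodule.span_induction with
    | mem V hV =>
      obtain ⟨h, v, hv, rfl⟩ := hV
      rw [W_mul]
      exact W_mem _ _ (hv.mul (hu.comp h))
    | zero => rw [mul_zero]; exact zero_mem _
    | add x y _ _ hx hy => rw [mul_add]; exact add_mem hx hy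
    | smul c x _ hx => rw [mul_smul_comm]; exact Submodule.smul_mem _ _ hx
  | zero => rw [zero_mul]; exact zero_mem _
  | add x y _ _ hx hy => rw [add_mul]; exact add_mem hx hy
  | smul c x _ hx => rw [smul_mul_assoc]; exact Submodule.smul_mem _ _ hx

theorem W_one_one : W (1 : G) (fun _ : Ω => (1 : ℝ)) = 1 := by
  refine Finsupp.lhom_ext fun a b => ?_
  rw [W_single]; simp

theorem OO_one : (1 : Module.End ℝ (Ω →₀ ℝ)) ∈ OO Ω G := by
  rw [← W_one_one (G := G)]
  exact W_mem _ _ ⟨measurable_const, 1, fun _ => by simp⟩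

theorem OO_pow [MeasurableConstSMul G Ω] {U : Module.End ℝ (Ω →₀ ℝ)} (hU : U ∈ OO Ω G) (n : ℕ) :
    U ^ n ∈ OO Ω G := by
  induction n with
  | zero => rw [pow_zero]; exact OO_one
  | succ n ih => rw [pow_succ]; exact OO_mul ih hU

theorem OO_bdd {U : Module.End ℝ (Ω →₀ ℝ)} (hU : U ∈ OO Ω G) :
    ∃ K : ℝ, 0 ≤ K ∧ ∀ v, nsq (U v) ≤ K * nsq v := by
  induction hU using Submodule.span_induction with
  | mem U hU =>
    obtain ⟨g, u, hu, rfl⟩ := hU
    obtain ⟨B, hB0, hB⟩ := hu.nonneg_bound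
    exact ⟨B ^ 2, by positivity, nsq_W_le g u B hB⟩
  | zero => exact ⟨0, le_rfl, fun v => by simp [nsq, ip_zero_left]⟩
  | add x y _ _ hx hy =>
    obtain ⟨K, hK0, hK⟩ := hx
    obtain ⟨L, hL0, hL⟩ := hy
    refine ⟨2 * (K + L), by positivity, fun v => ?_⟩
    rw [LinearMap.add_apply]
    have := nsq_add_le (x v) (y v)
    have h1 := hK v
    have h2 := hL v
    linarith
  | smul c x _ hx =>
    obtain ⟨K, hK0, hK⟩ := hx
    refine ⟨c ^ 2 * K, by positivity, fun v => ?_⟩
    rw [LinearMap.smul_apply, nsq_smul, mul_assoc]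
    exact mul_le_mul_of_nonneg_left (hK v) (sq_nonneg _)

theorem OO_transpose [MeasurableConstSMul G Ω] {U : Module.End ℝ (Ω →₀ ℝ)} (hU : U ∈ OO Ω G) :
    ∃ U' ∈ OO Ω G, ∀ v w, ip (U v) w = ip v (U' w) := by
  induction hU using Submodule.span_induction with
  | mem U hU =>
    obtain ⟨g, u, hu, rfl⟩ := hU
    exact ⟨W g⁻¹ (fun ω => u (g⁻¹ • ω)), W_mem _ _ (hu.comp _), ip_W g u⟩
  | zero => exact ⟨0, zero_mem _, fun v w => by simp [ip]⟩
  | add x y _ _ hx hy =>
    obtain ⟨x', hx', h1⟩ := hx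
    obtain ⟨y', hy', h2⟩ := hy
    refine ⟨x' + y', add_mem hx' hy', fun v w => ?_⟩
    rw [LinearMap.add_apply, LinearMap.add_apply, ip_add_left, ip_add_right, h1, h2]
  | smul c x _ hx =>
    obtain ⟨x', hx', h1⟩ := hx
    refine ⟨c • x', Submodule.smul_mem _ _ hx', fun v w => ?_⟩
    rw [LinearMap.smul_apply, LinearMap.smul_apply, ip_smul_left, ip_smul_right, h1]

/-- restriction to a set -/
noncomputable def Msk (G : Type) {Ω : Type} [Group G] [MulAction G Ω] (E : Set Ω) :
    Module.End ℝ (Ω →₀ ℝ) := W (1 : G) (E.indicator 1)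

theorem Msk_apply (E : Set Ω) (v : Ω →₀ ℝ) (ω : Ω) : Msk G E v ω = E.indicator v ω := by
  classical
  rw [Msk, W_apply, inv_one, one_smul, Set.indicator_apply, Set.indicator_apply]
  split_ifs <;> simp

theorem Msk_mem {E : Set Ω} (hE : MeasurableSet E) : Msk G E ∈ OO Ω G := by
  refine W_mem _ _ ⟨measurable_one.indicator hE, 1, fun ω => ?_⟩
  classical
  rw [Set.indicator_apply]
  split_ifs <;> simp

theorem Msk_single_mem {E : Set Ω} {ω : Ω} (h : ω ∈ E) (r : ℝ) :
    Msk G E (single ω r) = single ω r := by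
  rw [Msk, W_single, one_smul, Set.indicator_of_mem h]; simp

theorem Msk_single_notMem {E : Set Ω} {ω : Ω} (h : ω ∉ E) (r : ℝ) :
    Msk G E (single ω r) = 0 := by
  rw [Msk, W_single, one_smul, Set.indicator_of_notMem h]; simp

theorem Msk_mul_self (E : Set Ω) : Msk G E * Msk G E = Msk G E := by
  refine Finsupp.lhom_ext fun a b => ?_
  rw [Module.End.mul_apply]
  by_cases h : a ∈ E
  · rw [Msk_single_mem h, Msk_single_mem h]
  · rw [Msk_single_notMem h, map_zero]

theorem ip_Msk (E : Set Ω) (v w : Ω →₀ ℝ) : ip (Msk G E v) w = ip v (Msk G E w) := by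
  rw [Msk, ip_W]; simp

/-- diagonal entries -/
theorem OO_diag (hfix : ∀ g : G, MeasurableSet {ω : Ω | g • ω = ω})
    {U : Module.End ℝ (Ω →₀ ℝ)} (hU : U ∈ OO Ω G) : BM (fun ω => U (single ω 1) ω) := by
  classical
  induction hU using Submodule.span_induction with
  | mem U hU =>
    obtain ⟨g, u, hu, rfl⟩ := hU
    have : (fun ω => W g u (single ω 1) ω) = fun ω => if g • ω = ω then u ω else 0 := by
      funext ω
      rw [W_single, single_apply, one_mul]
    rw [this]
    refine ⟨Measurable.ite (hfix g) hu.1 measurable_const, ?_⟩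
    obtain ⟨B, hB0, hB⟩ := hu.nonneg_bound
    refine ⟨B, fun ω => ?_⟩
    beta_reduce
    split_ifs
    · exact hB ω
    · simpa using hB0
  | zero => exact ⟨by simp [measurable_const], 0, fun _ => by simp⟩
  | add x y _ _ hx hy =>
    obtain ⟨B, hB⟩ := hx.2
    obtain ⟨C, hC⟩ := hy.2
    exact ⟨hx.1.add hy.1, B + C, fun ω => (abs_add_le _ _).trans (add_le_add (hB ω) (hC ω))⟩
  | smul c x _ hx => exact hx.const_mul c

theorem OO_int (hfix : ∀ g : G, MeasurableSet {ω : Ω | g • ω = ω}) (m : Measure Ω)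
    {U : Module.End ℝ (Ω →₀ ℝ)} (hU : U ∈ OO Ω G) {E : Set Ω} (hE : m E ≠ ∞) :
    IntegrableOn (fun ω => U (single ω 1) ω) E m := by
  have h := OO_diag hfix hU
  obtain ⟨B, hB⟩ := h.2
  have : IsFiniteMeasure (m.restrict E) := ⟨by
    rw [Measure.restrict_apply MeasurableSet.univ, Set.univ_inter]; exact hE.lt_top⟩
  exact Integrable.of_bound h.1.aestronglyMeasurable B (Filter.Eventually.of_forall fun ω => by
    rw [Real.norm_eq_abs]; exact hB ω)

variable [MeasurableConstSMul G Ω]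

theorem tr_W (m : Measure Ω) (hm : ∀ g : G, MeasurePreserving (fun ω : Ω => g • ω) m m)
    {A D : Set Ω} (hA : MeasurableSet A) (hD : MeasurableSet D) (g h : G) (u v : Ω → ℝ) :
    ∫ ω in A, (W g u * Msk G D * W h v) (single ω 1) ω ∂m =
      ∫ ω in D, (W h v * Msk G A * W g u) (single ω 1) ω ∂m := by
  classical
  rw [← integral_indicator hA, ← integral_indicator hD]
  set F' : Ω → ℝ := D.indicator (fun ω => (W h v * Msk G A * W g u) (single ω 1) ω) with hF'
  have h1 : ∫ ω, F' (h • ω) ∂m = ∫ ω, F' ω ∂m :=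
    (hm h).integral_comp (MeasurableEquiv.smul h).measurableEmbedding F'
  rw [← h1]
  refine integral_congr_ae (Filter.Eventually.of_forall fun ω => ?_)
  simp only [hF', Set.indicator_apply, Module.End.mul_apply, W_single]
  by_cases hD1 : h • ω ∈ D
  · rw [if_pos hD1, Msk_single_mem hD1, W_single]
    by_cases h2 : g • h • ω = ω
    · rw [h2]
      by_cases hA1 : ω ∈ A
      · rw [if_pos hA1, Msk_single_mem hA1, W_single]
        simp [mul_comm]
      · rw [if_neg hA1, Msk_single_notMem hA1]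
        simp
    · rw [single_eq_of_ne (Ne.symm h2)]
      by_cases hA1 : g • h • ω ∈ A
      · rw [Msk_single_mem hA1, W_single, single_eq_of_ne]
        · simp
        · intro h3
          exact h2 (MulAction.injective h h3.symm)
      · rw [Msk_single_notMem hA1]
        simp
  · rw [if_neg hD1, Msk_single_notMem hD1]
    simp

theorem tr_comm (m : Measure Ω) (hm : ∀ g : G, MeasurePreserving (fun ω : Ω => g • ω) m m)
    (hfix : ∀ g : G, MeasurableSet {ω : Ω | g • ω = ω})
    {A D : Set Ω} (hA : MeasurableSet A) (hD : MeasurableSet D) (hA' : m A ≠ ∞) (hD' : m D ≠ ∞)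
    {U V : Module.End ℝ (Ω →₀ ℝ)} (hU : U ∈ OO Ω G) (hV : V ∈ OO Ω G) :
    ∫ ω in A, (U * Msk G D * V) (single ω 1) ω ∂m =
      ∫ ω in D, (V * Msk G A * U) (single ω 1) ω ∂m := by
  induction hU using Submodule.span_induction with
  | mem U hU =>
    obtain ⟨g, u, hu, rfl⟩ := hU
    induction hV using Submodule.span_induction with
    | mem V hV =>
      obtain ⟨h, v, hv, rfl⟩ := hV
      exact tr_W m hm hA hD g h u v
    | zero => simp
    | add x y hx0 hy0 hx hy =>
      simp only [mul_add, add_mul, LinearMap.add_apply, Finsupp.add_apply]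
      rw [integral_add, integral_add, hx, hy]
      · exact OO_int hfix m (OO_mul (OO_mul hx0 (Msk_mem hA)) (W_mem g u hu)) hD'
      · exact OO_int hfix m (OO_mul (OO_mul hy0 (Msk_mem hA)) (W_mem g u hu)) hD'
      · exact OO_int hfix m (OO_mul (OO_mul (W_mem g u hu) (Msk_mem hD)) hx0) hA'
      · exact OO_int hfix m (OO_mul (OO_mul (W_mem g u hu) (Msk_mem hD)) hy0) hA'
    | smul c x hx0 hx =>
      simp only [mul_smul_comm, smul_mul_assoc, LinearMap.smul_apply, Finsupp.smul_apply]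
      rw [integral_smul, integral_smul, hx]
  | zero => simp
  | add x y hx0 hy0 hx hy =>
    simp only [mul_add, add_mul, LinearMap.add_apply, Finsupp.add_apply]
    rw [integral_add, integral_add, hx, hy]
    · exact OO_int hfix m (OO_mul (OO_mul hV (Msk_mem hA)) hx0) hD'
    · exact OO_int hfix m (OO_mul (OO_mul hV (Msk_mem hA)) hy0) hD'
    · exact OO_int hfix m (OO_mul (OO_mul hx0 (Msk_mem hD)) hV) hA'
    · exact OO_int hfix m (OO_mul (OO_mul hy0 (Msk_mem hD)) hV) hA'
  | smul c x hx0 hx =>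
    simp only [mul_smul_comm, smul_mul_assoc, LinearMap.smul_apply, Finsupp.smul_apply]
    rw [integral_smul, integral_smul, hx]

/-- deterministic contraction estimate -/
theorem contraction {S S' P : Module.End ℝ (Ω →₀ ℝ)} (K : ℝ) (hK : 1 ≤ K)
    (hadj : ∀ v w, ip (S v) w = ip v (S' w))
    (hS' : ∀ v, nsq (S' v) ≤ K * nsq v) (hP : ∀ v, nsq (P v) ≤ K * nsq v)
    (v : Ω →₀ ℝ) (hv : P (S v) = v) :
    nsq (v + (-K⁻¹) • S' (S v)) ≤ (1 - (K⁻¹) ^ 2) * nsq v := by
  have hK0 : 0 < K := by linarith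
  have h1 : nsq (v + (-K⁻¹) • S' (S v)) =
      nsq v - 2 * K⁻¹ * nsq (S v) + (K⁻¹) ^ 2 * nsq (S' (S v)) := by
    rw [nsq, ip_add_left, ip_add_right, ip_add_right, ip_smul_left, ip_smul_right, ip_smul_left,
      ip_smul_right, ip_comm (S' (S v)) v, ← hadj v (S v), nsq, nsq, nsq]
    ring
  have h2 := hS' (S v)
  have h3 : nsq v ≤ K * nsq (S v) := by
    have := hP (S v)
    rwa [hv] at this
  have h4 : (K⁻¹) ^ 2 * nsq (S' (S v)) ≤ K⁻¹ * nsq (S v) := by
    have : (K⁻¹) ^ 2 * nsq (S' (S v)) ≤ (K⁻¹) ^ 2 * (K * nsq (S v)) :=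
      mul_le_mul_of_nonneg_left h2 (by positivity)
    calc _ ≤ _ := this
      _ = K⁻¹ * nsq (S v) := by field_simp
  have h5 : (K⁻¹) ^ 2 * nsq v ≤ K⁻¹ * nsq (S v) := by
    have : (K⁻¹) ^ 2 * nsq v ≤ (K⁻¹) ^ 2 * (K * nsq (S v)) :=
      mul_le_mul_of_nonneg_left h3 (by positivity)
    calc _ ≤ _ := this
      _ = K⁻¹ * nsq (S v) := by field_simp
  rw [h1]
  linarith

theorem geom_aux {R : Type} [Semiring R] (a Z : R) (h : a + Z = 1) (n : ℕ) :
    (∑ i ∈ Finset.range n, a ^ i) * Z + a ^ n = 1 := by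
  induction n with
  | zero => simp
  | succ n ih =>
    rw [Finset.sum_range_succ, add_mul, pow_succ, add_assoc, ← mul_add, add_comm Z a, h, mul_one, ih]

theorem core (m : Measure Ω) (hm : ∀ g : G, MeasurePreserving (fun ω : Ω => g • ω) m m)
    (hfix : ∀ g : G, MeasurableSet {ω : Ω | g • ω = ω})
    {A D : Set Ω} (hA : MeasurableSet A) (hD : MeasurableSet D) (hA' : m A ≠ ∞) (hD' : m D ≠ ∞)
    {U V : Module.End ℝ (Ω →₀ ℝ)} (hU : U ∈ OO Ω G) (hV : V ∈ OO Ω G)
    (h : ∀ d ∈ D, Msk G D (V (Msk G A (U (single d 1)))) = single d 1) : m D ≤ m A := by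
  obtain ⟨U', hU', hadj0⟩ := OO_transpose hU
  set MD := Msk G D with hMD
  set MA := Msk G A with hMA
  have hMDm : MD ∈ OO Ω G := Msk_mem hD
  have hMAm : MA ∈ OO Ω G := Msk_mem hA
  have hMD2 : MD * MD = MD := Msk_mul_self D
  have hMA2 : MA * MA = MA := Msk_mul_self A
  set S := MA * U * MD with hS
  set S' := MD * U' * MA with hS'
  set P := MD * V * MA with hP
  have hSm : S ∈ OO Ω G := OO_mul (OO_mul hMAm hU) hMDm
  have hS'm : S' ∈ OO Ω G := OO_mul (OO_mul hMDm hU') hMAm
  have hPm : P ∈ OO Ω G := OO_mul (OO_mul hMDm hV) hMAm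
  have hadj : ∀ v w, ip (S v) w = ip v (S' w) := by
    intro v w
    simp only [hS, hS', Module.End.mul_apply]
    rw [hMA, ip_Msk, hadj0, hMD, ip_Msk]
  obtain ⟨K1, hK10, hK1⟩ := OO_bdd hS'm
  obtain ⟨K2, hK20, hK2⟩ := OO_bdd hPm
  set K := K1 + K2 + 1 with hK
  have hK1' : 1 ≤ K := by rw [hK]; linarith
  have hK0 : 0 < K := by linarith
  have hbS' : ∀ v, nsq (S' v) ≤ K * nsq v := fun v =>
    (hK1 v).trans (mul_le_mul_of_nonneg_right (by rw [hK]; linarith) (nsq_nonneg v))
  have hbP : ∀ v, nsq (P v) ≤ K * nsq v := fun v =>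
    (hK2 v).trans (mul_le_mul_of_nonneg_right (by rw [hK]; linarith) (nsq_nonneg v))
  have hPS : P * S = MD := by
    have h1 : P * S = MD * V * MA * U * MD := by
      rw [hP, hS]
      calc MD * V * MA * (MA * U * MD) = MD * V * (MA * MA) * U * MD := by
            simp only [mul_assoc]
        _ = _ := by rw [hMA2]
    rw [h1]
    refine Finsupp.lhom_ext fun a b => ?_
    have hb : single a b = b • (single a 1 : Ω →₀ ℝ) := by simp
    rw [hb, map_smul, map_smul]
    congr 1
    simp only [Module.End.mul_apply]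
    by_cases ha : a ∈ D
    · rw [hMD, Msk_single_mem ha, ← hMD]
      exact h a ha
    · rw [hMD, Msk_single_notMem ha]
      simp
  have hSMD : S * MD = S := by
    rw [hS, mul_assoc, hMD2]
  have hMDS' : MD * S' = S' := by
    rw [hS', ← mul_assoc, ← mul_assoc, hMD2]
  have hMAS : MA * S = S := by
    rw [hS, ← mul_assoc, ← mul_assoc, hMA2]
  clear_value S S' P
  set a : Module.End ℝ (Ω →₀ ℝ) := 1 + (-K⁻¹) • (S' * S) with ha
  set b : Module.End ℝ (Ω →₀ ℝ) := 1 + (-K⁻¹) • (S * S') with hb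
  have ham : a ∈ OO Ω G := add_mem OO_one (Submodule.smul_mem _ _ (OO_mul hS'm hSm))
  have hbm : b ∈ OO Ω G := add_mem OO_one (Submodule.smul_mem _ _ (OO_mul hSm hS'm))
  have haZ : a + K⁻¹ • (S' * S) = 1 := by
    rw [ha, add_assoc, ← add_smul, neg_add_cancel, zero_smul, add_zero]
  have hbZ : b + K⁻¹ • (S * S') = 1 := by
    rw [hb, add_assoc, ← add_smul, neg_add_cancel, zero_smul, add_zero]
  have hsemi : SemiconjBy S a b := by
    change S * a = b * S
    rw [ha, hb, mul_add, add_mul, mul_one, one_mul, mul_smul_comm, smul_mul_assoc, mul_assoc]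
  have hcomm : Commute MD a := by
    change MD * a = a * MD
    rw [ha, mul_add, add_mul, mul_one, one_mul, mul_smul_comm, smul_mul_assoc, ← mul_assoc, hMDS',
      mul_assoc S' S, hSMD]
  have hasym : ∀ v w, ip (a v) w = ip v (a w) := by
    intro v w
    simp only [ha, LinearMap.add_apply, Module.End.one_apply, LinearMap.smul_apply,
      Module.End.mul_apply]
    rw [ip_add_left, ip_add_right, ip_smul_left, ip_smul_right, ip_comm (S' (S v)) w, ← hadj,
      ← hadj, ip_comm (S w)]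
  have hbsym : ∀ v w, ip (b v) w = ip v (b w) := by
    intro v w
    simp only [hb, LinearMap.add_apply, Module.End.one_apply, LinearMap.smul_apply,
      Module.End.mul_apply]
    rw [ip_add_left, ip_add_right, ip_smul_left, ip_smul_right, hadj, ip_comm v (S (S' w)), hadj,
      ip_comm (S' w)]
  have hsympow : ∀ (c : Module.End ℝ (Ω →₀ ℝ)), (∀ v w, ip (c v) w = ip v (c w)) →
      ∀ (k : ℕ) (v w : Ω →₀ ℝ), ip ((c ^ k) v) w = ip v ((c ^ k) w) := by
    intro c hc k
    induction k with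
    | zero => intro v w; simp
    | succ k ih =>
      intro v w
      rw [pow_succ, Module.End.mul_apply, ih, hc, ← Module.End.mul_apply, ← pow_succ', pow_succ]
  have hdiag : ∀ (c : Module.End ℝ (Ω →₀ ℝ)), (∀ v w, ip (c v) w = ip v (c w)) →
      ∀ (k : ℕ) (ω : Ω), (c ^ (2 * k)) (single ω 1) ω = nsq ((c ^ k) (single ω 1)) := by
    intro c hc k ω
    rw [nsq, hsympow c hc k, ← Module.End.mul_apply, ← pow_add, ip_single_left, one_mul, two_mul]
  have happ : ∀ v, a v = v + (-K⁻¹) • S' (S v) := by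
    intro v
    simp only [ha, LinearMap.add_apply, Module.End.one_apply, LinearMap.smul_apply,
      Module.End.mul_apply]
  clear_value a b
  -- contraction on `D`
  have hρ0 : 0 ≤ 1 - (K⁻¹) ^ 2 := by
    have : (K⁻¹) ^ 2 ≤ 1 := pow_le_one₀ (by positivity) (inv_le_one_of_one_le₀ hK1')
    linarith
  have hρ1 : 1 - (K⁻¹) ^ 2 < 1 := by
    have : 0 < (K⁻¹) ^ 2 := by positivity
    linarith
  have hcontr : ∀ d ∈ D, ∀ k : ℕ, nsq ((a ^ k) (single d 1)) ≤ (1 - (K⁻¹) ^ 2) ^ k := by
    intro d hd k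
    induction k with
    | zero => simp [nsq_single]
    | succ k ih =>
      have h1 : (a ^ (k + 1)) (single d 1) = (a ^ k) (single d 1) +
          (-K⁻¹) • S' (S ((a ^ k) (single d 1))) := by
        rw [pow_succ', Module.End.mul_apply, happ]
      have h2 : P (S ((a ^ k) (single d 1))) = (a ^ k) (single d 1) := by
        rw [← Module.End.mul_apply, hPS, ← Module.End.mul_apply, (hcomm.pow_right k).eq,
          Module.End.mul_apply, hMD, Msk_single_mem hd]
      rw [h1, pow_succ']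
      exact (contraction K hK1' hadj hbS' hbP _ h2).trans (mul_le_mul_of_nonneg_left ih hρ0)
  have hfinD : IsFiniteMeasure (m.restrict D) := ⟨by
    rw [Measure.restrict_apply MeasurableSet.univ, Set.univ_inter]; exact hD'.lt_top⟩
  have hfinA : IsFiniteMeasure (m.restrict A) := ⟨by
    rw [Measure.restrict_apply MeasurableSet.univ, Set.univ_inter]; exact hA'.lt_top⟩
  have key : ∀ k : ℕ, (1 - (1 - (K⁻¹) ^ 2) ^ k) * (m D).toReal ≤ (m A).toReal := by
    intro k
    set n := 2 * k with hn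
    set q : Module.End ℝ (Ω →₀ ℝ) := ∑ i ∈ Finset.range n, a ^ i with hq
    have hqm : q ∈ OO Ω G := sum_mem fun i _ => OO_pow ham i
    have e1 : q * (K⁻¹ • (S' * S)) + a ^ n = 1 := geom_aux _ _ haZ n
    have e2 : S * q = (∑ i ∈ Finset.range n, b ^ i) * S := by
      rw [hq, Finset.mul_sum, Finset.sum_mul]
      exact Finset.sum_congr rfl fun i _ => (hsemi.pow_right i).eq
    have e3 : S * q * (K⁻¹ • S') + b ^ n = 1 := by
      rw [e2, mul_assoc, mul_smul_comm]
      exact geom_aux _ _ hbZ n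
    have hqSm := OO_mul hqm (Submodule.smul_mem _ (K⁻¹) hS'm)
    have e4 := tr_comm m hm hfix hA hD hA' hD' hSm hqSm
    have e5 : S * MD * (q * (K⁻¹ • S')) + b ^ n = 1 := by
      rw [hSMD, ← mul_assoc, e3]
    have e6 : q * (K⁻¹ • S') * MA * S + a ^ n = 1 := by
      rw [mul_assoc (q * (K⁻¹ • S')), hMAS, mul_assoc, smul_mul_assoc, e1]
    rw [← hMD, ← hMA] at e4
    have f1 : ∫ ω in A, ((S * MD * (q * (K⁻¹ • S'))) (single ω 1)) ω ∂m ≤ (m A).toReal := by
      have : ∫ ω in A, ((S * MD * (q * (K⁻¹ • S'))) (single ω 1)) ω ∂m ≤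
          ∫ ω in A, (1 : ℝ) ∂m := by
        refine integral_mono ?_ (integrable_const _) fun ω => ?_
        · exact OO_int hfix m (OO_mul (OO_mul hSm hMDm) hqSm) hA'
        · have e7 : ((S * MD * (q * (K⁻¹ • S')) + b ^ n) (single ω 1)) ω =
              (single ω 1 : Ω →₀ ℝ) ω := by rw [e5, Module.End.one_apply]
          rw [LinearMap.add_apply, Finsupp.add_apply, hn, hdiag b hbsym, single_eq_same] at e7
          have := nsq_nonneg ((b ^ k) (single ω 1))
          beta_reduce
          linarith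
      refine this.trans (le_of_eq ?_)
      simp [Measure.real]
    have f2 : (1 - (1 - (K⁻¹) ^ 2) ^ k) * (m D).toReal ≤
        ∫ ω in D, ((q * (K⁻¹ • S') * MA * S) (single ω 1)) ω ∂m := by
      have : ∫ ω in D, (1 - (1 - (K⁻¹) ^ 2) ^ k : ℝ) ∂m ≤
          ∫ ω in D, ((q * (K⁻¹ • S') * MA * S) (single ω 1)) ω ∂m := by
        refine setIntegral_mono_on (integrable_const _) ?_ hD fun ω hω => ?_
        · exact OO_int hfix m (OO_mul (OO_mul hqSm hMAm) hSm) hD'
        · have e7 : ((q * (K⁻¹ • S') * MA * S + a ^ n) (single ω 1)) ω =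
              (single ω 1 : Ω →₀ ℝ) ω := by rw [e6, Module.End.one_apply]
          rw [LinearMap.add_apply, Finsupp.add_apply, hn, hdiag a hasym, single_eq_same] at e7
          have := hcontr ω hω k
          linarith
      refine (le_of_eq ?_).trans this
      simp [Measure.real, mul_comm]
    linarith
  have hlim : Filter.Tendsto (fun k : ℕ => (1 - (1 - (K⁻¹) ^ 2) ^ k) * (m D).toReal) Filter.atTop
      (nhds ((1 - 0) * (m D).toReal)) :=
    ((tendsto_const_nhds.sub (tendsto_pow_atTop_nhds_zero_of_lt_one hρ0 hρ1)).mul_const _)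
  have := le_of_tendsto' hlim key
  rw [sub_zero, one_mul] at this
  exact (ENNReal.toReal_le_toReal hD' hA').1 this

end meas

section choice

variable {Ω G : Type} [MeasurableSpace Ω] [Group G] [MulAction G Ω]

/-- cast of chains -/
noncomputable def cst : (Ω →₀ ℚ) →+ (Ω →₀ ℝ) :=
  Finsupp.mapRange.addMonoidHom ((Rat.castHom ℝ : ℚ →+* ℝ) : ℚ →+ ℝ)

omit [MeasurableSpace Ω] in
theorem rzG_eq_sum (ω : Ω) (c : G →₀ ℚ) :
    rzG ω c = ∑ g ∈ c.support, single (g • ω) (c g) := rfl

omit [MeasurableSpace Ω] in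
theorem cst_rzG (ω : Ω) (c : G →₀ ℚ) :
    cst (rzG ω c) = ∑ g ∈ c.support, single (g • ω) ((c g : ℚ) : ℝ) := by
  rw [rzG_eq_sum, map_sum]
  refine Finset.sum_congr rfl fun g _ => ?_
  simp [cst]

theorem field_mem (c : Ω → (G →₀ ℚ)) (hc : ∀ a, MeasurableSet {ω | c ω = a})
    (F : Finset (G →₀ ℚ)) :
    ∃ U ∈ OO Ω G, ∀ ω, c ω ∈ F → U (single ω 1) = cst (rzG ω (c ω)) := by
  classical
  refine ⟨∑ s ∈ F, ∑ g ∈ s.support,
    W g (({ω | c ω = s} : Set Ω).indicator (fun _ => ((s g : ℚ) : ℝ))), ?_, ?_⟩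
  · refine sum_mem fun s _ => sum_mem fun g _ => W_mem _ _ ?_
    refine ⟨measurable_const.indicator (hc s), |((s g : ℚ) : ℝ)|, fun ω => ?_⟩
    rw [Set.indicator_apply]
    split_ifs
    · exact le_rfl
    · simp
  · intro ω hω
    rw [cst_rzG, LinearMap.sum_apply, Finset.sum_eq_single (c ω)]
    · rw [LinearMap.sum_apply]
      refine Finset.sum_congr rfl fun g _ => ?_
      rw [W_single, Set.indicator_of_mem (by rfl), one_mul]
    · intro s _ hs
      rw [LinearMap.sum_apply]
      refine Finset.sum_eq_zero fun g _ => ?_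
      have hn : ω ∉ ({ω | c ω = s} : Set Ω) := fun h => hs (Eq.symm h)
      rw [W_single, Set.indicator_of_notMem hn, mul_zero, single_zero]
    · intro h; exact absurd hω h

omit [Group G] [MulAction G Ω] in
theorem fib_meas [Countable G] {c : Ω → (G →₀ ℚ)} (hc : ∀ a, MeasurableSet {ω | c ω = a})
    (p : (G →₀ ℚ) → Prop) : MeasurableSet {ω | p (c ω)} := by
  have : {ω | p (c ω)} = ⋃ a : G →₀ ℚ, ⋃ (_ : p a), {ω | c ω = a} := by
    ext ω; simp
  rw [this]
  exact MeasurableSet.iUnion fun a => MeasurableSet.iUnion fun _ => hc a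

omit [MeasurableSpace Ω] in
theorem rzG_apply (ω : Ω) (c : G →₀ ℚ) (x : Ω) [DecidableEq Ω] :
    rzG ω c x = ∑ g ∈ c.support, if g • ω = x then c g else 0 := by
  rw [rzG_eq_sum, Finsupp.finsetSum_apply]
  exact Finset.sum_congr rfl fun g _ => single_apply

omit [MeasurableSpace Ω] in
theorem rzG_notMem (ω : Ω) (c : G →₀ ℚ) (x : Ω) (hx : x ∉ MulAction.orbit G ω) :
    rzG ω c x = 0 := by
  classical
  rw [rzG_apply]
  refine Finset.sum_eq_zero fun g _ => ?_
  rw [if_neg]
  rintro rfl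
  exact hx ⟨g, rfl⟩

open Classical in
/-- `s` is a good combination at `d` -/
def GoodC (D A : Set Ω) (c : Ω → (G →₀ ℚ)) (s : G →₀ ℚ) (d : Ω) : Prop :=
  (∀ g ∈ s.support, g • d ∈ A) ∧
  ∀ x ∈ D, (single d 1 : Ω →₀ ℚ) x = ∑ g ∈ s.support, s g * rzG (g • d) (c (g • d)) x

omit [MeasurableSpace Ω] in
open Classical in
theorem exists_good (D A : Set Ω) (c : Ω → (G →₀ ℚ)) (d : Ω)
    (h : Finsupp.single d (1 : ℚ) ∈
    Submodule.span ℚ {v : Ω →₀ ℚ | ∃ ω' ∈ A, v = (rzG ω' (c ω')).filter (· ∈ D)}) :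
    ∃ s, GoodC D A c s d := by
  set f : Ω → (Ω →₀ ℚ) := fun a => (rzG a (c a)).filter (· ∈ D) with hf
  have h1 : {v : Ω →₀ ℚ | ∃ ω' ∈ A, v = (rzG ω' (c ω')).filter (· ∈ D)} = f '' A := by
    ext v
    constructor
    · rintro ⟨a, ha, rfl⟩; exact ⟨a, ha, rfl⟩
    · rintro ⟨a, ha, rfl⟩; exact ⟨a, ha, rfl⟩
  rw [h1, Finsupp.mem_span_image_iff_linearCombination] at h
  obtain ⟨l, hl, hl2⟩ := h
  set O := MulAction.orbit G d with hO
  set l' : Ω →₀ ℚ := l.filter (· ∈ O) with hl'
  have hγ : ∀ a : Ω, ∃ g : G, a ∈ O → g • d = a := by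
    intro a
    by_cases ha : a ∈ O
    · obtain ⟨g, hg⟩ := ha
      exact ⟨g, fun _ => hg⟩
    · exact ⟨1, fun h => absurd h ha⟩
  choose γ hγ using hγ
  refine ⟨l'.mapDomain γ, ?_, ?_⟩
  · intro g hg
    have := Finsupp.mapDomain_support hg
    rw [Finset.mem_image] at this
    obtain ⟨a, ha, rfl⟩ := this
    rw [hl', Finsupp.support_filter, Finset.mem_filter] at ha
    rw [hγ a ha.2]
    exact hl ha.1
  · intro x hx
    have h2 : (∑ g ∈ (l'.mapDomain γ).support, (l'.mapDomain γ) g * rzG (g • d) (c (g • d)) x) =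
        l'.sum fun a q => q * rzG a (c a) x := by
      have h3 : (l'.mapDomain γ).sum (fun g q => q * rzG (g • d) (c (g • d)) x) =
          l'.sum (fun a q => q * rzG (γ a • d) (c (γ a • d)) x) := by
        rw [Finsupp.sum_mapDomain_index]
        · intro b; rw [zero_mul]
        · intro b q1 q2; rw [add_mul]
      rw [Finsupp.sum] at h3
      rw [h3]
      refine Finset.sum_congr rfl fun a ha => ?_
      rw [hl', Finsupp.support_filter, Finset.mem_filter] at ha
      beta_reduce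
      rw [hγ a ha.2]
    rw [h2]
    have h4 : (single d 1 : Ω →₀ ℚ) x = l.sum fun a q => q * rzG a (c a) x := by
      rw [← hl2, Finsupp.linearCombination_apply, Finsupp.sum, Finsupp.finsetSum_apply]
      refine Finset.sum_congr rfl fun a _ => ?_
      rw [Finsupp.smul_apply, smul_eq_mul, hf, Finsupp.filter_apply_pos _ _ hx]
    by_cases hxO : x ∈ O
    · rw [h4, Finsupp.sum, Finsupp.sum, hl', Finsupp.support_filter]
      symm
      rw [Finset.sum_filter]
      refine Finset.sum_congr rfl fun a _ => ?_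
      split_ifs with ha
      · rw [Finsupp.filter_apply_pos _ _ ha]
      · rw [rzG_notMem, mul_zero]
        intro h5
        apply ha
        rw [hO] at hxO ⊢
        rw [← MulAction.orbit_eq_iff] at h5 hxO ⊢
        rw [← h5, hxO]
    · have hxd : d ≠ x := by
        rintro rfl
        exact hxO (MulAction.mem_orbit_self _)
      rw [single_apply, if_neg hxd, Finsupp.sum]
      symm
      refine Finset.sum_eq_zero fun a ha => ?_
      rw [hl', Finsupp.support_filter, Finset.mem_filter] at ha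
      rw [rzG_notMem, mul_zero]
      intro h5
      apply hxO
      have h6 := ha.2
      rw [hO] at h6 ⊢
      rw [← MulAction.orbit_eq_iff] at h5 h6 ⊢
      rw [h5, h6]

theorem good_meas [Countable G] [MeasurableConstSMul G Ω] {D A : Set Ω} (hD : MeasurableSet D)
    (hA : MeasurableSet A) {c : Ω → (G →₀ ℚ)} (hc : ∀ a, MeasurableSet {ω | c ω = a})
    (hfix : ∀ g : G, MeasurableSet {ω : Ω | g • ω = ω}) (s : G →₀ ℚ) :
    MeasurableSet {d | GoodC D A c s d} := by
  classical
  have hfix2 : ∀ g h : G, MeasurableSet {ω : Ω | g • ω = h • ω} := by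
    intro g h
    have : {ω : Ω | g • ω = h • ω} = {ω : Ω | (h⁻¹ * g) • ω = ω} := by
      ext ω
      rw [Set.mem_ofPred_eq, Set.mem_ofPred_eq, mul_smul, inv_smul_eq_iff]
    rw [this]
    exact hfix _
  have hterm : ∀ g h : G, Measurable fun d : Ω => ((rzG (g • d) (c (g • d)) (h • d) : ℚ) : ℝ) := by
    intro g h
    have h1 : ∀ a : G →₀ ℚ, Measurable fun d : Ω => ((rzG (g • d) a (h • d) : ℚ) : ℝ) := by
      intro a
      have : (fun d : Ω => ((rzG (g • d) a (h • d) : ℚ) : ℝ)) =
          fun d => ∑ k ∈ a.support, if (k * g) • d = h • d then ((a k : ℚ) : ℝ) else 0 := by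
        funext d
        rw [rzG_apply]
        push_cast
        exact Finset.sum_congr rfl fun k _ => by rw [mul_smul]; split_ifs <;> simp
      rw [this]
      exact Finset.measurable_fun_sum _ fun k _ =>
        Measurable.ite (hfix2 _ _) measurable_const measurable_const
    have h2 : (fun d : Ω => ((rzG (g • d) (c (g • d)) (h • d) : ℚ) : ℝ)) =
        fun d => ((rzG (g • d) (c (g • d)) (h • d) : ℚ) : ℝ) := rfl
    intro B hB
    have h3 : ((fun d : Ω => ((rzG (g • d) (c (g • d)) (h • d) : ℚ) : ℝ)) ⁻¹' B) =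
        ⋃ a : G →₀ ℚ, ({d | c (g • d) = a} ∩
          ((fun d : Ω => ((rzG (g • d) a (h • d) : ℚ) : ℝ)) ⁻¹' B)) := by
      ext d; simp
    rw [h3]
    exact MeasurableSet.iUnion fun a =>
      (measurable_const_smul g (hc a)).inter (h1 a hB)
  have heq : {d | GoodC D A c s d} = (⋂ g ∈ s.support, {d | g • d ∈ A}) ∩
      ⋂ h : G, ({d | h • d ∉ D} ∪ {d | ((if (1 : G) • d = h • d then 1 else 0 : ℝ)) =
        ∑ g ∈ s.support, ((s g : ℚ) : ℝ) * ((rzG (g • d) (c (g • d)) (h • d) : ℚ) : ℝ)}) := by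
    ext d
    simp only [GoodC, Set.mem_ofPred_eq, Set.mem_inter_iff, Set.mem_iInter, Set.mem_union]
    refine and_congr Iff.rfl ⟨fun h k => ?_, fun h x hx => ?_⟩
    · by_cases hk : k • d ∈ D
      · right
        have := h _ hk
        rw [single_apply] at this
        rw [one_smul]
        have h5 := congrArg (Rat.cast : ℚ → ℝ) this
        push_cast at h5
        rw [← h5]
        split_ifs <;> simp
      · exact Or.inl hk
    · by_cases hxO : x ∈ MulAction.orbit G d
      · obtain ⟨k, rfl⟩ := hxO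
        rcases h k with h1 | h1
        · exact absurd hx h1
        · rw [single_apply]
          rw [one_smul] at h1
          have h6 : (((if d = k • d then 1 else 0 : ℚ)) : ℝ) =
              ((∑ g ∈ s.support, s g * rzG (g • d) (c (g • d)) (k • d) : ℚ) : ℝ) := by
            push_cast
            rw [← h1]
            split_ifs <;> simp
          exact_mod_cast h6
      · have hxd : d ≠ x := by
          rintro rfl
          exact hxO (MulAction.mem_orbit_self _)
        rw [single_apply, if_neg hxd]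
        symm
        refine Finset.sum_eq_zero fun g _ => ?_
        rw [rzG_notMem, mul_zero]
        rwa [MulAction.orbit_smul]
  rw [heq]
  refine MeasurableSet.inter ?_ ?_
  · exact MeasurableSet.iInter fun g => MeasurableSet.iInter fun _ => measurable_const_smul g hA
  · refine MeasurableSet.iInter fun h => ?_
    refine (measurable_const_smul h hD.compl).union ?_
    refine measurableSet_eq_fun ?_ ?_
    · exact Measurable.ite (hfix2 _ _) measurable_const measurable_const
    · exact Finset.measurable_fun_sum _ fun g _ => (hterm g h).const_mul _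

end choice

end Crest.Agent.R191.RI1T

namespace Crest.Agent.R191

open MeasureTheory Finsupp RI1T
open scoped ENNReal

theorem ri1 : RI1 := by
  classical
  intro Ω G _ _ _ _ m hm hfix D A c hD hA hc hDf hAf hspan
  have : MeasurableConstSMul G Ω := ⟨fun g => (hm g).measurable⟩
  obtain ⟨e, he⟩ := exists_injective_nat (G →₀ ℚ)
  have hex : ∀ d : Ω, ∃ n, d ∈ D → ∃ s, e s = n ∧ GoodC D A c s d := by
    intro d
    by_cases hd : d ∈ D
    · obtain ⟨s, hs⟩ := exists_good D A c d (by
        have := hspan d hd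
        convert this)
      exact ⟨e s, fun _ => ⟨s, rfl, hs⟩⟩
    · exact ⟨0, fun h => absurd h hd⟩
  set idx : Ω → ℕ := fun d => Nat.find (hex d) with hidx
  have hidxm : Measurable idx := by
    refine measurable_find hex fun n => ?_
    have : {d | d ∈ D → ∃ s, e s = n ∧ GoodC D A c s d} =
        Dᶜ ∪ ⋃ s : G →₀ ℚ, ⋃ (_ : e s = n), {d | GoodC D A c s d} := by
      ext d
      simp only [Set.mem_ofPred_eq, Set.mem_union, Set.mem_compl_iff, Set.mem_iUnion, exists_prop]
      tauto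
    rw [this]
    exact hD.compl.union (MeasurableSet.iUnion fun s => MeasurableSet.iUnion fun _ =>
      good_meas hD hA hc hfix s)
  set dec : ℕ → (G →₀ ℚ) := fun n => if h : ∃ s, e s = n then h.choose else 0 with hdec
  have hdec1 : ∀ s, dec (e s) = s := by
    intro s
    have h : ∃ s', e s' = e s := ⟨s, rfl⟩
    rw [hdec]
    simp only [h, dite_true]
    exact he h.choose_spec
  set σ : Ω → (G →₀ ℚ) := fun d => dec (idx d) with hσ
  have hσm : ∀ a, MeasurableSet {ω | σ ω = a} := fun a =>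
    hidxm (MeasurableSet.of_discrete (s := {n | dec n = a}))
  have hσg : ∀ d ∈ D, GoodC D A c (σ d) d := by
    intro d hd
    obtain ⟨s, hs1, hs2⟩ := Nat.find_spec (hex d) hd
    have : σ d = s := by
      rw [hσ, hidx]
      change dec (Nat.find (hex d)) = s
      rw [← hs1, hdec1]
    rw [this]
    exact hs2
  have hFfin : ∀ N : ℕ, {s : G →₀ ℚ | e s < N}.Finite := fun N =>
    Set.Finite.preimage he.injOn (Set.finite_lt_nat N)
  set DN : ℕ → Set Ω := fun N => {d | d ∈ D ∧ e (σ d) < N ∧ ∀ g ∈ (σ d).support, e (c (g • d)) < N}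
    with hDN
  set AN : ℕ → Set Ω := fun N => {a | a ∈ A ∧ e (c a) < N} with hAN
  have hANm : ∀ N, MeasurableSet (AN N) := fun N => hA.inter (fib_meas hc fun a => e a < N)
  have hDNm : ∀ N, MeasurableSet (DN N) := by
    intro N
    have : DN N = D ∩ ⋃ s : G →₀ ℚ, ⋃ (_ : e s < N), ({d | σ d = s} ∩
        ⋂ g ∈ s.support, {d | e (c (g • d)) < N}) := by
      ext d
      simp only [hDN, Set.mem_ofPred_eq, Set.mem_inter_iff, Set.mem_iUnion, Set.mem_iInter,
        exists_prop]
      refine and_congr Iff.rfl ⟨fun h => ⟨σ d, h.1, rfl, h.2⟩, ?_⟩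
      rintro ⟨s, h1, h2, h3⟩
      rw [h2]
      exact ⟨h1, h3⟩
    rw [this]
    refine hD.inter (MeasurableSet.iUnion fun s => MeasurableSet.iUnion fun _ =>
      (hσm s).inter (MeasurableSet.iInter fun g => MeasurableSet.iInter fun _ => ?_))
    exact measurable_const_smul g (fib_meas hc fun a => e a < N)
  have hle : ∀ N, m (DN N) ≤ m A := by
    intro N
    have hDNf : m (DN N) ≠ ∞ := ne_top_of_le_ne_top hDf (measure_mono fun d hd => hd.1)
    have hANf : m (AN N) ≠ ∞ := ne_top_of_le_ne_top hAf (measure_mono fun d hd => hd.1)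
    obtain ⟨U, hU, hU1⟩ := field_mem σ hσm (hFfin N).toFinset
    obtain ⟨V, hV, hV1⟩ := field_mem c hc (hFfin N).toFinset
    refine (core m hm hfix (hANm N) (hDNm N) hANf hDNf hU hV ?_).trans
      (measure_mono fun d hd => hd.1)
    intro d hd
    have hd' : d ∈ D ∧ e (σ d) < N ∧ ∀ g ∈ (σ d).support, e (c (g • d)) < N := hd
    obtain ⟨hgA, hgx⟩ := hσg d hd'.1
    rw [hU1 d (by simpa using hd'.2.1), cst_rzG, map_sum, map_sum, map_sum]
    ext x
    rw [Finsupp.finsetSum_apply]
    have h1 : ∀ g ∈ (σ d).support, (Msk G (DN N)) (V ((Msk G (AN N))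
        (single (g • d) (((σ d) g : ℚ) : ℝ)))) x =
        if x ∈ DN N then ((σ d g * rzG (g • d) (c (g • d)) x : ℚ) : ℝ) else 0 := by
      intro g hg
      have hgAN : g • d ∈ AN N := ⟨hgA g hg, hd'.2.2 g hg⟩
      rw [Msk_apply, Set.indicator_apply, Msk_single_mem hgAN]
      split_ifs with hx
      · have : single (g • d) (((σ d) g : ℚ) : ℝ) =
            (((σ d) g : ℚ) : ℝ) • (single (g • d) 1 : Ω →₀ ℝ) := by simp
        rw [this, map_smul, hV1 (g • d) (by simpa using hd'.2.2 g hg), Finsupp.smul_apply]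
        simp [cst]
      · rfl
    rw [Finset.sum_congr rfl h1]
    by_cases hx : x ∈ DN N
    · simp only [hx, if_true]
      rw [← Rat.cast_sum, ← hgx x hx.1, single_apply, single_apply]
      split_ifs <;> simp
    · simp only [hx, if_false, Finset.sum_const_zero]
      rw [single_apply, if_neg]
      rintro rfl
      exact hx hd
  have hmono : Monotone DN := by
    intro N N' h d hd
    have hd' : d ∈ D ∧ e (σ d) < N ∧ ∀ g ∈ (σ d).support, e (c (g • d)) < N := hd
    exact ⟨hd'.1, hd'.2.1.trans_le h, fun g hg => (hd'.2.2 g hg).trans_le h⟩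
  have hun : ⋃ N, DN N = D := by
    apply Set.Subset.antisymm
    · exact Set.iUnion_subset fun N d hd => hd.1
    · intro d hd
      rw [Set.mem_iUnion]
      refine ⟨max (e (σ d)) ((σ d).support.sup fun g => e (c (g • d))) + 1, hd, ?_, fun g hg => ?_⟩
      · exact Nat.lt_succ_of_le (le_max_left _ _)
      · exact Nat.lt_succ_of_le ((Finset.le_sup (f := fun g => e (c (g • d))) hg).trans
          (le_max_right _ _))
  rw [← hun, hmono.measure_iUnion]
  exact iSup_le hle

end Crest.Agent.R191
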