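import Crest.Agent.R191.Stmts

/-!
# Row 191, task UPPER : actions of cost close to `1`
-/

set_option autoImplicit false

namespace Crest.Agent.R191.UPPER

open MeasureTheory
open scoped ENNReal

/-- the hom on the free group. -/
def f0 (M : ℕ) : G0 →* Multiplicative (ZMod M) :=
  FreeGroup.lift (fun o : Option (Fin 79) => match o with
    | none => 1
    | some j => if (j : ℕ) = 78 then Multiplicative.ofAdd (1 : ZMod M) else 1)

/-- the hom `GG → ℤ/M`. -/
def phi (M : ℕ) : GG →* Multiplicative (ZMod M) :=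
  HNNExtension.lift (φ := MulEquiv.refl AA) (f0 M) 1 (fun a => by simp)

lemma phi_ofG (M : ℕ) (g : G0) : phi M (ofG g) = f0 M g :=
  HNNExtension.lift_of (φ := MulEquiv.refl AA) (f0 M) 1 (fun a => by simp) g

lemma phi_z (M : ℕ) : phi M zG = 1 :=
  HNNExtension.lift_t (φ := MulEquiv.refl AA) (f0 M) 1 (fun a => by simp)

lemma f0_x (M : ℕ) : f0 M x0 = 1 := by
  simp [f0, x0]

lemma f0_g {M j : ℕ} (hj : j < 78) : f0 M (g0 j) = 1 := by
  have h79 : j < 79 := by omega
  simp only [f0, g0, dif_pos h79, FreeGroup.lift_apply_of]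
  rw [if_neg (by omega)]

lemma f0_g78 (M : ℕ) : f0 M (g0 78) = Multiplicative.ofAdd 1 := by
  simp [f0, g0]

lemma f0_t {M j : ℕ} (hj : j ≤ 78) : f0 M (t0 j) = 1 := by
  induction j with
  | zero => simp [t0]
  | succ j ih =>
    rw [t0, map_mul, map_mul, f0_x, f0_g (by omega), ih (by omega)]
    simp

lemma f0_t79 (M : ℕ) : f0 M (t0 79) = Multiplicative.ofAdd 1 := by
  rw [t0, map_mul, map_mul, f0_x, f0_g78, f0_t le_rfl]
  simp

/-- the space -/
def YY (M : ℕ) : Type := ZMod M × BernX GG

instance (M : ℕ) : MeasurableSpace (YY M) := inferInstanceAs (MeasurableSpace (ZMod M × BernX GG))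

instance (M : ℕ) [NeZero M] : StandardBorelSpace (YY M) := by
  haveI : Countable (ZMod M) := Finite.to_countable
  haveI : DiscreteMeasurableSpace (ZMod M) := ⟨fun _ => trivial⟩
  exact inferInstanceAs (StandardBorelSpace (ZMod M × BernX GG))

instance (M : ℕ) : MulAction GG (YY M) where
  smul g p := (Multiplicative.toAdd (phi M g) + p.1, g • p.2)
  one_smul p := by
    change (Multiplicative.toAdd (phi M 1) + p.1, (1 : GG) • p.2) = p
    rw [map_one, one_smul, toAdd_one, zero_add]
    rfl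
  mul_smul g h p := by
    change (Multiplicative.toAdd (phi M (g * h)) + p.1, (g * h) • p.2) =
      (Multiplicative.toAdd (phi M g) + (Multiplicative.toAdd (phi M h) + p.1), g • h • p.2)
    rw [map_mul, mul_smul, toAdd_mul, add_assoc]

lemma smul_fst {M : ℕ} (g : GG) (p : YY M) : (g • p).1 = Multiplicative.toAdd (phi M g) + p.1 := rfl

lemma smul_snd {M : ℕ} (g : GG) (p : YY M) : (g • p).2 = g • p.2 := rfl

/-- uniform measure on `ZMod M`. -/
noncomputable def unif (M : ℕ) : Measure (ZMod M) := (M : ℝ≥0∞)⁻¹ • Measure.count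

lemma unif_prob (M : ℕ) [NeZero M] : IsProbabilityMeasure (unif M) := by
  constructor
  unfold unif
  rw [Measure.smul_apply, smul_eq_mul, Measure.count_univ, ENat.card_eq_coe_fintype_card, ZMod.card]
  have h1 : ((M : ℕ) : ℝ≥0∞) ≠ 0 := by exact_mod_cast NeZero.ne M
  have h2 : ((M : ℕ) : ℝ≥0∞) ≠ ∞ := ENNReal.natCast_ne_top M
  have h3 : (((M : ℕ) : ℕ∞) : ℝ≥0∞) = (M : ℝ≥0∞) := by simp
  rw [h3]
  exact ENNReal.inv_mul_cancel h1 h2

lemma unif_zero (M : ℕ) : unif M {0} = (M : ℝ≥0∞)⁻¹ := by
  haveI : MeasurableSingletonClass (ZMod M) := ⟨fun _ => trivial⟩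
  unfold unif
  rw [Measure.smul_apply, smul_eq_mul, Measure.count_singleton, mul_one]

lemma unif_inv (M : ℕ) (c : ZMod M) : MeasurePreserving (fun a : ZMod M => c + a) (unif M) (unif M) := by
  haveI : DiscreteMeasurableSpace (ZMod M) := ⟨fun _ => trivial⟩
  refine ⟨Measurable.of_discrete, ?_⟩
  unfold unif
  rw [Measure.map_smul]
  congr 1
  ext s hs
  rw [Measure.map_apply Measurable.of_discrete hs]
  have h : (fun a : ZMod M => c + a) ⁻¹' s = (fun a : ZMod M => -c + a) '' s := by
    ext a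
    simp only [Set.mem_preimage, Set.mem_image]
    constructor
    · intro h; exact ⟨c + a, h, by ring⟩
    · rintro ⟨b, hb, rfl⟩
      simpa using hb
  rw [h, Measure.count_injective_image (add_right_injective (-c)) s]

noncomputable def nu (M : ℕ) : Measure (YY M) := (unif M).prod (bernM GG)

lemma nu_apply {M : ℕ} [NeZero M] (A : Set (YY M)) (s : Set (ZMod M)) (t : Set (BernX GG))
    (h : ∀ p : YY M, p ∈ A ↔ p.1 ∈ s ∧ p.2 ∈ t) : nu M A = unif M s * bernM GG t := by
  haveI := unif_prob M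
  have h1 : A = (s ×ˢ t : Set (ZMod M × BernX GG)) := by
    ext p; exact h p
  have h2 : ((unif M).prod (bernM GG)) (s ×ˢ t) = unif M s * bernM GG t := Measure.prod_prod s t
  exact (congrArg ((unif M).prod (bernM GG)) h1).trans h2

def mark (M : ℕ) (ε : ℝ) : Set (YY M) := {p | ((p.2 1 : unitInterval) : ℝ) < ε}

def Phi (M : ℕ) (ε : ℝ) : ℕ → GG × Set (YY M)
  | 0 => (zG, Set.univ)
  | 1 => (ofG x0, {p | p.1 = 0})
  | (j + 2) => if j < 80 then (ofG (u0 j), mark M ε) else (1, ∅)

def Rel (M : ℕ) (ε : ℝ) : YY M → YY M → Prop :=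
  Relation.EqvGen (Crest.Dynamics.GraphingStep (Phi M ε))

/-- good points -/
def Y0 (M : ℕ) (ε : ℝ) : Set (YY M) := {p | ∀ g : GG, ∃ n : ℤ, zG ^ n • g • p ∈ mark M ε}

variable {M : ℕ} {ε : ℝ}

lemma Y0_smul {p : YY M} (hp : p ∈ Y0 M ε) (g : GG) : g • p ∈ Y0 M ε := by
  intro h
  obtain ⟨n, hn⟩ := hp (h * g)
  exact ⟨n, by rwa [mul_smul] at hn⟩

lemma rel_z (p : YY M) : Rel M ε p (zG • p) :=
  Relation.EqvGen.rel _ _ ⟨0, trivial, rfl⟩

lemma rel_zpow (n : ℤ) (p : YY M) : Rel M ε p (zG ^ n • p) := by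
  induction n using Int.induction_on with
  | zero => rw [zpow_zero, one_smul]; exact Relation.EqvGen.refl _
  | succ n ih =>
    refine Relation.EqvGen.trans _ _ _ ih ?_
    have : zG ^ ((n : ℤ) + 1) • p = zG • zG ^ (n : ℤ) • p := by
      rw [← mul_smul, ← zpow_one_add]
      congr 2
      ring
    rw [this]
    exact rel_z _
  | pred n ih =>
    refine Relation.EqvGen.trans _ _ _ ih (Relation.EqvGen.symm _ _ ?_)
    have : zG ^ (-(n : ℤ)) • p = zG • zG ^ (-(n : ℤ) - 1) • p := by
      rw [← mul_smul, ← zpow_one_add]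
      congr 2
      ring
    rw [this]
    exact rel_z _

lemma comm_zu (j : ℕ) (n : ℤ) : Commute (ofG (u0 j)) (zG ^ n) := by
  have := commAZ ⟨u0 j, u0_mem j⟩ (Multiplicative.ofAdd n)
  simpa using this

lemma rel_u {j : ℕ} (hj : j < 80) {p : YY M} (hp : p ∈ Y0 M ε) : Rel M ε p (ofG (u0 j) • p) := by
  obtain ⟨n, hn⟩ := hp 1
  rw [one_smul] at hn
  have h1 : Rel M ε (zG ^ n • p) (ofG (u0 j) • zG ^ n • p) := by
    refine Relation.EqvGen.rel _ _ ⟨j + 2, ?_, ?_⟩
    · simp only [Phi, if_pos hj]; exact hn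
    · simp only [Phi, if_pos hj]
  have h2 : ofG (u0 j) • zG ^ n • p = zG ^ n • ofG (u0 j) • p := by
    rw [← mul_smul, ← mul_smul, (comm_zu j n).eq]
  rw [h2] at h1
  exact Relation.EqvGen.trans _ _ _ (rel_zpow n p)
    (Relation.EqvGen.trans _ _ _ h1 (Relation.EqvGen.symm _ _ (rel_zpow n _)))

lemma u0_lt {j : ℕ} (hj : j < 79) : u0 j = g0 j := by
  unfold u0; rw [if_pos hj]

lemma u79_rel : u0 79 * x0 * t0 79 = 1 := by
  have h : u0 79 = (x0 * t0 79)⁻¹ := if_neg (by omega)
  rw [h]
  generalize t0 79 = t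
  group

lemma rel_x (l : ℕ) : ∀ p ∈ Y0 M ε, p.1 = (l : ZMod M) → Rel M ε p (ofG x0 • p) := by
  induction l with
  | zero =>
    intro p _ h
    refine Relation.EqvGen.rel _ _ ⟨1, ?_, rfl⟩
    simpa [Phi] using h
  | succ l ih =>
    intro p hp hl
    set q : YY M := (ofG (t0 79))⁻¹ • p with hq
    have hq0 : q ∈ Y0 M ε := Y0_smul hp _
    have hpq : ofG (t0 79) • q = p := by rw [hq, smul_inv_smul]
    have hq1 : q.1 = (l : ZMod M) := by
      have h1 : p.1 = 1 + q.1 := by
        rw [← hpq, smul_fst, phi_ofG, f0_t79]; rfl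
      rw [hl] at h1
      push_cast at h1
      have : (l : ZMod M) + 1 = q.1 + 1 := by rw [h1, add_comm]
      exact (add_right_cancel this).symm
    have h2 : ∀ j ≤ 79, Rel M ε q (ofG (t0 j) • q) := by
      intro j
      induction j with
      | zero =>
        intro _
        rw [t0, map_one, one_smul]; exact Relation.EqvGen.refl _
      | succ j ihj =>
        intro hj
        have h3 : (ofG (t0 j) • q).1 = (l : ZMod M) := by
          rw [smul_fst, phi_ofG, f0_t (by omega), toAdd_one, zero_add, hq1]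
        have h4 := ih _ (Y0_smul hq0 (ofG (t0 j))) h3
        have h5 := rel_u (j := j) (by omega) (Y0_smul (Y0_smul hq0 (ofG (t0 j))) (ofG x0))
        have h6 : ofG (t0 (j + 1)) • q = ofG (u0 j) • ofG x0 • ofG (t0 j) • q := by
          rw [t0, u0_lt (by omega), map_mul, map_mul, mul_smul, mul_smul]
        rw [h6]
        exact Relation.EqvGen.trans _ _ _ (ihj (by omega)) (Relation.EqvGen.trans _ _ _ h4 h5)
    have h7 := h2 79 le_rfl
    rw [hpq] at h7
    have h8 : Rel M ε (ofG x0 • p) q := by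
      have h9 : ofG (u0 79) • ofG x0 • p = q := by
        calc ofG (u0 79) • ofG x0 • p = ofG (u0 79) • ofG x0 • ofG (t0 79) • q := by rw [hpq]
          _ = ofG (u0 79 * x0 * t0 79) • q := by rw [map_mul, map_mul, mul_smul, mul_smul]
          _ = q := by rw [u79_rel, map_one, one_smul]
      have h10 := rel_u (j := 79) (by omega) (Y0_smul hp (ofG x0))
      rwa [h9] at h10
    exact Relation.EqvGen.symm _ _ (Relation.EqvGen.trans _ _ _ h8 h7)

lemma rel_all [NeZero M] (g : GG) : ∀ p ∈ Y0 M ε, Rel M ε p (g • p) := by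
  have hx : ∀ p ∈ Y0 M ε, Rel M ε p (ofG x0 • p) := by
    intro p hp
    refine rel_x (p.1 : ZMod M).val p hp ?_
    rw [ZMod.natCast_zmod_val]
  have hmul : ∀ a b : GG, (∀ p ∈ Y0 M ε, Rel M ε p (a • p)) → (∀ p ∈ Y0 M ε, Rel M ε p (b • p)) →
      ∀ p ∈ Y0 M ε, Rel M ε p ((a * b) • p) := by
    intro a b ha hb p hp
    rw [mul_smul]
    exact Relation.EqvGen.trans _ _ _ (hb p hp) (ha _ (Y0_smul hp b))
  have hinv : ∀ a : GG, (∀ p ∈ Y0 M ε, Rel M ε p (a • p)) → ∀ p ∈ Y0 M ε, Rel M ε p (a⁻¹ • p) := by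
    intro a ha p hp
    have := ha _ (Y0_smul hp a⁻¹)
    rw [smul_inv_smul] at this
    exact Relation.EqvGen.symm _ _ this
  have hof : ∀ w : G0, ∀ p ∈ Y0 M ε, Rel M ε p (ofG w • p) := by
    intro w
    induction w using FreeGroup.induction_on with
    | C1 => intro p _; rw [map_one, one_smul]; exact Relation.EqvGen.refl _
    | of o =>
      cases o with
      | none => exact hx
      | some j =>
        intro p hp
        have := rel_u (j := (j : ℕ)) (by omega) hp
        rw [u0_lt j.2] at this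
        simpa [g0] using this
    | inv_of o ih => 
      rw [map_inv]
      exact hinv _ ih
    | mul a b ha hb =>
      rw [map_mul]
      exact hmul _ _ ha hb
  exact HNNExtension.induction_on (motive := fun g : GG => ∀ p ∈ Y0 M ε, Rel M ε p (g • p)) g hof
    (fun p _ => rel_z p) hmul hinv

end Crest.Agent.R191.UPPER

namespace Crest.Agent.R191

open MeasureTheory
open scoped ENNReal
open UPPER

theorem upper_of (hfree : BERN_free) (hmark : BERN_marker) (hiQ : GRP_iQ) : UPPER := by
  intro M hM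
  haveI : NeZero M := ⟨by omega⟩
  have hMpos : (0 : ℝ) < M := by exact_mod_cast (by omega : 0 < M)
  have hM1 : (1 : ℝ) / M ≤ 1 := by
    rw [div_le_one hMpos]; exact_mod_cast (by omega : 1 ≤ M)
  haveI := unif_prob M
  -- the stable letter has infinite order
  have hz : ∀ n : ℤ, zG ^ n = 1 → n = 0 := by
    intro n hn
    have h1 : toG (iQ ((1 : AA), Multiplicative.ofAdd n)) = zG ^ n := by
      have h2 : toG (iQ ((1 : AA), Multiplicative.ofAdd n)) =
          toGQ ((1 : AA), Multiplicative.ofAdd n) := Monoid.Coprod.lift_apply_inl _ _ _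
      rw [h2]
      have h3 := MonoidHom.noncommCoprod_apply (ofG.comp AA.subtype) (zpowersHom GG zG) commAZ
        ((1 : AA), Multiplicative.ofAdd n)
      refine h3.trans ?_
      simp
    rw [hn] at h1
    have h4 := hiQ _ h1
    have h5 : (((1 : AA), Multiplicative.ofAdd n) : AA × Multiplicative ℤ) = (1, 1) := h4
    have h6 : Multiplicative.ofAdd n = 1 := (Prod.mk.inj h5).2
    simpa using h6
  haveI : Infinite GG := by
    refine Infinite.of_injective (fun n : ℤ => zG ^ n) (fun a b h => ?_)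
    have h1 : zG ^ (a - b) = 1 := by rw [zpow_sub]; simp only at h; rw [h]; group
    have := hz _ h1
    omega
  obtain ⟨hmp, hfr⟩ := hfree GG
  obtain ⟨hm1, hm2⟩ := hmark GG zG (fun n hn h => by
    have := hz (n : ℤ) (by rw [zpow_natCast]; exact h)
    omega) (1 / M) (by positivity) hM1
  have hsm : ∀ g : GG, MeasurePreserving (fun p : YY M => g • p) (nu M) (nu M) := by
    intro g
    have := (unif_inv M (Multiplicative.toAdd (phi M g))).prod (hmp g)
    exact this
  haveI hprob : IsProbabilityMeasure (nu M) :=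
    inferInstanceAs (IsProbabilityMeasure ((unif M).prod (bernM GG)))
  refine ⟨YY M, inferInstance, inferInstance, nu M, hprob, inferInstance, ⟨hsm, ?_⟩, ?_⟩
  · intro g hg
    have h1 : {p : YY M | g • p = p} ⊆ {p : YY M | g • p.2 = p.2} := by
      intro p hp
      exact congrArg Prod.snd (show g • p = p from hp)
    refine measure_mono_null h1 ?_
    rw [nu_apply {p : YY M | g • p.2 = p.2} Set.univ {y : BernX GG | g • y = y}
      (fun p => ⟨fun h => ⟨trivial, h⟩, fun h => h.2⟩), hfr g hg, mul_zero]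
  · have hYmark : MeasurableSet {y : BernX GG | ((y 1 : unitInterval) : ℝ) < 1 / M} := by
      have h1 : Measurable (fun y : BernX GG => ((y 1 : unitInterval) : ℝ)) :=
        measurable_subtype_coe.comp (measurable_pi_apply (1 : GG))
      exact measurableSet_lt h1 measurable_const
    have hmarkM : MeasurableSet (mark M (1 / M)) := measurable_snd hYmark
    have hzero : MeasurableSet {p : YY M | p.1 = 0} := by
      have : MeasurableSet ({0} : Set (ZMod M)) := trivial
      exact measurable_fst this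
    have hmeasPhi : ∀ i, MeasurableSet (Phi M (1 / M) i).2 := by
      intro i
      match i with
      | 0 => exact MeasurableSet.univ
      | 1 => exact hzero
      | (j + 2) =>
        simp only [Phi]
        split_ifs
        · exact hmarkM
        · exact MeasurableSet.empty
    have hgen : Crest.Dynamics.Generates (Γ := GG) (nu M) (Phi M (1 / M)) := by
      refine ⟨hmeasPhi, (Y0 M (1 / M))ᶜ, ?_, ?_⟩
      · have h1 : ∀ᵐ p ∂(nu M), ∃ n : ℤ, zG ^ n • p ∈ mark M (1 / M) := by
          have h2 : Measure.QuasiMeasurePreserving (Prod.snd : ZMod M × BernX GG → BernX GG)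
            ((unif M).prod (bernM GG)) (bernM GG) := Measure.quasiMeasurePreserving_snd
          exact h2.ae hm2
        have h3 : ∀ᵐ p ∂(nu M), ∀ g : GG, ∃ n : ℤ, zG ^ n • g • p ∈ mark M (1 / M) := by
          rw [ae_all_iff]
          intro g
          exact (hsm g).quasiMeasurePreserving.ae h1
        exact h3
      · intro p hp g
        rw [Set.mem_compl_iff, not_not] at hp
        exact rel_all g p hp
    have hcost : Crest.Dynamics.graphingCost (nu M) (Phi M (1 / M)) ≤ 1 + 99 / (M : ℝ≥0∞) := by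
      unfold Crest.Dynamics.graphingCost
      have h0 : nu M (Phi M (1 / M) 0).2 = 1 := measure_univ
      have h1 : nu M (Phi M (1 / M) 1).2 = (M : ℝ≥0∞)⁻¹ := by
        change nu M {p : YY M | p.1 = 0} = _
        rw [nu_apply {p : YY M | p.1 = 0} {0} Set.univ
          (fun p => ⟨fun h => ⟨h, trivial⟩, fun h => h.1⟩), unif_zero, measure_univ, mul_one]
      have h2 : nu M (mark M (1 / M)) = (M : ℝ≥0∞)⁻¹ := by
        rw [nu_apply (mark M (1 / M)) Set.univ {y : BernX GG | ((y 1 : unitInterval) : ℝ) < 1 / M}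
          (fun p => ⟨fun h => ⟨trivial, h⟩, fun h => h.2⟩), hm1, measure_univ, one_mul, one_div,
          ENNReal.ofReal_inv_of_pos hMpos, ENNReal.ofReal_natCast]
      have h3 : ∀ j, nu M (Phi M (1 / M) (j + 2)).2 = if j < 80 then (M : ℝ≥0∞)⁻¹ else 0 := by
        intro j
        by_cases hj : j < 80
        · simp only [Phi, if_pos hj]; exact h2
        · simp only [Phi, if_neg hj]; simp
      rw [tsum_eq_sum (s := Finset.range 82)]
      · rw [Finset.sum_range_succ', Finset.sum_range_succ', h0]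
        have h4 : nu M (Phi M (1 / M) (0 + 1)).2 = (M : ℝ≥0∞)⁻¹ := h1
        rw [h4]
        have h5 : ∑ k ∈ Finset.range 80, nu M (Phi M (1 / M) (k + 1 + 1)).2 =
            80 * (M : ℝ≥0∞)⁻¹ := by
          rw [Finset.sum_congr rfl (fun k hk => (h3 k).trans (if_pos (Finset.mem_range.1 hk)))]
          rw [Finset.sum_const, Finset.card_range, nsmul_eq_mul]
          norm_num
        rw [h5, add_comm, ENNReal.div_eq_inv_mul]
        gcongr
        calc (80 : ℝ≥0∞) * (M : ℝ≥0∞)⁻¹ + (M : ℝ≥0∞)⁻¹ = (M : ℝ≥0∞)⁻¹ * 81 := by ring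
          _ ≤ (M : ℝ≥0∞)⁻¹ * 99 := by gcongr; norm_num
      · intro b hb
        rw [Finset.mem_range, not_lt] at hb
        obtain ⟨j, rfl⟩ : ∃ j, b = j + 2 := ⟨b - 2, by omega⟩
        rw [h3, if_neg (by omega)]
    have hle : Crest.Dynamics.actionCost GG (YY M) (nu M) ≤
        Crest.Dynamics.graphingCost (nu M) (Phi M (1 / M)) := by
      unfold Crest.Dynamics.actionCost
      exact sInf_le ⟨Phi M (1 / M), hgen, rfl⟩
    exact hle.trans hcost

end Crest.Agent.R191
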