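import Crest.Agent.R191.MAIN
import Crest.Agent.R191.COL
import Crest.Agent.R191.COLI
import Crest.Agent.R191.COLM
import Crest.Agent.R191.COLB
import Crest.Agent.R191.PROC
import Crest.Agent.R191.CLOS
import Crest.Agent.R191.DEHN0
import Crest.Agent.R191.DEHNB
import Crest.Agent.R191.GRP
import Crest.Agent.R191.ARC
import Crest.Agent.R191.ARC1
import Crest.Agent.R191.RI
import Crest.Agent.R191.RI1
import Crest.Agent.R191.MTP
import Crest.Agent.R191.EQV
import Crest.Agent.R191.C1
import Crest.Agent.R191.BERN
import Crest.Agent.R191.UPPER
import Crest.Agent.R191.PERM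
import Crest.Agent.R191.EXPB
import Crest.Agent.R191.LOWER

/-! # Row 191, assembly (helper13) -/

set_option autoImplicit false

namespace Crest.Agent.R191

theorem dehn : DEHN := dehn_of dehn0 grp_iQ

theorem clos : CLOS := clos_of dehn grp_rr

theorem proc : PROC := proc_of grp_rr grp_iQ clos

theorem ri : RI := ri_of ri1

theorem arc : ARC := arc_of (arc1_of grp_iQ) ri

theorem col : COL := col_of arc coli (colm_of grp_tau) colb om_exp om_sp om_sec

theorem main : MAIN := main_of proc col

theorem mainc : MAINC := mainc_of main eqv

theorem upper : UPPER := upper_of bern_free bern_marker grp_iQ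

theorem expb : EXPB := expb_of perm

theorem lower : LOWER := lower_of mainc (c1_of eqv) bern_free bern_marker expb grp_iQ grp_surj
  grp_free

end Crest.Agent.R191
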