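import Crest.Agent.R191.OMEGA2

/-! # Row 191, task ATT1 (helper13) -/

set_option autoImplicit false

namespace Crest.Agent.R191

open MeasureTheory
open scoped ENNReal

namespace ATT1

variable {X : Type} [MeasurableSpace X] [MulAction FF X] [MeasurableConstSMul FF X]

theorem attMap_smul (𝒢 : Gpd X) (D : Set (Om 𝒢)) (hD : MeasurableSet D) (k : FF) (ω : Om 𝒢) :
    attMap 𝒢 D hD (k • ω) = k • attMap 𝒢 D hD ω := Om.map_smul _ _ _

theorem attMap_sec (𝒢 : Gpd X) (D : Set (Om 𝒢)) (hD : MeasurableSet D) (y : X) :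
    attMap 𝒢 D hD (sec 𝒢 y) = sec (attG 𝒢 D hD) y := rfl

theorem rr_fix {μ : Measure X} (hs : Sys X μ) (hr : GRP_rr) (𝒢 : Gpd X) (D : Set (Om 𝒢))
    (hD : MeasurableSet D) (ω : Om 𝒢) (hω : ω ∈ D) :
    rr • attMap 𝒢 D hD ω = attMap 𝒢 D hD ω := by
  induction ω using Om.ind with
  | h k y =>
    change mkO (attG 𝒢 D hD) (rr * k) y = mkO (attG 𝒢 D hD) k y
    rw [mkO_eq_mkO]
    refine ⟨?_, ?_⟩
    · rw [mul_smul]
      exact (hs.free rr (k • y)).2 hr
    · refine Adj.gen _ _ ⟨k, ?_, hω⟩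
      group

/-- measure of attachable points -/
theorem Att_le {μ : Measure X} [IsProbabilityMeasure μ] (hs : Sys X μ) (𝒢 : Gpd X)
    (T : Set (Om 𝒢)) :
    mO μ 𝒢 (Att T) ≤ 80 * mO μ 𝒢 T := by
  have h1 : Att T ⊆ ⋃ j : Fin 80, (fun ω : Om 𝒢 => tau (j : ℕ) • ω) ⁻¹' T := by
    rintro ω ⟨j0, hj0, h⟩
    refine Set.mem_iUnion.2 ⟨⟨j0, hj0⟩, ?_⟩
    have := h 0 (by norm_num)
    rw [add_zero, pp_lt hj0] at this
    exact this
  refine (measure_mono h1).trans ((measure_iUnion_le _).trans ?_)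
  rw [tsum_fintype]
  have h2 : ∀ j : Fin 80, mO μ 𝒢 ((fun ω : Om 𝒢 => tau (j : ℕ) • ω) ⁻¹' T) ≤ mO μ 𝒢 T := by
    intro j
    have hmp := OMEGA1.mp_smul μ hs.mp 𝒢 (tau (j : ℕ))
    have he : MeasurableEmbedding (fun ω : Om 𝒢 => tau (j : ℕ) • ω) := by
      refine MeasurableEmbedding.of_measurable_inverse (g := fun ω => (tau (j : ℕ))⁻¹ • ω)
        (measurable_smul_om 𝒢 _) ?_ (measurable_smul_om 𝒢 _) (fun ω => by simp)
      rw [(MulAction.surjective (tau (j : ℕ))).range_eq]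
      exact MeasurableSet.univ
    exact (hmp.measure_preimage_emb he T).le
  calc ∑ j : Fin 80, mO μ 𝒢 ((fun ω : Om 𝒢 => tau (j : ℕ) • ω) ⁻¹' T)
      ≤ ∑ _j : Fin 80, mO μ 𝒢 T := Finset.sum_le_sum fun j _ => h2 j
    _ = 80 * mO μ 𝒢 T := by simp

theorem smul_image_measure {μ : Measure X} [IsProbabilityMeasure μ] (hs : Sys X μ) (𝒢 : Gpd X)
    (S : Set (Om 𝒢)) (k : FF) : mO μ 𝒢 ((fun ω : Om 𝒢 => k • ω) '' S) = mO μ 𝒢 S := by
  have hmp := OMEGA1.mp_smul μ hs.mp 𝒢 k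
  have he : MeasurableEmbedding (fun ω : Om 𝒢 => k • ω) := by
    refine MeasurableEmbedding.of_measurable_inverse (g := fun ω => k⁻¹ • ω)
      (measurable_smul_om 𝒢 _) ?_ (measurable_smul_om 𝒢 _) (fun ω => by simp)
    rw [(MulAction.surjective k).range_eq]
    exact MeasurableSet.univ
  have := hmp.measure_preimage_emb he ((fun ω : Om 𝒢 => k • ω) '' S)
  rw [Set.preimage_image_eq _ (MulAction.injective k)] at this
  exact this.symm

omit [MeasurableConstSMul FF X] in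
theorem mO_C_le_T {μ : Measure X} {σ : St X} (hb : Base μ σ) : σ.C ⊆ σ.T := by
  intro ω hω
  have := hb.bd ω hω 0 (by norm_num)
  simpa [tau] using this

/-- all edges of an attached cell are in `T'` -/
theorem attach_bd (σ : St X) (D : Set (Om σ.G)) (hD : MeasurableSet D) {ω : Om (attG σ.G D hD)}
    (hω : ω ∈ attMap σ.G D hD '' D) (j : ℕ) (hj : j < 80) :
    tau j • ω ∈ (σ.attach D hD).T :=
  Or.inr (Set.mem_iUnion.2 ⟨⟨j, hj⟩, ⟨ω, hω, rfl⟩⟩)

theorem base {μ : Measure X} [StandardBorelSpace X] [IsProbabilityMeasure μ] (hs : Sys X μ)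
    (hr : GRP_rr) (σ : St X)
    (D : Set (Om σ.G)) (hD : MeasurableSet D) (hDA : D ⊆ Att σ.T) (hb : Base μ σ) :
    Base μ (σ.attach D hD) := by
  have hfin : mO μ (σ.attach D hD).G (σ.attach D hD).T ≠ ∞ := by
    have h1 : mO μ (attG σ.G D hD) (attMap σ.G D hD '' σ.T) ≤ mO μ σ.G σ.T :=
      om_map X μ hs _ _ _ _ σ.hT
    have h2 : mO μ (attG σ.G D hD) (⋃ j : Fin 80, (fun ω => tau (j : ℕ) • ω) ''
        (attMap σ.G D hD '' D)) ≤ 80 * (80 * mO μ σ.G σ.T) := by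
      refine (measure_iUnion_le _).trans ?_
      rw [tsum_fintype]
      have h3 : ∀ j : Fin 80, mO μ (attG σ.G D hD) ((fun ω => tau (j : ℕ) • ω) ''
          (attMap σ.G D hD '' D)) ≤ 80 * mO μ σ.G σ.T := by
        intro j
        rw [smul_image_measure hs]
        exact (om_map X μ hs _ _ _ _ hD).trans ((measure_mono hDA).trans (Att_le hs _ _))
      calc ∑ j : Fin 80, mO μ (attG σ.G D hD) ((fun ω => tau (j : ℕ) • ω) ''
          (attMap σ.G D hD '' D)) ≤ ∑ _j : Fin 80, 80 * mO μ σ.G σ.T :=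
            Finset.sum_le_sum fun j _ => h3 j
        _ = 80 * (80 * mO μ σ.G σ.T) := by simp
    have h4 : mO μ (σ.attach D hD).G (σ.attach D hD).T ≤
        mO μ σ.G σ.T + 80 * (80 * mO μ σ.G σ.T) :=
      (measure_union_le _ _).trans (add_le_add h1 h2)
    refine ne_top_of_le_ne_top ?_ h4
    have := hb.T_fin
    finiteness
  have hmapT : ∀ ω ∈ σ.T, attMap σ.G D hD ω ∈ (σ.attach D hD).T := fun ω hω =>
    Or.inl ⟨ω, hω, rfl⟩
  refine ⟨hfin, ?_, ?_, ?_, ?_⟩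
  · intro y
    exact (hb.conn y).map (attMap σ.G D hD) (attMap_smul _ _ _) hmapT
  · have hold : ∀ ω ∈ σ.T, ∃ y : X, Reach (σ.attach D hD).T (sec (σ.attach D hD).G y)
        (attMap σ.G D hD ω) := by
      intro ω hω
      obtain ⟨y, hy⟩ := hb.reach ω hω
      exact ⟨y, hy.map (attMap σ.G D hD) (attMap_smul _ _ _) hmapT⟩
    rintro ω (⟨ω', h1, rfl⟩ | hω)
    · exact hold ω' h1
    · obtain ⟨j, hj⟩ := Set.mem_iUnion.1 hω
      obtain ⟨_, ⟨d, hd, rfl⟩, rfl⟩ := hj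
      obtain ⟨j0, hj0, hA⟩ := hDA hd
      have h2 := hA 0 (by norm_num)
      rw [add_zero] at h2
      obtain ⟨y, hy⟩ := hold _ h2
      refine ⟨y, hy.trans ?_⟩
      have hfix := rr_fix hs hr σ.G D hD d hd
      have hall : ∀ m, pp m • attMap σ.G D hD d ∈ (σ.attach D hD).T := by
        intro m
        rw [pp_mod hfix]
        exact attach_bd σ D hD ⟨d, hd, rfl⟩ _ (Nat.mod_lt _ (by norm_num))
      rw [attMap_smul]
      have h3 : (tau (j : ℕ)) • attMap σ.G D hD d = pp (j + 80) • attMap σ.G D hD d := by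
        rw [pp_add80 hfix, pp_lt j.2]
      change Reach _ _ (tau (j : ℕ) • attMap σ.G D hD d)
      rw [h3]
      exact reach_pp (by omega) (fun m _ _ => hall m)
  · rintro ω (⟨ω', h1, rfl⟩ | ⟨ω', h1, rfl⟩)
    · have h2 := attMap_smul σ.G D hD rr ω'
      rw [hb.r_fix ω' h1] at h2
      exact h2.symm
    · exact rr_fix hs hr σ.G D hD ω' h1
  · rintro ω (⟨ω', h1, rfl⟩ | hω) j hj
    · left
      exact ⟨tau j • ω', hb.bd ω' h1 j hj, attMap_smul _ _ _ _ _⟩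
    · exact attach_bd σ D hD hω j hj

end ATT1

open ATT1 in
theorem att_good_of (hr : GRP_rr) : ATT_good := by
  intro X _ _ _ _ μ _ hs σ D hD hDA hg
  refine { toBase := base hs hr σ D hD hDA hg.toBase, gens := ?_ }
  obtain ⟨Γ, hΓ⟩ := hg.gens
  refine ⟨Γ, ?_⟩
  set 𝒢' := attG σ.G D hD with h𝒢'
  have hle : ∀ g y, y ∈ σ.G.car g → ch g (sec 𝒢' y) ∈ Γ.span 𝒢' (σ.attach D hD).C := by
    intro g y hgy
    have h1 := hΓ g y hgy
    have h2 : ch g (sec 𝒢' y) = Finsupp.mapDomain (attMap σ.G D hD) (ch g (sec σ.G y)) :=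
      (ch_mapDomain (attMap σ.G D hD) (attMap_smul _ _ _) g (sec σ.G y)).symm
    rw [h2]
    have h3 : (Finsupp.lmapDomain ℚ ℚ (attMap σ.G D hD)) (ch g (sec σ.G y)) ∈
        (Γ.span σ.G σ.C).map (Finsupp.lmapDomain ℚ ℚ (attMap σ.G D hD)) :=
      Submodule.mem_map_of_mem h1
    have h4 : (Γ.span σ.G σ.C).map (Finsupp.lmapDomain ℚ ℚ (attMap σ.G D hD)) ≤
        Γ.span 𝒢' (σ.attach D hD).C := by
      unfold Gens.span
      rw [Submodule.map_span, Submodule.span_le]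
      rintro _ ⟨v, hv | hv, rfl⟩
      · obtain ⟨n, y', hy', rfl⟩ := hv
        refine Submodule.subset_span (Or.inl ⟨n, y', hy', ?_⟩)
        exact rz_mapDomain (attMap σ.G D hD) (attMap_smul _ _ _) _ _
      · obtain ⟨ω, hω, rfl⟩ := hv
        refine Submodule.subset_span (Or.inr ⟨attMap σ.G D hD ω, Or.inl ⟨ω, hω, rfl⟩, ?_⟩)
        exact cellBd_mapDomain (attMap σ.G D hD) (attMap_smul _ _ _) _
    exact h4 h3
  intro g y hgy
  have hgy' : Adj σ.G (cellArr σ.G D) g y := hgy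
  change ch g (sec 𝒢' y) ∈ Γ.span 𝒢' (σ.attach D hD).C
  clear hgy
  induction hgy' with
  | base g y h => exact hle g y h
  | gen g y h =>
    obtain ⟨k, rfl, hk⟩ := h
    have hfix : rr • k • sec 𝒢' y = k • sec 𝒢' y := by
      have := rr_fix hs hr σ.G D hD (mkO σ.G k y) hk
      rw [smul_sec]
      exact this
    have h1 : ch (k⁻¹ * rr * k) (sec 𝒢' y) = cellBd (k • sec 𝒢' y) := by
      rw [ch_mul, ch_mul, hfix, ch_inv, ch_rr]
      abel
    rw [h1]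
    refine Submodule.subset_span (Or.inr ⟨k • sec 𝒢' y, Or.inr ⟨mkO σ.G k y, hk, ?_⟩, rfl⟩)
    rw [smul_sec]
    rfl
  | mul g h y h1 h2 ih1 ih2 =>
    rw [ch_mul]
    have : h • sec 𝒢' y = sec 𝒢' (h • y) := (smul_sec_eq_sec _ _ _ _).2 ⟨rfl, h1⟩
    rw [this]
    exact Submodule.add_mem _ ih2 ih1
  | inv g y h1 ih =>
    have : g • sec 𝒢' y = sec 𝒢' (g • y) := (smul_sec_eq_sec _ _ _ _).2 ⟨rfl, h1⟩
    rw [← this, ch_inv]
    exact Submodule.neg_mem _ ih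

end Crest.Agent.R191
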