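import Mathlib
import Crest.Prelude.Def_Cost

/-!
# Row 191 (S0291): interface.  See table `h13_tasks` for the sketches.
Numerals: `L = 80` edges in a cell, expansion factor `70`.
-/

set_option autoImplicit false

namespace Crest.Agent.R191

open MeasureTheory
open scoped ENNReal

/-! ## 1. The groups -/

/-- free group on `u_0,…,u_78` (`some j`) and `x` (`none`). -/
abbrev G0 := FreeGroup (Option (Fin 79))

def x0 : G0 := FreeGroup.of none

def g0 (j : ℕ) : G0 := if h : j < 79 then FreeGroup.of (some ⟨j, h⟩) else 1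

/-- `t0 j = u_{j-1} x u_{j-2} x ⋯ u_0 x` -/
def t0 : ℕ → G0
  | 0 => 1
  | (j + 1) => g0 j * x0 * t0 j

/-- `u_j` for `j<79` a free generator, `u_79 = (x τ_79)⁻¹`. -/
def u0 (j : ℕ) : G0 := if j < 79 then g0 j else (x0 * t0 79)⁻¹

def AA : Subgroup G0 := Subgroup.closure (Set.range u0)

theorem u0_mem (j : ℕ) : u0 j ∈ AA := Subgroup.subset_closure ⟨j, rfl⟩

/-- The group of the theorem: HNN extension of the free group `G0` with stable letter `z`
commuting with `AA`. -/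
def GG : Type := HNNExtension G0 AA AA (MulEquiv.refl AA)

instance : Group GG := inferInstanceAs (Group (HNNExtension G0 AA AA (MulEquiv.refl AA)))

/-- embedding of `G0` in `GG` -/
def ofG : G0 →* GG := HNNExtension.of

/-- the stable letter -/
def zG : GG := HNNExtension.t (A := AA) (B := AA) (φ := MulEquiv.refl AA)

def QQ : Type := AA × Multiplicative ℤ

instance : Group QQ := inferInstanceAs (Group (AA × Multiplicative ℤ))

/-- `𝔽 = Q * ⟨x⟩` -/
def FF : Type := Monoid.Coprod QQ (Multiplicative ℤ)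

instance : Group FF := inferInstanceAs (Group (Monoid.Coprod QQ (Multiplicative ℤ)))

def iQ : QQ →* FF := Monoid.Coprod.inl

def xx : FF := (Monoid.Coprod.inr (Multiplicative.ofAdd (1 : ℤ)) :
  Monoid.Coprod QQ (Multiplicative ℤ))

/-- `u_j ∈ Q` (`j ≤ 79`) -/
def uu (j : ℕ) : QQ := ((⟨u0 j, u0_mem j⟩ : AA), (1 : Multiplicative ℤ))

def zz : QQ := ((1 : AA), (Multiplicative.ofAdd (1 : ℤ)))

/-- `τ_0 = 1`, `τ_{j+1} = u_j x τ_j`. -/
def tau : ℕ → FF
  | 0 => 1
  | (j + 1) => iQ (uu j) * xx * tau j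

/-- the relator `r = u_79 x τ_79` -/
def rr : FF := tau 80

theorem commAZ (a : AA) (n : Multiplicative ℤ) :
    Commute ((ofG.comp AA.subtype) a) (zpowersHom GG zG n) := by
  have h : Commute ((ofG.comp AA.subtype) a) zG := by
    have := HNNExtension.t_mul_of (φ := MulEquiv.refl AA) a
    exact this.symm
  exact h.zpow_right _

/-- `Q → Γ`, `(a, n) ↦ a z^n` -/
def toGQ : QQ →* GG := MonoidHom.noncommCoprod (ofG.comp AA.subtype) (zpowersHom GG zG) commAZ

/-- `𝔽 → Γ` -/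
def toG : FF →* GG := Monoid.Coprod.lift toGQ (zpowersHom GG (ofG x0))

instance : MeasurableSpace FF := ⊤
instance : DiscreteMeasurableSpace FF := ⟨fun _ => trivial⟩

instance : Countable GG := by
  have : Countable (G0 ⊕ Multiplicative ℤ) := inferInstance
  have : Countable (FreeMonoid (G0 ⊕ Multiplicative ℤ)) :=
    inferInstanceAs (Countable (List (G0 ⊕ Multiplicative ℤ)))
  have : Countable (Monoid.Coprod G0 (Multiplicative ℤ)) :=
    (Monoid.Coprod.mk_surjective (M := G0) (N := Multiplicative ℤ)).countable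
  exact (Quotient.mk_surjective
    (s := (HNNExtension.con G0 AA AA (MulEquiv.refl AA)).toSetoid)).countable

instance : Countable QQ := inferInstanceAs (Countable (AA × Multiplicative ℤ))

instance : Countable FF := by
  have : Countable (QQ ⊕ Multiplicative ℤ) := inferInstance
  have : Countable (FreeMonoid (QQ ⊕ Multiplicative ℤ)) :=
    inferInstanceAs (Countable (List (QQ ⊕ Multiplicative ℤ)))
  exact (Monoid.Coprod.mk_surjective (M := QQ) (N := Multiplicative ℤ)).countable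

/-- evaluation in `𝔽` of an alternating word `q_k x^{ε_k} ⋯ q_1 x^{ε_1} q_0` written as
`q_0` and the list `[(ε_k,q_k),…,(ε_1,q_1)]` (the head is applied last). -/
def xe (e : Bool) : FF := if e then xx else xx⁻¹

def alt (q0 : QQ) : List (Bool × QQ) → FF
  | [] => iQ q0
  | (p :: l) => iQ p.2 * xe p.1 * alt q0 l

/-- positive relator window: 78 letters `x`, in order of application
`x, u_a, x, u_{a+1}, …, u_{a+76}, x`, then an arbitrary `q` (indices mod 80). -/
def wpos (a : ℕ) (q : QQ) : List (Bool × QQ) :=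
  (true, q) :: ((List.range 77).reverse.map fun i => (true, uu ((a + i) % 80)))

/-- negative relator window: in order of application
`x⁻¹, u_b⁻¹, x⁻¹, u_{b-1}⁻¹, …, x⁻¹`, then an arbitrary `q` (indices mod 80). -/
def wneg (b : ℕ) (q : QQ) : List (Bool × QQ) :=
  (false, q) :: ((List.range 77).reverse.map fun i => (false, (uu ((b + 79 * i) % 80))⁻¹))

/-- `G0`-level alternating words -/
def alt0 (a0 : AA) : List (Bool × AA) → G0
  | [] => a0
  | (p :: l) => p.2 * (if p.1 then x0 else x0⁻¹) * alt0 a0 l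

/-- `u_j` as an element of `AA` -/
def au (j : ℕ) : AA := ⟨u0 j, u0_mem j⟩

/-- windows with 79 letters `x` at the level of `G0` -/
def wpos0 (a : ℕ) (q : AA) : List (Bool × AA) :=
  (true, q) :: ((List.range 78).reverse.map fun i => (true, au ((a + i) % 80)))

def wneg0 (b : ℕ) (q : AA) : List (Bool × AA) :=
  (false, q) :: ((List.range 78).reverse.map fun i => (false, (au ((b + 79 * i) % 80))⁻¹))

/-! ## 2. Constants -/

/-- `κ = 2·10⁻¹⁹` -/
noncomputable def kap : ℝ≥0∞ := ENNReal.ofReal (2 / 10 ^ 19)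
/-- `F* = 10⁻¹⁷` -/
noncomputable def Fs : ℝ := 1 / 10 ^ 17
/-- expansion threshold `α = 2·10⁻¹⁷` -/
noncomputable def al : ℝ≥0∞ := ENNReal.ofReal (2 / 10 ^ 17)

/-! ## 3. Actions of `𝔽`: walks, chains, degrees -/

section general
variable {Ω : Type} [MulAction FF Ω]

inductive Ltr : Type
  | q (a : QQ) : Ltr
  | xp : Ltr
  | xm : Ltr

def Ltr.val : Ltr → FF
  | Ltr.q a => iQ a
  | .xp => xx
  | .xm => xx⁻¹

/-- value of a list of letters; the head is applied last -/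
def ev : List Ltr → FF
  | [] => 1
  | a :: l => a.val * ev l

/-- the walk `l` from `ω` only crosses edges of `T` (the edge `ω'` joins the `Q`-orbits of `ω'`
and `x ω'`) -/
def okL (T : Set Ω) (ω : Ω) : List Ltr → Prop
  | [] => True
  | .q _ :: l => okL T ω l
  | .xp :: l => okL T ω l ∧ ev l • ω ∈ T
  | .xm :: l => okL T ω l ∧ xx⁻¹ • ev l • ω ∈ T

def Reach (T : Set Ω) (ω ω' : Ω) : Prop := ∃ l : List Ltr, okL T ω l ∧ ev l • ω = ω'

/-- permutation of `Ω × ℚ[Ω]` used to define chains -/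
noncomputable def chQ : QQ →* Equiv.Perm (Ω × (Ω →₀ ℚ)) where
  toFun q := ⟨fun p => (iQ q • p.1, p.2), fun p => ((iQ q)⁻¹ • p.1, p.2),
    fun p => by simp, fun p => by simp⟩
  map_one' := by ext p <;> simp
  map_mul' a b := by ext p <;> simp [mul_smul]

noncomputable def chX : Equiv.Perm (Ω × (Ω →₀ ℚ)) where
  toFun p := (xx • p.1, p.2 + Finsupp.single p.1 1)
  invFun p := (xx⁻¹ • p.1, p.2 - Finsupp.single (xx⁻¹ • p.1) 1)
  left_inv p := by simp
  right_inv p := by simp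

noncomputable def chHom : FF →* Equiv.Perm (Ω × (Ω →₀ ℚ)) :=
  Monoid.Coprod.lift chQ (zpowersHom _ chX)

/-- chain of edges crossed by the path `g` starting at `ω` (a cocycle:
`ch (g*h) ω = ch g (h•ω) + ch h ω`, `ch (iQ q) ω = 0`, `ch xx ω = single ω 1`). -/
noncomputable def ch (g : FF) (ω : Ω) : Ω →₀ ℚ := (chHom g (ω, 0)).2

/-- realisation at `ω` of a formal chain -/
noncomputable def rz (ω : Ω) (c : FF →₀ ℚ) : Ω →₀ ℚ := c.mapDomain (fun g => g • ω)

/-- boundary of the cell at `ω` -/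
noncomputable def cellBd (ω : Ω) : Ω →₀ ℚ :=
  ∑ j : Fin 80, Finsupp.single (tau (j : ℕ) • ω) (1 : ℚ)

/-- degree in `T` of the vertex `Q ω` -/
noncomputable def deg (T : Set Ω) (ω : Ω) : ℕ∞ :=
  {q : QQ | iQ q • ω ∈ T}.encard + {q : QQ | xx⁻¹ • iQ q • ω ∈ T}.encard

/-- measure of the set of half-edges of `T` at vertices in the `Q`-invariant set `B` -/
noncomputable def HE [MeasurableSpace Ω] (m : Measure Ω) (T B : Set Ω) : ℝ≥0∞ :=
  m (T ∩ B) + m {ω | ω ∈ T ∧ xx • ω ∈ B}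

/-- break vertices: real (in `R`) or of degree `≥ 3` -/
def Brk (T R : Set Ω) : Set Ω := {ω | ω ∈ R ∨ 3 ≤ deg T ω}

/-- leaf vertices: not real, of degree `1` -/
def Leaf (T R : Set Ω) : Set Ω := {ω | ω ∉ R ∧ deg T ω = 1}

/-- private edges: edges of exactly one cell (counted with position) -/
def Priv (C : Set Ω) : Set Ω :=
  {e | ∃ j < 80, (tau j)⁻¹ • e ∈ C ∧ ∀ i < 80, (tau i)⁻¹ • e ∈ C → i = j}

/-- cells with at least one private edge -/
def CR (C : Set Ω) : Set Ω := {ω | ω ∈ C ∧ ∃ j < 80, tau j • ω ∈ Priv C}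

/-- `p_m = τ_{m mod 80} r^{m / 80}` -/
def pp (m : ℕ) : FF := tau (m % 80) * rr ^ (m / 80)

/-- attachable points: 78 consecutive edges of the (unrolled) relator path are in `T` -/
def Att (T : Set Ω) : Set Ω := {ω | ∃ j0 < 80, ∀ i < 78, pp (j0 + i) • ω ∈ T}

end general

/-- for each cell `ω` with a private edge, an arc `p_a, …, p_{a+ℓ-1}` of private edges between two
break vertices, with no break vertex inside -/
structure IntData {Ω : Type} [MulAction FF Ω] (T R C : Set Ω) (a ell : Ω → ℕ) : Prop where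
  a_lt : ∀ ω ∈ CR C, a ω < 80
  l_pos : ∀ ω ∈ CR C, 0 < ell ω
  l_le : ∀ ω ∈ CR C, ell ω ≤ 80
  priv : ∀ ω ∈ CR C, ∀ i < ell ω, pp (a ω + i) • ω ∈ Priv C
  start : ∀ ω ∈ CR C, pp (a ω) • ω ∈ Brk T R
  fin : ∀ ω ∈ CR C, pp (a ω + ell ω) • ω ∈ Brk T R
  int : ∀ ω ∈ CR C, ∀ i, 0 < i → i < ell ω → pp (a ω + i) • ω ∉ Brk T R

/-- edges of the chosen arcs -/
def arcE {Ω : Type} [MulAction FF Ω] (C : Set Ω) (a ell : Ω → ℕ) : Set Ω :=
  {e | ∃ ω ∈ CR C, ∃ i < ell ω, e = pp (a ω + i) • ω}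

/-- generators as chains on `Ω` -/
def genSet {Ω : Type} [MulAction FF Ω] (A : ℕ → Set Ω) (c : ℕ → Ω → (FF →₀ ℚ)) :
    Set (Ω →₀ ℚ) := {v | ∃ n, ∃ ω ∈ A n, v = rz ω (c n ω)}

/-- abstract measured `𝔽`-space: `b` is a measurable map to `ℝ`, injective on orbits modulo
the kernel of `𝔽 → Γ`. -/
structure Sp (Ω : Type) [MeasurableSpace Ω] [MulAction FF Ω] (m : Measure Ω) (b : Ω → ℝ) :
    Prop where
  mp : ∀ g : FF, MeasurePreserving (fun ω : Ω => g • ω) m m
  eq_meas : ∀ g : FF, MeasurableSet {ω : Ω | g • ω = ω}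
  b_meas : Measurable b
  b_inj : ∀ (g : FF) (ω : Ω), b (g • ω) = b ω → toG g = 1

/-- the standing assumption on the base space `X` -/
structure Sys (X : Type) [MeasurableSpace X] [MulAction FF X] (μ : Measure X) : Prop where
  mp : ∀ g : FF, MeasurePreserving (fun y : X => g • y) μ μ
  free : ∀ (g : FF) (y : X), g • y = y ↔ toG g = 1
  exp : ∀ U : Set X, MeasurableSet U → μ U ≤ al →
    70 * μ U ≤ μ (⋃ j : Fin 80, (fun y : X => tau (j : ℕ) • y) '' U)

/-! ## 4. Measurable subgroupoids of `𝔽 ⋉ X` containing `Q ⋉ X` and the space `Ω` -/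

section gpd
variable {X : Type} [MeasurableSpace X] [MulAction FF X]

structure Gpd (X : Type) [MeasurableSpace X] [MulAction FF X] where
  car : FF → Set X
  meas : ∀ g, MeasurableSet (car g)
  q_mem : ∀ (q : QQ) (y : X), y ∈ car (iQ q)
  mul_mem : ∀ (g h : FF) (y : X), y ∈ car h → h • y ∈ car g → y ∈ car (g * h)
  inv_mem : ∀ (g : FF) (y : X), y ∈ car g → g • y ∈ car g⁻¹

theorem Gpd.one_mem (𝒢 : Gpd X) (y : X) : y ∈ 𝒢.car 1 := by
  have := 𝒢.q_mem 1 y
  rwa [map_one] at this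

/-- `(g,y) ~ (g',y')` iff `g y = g' y'` and `y ∈ car (g'⁻¹ g)` -/
def Gpd.setoid (𝒢 : Gpd X) : Setoid (FF × X) where
  r p p' := p.1 • p.2 = p'.1 • p'.2 ∧ p.2 ∈ 𝒢.car (p'.1⁻¹ * p.1)
  iseqv :=
    { refl := fun p => ⟨rfl, by simpa using 𝒢.one_mem p.2⟩
      symm := by
        rintro ⟨g, y⟩ ⟨g', y'⟩ ⟨h1, h2⟩
        refine ⟨h1.symm, ?_⟩
        have h3 := 𝒢.inv_mem _ _ h2
        simp only [mul_smul, mul_inv_rev, inv_inv] at h3 ⊢
        rw [show g • y = g' • y' from h1, inv_smul_smul] at h3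
        exact h3
      trans := by
        rintro ⟨g, y⟩ ⟨g', y'⟩ ⟨g'', y''⟩ ⟨h1, h2⟩ ⟨h3, h4⟩
        refine ⟨h1.trans h3, ?_⟩
        have h5 : (g'⁻¹ * g) • y = y' := by
          rw [mul_smul, show g • y = g' • y' from h1, inv_smul_smul]
        have h6 := 𝒢.mul_mem (g''⁻¹ * g') (g'⁻¹ * g) y h2 (by simpa only [h5] using h4)
        have h7 : g''⁻¹ * g' * (g'⁻¹ * g) = g''⁻¹ * g := by group
        simpa only [h7] using h6 }

/-- the space `Ω(𝒢)`: classes `[(g,y)]`, i.e. cosets `g 𝒢` at `y` -/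
def Om (𝒢 : Gpd X) : Type := Quotient 𝒢.setoid

instance (𝒢 : Gpd X) : MeasurableSpace (Om 𝒢) :=
  inferInstanceAs (MeasurableSpace (Quotient 𝒢.setoid))

def mkO (𝒢 : Gpd X) (g : FF) (y : X) : Om 𝒢 := Quotient.mk 𝒢.setoid (g, y)

theorem mkO_eq_mkO {𝒢 : Gpd X} {g g' : FF} {y y' : X} :
    mkO 𝒢 g y = mkO 𝒢 g' y' ↔ g • y = g' • y' ∧ y ∈ 𝒢.car (g'⁻¹ * g) := by
  exact Quotient.eq (r := 𝒢.setoid)

theorem Om.ind {𝒢 : Gpd X} {p : Om 𝒢 → Prop} (h : ∀ g y, p (mkO 𝒢 g y)) (ω : Om 𝒢) : p ω :=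
  Quotient.ind (fun a => h a.1 a.2) ω

/-- lifting functions to `Ω(𝒢)` -/
def Om.lift {𝒢 : Gpd X} {β : Type} (f : FF → X → β)
    (h : ∀ g y g' y', g • y = g' • y' → y ∈ 𝒢.car (g'⁻¹ * g) → f g y = f g' y') : Om 𝒢 → β :=
  Quotient.lift (fun p : FF × X => f p.1 p.2) (fun _ _ hab => h _ _ _ _ hab.1 hab.2)

@[simp] theorem Om.lift_mkO {𝒢 : Gpd X} {β : Type} (f : FF → X → β)
    (h : ∀ g y g' y', g • y = g' • y' → y ∈ 𝒢.car (g'⁻¹ * g) → f g y = f g' y')
    (g : FF) (y : X) : Om.lift f h (mkO 𝒢 g y) = f g y := rfl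

instance (𝒢 : Gpd X) : MulAction FF (Om 𝒢) where
  smul k ω := Om.lift (fun g y => mkO 𝒢 (k * g) y) (by
    intro g y g' y' h1 h2
    rw [mkO_eq_mkO]
    refine ⟨by rw [mul_smul, mul_smul, h1], ?_⟩
    have : (k * g')⁻¹ * (k * g) = g'⁻¹ * g := by group
    rwa [this]) ω
  one_smul ω := by
    induction ω using Om.ind with
    | h g y =>
      change mkO 𝒢 (1 * g) y = _
      rw [one_mul]
  mul_smul a b ω := by
    induction ω using Om.ind with
    | h g y =>
      change mkO 𝒢 (a * b * g) y = mkO 𝒢 (a * (b * g)) y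
      rw [mul_assoc]

@[simp] theorem smul_mkO (𝒢 : Gpd X) (k g : FF) (y : X) : k • mkO 𝒢 g y = mkO 𝒢 (k * g) y := rfl

/-- projection `Ω(𝒢) → X`, `[(g,y)] ↦ g y` -/
def pr (𝒢 : Gpd X) : Om 𝒢 → X := Om.lift (fun g y => g • y) (fun _ _ _ _ h _ => h)

@[simp] theorem pr_mkO (𝒢 : Gpd X) (g : FF) (y : X) : pr 𝒢 (mkO 𝒢 g y) = g • y := rfl

theorem pr_smul (𝒢 : Gpd X) (k : FF) (ω : Om 𝒢) : pr 𝒢 (k • ω) = k • pr 𝒢 ω := by
  induction ω using Om.ind with
  | h g y => simp [mul_smul]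

/-- section `X → Ω(𝒢)`, `y ↦ [(1,y)]`; its range is the set of real points -/
def sec (𝒢 : Gpd X) (y : X) : Om 𝒢 := mkO 𝒢 1 y

@[simp] theorem pr_sec (𝒢 : Gpd X) (y : X) : pr 𝒢 (sec 𝒢 y) = y := by simp [sec]

theorem smul_sec (𝒢 : Gpd X) (g : FF) (y : X) : g • sec 𝒢 y = mkO 𝒢 g y := by simp [sec]

theorem smul_sec_eq_sec (𝒢 : Gpd X) (g : FF) (y y' : X) :
    g • sec 𝒢 y = sec 𝒢 y' ↔ g • y = y' ∧ y ∈ 𝒢.car g := by
  rw [smul_sec, sec, mkO_eq_mkO]; simp

theorem iQ_smul_sec (𝒢 : Gpd X) (q : QQ) (y : X) : iQ q • sec 𝒢 y = sec 𝒢 (iQ q • y) := by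
  rw [smul_sec_eq_sec]; exact ⟨rfl, 𝒢.q_mem q y⟩

def Gpd.le (𝒢 𝒢' : Gpd X) : Prop := ∀ g, 𝒢.car g ⊆ 𝒢'.car g

/-- the map `Ω(𝒢) → Ω(𝒢')` for `𝒢 ≤ 𝒢'` -/
def Om.map {𝒢 𝒢' : Gpd X} (h : 𝒢.le 𝒢') : Om 𝒢 → Om 𝒢' :=
  Om.lift (fun g y => mkO 𝒢' g y) (fun _ _ _ _ h1 h2 => mkO_eq_mkO.2 ⟨h1, h _ h2⟩)

@[simp] theorem Om.map_mkO {𝒢 𝒢' : Gpd X} (h : 𝒢.le 𝒢') (g : FF) (y : X) :
    Om.map h (mkO 𝒢 g y) = mkO 𝒢' g y := rfl

@[simp] theorem Om.map_sec {𝒢 𝒢' : Gpd X} (h : 𝒢.le 𝒢') (y : X) :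
    Om.map h (sec 𝒢 y) = sec 𝒢' y := rfl

theorem Om.map_smul {𝒢 𝒢' : Gpd X} (h : 𝒢.le 𝒢') (k : FF) (ω : Om 𝒢) :
    Om.map h (k • ω) = k • Om.map h ω := by
  induction ω using Om.ind with
  | h g y => simp

@[simp] theorem pr_map {𝒢 𝒢' : Gpd X} (h : 𝒢.le 𝒢') (ω : Om 𝒢) :
    pr 𝒢' (Om.map h ω) = pr 𝒢 ω := by
  induction ω using Om.ind with
  | h g y => simp

/-- an injection `𝔽 → ℕ` -/
noncomputable def codeF : FF → ℕ := (exists_injective_nat FF).choose

theorem codeF_injective : Function.Injective codeF := (exists_injective_nat FF).choose_spec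

/-- points `y` such that `(g,y)` is the representative of its class with least code -/
def Gpd.rep (𝒢 : Gpd X) (g : FF) : Set X :=
  {y | ∀ g' : FF, codeF g' < codeF g → mkO 𝒢 g' (g'⁻¹ • g • y) ≠ mkO 𝒢 g y}

/-- the measure on `Ω(𝒢)`: `m T = ∫ #(T ∩ π⁻¹ y) dμ(y)` -/
noncomputable def mO (μ : Measure X) (𝒢 : Gpd X) : Measure (Om 𝒢) :=
  Measure.sum fun g : FF => (μ.restrict (𝒢.rep g)).map (mkO 𝒢 g)

/-- groupoid generated by `𝒢` and the arrows `(g,y)`, `y ∈ S g` -/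
inductive Adj (𝒢 : Gpd X) (S : FF → Set X) : FF → X → Prop
  | base (g : FF) (y : X) : y ∈ 𝒢.car g → Adj 𝒢 S g y
  | gen (g : FF) (y : X) : y ∈ S g → Adj 𝒢 S g y
  | mul (g h : FF) (y : X) : Adj 𝒢 S h y → Adj 𝒢 S g (h • y) → Adj 𝒢 S (g * h) y
  | inv (g : FF) (y : X) : Adj 𝒢 S g y → Adj 𝒢 S g⁻¹ (g • y)

/-! ### measurability in `Ω(𝒢)` -/

theorem measurable_mkO (𝒢 : Gpd X) (g : FF) : Measurable (mkO 𝒢 g) := by
  have h1 : Measurable (fun y : X => (g, y)) := measurable_prodMk_left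
  exact (measurable_quotient_mk'' (s := 𝒢.setoid)).comp h1

theorem measurableSet_om_iff {𝒢 : Gpd X} {A : Set (Om 𝒢)} :
    MeasurableSet A ↔ ∀ g : FF, MeasurableSet {y : X | mkO 𝒢 g y ∈ A} := by
  constructor
  · intro h g
    exact measurable_mkO 𝒢 g h
  · intro h
    have h2 : MeasurableSet ((fun p : FF × X => mkO 𝒢 p.1 p.2) ⁻¹' A) := by
      have h3 : ((fun p : FF × X => mkO 𝒢 p.1 p.2) ⁻¹' A) =
          ⋃ g : FF, ({g} : Set FF) ×ˢ {y : X | mkO 𝒢 g y ∈ A} := by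
        ext ⟨g, y⟩
        simp
      rw [h3]
      exact MeasurableSet.iUnion fun g => (measurableSet_singleton g).prod (h g)
    exact h2

variable [MeasurableConstSMul FF X]

theorem measurable_smul_om (𝒢 : Gpd X) (k : FF) : Measurable (fun ω : Om 𝒢 => k • ω) := by
  intro A hA
  rw [measurableSet_om_iff] at hA ⊢
  intro g
  exact hA (k * g)

theorem measurableSet_smul_image {𝒢 : Gpd X} {A : Set (Om 𝒢)} (hA : MeasurableSet A) (k : FF) :
    MeasurableSet ((fun ω : Om 𝒢 => k • ω) '' A) := by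
  have : ((fun ω : Om 𝒢 => k • ω) '' A) = (fun ω : Om 𝒢 => k⁻¹ • ω) ⁻¹' A := by
    ext ω
    constructor
    · rintro ⟨ω', h, rfl⟩
      simpa using h
    · intro h
      exact ⟨k⁻¹ • ω, h, by simp⟩
  rw [this]
  exact measurable_smul_om 𝒢 k⁻¹ hA

theorem measurable_pr (𝒢 : Gpd X) : Measurable (pr 𝒢) := by
  intro A hA
  rw [measurableSet_om_iff]
  intro g
  exact measurable_const_smul g hA

theorem measurable_sec (𝒢 : Gpd X) : Measurable (sec 𝒢) := measurable_mkO 𝒢 1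

theorem measurableSet_map_image {𝒢 𝒢' : Gpd X} (h : 𝒢.le 𝒢') {A : Set (Om 𝒢)}
    (hA : MeasurableSet A) : MeasurableSet (Om.map h '' A) := by
  rw [measurableSet_om_iff] at hA ⊢
  intro g
  have : {y : X | mkO 𝒢' g y ∈ Om.map h '' A} =
      ⋃ k : FF, ({y : X | (k⁻¹ * g) • y ∈ {y' : X | mkO 𝒢 k y' ∈ A}} ∩
        {y : X | (k⁻¹ * g) • y ∈ 𝒢'.car (g⁻¹ * k)}) := by
    ext y
    simp only [Set.mem_ofPred_eq, Set.mem_image, Set.mem_iUnion, Set.mem_inter_iff]
    constructor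
    · rintro ⟨ω, h1, h2⟩
      induction ω using Om.ind with
      | h k y' =>
        rw [Om.map_mkO, mkO_eq_mkO] at h2
        have h3 : (k⁻¹ * g) • y = y' := by rw [mul_smul, ← h2.1, inv_smul_smul]
        exact ⟨k, by rwa [h3], by rw [h3]; exact h2.2⟩
    · rintro ⟨k, h1, h2⟩
      refine ⟨_, h1, ?_⟩
      rw [Om.map_mkO, mkO_eq_mkO]
      exact ⟨by simp [mul_smul], h2⟩
  rw [this]
  exact MeasurableSet.iUnion fun k =>
    (measurable_const_smul (k⁻¹ * g) (hA k)).inter (measurable_const_smul (k⁻¹ * g) (𝒢'.meas _))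

/-! ### adjoining arrows -/

def stg (𝒢 : Gpd X) (S : FF → Set X) : ℕ → FF → Set X
  | 0, g => 𝒢.car g ∪ S g
  | (n + 1), g => stg 𝒢 S n g ∪ (⋃ h : FF, {y | y ∈ stg 𝒢 S n h ∧ h • y ∈ stg 𝒢 S n (g * h⁻¹)}) ∪
      {y | g • y ∈ stg 𝒢 S n g⁻¹}

omit [MeasurableConstSMul FF X] in
theorem stg_mono (𝒢 : Gpd X) (S : FF → Set X) {n m : ℕ} (h : n ≤ m) (g : FF) :
    stg 𝒢 S n g ⊆ stg 𝒢 S m g := by
  induction h with
  | refl => exact le_rfl
  | step _ ih => exact ih.trans (fun y hy => Or.inl (Or.inl hy))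

omit [MeasurableConstSMul FF X] in
theorem adj_iff {𝒢 : Gpd X} {S : FF → Set X} {g : FF} {y : X} :
    Adj 𝒢 S g y ↔ ∃ n, y ∈ stg 𝒢 S n g := by
  constructor
  · intro h
    induction h with
    | base g y h => exact ⟨0, Or.inl h⟩
    | gen g y h => exact ⟨0, Or.inr h⟩
    | mul g h y _ _ ih1 ih2 =>
      obtain ⟨n, hn⟩ := ih1
      obtain ⟨m, hm⟩ := ih2
      refine ⟨max n m + 1, Or.inl (Or.inr (Set.mem_iUnion.2 ⟨h, ?_, ?_⟩))⟩
      · exact stg_mono 𝒢 S (le_max_left _ _) _ hn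
      · have := stg_mono 𝒢 S (le_max_right n m) _ hm
        simpa using this
    | inv g y _ ih =>
      obtain ⟨n, hn⟩ := ih
      exact ⟨n + 1, Or.inr (by simpa using hn)⟩
  · rintro ⟨n, hn⟩
    induction n generalizing g y with
    | zero =>
      rcases hn with h | h
      · exact Adj.base _ _ h
      · exact Adj.gen _ _ h
    | succ n ih =>
      rcases hn with (h | h) | h
      · exact ih h
      · obtain ⟨k, h1, h2⟩ := Set.mem_iUnion.1 h
        have := Adj.mul _ _ _ (ih h1) (ih h2)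
        simpa using this
      · have := Adj.inv _ _ (ih h)
        simpa using this

theorem measurableSet_stg (𝒢 : Gpd X) (S : FF → Set X) (hS : ∀ g, MeasurableSet (S g)) (n : ℕ) :
    ∀ g, MeasurableSet (stg 𝒢 S n g) := by
  induction n with
  | zero => exact fun g => (𝒢.meas g).union (hS g)
  | succ n ih =>
    intro g
    refine ((ih g).union (MeasurableSet.iUnion fun h => ?_)).union ?_
    · exact (ih h).inter (measurable_const_smul h (ih _))
    · exact measurable_const_smul g (ih _)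

/-- the groupoid generated by `𝒢` and the arrows `(g,y)`, `y ∈ S g` -/
def Gpd.adjoin (𝒢 : Gpd X) (S : FF → Set X) (hS : ∀ g, MeasurableSet (S g)) : Gpd X where
  car g := {y | Adj 𝒢 S g y}
  meas g := by
    have : {y | Adj 𝒢 S g y} = ⋃ n, stg 𝒢 S n g := by
      ext y; simp [adj_iff]
    rw [this]
    exact MeasurableSet.iUnion fun n => measurableSet_stg 𝒢 S hS n g
  q_mem q y := Adj.base _ _ (𝒢.q_mem q y)
  mul_mem g h y h1 h2 := Adj.mul _ _ _ h1 h2
  inv_mem g y h := Adj.inv _ _ h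

theorem Gpd.le_adjoin (𝒢 : Gpd X) (S : FF → Set X) (hS : ∀ g, MeasurableSet (S g)) :
    𝒢.le (𝒢.adjoin S hS) := fun _ _ h => Adj.base _ _ h

/-- the arrows `(k⁻¹ r k, y)` with `[(k,y)] ∈ D` -/
def cellArr (𝒢 : Gpd X) (D : Set (Om 𝒢)) (g : FF) : Set X :=
  {y | ∃ k : FF, g = k⁻¹ * rr * k ∧ mkO 𝒢 k y ∈ D}

omit [MeasurableConstSMul FF X] in
theorem measurableSet_cellArr {𝒢 : Gpd X} {D : Set (Om 𝒢)} (hD : MeasurableSet D) (g : FF) :
    MeasurableSet (cellArr 𝒢 D g) := by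
  rw [measurableSet_om_iff] at hD
  have : cellArr 𝒢 D g = ⋃ k : FF, ⋃ (_ : g = k⁻¹ * rr * k), {y | mkO 𝒢 k y ∈ D} := by
    ext y
    simp [cellArr]
  rw [this]
  exact MeasurableSet.iUnion fun k => MeasurableSet.iUnion fun _ => hD k

/-! ## 5. States, the class, the potential -/

/-- a state: groupoid, set of edges, set of cells -/
structure St (X : Type) [MeasurableSpace X] [MulAction FF X] where
  G : Gpd X
  T : Set (Om G)
  C : Set (Om G)
  hT : MeasurableSet T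
  hC : MeasurableSet C

/-- the groupoid after attaching cells at the points of `D` -/
def attG (𝒢 : Gpd X) (D : Set (Om 𝒢)) (hD : MeasurableSet D) : Gpd X :=
  𝒢.adjoin (cellArr 𝒢 D) (measurableSet_cellArr hD)

/-- the map `Ω → Ω'` for attaching -/
def attMap (𝒢 : Gpd X) (D : Set (Om 𝒢)) (hD : MeasurableSet D) : Om 𝒢 → Om (attG 𝒢 D hD) :=
  Om.map (𝒢.le_adjoin _ _)

/-- attach cells at the points of `D` and add their edges -/
def St.attach (σ : St X) (D : Set (Om σ.G)) (hD : MeasurableSet D) : St X where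
  G := attG σ.G D hD
  T := attMap σ.G D hD '' σ.T ∪
    ⋃ j : Fin 80, (fun ω => tau (j : ℕ) • ω) '' (attMap σ.G D hD '' D)
  C := attMap σ.G D hD '' σ.C ∪ attMap σ.G D hD '' D
  hT := (measurableSet_map_image _ σ.hT).union
    (MeasurableSet.iUnion fun _ => measurableSet_smul_image (measurableSet_map_image _ hD) _)
  hC := (measurableSet_map_image _ σ.hC).union (measurableSet_map_image _ hD)

theorem measurableSet_Att {𝒢 : Gpd X} {T : Set (Om 𝒢)} (hT : MeasurableSet T) :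
    MeasurableSet (Att T) := by
  have : Att T = ⋃ j0 : ℕ, ⋃ (_ : j0 < 80), ⋂ i : ℕ, ⋂ (_ : i < 78),
      (fun ω : Om 𝒢 => pp (j0 + i) • ω) ⁻¹' T := by
    ext ω
    simp only [Att, Set.mem_ofPred_eq, Set.mem_iUnion, Set.mem_iInter, Set.mem_preimage,
      exists_prop]
  rw [this]
  exact MeasurableSet.iUnion fun j0 => MeasurableSet.iUnion fun _ => MeasurableSet.iInter fun i =>
    MeasurableSet.iInter fun _ => measurable_smul_om 𝒢 _ hT

/-- attach all attachable cells -/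
def St.next (σ : St X) : St X := σ.attach (Att σ.T) (measurableSet_Att σ.hT)

def St.iter (σ : St X) : ℕ → St X
  | 0 => σ
  | (n + 1) => (σ.iter n).next

end gpd

section cls
variable {X : Type} [MeasurableSpace X] [MulAction FF X]

/-- countable family of measurable partial fields of formal chains, of total measure `≤ κ` -/
structure Gens (μ : Measure X) where
  A : ℕ → Set X
  c : ℕ → X → (FF →₀ ℚ)
  A_meas : ∀ n, MeasurableSet (A n)
  c_meas : ∀ n (a : FF →₀ ℚ), MeasurableSet {y | c n y = a}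
  small : ∑' n, μ (A n) ≤ kap

/-- span of the chains of the family and of the boundaries of the cells -/
noncomputable def Gens.span {μ : Measure X} (Γ : Gens μ) (𝒢 : Gpd X) (C : Set (Om 𝒢)) :
    Submodule ℚ (Om 𝒢 →₀ ℚ) :=
  Submodule.span ℚ ({v | ∃ n, ∃ y ∈ Γ.A n, v = rz (sec 𝒢 y) (Γ.c n y)} ∪
    {v | ∃ ω ∈ C, v = cellBd ω})

/-- the part of the class conditions without generators -/
structure Base (μ : Measure X) (σ : St X) : Prop where
  T_fin : mO μ σ.G σ.T ≠ ∞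
  conn : ∀ y : X, Reach σ.T (sec σ.G y) (sec σ.G (xx • y))
  reach : ∀ ω ∈ σ.T, ∃ y : X, Reach σ.T (sec σ.G y) ω
  r_fix : ∀ ω ∈ σ.C, rr • ω = ω
  bd : ∀ ω ∈ σ.C, ∀ j < 80, tau j • ω ∈ σ.T

/-- class `𝒯`: relative cycles of `T` are spanned by the generators and the cells -/
structure Good (μ : Measure X) (σ : St X) : Prop extends Base μ σ where
  gens : ∃ Γ : Gens μ, ∀ (y : X) (l : List Ltr), okL σ.T (sec σ.G y) l →
    ev l • sec σ.G y = sec σ.G (ev l • y) → ch (ev l) (sec σ.G y) ∈ Γ.span σ.G σ.C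

/-- strong form: the same for all arrows of the groupoid -/
structure GoodS (μ : Measure X) (σ : St X) : Prop extends Base μ σ where
  gens : ∃ Γ : Gens μ, ∀ (g : FF) (y : X), y ∈ σ.G.car g →
    ch g (sec σ.G y) ∈ Γ.span σ.G σ.C

/-- measure of the cells -/
noncomputable def Fm (μ : Measure X) (σ : St X) : ℝ := (mO μ σ.G σ.C).toReal

/-- potential -/
noncomputable def Pot (μ : Measure X) (σ : St X) : ℝ := (mO μ σ.G σ.T).toReal - 2 * Fm μ σ

/-- measure of leaf half-edges -/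
noncomputable def leafH (μ : Measure X) (σ : St X) : ℝ≥0∞ :=
  HE (mO μ σ.G) σ.T (Leaf σ.T (Set.range (sec σ.G)))

end cls

/-! ## 6. Bernoulli shift -/

def BernX (G : Type) : Type := G → unitInterval

instance (G : Type) : MeasurableSpace (BernX G) :=
  inferInstanceAs (MeasurableSpace (G → unitInterval))

instance (G : Type) [Countable G] : StandardBorelSpace (BernX G) :=
  inferInstanceAs (StandardBorelSpace (G → unitInterval))

instance (G : Type) [Group G] : MulAction G (BernX G) where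
  smul g y := fun h => y (g⁻¹ * h)
  one_smul y := by
    funext h
    change y (1⁻¹ * h) = y h
    simp
  mul_smul a b y := by
    funext h
    change y ((a * b)⁻¹ * h) = y (b⁻¹ * (a⁻¹ * h))
    rw [mul_inv_rev, mul_assoc]

theorem bern_smul_apply {G : Type} [Group G] (g h : G) (y : BernX G) :
    (g • y) h = y (g⁻¹ * h) := rfl

noncomputable def bernM (G : Type) : Measure (BernX G) :=
  Measure.infinitePi (fun _ : G => (volume : Measure unitInterval))

instance (G : Type) : IsProbabilityMeasure (bernM G) :=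
  inferInstanceAs (IsProbabilityMeasure
    (Measure.infinitePi (fun _ : G => (volume : Measure unitInterval))))

end Crest.Agent.R191
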