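import Crest.Agent.R191.ATT3

/-! # Row 191, task LEAF (helper13) -/

set_option autoImplicit false

namespace Crest.Agent.R191

open MeasureTheory
open scoped ENNReal

namespace LEAF

variable {Ω : Type} [MulAction FF Ω]

theorem enat_aux (b : ℕ∞) (h : 1 + b = 1) : b = 0 := by
  induction b using ENat.recTopCoe with
  | top => simp at h
  | coe n =>
    have : 1 + n = 1 := by exact_mod_cast h
    have : n = 0 := by omega
    simp [this]

/-- edges without leaf endpoint -/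
def cut (T R : Set Ω) : Set Ω := {ω | ω ∈ T ∧ ω ∉ Leaf T R ∧ xx • ω ∉ Leaf T R}

theorem out_unique {T : Set Ω} {ω : Ω} (h : ω ∈ T) (hd : deg T ω = 1) :
    (∀ q : QQ, iQ q • ω ∈ T → q = 1) ∧ ∀ q : QQ, xx⁻¹ • iQ q • ω ∉ T := by
  have h1 : (1 : QQ) ∈ {q : QQ | iQ q • ω ∈ T} := by
    change iQ 1 • ω ∈ T
    rw [map_one, one_smul]; exact h
  have h2 : 1 ≤ {q : QQ | iQ q • ω ∈ T}.encard := Set.one_le_encard_iff_nonempty.2 ⟨_, h1⟩
  have h3 : {q : QQ | iQ q • ω ∈ T}.encard ≤ 1 := by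
    rw [← hd]; exact le_self_add
  have h4 : {q : QQ | xx⁻¹ • iQ q • ω ∈ T}.encard = 0 := by
    have h5 : {q : QQ | iQ q • ω ∈ T}.encard + {q : QQ | xx⁻¹ • iQ q • ω ∈ T}.encard = 1 := hd
    rw [le_antisymm h3 h2] at h5
    exact enat_aux _ h5
  refine ⟨fun q hq => ?_, fun q hq => ?_⟩
  · exact Set.encard_le_one_iff.1 h3 q 1 hq h1
  · rw [Set.encard_eq_zero] at h4
    have : q ∈ {q : QQ | xx⁻¹ • iQ q • ω ∈ T} := hq
    rw [h4] at this
    exact this

theorem in_unique {T : Set Ω} {ω : Ω} (h : ω ∈ T) (hd : deg T (xx • ω) = 1) :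
    (∀ q : QQ, xx⁻¹ • iQ q • xx • ω ∈ T → q = 1) ∧ ∀ q : QQ, iQ q • xx • ω ∉ T := by
  have h1 : (1 : QQ) ∈ {q : QQ | xx⁻¹ • iQ q • xx • ω ∈ T} := by
    change xx⁻¹ • iQ 1 • xx • ω ∈ T
    rw [map_one, one_smul, inv_smul_smul]; exact h
  have h2 : 1 ≤ {q : QQ | xx⁻¹ • iQ q • xx • ω ∈ T}.encard :=
    Set.one_le_encard_iff_nonempty.2 ⟨_, h1⟩
  have h3 : {q : QQ | xx⁻¹ • iQ q • xx • ω ∈ T}.encard ≤ 1 := by
    rw [← hd]; exact le_add_self
  have h4 : {q : QQ | iQ q • xx • ω ∈ T}.encard = 0 := by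
    have h5 : {q : QQ | iQ q • xx • ω ∈ T}.encard +
        {q : QQ | xx⁻¹ • iQ q • xx • ω ∈ T}.encard = 1 := hd
    rw [le_antisymm h3 h2] at h5
    rw [add_comm] at h5
    exact enat_aux _ h5
  refine ⟨fun q hq => ?_, fun q hq => ?_⟩
  · exact Set.encard_le_one_iff.1 h3 q 1 hq h1
  · rw [Set.encard_eq_zero] at h4
    have : q ∈ {q : QQ | iQ q • xx • ω ∈ T} := hq
    rw [h4] at this
    exact this

theorem leaf_iQ {T R : Set Ω} (hR : ∀ (q : QQ) (ω : Ω), ω ∈ R → iQ q • ω ∈ R) (q : QQ) (ω : Ω) :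
    iQ q • ω ∈ Leaf T R ↔ ω ∈ Leaf T R := by
  have hR' : iQ q • ω ∈ R ↔ ω ∈ R := by
    constructor
    · intro h
      have := hR q⁻¹ _ h
      simpa using this
    · exact hR q ω
  change (iQ q • ω ∉ R ∧ deg T (iQ q • ω) = 1) ↔ (ω ∉ R ∧ deg T ω = 1)
  rw [hR', deg_iQ]

/-- `cut`-walks do not touch leaf vertices -/
theorem reach_cut_leaf {T R : Set Ω} (hR : ∀ (q : QQ) (ω : Ω), ω ∈ R → iQ q • ω ∈ R) {a b : Ω}
    (h : Reach (cut T R) a b) (hb : b ∈ Leaf T R) : a ∈ Leaf T R := by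
  refine h.symm.induct (p := fun ω => ω ∈ Leaf T R) hb ?_ ?_ ?_
  · intro ω q _ h1
    exact (leaf_iQ hR q ω).2 h1
  · intro ω _ h1 h2
    exact (h1.2.1 h2).elim
  · intro ω _ h1 h2
    exact (h1.2.2 h2).elim

theorem reach_cut {T R : Set Ω} (hR : ∀ (q : QQ) (ω : Ω), ω ∈ R → iQ q • ω ∈ R) {a b : Ω}
    (h : Reach T a b) (ha : a ∉ Leaf T R) (hb : b ∉ Leaf T R) : Reach (cut T R) a b := by
  have key : (b ∉ Leaf T R → Reach (cut T R) a b) ∧ (b ∈ Leaf T R →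
      ∀ q : QQ, (iQ q • b ∈ T → Reach (cut T R) a (xx • iQ q • b)) ∧
        (xx⁻¹ • iQ q • b ∈ T → Reach (cut T R) a (xx⁻¹ • iQ q • b))) := by
    refine h.induct (p := fun b => (b ∉ Leaf T R → Reach (cut T R) a b) ∧ (b ∈ Leaf T R →
      ∀ q : QQ, (iQ q • b ∈ T → Reach (cut T R) a (xx • iQ q • b)) ∧
        (xx⁻¹ • iQ q • b ∈ T → Reach (cut T R) a (xx⁻¹ • iQ q • b)))) ?_ ?_ ?_ ?_
    · exact ⟨fun _ => Reach.refl _ _, fun h => (ha h).elim⟩
    · intro ω q _ ⟨h1, h2⟩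
      refine ⟨fun h3 => ?_, fun h3 q' => ?_⟩
      · rw [leaf_iQ hR] at h3
        exact (h1 h3).trans (Reach.q _ _ _)
      · rw [leaf_iQ hR] at h3
        have := h2 h3 (q' * q)
        rw [map_mul, mul_smul] at this
        exact this
    · intro ω _ hω ⟨h1, h2⟩
      by_cases hL : ω ∈ Leaf T R
      · have h3 := (h2 hL 1).1 (by rw [map_one, one_smul]; exact hω)
        rw [map_one, one_smul] at h3
        by_cases hL' : xx • ω ∈ Leaf T R
        · exact (ha (reach_cut_leaf hR h3 hL')).elim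
        · exact ⟨fun _ => h3, fun h => (hL' h).elim⟩
      · by_cases hL' : xx • ω ∈ Leaf T R
        · refine ⟨fun h => (h hL').elim, fun _ q => ?_⟩
          have hu := in_unique hω hL'.2
          refine ⟨fun h3 => (hu.2 q h3).elim, fun h3 => ?_⟩
          have := hu.1 q h3
          subst this
          rw [map_one, one_smul, inv_smul_smul]
          exact h1 hL
        · exact ⟨fun _ => (h1 hL).trans (Reach.x ⟨hω, hL, hL'⟩), fun h => (hL' h).elim⟩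
    · intro ω _ hω ⟨h1, h2⟩
      by_cases hL' : xx • ω ∈ Leaf T R
      · have h3 := (h2 hL' 1).2 (by rw [map_one, one_smul, inv_smul_smul]; exact hω)
        rw [map_one, one_smul, inv_smul_smul] at h3
        by_cases hL : ω ∈ Leaf T R
        · exact (ha (reach_cut_leaf hR h3 hL)).elim
        · exact ⟨fun _ => h3, fun h => (hL h).elim⟩
      · by_cases hL : ω ∈ Leaf T R
        · refine ⟨fun h => (h hL).elim, fun _ q => ?_⟩
          have hu := out_unique hω hL.2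
          refine ⟨fun h3 => ?_, fun h3 => (hu.2 q h3).elim⟩
          have := hu.1 q h3
          subst this
          rw [map_one, one_smul]
          exact h1 hL'
        · refine ⟨fun _ => ?_, fun h => (hL h).elim⟩
          have h4 : Reach (cut T R) ω (xx • ω) := Reach.x ⟨hω, hL, hL'⟩
          exact (h1 hL').trans h4.symm
  exact key.1 hb

end LEAF

open LEAF ATT1 ATT3 in
theorem leaf : LEAF := by
  intro X _ _ _ _ μ _ hs σ hg
  set R := Set.range (sec σ.G) with hRdef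
  have hRq : ∀ (q : QQ) (ω : Om σ.G), ω ∈ R → iQ q • ω ∈ R := by
    rintro q _ ⟨y, rfl⟩
    exact ⟨iQ q • y, (iQ_smul_sec _ _ _).symm⟩
  have hRm : MeasurableSet R := (om_sec X μ hs σ.G).1
  have mL : MeasurableSet (Leaf σ.T R) := measurableSet_Leaf (measurable_smul_om σ.G) σ.hT hRm
  have mL' : MeasurableSet ((fun ω : Om σ.G => xx • ω) ⁻¹' Leaf σ.T R) :=
    measurable_smul_om σ.G xx mL
  have mcut : MeasurableSet (cut σ.T R) := σ.hT.inter (mL.compl.inter mL'.compl)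
  have hsub : cut σ.T R ⊆ σ.T := fun ω h => h.1
  have hsecL : ∀ y, sec σ.G y ∉ Leaf σ.T R := fun y h => h.1 ⟨y, rfl⟩
  have two : ¬ ((2 : ℕ∞) ≤ 1) := by norm_num
  refine ⟨⟨σ.G, cut σ.T R, σ.C, mcut, σ.hC⟩, ?_, rfl, ?_⟩
  · refine { T_fin := ?_, conn := ?_, reach := ?_, r_fix := hg.r_fix, bd := ?_, gens := ?_ }
    · exact ne_top_of_le_ne_top hg.T_fin (measure_mono hsub)
    · intro y
      exact reach_cut hRq (hg.conn y) (hsecL _) (hsecL _)
    · intro ω hω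
      obtain ⟨y, hy⟩ := hg.reach ω hω.1
      exact ⟨y, reach_cut hRq hy (hsecL _) hω.2.1⟩
    · intro ω hω j hj
      refine ⟨hg.bd ω hω j hj, fun h => ?_, fun h => ?_⟩
      · have := two_le_tail (hg.r_fix ω hω) (hg.bd ω hω) hj
        rw [h.2] at this
        exact two this
      · have := two_le_head (hg.r_fix ω hω) (hg.bd ω hω) hj
        rw [h.2] at this
        exact two this
    · obtain ⟨Γ, hΓ⟩ := hg.gens
      exact ⟨Γ, fun y l hl h => hΓ y l (okL_mono hsub hl) h⟩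
  · change 2 * mO μ σ.G (cut σ.T R) + leafH μ σ ≤ 2 * mO μ σ.G σ.T
    have h1 : mO μ σ.G σ.T = mO μ σ.G (cut σ.T R) + mO μ σ.G (σ.T \ cut σ.T R) := by
      rw [← measure_union Set.disjoint_sdiff_right (σ.hT.diff mcut), Set.union_sdiff_cancel hsub]
    have h2 : mO μ σ.G (σ.T ∩ Leaf σ.T R) ≤ mO μ σ.G (σ.T \ cut σ.T R) :=
      measure_mono fun ω hω => ⟨hω.1, fun h => h.2.1 hω.2⟩
    have h3 : mO μ σ.G {ω | ω ∈ σ.T ∧ xx • ω ∈ Leaf σ.T R} ≤ mO μ σ.G (σ.T \ cut σ.T R) :=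
      measure_mono fun ω hω => ⟨hω.1, fun h => h.2.2 hω.2⟩
    have h4 : leafH μ σ ≤ mO μ σ.G (σ.T \ cut σ.T R) + mO μ σ.G (σ.T \ cut σ.T R) :=
      add_le_add h2 h3
    calc 2 * mO μ σ.G (cut σ.T R) + leafH μ σ
        ≤ 2 * mO μ σ.G (cut σ.T R) +
          (mO μ σ.G (σ.T \ cut σ.T R) + mO μ σ.G (σ.T \ cut σ.T R)) := by gcongr
      _ = 2 * mO μ σ.G σ.T := by rw [h1]; ring

end Crest.Agent.R191
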