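import Crest.Agent.R191.REB
import Crest.Agent.R191.LEAF

/-! # Row 191, task MAIN (helper13) -/

set_option autoImplicit false

namespace Crest.Agent.R191

open MeasureTheory
open scoped ENNReal

namespace MAIN

theorem Fs_pos : 0 < Fs := by unfold Fs; positivity

theorem ofReal_Fs_le_al {t : ℝ} (ht : t ≤ 2 * Fs) : ENNReal.ofReal t ≤ al := by
  unfold al
  apply ENNReal.ofReal_le_ofReal
  refine ht.trans (le_of_eq ?_)
  unfold Fs
  ring

variable {X : Type} [MeasurableSpace X] [MulAction FF X]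

theorem mO_C_ne_top {μ : Measure X} {σ : St X} (hb : Base μ σ) : mO μ σ.G σ.C ≠ ∞ :=
  ne_top_of_le_ne_top hb.T_fin (measure_mono (ATT1.mO_C_le_T hb))

theorem mO_C_le_al {μ : Measure X} {σ : St X} (hb : Base μ σ) (h : Fm μ σ ≤ 2 * Fs) :
    mO μ σ.G σ.C ≤ al := by
  rw [← ENNReal.ofReal_toReal (mO_C_ne_top hb)]
  exact ofReal_Fs_le_al h

variable [MeasurableConstSMul FF X] [StandardBorelSpace X]

theorem Pot_nonneg {μ : Measure X} [IsProbabilityMeasure μ] (hs : Sys X μ) {σ : St X}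
    (hb : Base μ σ) (h : Fm μ σ ≤ 2 * Fs) : 0 ≤ Pot μ σ := by
  have h1 := om_exp X μ hs σ.G σ.C σ.hC (mO_C_le_al hb h)
  have h2 : (⋃ j : Fin 80, (fun ω : Om σ.G => tau (j : ℕ) • ω) '' σ.C) ⊆ σ.T := by
    rintro _ hω
    obtain ⟨j, ω, h', rfl⟩ := Set.mem_iUnion.1 hω
    exact hb.bd ω h' j j.2
  have h3 := ENNReal.toReal_mono hb.T_fin (h1.trans (measure_mono h2))
  rw [ENNReal.toReal_mul, ENNReal.toReal_ofNat] at h3
  have h4 : 0 ≤ (mO μ σ.G σ.C).toReal := ENNReal.toReal_nonneg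
  unfold Pot Fm
  linarith

end MAIN

open MAIN in
theorem main_of (hP : PROC) (hC : COL) : MAIN := by
  intro X _ _ _ _ μ _ hs N w B hB hk hgen
  obtain ⟨σ0, g0, c0⟩ := start X μ hs N w B hB hk hgen
  set S : Set ℝ := {p | ∃ σ : St X, Good μ σ ∧ Fm μ σ ≤ Fs / 2 ∧ Pot μ σ = p} with hS
  have hFs := Fs_pos
  have hne : S.Nonempty := by
    refine ⟨_, σ0, g0, ?_, rfl⟩
    unfold Fm
    rw [c0]
    simp only [ENNReal.toReal_zero]
    positivity
  have hbdd : BddBelow S := by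
    refine ⟨0, ?_⟩
    rintro _ ⟨σ, g, h, rfl⟩
    exact Pot_nonneg hs g.toBase (by linarith)
  obtain ⟨_, ⟨σ, g, hF, rfl⟩, hlt⟩ := exists_lt_of_csInf_lt hne
    (show sInf S < sInf S + Fs / 100 by linarith)
  obtain ⟨σ1, g1, e1, e2⟩ := reb X μ hs σ g
  have g1' := sg X μ hs σ1 g1
  have hPot1 : Pot μ σ1 = Pot μ σ := by unfold Pot Fm; rw [e1, e2]
  have hF1 : Fm μ σ1 = Fm μ σ := by unfold Fm; rw [e1]
  -- few leaves
  have hleaf : leafH μ σ1 ≤ ENNReal.ofReal (Fs / 50) := by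
    obtain ⟨σ', g', e3, e4⟩ := leaf X μ hs σ1 g1'
    have hfin : 2 * mO μ σ1.G σ1.T ≠ ∞ := by
      have := g1'.T_fin
      finiteness
    have hlf : leafH μ σ1 ≠ ∞ := ne_top_of_le_ne_top hfin (le_add_self.trans e4)
    have h2f : 2 * mO μ σ'.G σ'.T ≠ ∞ := ne_top_of_le_ne_top hfin (le_self_add.trans e4)
    have h1 := ENNReal.toReal_mono hfin e4
    rw [ENNReal.toReal_add h2f hlf, ENNReal.toReal_mul, ENNReal.toReal_mul,
      ENNReal.toReal_ofNat] at h1
    have h2 : sInf S ≤ Pot μ σ' := by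
      refine csInf_le hbdd ⟨σ', g', ?_, rfl⟩
      unfold Fm
      rw [e3]
      change Fm μ σ1 ≤ _
      rw [hF1]; exact hF
    have h3 : Fm μ σ' = Fm μ σ1 := by unfold Fm; rw [e3]
    rw [← ENNReal.ofReal_toReal hlf]
    apply ENNReal.ofReal_le_ofReal
    have h4 : (mO μ σ'.G σ'.T).toReal = Pot μ σ' + 2 * Fm μ σ' := by unfold Pot; ring
    have h5 : (mO μ σ1.G σ1.T).toReal = Pot μ σ1 + 2 * Fm μ σ1 := by unfold Pot; ring
    rw [h4, h5, h3] at h1
    linarith
  obtain ⟨σ2, g2, hF2, hF2', hP2, hl2⟩ := hP X μ hs σ1 g1 (by rw [hF1]; linarith)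
  obtain ⟨σ3, g3, hF3, hP3⟩ := hC X μ hs σ2 (sg X μ hs σ2 g2) hF2 hF2' (hl2.trans hleaf)
  have := csInf_le hbdd ⟨σ3, g3, hF3, rfl⟩
  linarith

namespace MAIN

theorem eqv_mono {X : Type} {r s : X → X → Prop} (h : ∀ a b, r a b → s a b) {a b : X}
    (hab : Relation.EqvGen r a b) : Relation.EqvGen s a b := by
  induction hab with
  | rel a b h' => exact Relation.EqvGen.rel _ _ (h a b h')
  | refl a => exact Relation.EqvGen.refl _
  | symm a b _ ih => exact ih.symm _ _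
  | trans a b c _ _ ih1 ih2 => exact ih1.trans _ _ _ ih2

theorem stepQ_mono {X : Type} [MulAction FF X] (w : ℕ → FF) (B : ℕ → Set X) {N M : ℕ}
    (h : N ≤ M) {a b : X}
    (hab : Relation.EqvGen (StepQ (fun i : Fin N => w i) (fun i : Fin N => B i)) a b) :
    Relation.EqvGen (StepQ (fun i : Fin M => w i) (fun i : Fin M => B i)) a b := by
  refine eqv_mono ?_ hab
  rintro a b (⟨q, rfl⟩ | ⟨n, h1, rfl⟩)
  · exact Or.inl ⟨q, rfl⟩
  · exact Or.inr ⟨⟨n, n.2.trans_le h⟩, h1, rfl⟩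

theorem stepQ_fin {X : Type} [MulAction FF X] (w : ℕ → FF) (B : ℕ → Set X) {a b : X}
    (hab : Relation.EqvGen (StepQ w B) a b) : ∃ N : ℕ,
    Relation.EqvGen (StepQ (fun i : Fin N => w i) (fun i : Fin N => B i)) a b := by
  induction hab with
  | rel a b h =>
    rcases h with ⟨q, rfl⟩ | ⟨n, h1, rfl⟩
    · exact ⟨0, Relation.EqvGen.rel _ _ (Or.inl ⟨q, rfl⟩)⟩
    · exact ⟨n + 1, Relation.EqvGen.rel _ _ (Or.inr ⟨⟨n, by omega⟩, h1, rfl⟩)⟩
  | refl a => exact ⟨0, Relation.EqvGen.refl _⟩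
  | symm a b _ ih =>
    obtain ⟨N, h⟩ := ih
    exact ⟨N, h.symm _ _⟩
  | trans a b c _ _ ih1 ih2 =>
    obtain ⟨N, h⟩ := ih1
    obtain ⟨M, h'⟩ := ih2
    exact ⟨max N M, (stepQ_mono w B (le_max_left _ _) h).trans _ _ _
      (stepQ_mono w B (le_max_right _ _) h')⟩

end MAIN

open MAIN in
theorem mainc_of (h : MAIN) (he : EQV) : MAINC := by
  intro X _ _ _ _ μ _ hs w B hB hk hgen
  let Bad : ℕ → Set X := fun N => {y | ¬ Relation.EqvGen
    (StepQ (fun i : Fin N => w i) (fun i : Fin N => B i)) y (xx • y)}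
  have mBad : ∀ N, MeasurableSet (Bad N) := by
    intro N
    have h1 := he X FF (QQ ⊕ Fin N) (Sum.elim (fun q => iQ q) (fun i => w i))
      (Sum.elim (fun _ => Set.univ) (fun i => B i)) (by
        rintro (q | i)
        · exact MeasurableSet.univ
        · exact hB i) xx
    have h2 : (fun a b : X => ∃ i, a ∈ (Sum.elim (fun _ : QQ => (Set.univ : Set X))
        (fun i : Fin N => B i)) i ∧ b = (Sum.elim (fun q : QQ => iQ q)
          (fun i : Fin N => w i)) i • a) =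
        StepQ (fun i : Fin N => w i) (fun i : Fin N => B i) := by
      funext a b
      apply propext
      constructor
      · rintro ⟨q | i, h1, h2⟩
        · exact Or.inl ⟨q, h2⟩
        · exact Or.inr ⟨i, h1, h2⟩
      · rintro (⟨q, h1⟩ | ⟨i, h1, h2⟩)
        · exact ⟨Sum.inl q, trivial, h1⟩
        · exact ⟨Sum.inr i, h1, h2⟩
    rw [h2] at h1
    exact h1.compl
  have hanti : Antitone Bad := fun N M hNM y hy h' => hy (stepQ_mono w B hNM h')
  have hinter : ⋂ N, Bad N = ∅ := by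
    ext y
    simp only [Set.mem_iInter, Set.mem_empty_iff_false, iff_false, not_forall]
    obtain ⟨N, hN⟩ := stepQ_fin w B (hgen y)
    exact ⟨N, fun h' => h' hN⟩
  have hlim := tendsto_measure_iInter_atTop (μ := μ) (s := Bad)
    (fun N => (mBad N).nullMeasurableSet) hanti ⟨0, measure_ne_top _ _⟩
  rw [hinter, measure_empty] at hlim
  have hδ : 0 < kap - ∑' n, μ (B n) := tsub_pos_of_lt hk
  obtain ⟨N, hN⟩ := (hlim.eventually (gt_mem_nhds hδ)).exists
  refine h X μ hs (N + 1) (fun i => if (i : ℕ) < N then w i else xx)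
    (fun i => if (i : ℕ) < N then B i else Bad N) ?_ ?_ ?_
  · intro i
    split_ifs
    · exact hB _
    · exact mBad N
  · rw [Fin.sum_univ_castSucc]
    simp only [Fin.val_castSucc, Fin.is_lt, if_true, Fin.val_last, lt_irrefl, if_false]
    have h1 : ∑ i : Fin N, μ (B i) ≤ ∑' n, μ (B n) := by
      rw [← Finset.sum_range (fun n => μ (B n))]
      exact ENNReal.sum_le_tsum _
    calc ∑ i : Fin N, μ (B i) + μ (Bad N) ≤ ∑' n, μ (B n) + (kap - ∑' n, μ (B n)) :=
          add_le_add h1 hN.le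
      _ = kap := add_tsub_cancel_of_le hk.le
  · intro y
    by_cases hy : y ∈ Bad N
    · refine Relation.EqvGen.rel _ _ (Or.inr ⟨Fin.last N, ?_, ?_⟩)
      · simpa using hy
      · simp
    · have h1 : Relation.EqvGen
          (StepQ (fun i : Fin N => w i) (fun i : Fin N => B i)) y (xx • y) := not_not.1 hy
      refine eqv_mono ?_ h1
      rintro a b (⟨q, rfl⟩ | ⟨n, h1, rfl⟩)
      · exact Or.inl ⟨q, rfl⟩
      · refine Or.inr ⟨n.castSucc, ?_, ?_⟩
        · simpa using h1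
        · simp

end Crest.Agent.R191
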