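import Crest.Agent.R191.Basics

/-! # Row 191: measurability of functions with values in `𝔽 →₀ ℚ` (helper13) -/

set_option autoImplicit false

namespace Crest.Agent.R191

open MeasureTheory
open scoped ENNReal

/-- all level sets are measurable -/
def LM {X β : Type} [MeasurableSpace X] (F : X → β) : Prop := ∀ a : β, MeasurableSet {y | F y = a}

namespace LM

variable {X β γ : Type} [MeasurableSpace X]

theorem const (b : β) : LM (fun _ : X => b) := fun _ => MeasurableSet.const _

theorem preimage [Countable β] {F : X → β} (h : LM F) (p : β → Prop) :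
    MeasurableSet {y | p (F y)} := by
  have : {y | p (F y)} = ⋃ b : β, ⋃ (_ : p b), {y | F y = b} := by
    ext y; simp
  rw [this]
  exact MeasurableSet.iUnion fun b => MeasurableSet.iUnion fun _ => h b

theorem comp [Countable β] {F : X → β} (h : LM F) (φ : β → γ) : LM (fun y => φ (F y)) :=
  fun a => h.preimage (fun b => φ b = a)

theorem prodMk {F : X → β} {G : X → γ} (h : LM F) (h' : LM G) : LM (fun y => (F y, G y)) := by
  rintro ⟨a, b⟩
  have : {y | (F y, G y) = (a, b)} = {y | F y = a} ∩ {y | G y = b} := by
    ext y; simp
  rw [this]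
  exact (h a).inter (h' b)

theorem add [AddCommMonoid β] [Countable β] {F G : X → β} (h : LM F) (h' : LM G) :
    LM (fun y => F y + G y) := (h.prodMk h').comp (fun p => p.1 + p.2)

theorem sum {ι : Type} [AddCommMonoid β] [Countable β] (s : Finset ι) {F : ι → X → β}
    (h : ∀ i ∈ s, LM (F i)) : LM (fun y => ∑ i ∈ s, F i y) := by
  classical
  induction s using Finset.induction_on with
  | empty => simpa using const (0 : β)
  | insert i s hi ih =>
    simp_rw [Finset.sum_insert hi]
    exact (h i (Finset.mem_insert_self _ _)).add
      (ih fun j hj => h j (Finset.mem_insert_of_mem hj))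

open Classical in
theorem ite {p : X → Prop} (hp : MeasurableSet {y | p y}) {F G : X → β} (h : LM F) (h' : LM G) :
    LM (fun y => if p y then F y else G y) := by
  intro a
  have : {y | (if p y then F y else G y) = a} =
      ({y | p y} ∩ {y | F y = a}) ∪ ({y | p y}ᶜ ∩ {y | G y = a}) := by
    ext y
    by_cases hy : p y <;> simp [hy]
  rw [this]
  exact (hp.inter (h a)).union (hp.compl.inter (h' a))

/-- substitution: `F : X → β` with measurable level sets and a family `G b` of such functions -/
theorem bind [Countable β] {F : X → β} (h : LM F) {G : β → X → γ} (h' : ∀ b, LM (G b)) :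
    LM (fun y => G (F y) y) := by
  intro a
  have : {y | G (F y) y = a} = ⋃ b : β, ({y | F y = b} ∩ {y | G b y = a}) := by
    ext y; simp
  rw [this]
  exact MeasurableSet.iUnion fun b => (h b).inter (h' b a)

end LM

/-- sets on which a fixed letter list is a walk -/
theorem measurableSet_okL {X : Type} [MeasurableSpace X] [MulAction FF X] {𝒢 : Gpd X}
    {T : Set (Om 𝒢)} (hT : MeasurableSet T)
    (l : List Ltr) : MeasurableSet {y : X | okL T (sec 𝒢 y) l} := by
  have h : ∀ g : FF, MeasurableSet {y : X | g • sec 𝒢 y ∈ T} := by
    intro g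
    simp_rw [smul_sec]
    exact measurable_mkO 𝒢 g hT
  induction l with
  | nil => exact MeasurableSet.univ
  | cons a l ih =>
    cases a with
    | q a => exact ih
    | xp => exact ih.inter (h _)
    | xm =>
      refine ih.inter ?_
      have := h (xx⁻¹ * ev l)
      simp_rw [mul_smul] at this
      exact this

/-- the list of letters of `tau n` -/
def tauL : ℕ → List Ltr
  | 0 => []
  | (n + 1) => Ltr.q (uu n) :: Ltr.xp :: tauL n

theorem ev_tauL (n : ℕ) : ev (tauL n) = tau n := by
  induction n with
  | zero => rfl
  | succ n ih => simp [tauL, ev, Ltr.val, ih, tau, mul_assoc]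

theorem okL_tauL {Ω : Type} [MulAction FF Ω] {T : Set Ω} {ω : Ω} (n : ℕ)
    (h : ∀ j < n, tau j • ω ∈ T) : okL T ω (tauL n) := by
  induction n with
  | zero => trivial
  | succ n ih =>
    refine ⟨ih fun j hj => h j (by omega), ?_⟩
    rw [ev_tauL]
    exact h n (by omega)

end Crest.Agent.R191
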