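import Crest.Agent.R191.Stmts
import Crest.Agent.R191.Basics

/-! # Row 191, task OMEGA1 (helper13) -/

set_option autoImplicit false

namespace Crest.Agent.R191

open MeasureTheory
open scoped ENNReal

namespace OMEGA1

variable {X : Type} [MeasurableSpace X] [MulAction FF X]

theorem rep_eq (𝒢 : Gpd X) (g : FF) : 𝒢.rep g =
    ⋂ g' : FF, ⋂ (_ : codeF g' < codeF g), {y | (g'⁻¹ * g) • y ∈ (𝒢.car (g⁻¹ * g'))}ᶜ := by
  ext y
  simp only [Gpd.rep, Set.mem_ofPred_eq, Set.mem_iInter, Set.mem_compl_iff]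
  refine forall_congr' fun g' => forall_congr' fun _ => ?_
  rw [ne_eq, mkO_eq_mkO]
  simp [mul_smul]

theorem fiber_encard (𝒢 : Gpd X) (T : Set (Om 𝒢)) (y' : X) :
    (T ∩ pr 𝒢 ⁻¹' {y'}).encard =
      {g : FF | g⁻¹ • y' ∈ 𝒢.rep g ∧ mkO 𝒢 g (g⁻¹ • y') ∈ T}.encard := by
  have himg : T ∩ pr 𝒢 ⁻¹' {y'} = (fun g : FF => mkO 𝒢 g (g⁻¹ • y')) ''
      {g : FF | g⁻¹ • y' ∈ 𝒢.rep g ∧ mkO 𝒢 g (g⁻¹ • y') ∈ T} := by
    ext ω
    constructor
    · rintro ⟨hT, hpr⟩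
      have hex : ∃ g : FF, mkO 𝒢 g (g⁻¹ • y') = ω := by
        induction ω using Om.ind with
        | h g y =>
          refine ⟨g, ?_⟩
          have : g • y = y' := by simpa using hpr
          rw [← this, inv_smul_smul]
      obtain ⟨g, hg, hmin⟩ : ∃ g : FF, mkO 𝒢 g (g⁻¹ • y') = ω ∧
          ∀ g' : FF, codeF g' < codeF g → mkO 𝒢 g' (g'⁻¹ • y') ≠ ω := by
        classical
        let p : ℕ → Prop := fun n => ∃ g : FF, codeF g = n ∧ mkO 𝒢 g (g⁻¹ • y') = ω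
        have hp : ∃ n, p n := by
          obtain ⟨g, hg⟩ := hex
          exact ⟨_, g, rfl, hg⟩
        obtain ⟨g, h1, h2⟩ := Nat.find_spec hp
        refine ⟨g, h2, fun g' hlt h => ?_⟩
        rw [h1] at hlt
        exact Nat.find_min hp hlt ⟨g', rfl, h⟩
      refine ⟨g, ⟨fun g' hlt => ?_, by rw [hg]; exact hT⟩, hg⟩
      rw [smul_inv_smul, hg]
      exact hmin g' hlt
    · rintro ⟨g, ⟨_, h2⟩, rfl⟩
      exact ⟨h2, by simp⟩
  rw [himg]
  refine Set.InjOn.encard_image ?_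
  intro g hg g' hg' heq
  have heq' : mkO 𝒢 g (g⁻¹ • y') = mkO 𝒢 g' (g'⁻¹ • y') := heq
  rcases lt_trichotomy (codeF g) (codeF g') with h | h | h
  · exfalso
    apply hg'.1 g h
    rw [smul_inv_smul]; exact heq'
  · exact codeF_injective h
  · exfalso
    apply hg.1 g' h
    rw [smul_inv_smul]; exact heq'.symm

variable [MeasurableConstSMul FF X]

theorem measurableSet_rep (𝒢 : Gpd X) (g : FF) : MeasurableSet (𝒢.rep g) := by
  rw [rep_eq]
  exact MeasurableSet.iInter fun g' => MeasurableSet.iInter fun _ =>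
    (measurable_const_smul (g'⁻¹ * g) (𝒢.meas _)).compl

theorem count (μ : Measure X) (hμ : ∀ g : FF, MeasurePreserving (fun y : X => g • y) μ μ)
    (𝒢 : Gpd X) (T : Set (Om 𝒢)) (hT : MeasurableSet T) :
    mO μ 𝒢 T = ∫⁻ y, ((T ∩ pr 𝒢 ⁻¹' {y}).encard : ℝ≥0∞) ∂μ := by
  have hE : ∀ g : FF, MeasurableSet {y : X | y ∈ 𝒢.rep g ∧ mkO 𝒢 g y ∈ T} := fun g =>
    (measurableSet_rep 𝒢 g).inter (measurable_mkO 𝒢 g hT)
  have h1 : mO μ 𝒢 T = ∑' g : FF, μ {y : X | y ∈ 𝒢.rep g ∧ mkO 𝒢 g y ∈ T} := by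
    unfold mO
    rw [Measure.sum_apply _ hT]
    refine tsum_congr fun g => ?_
    rw [Measure.map_apply (measurable_mkO 𝒢 g) hT,
      Measure.restrict_apply (measurable_mkO 𝒢 g hT)]
    congr 1
    ext y
    simp [and_comm]
  have h2 : ∀ g : FF, μ {y : X | y ∈ 𝒢.rep g ∧ mkO 𝒢 g y ∈ T} =
      ∫⁻ y', ({g : FF | g⁻¹ • y' ∈ 𝒢.rep g ∧ mkO 𝒢 g (g⁻¹ • y') ∈ T}).indicator
        (fun _ => (1 : ℝ≥0∞)) g ∂μ := by
    intro g
    have h3 := (hμ g⁻¹).measure_preimage (hE g).nullMeasurableSet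
    rw [← h3]
    rw [← lintegral_indicator_one (measurable_const_smul g⁻¹ (hE g))]
    rfl
  rw [h1]
  simp_rw [h2]
  rw [← lintegral_tsum]
  · refine lintegral_congr fun y' => ?_
    rw [fiber_encard, ← ENNReal.tsum_set_one,
      tsum_subtype {g : FF | g⁻¹ • y' ∈ 𝒢.rep g ∧ mkO 𝒢 g (g⁻¹ • y') ∈ T} (fun _ => (1 : ℝ≥0∞))]
  · intro g
    have : (fun y' : X => ({g : FF | g⁻¹ • y' ∈ 𝒢.rep g ∧ mkO 𝒢 g (g⁻¹ • y') ∈ T}).indicator
        (fun _ => (1 : ℝ≥0∞)) g) =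
        ((fun y' : X => g⁻¹ • y') ⁻¹' {y : X | y ∈ 𝒢.rep g ∧ mkO 𝒢 g y ∈ T}).indicator 1 := by
      rfl
    rw [this]
    exact (measurable_one.indicator (measurable_const_smul g⁻¹ (hE g))).aemeasurable

end OMEGA1

theorem om_count : OM_count := by
  intro X _ _ _ _ μ _ hs 𝒢 T hT
  exact OMEGA1.count μ hs.mp 𝒢 T hT

namespace OMEGA1

variable {X : Type} [MeasurableSpace X] [MulAction FF X] [MeasurableConstSMul FF X]

theorem fib_smul (𝒢 : Gpd X) (k : FF) (T : Set (Om 𝒢)) (y : X) :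
    ((fun ω : Om 𝒢 => k • ω) ⁻¹' T ∩ pr 𝒢 ⁻¹' {y}).encard = (T ∩ pr 𝒢 ⁻¹' {k • y}).encard := by
  have : T ∩ pr 𝒢 ⁻¹' {k • y} = (fun ω : Om 𝒢 => k • ω) ''
      ((fun ω : Om 𝒢 => k • ω) ⁻¹' T ∩ pr 𝒢 ⁻¹' {y}) := by
    ext ω
    constructor
    · rintro ⟨h1, h2⟩
      refine ⟨k⁻¹ • ω, ⟨by simpa using h1, ?_⟩, by simp⟩
      have h3 : pr 𝒢 ω = k • y := h2
      simp [pr_smul, h3]
    · rintro ⟨ω', ⟨h1, h2⟩, rfl⟩
      have h3 : pr 𝒢 ω' = y := h2
      exact ⟨h1, by simp [pr_smul, h3]⟩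
  rw [this]
  exact ((MulAction.injective k).encard_image _).symm

theorem mp_smul (μ : Measure X) (hμ : ∀ g : FF, MeasurePreserving (fun y : X => g • y) μ μ)
    (𝒢 : Gpd X) (k : FF) : MeasurePreserving (fun ω : Om 𝒢 => k • ω) (mO μ 𝒢) (mO μ 𝒢) := by
  refine ⟨measurable_smul_om 𝒢 k, ?_⟩
  ext T hT
  rw [Measure.map_apply (measurable_smul_om 𝒢 k) hT, count μ hμ 𝒢 _ (measurable_smul_om 𝒢 k hT),
    count μ hμ 𝒢 T hT]
  simp_rw [fib_smul]
  have hm : Measurable fun y : X => ((T ∩ pr 𝒢 ⁻¹' {y}).encard : ℝ≥0∞) := by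
    have : (fun y : X => ((T ∩ pr 𝒢 ⁻¹' {y}).encard : ℝ≥0∞)) = fun y' : X => ∑' g : FF,
        ((fun y' : X => g⁻¹ • y') ⁻¹' {y : X | y ∈ 𝒢.rep g ∧ mkO 𝒢 g y ∈ T}).indicator
          (1 : X → ℝ≥0∞) y' := by
      funext y'
      rw [fiber_encard, ← ENNReal.tsum_set_one,
        tsum_subtype {g : FF | g⁻¹ • y' ∈ 𝒢.rep g ∧ mkO 𝒢 g (g⁻¹ • y') ∈ T}
          (fun _ => (1 : ℝ≥0∞))]
      rfl
    rw [this]
    exact Measurable.tsum fun g => measurable_one.indicator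
      (measurable_const_smul g⁻¹ ((measurableSet_rep 𝒢 g).inter (measurable_mkO 𝒢 g hT)))
  exact (hμ k).lintegral_comp hm

/-- measurability of the counting function -/
theorem measurable_cnt (𝒢 : Gpd X) {T : Set (Om 𝒢)} (hT : MeasurableSet T) :
    Measurable fun y : X => ((T ∩ pr 𝒢 ⁻¹' {y}).encard : ℝ≥0∞) := by
  have : (fun y : X => ((T ∩ pr 𝒢 ⁻¹' {y}).encard : ℝ≥0∞)) = fun y' : X => ∑' g : FF,
      ((fun y' : X => g⁻¹ • y') ⁻¹' {y : X | y ∈ 𝒢.rep g ∧ mkO 𝒢 g y ∈ T}).indicator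
        (1 : X → ℝ≥0∞) y' := by
    funext y'
    rw [fiber_encard, ← ENNReal.tsum_set_one,
      tsum_subtype {g : FF | g⁻¹ • y' ∈ 𝒢.rep g ∧ mkO 𝒢 g (g⁻¹ • y') ∈ T}
        (fun _ => (1 : ℝ≥0∞))]
    rfl
  rw [this]
  exact Measurable.tsum fun g => measurable_one.indicator
    (measurable_const_smul g⁻¹ ((measurableSet_rep 𝒢 g).inter (measurable_mkO 𝒢 g hT)))

theorem measurableSet_fix (𝒢 : Gpd X) [StandardBorelSpace X] (k : FF) :
    MeasurableSet {ω : Om 𝒢 | k • ω = ω} := by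
  rw [measurableSet_om_iff]
  intro g
  have : {y : X | mkO 𝒢 g y ∈ {ω : Om 𝒢 | k • ω = ω}} =
      {y : X | (k * g) • y = g • y} ∩ 𝒢.car (g⁻¹ * (k * g)) := by
    ext y
    simp only [Set.mem_ofPred_eq, Set.mem_inter_iff, smul_mkO]
    rw [mkO_eq_mkO]
  rw [this]
  exact (measurableSet_eq_fun (measurable_const_smul _) (measurable_const_smul _)).inter
    (𝒢.meas _)

end OMEGA1

theorem om_sp : OM_sp := by
  intro X _ _ _ _ μ _ hs
  refine ⟨embeddingReal X, measurable_embeddingReal X,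
    (measurableEmbedding_embeddingReal X).injective, fun 𝒢 => ?_⟩
  refine ⟨OMEGA1.mp_smul μ hs.mp 𝒢, OMEGA1.measurableSet_fix 𝒢,
    (measurable_embeddingReal X).comp (measurable_pr 𝒢), ?_⟩
  intro g ω h
  have h1 := (measurableEmbedding_embeddingReal X).injective h
  rw [pr_smul] at h1
  exact (hs.free g _).1 h1

theorem om_sec : OM_sec := by
  intro X _ _ _ _ μ _ hs 𝒢
  have key : ∀ B : Set X, MeasurableSet B → MeasurableSet (sec 𝒢 '' B) := by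
    intro B hB
    rw [measurableSet_om_iff]
    intro g
    have : {y : X | mkO 𝒢 g y ∈ sec 𝒢 '' B} = (fun y : X => g • y) ⁻¹' B ∩ 𝒢.car g := by
      ext y
      simp only [Set.mem_ofPred_eq, Set.mem_image, Set.mem_inter_iff, Set.mem_preimage]
      constructor
      · rintro ⟨y', h1, h2⟩
        rw [sec, mkO_eq_mkO] at h2
        simp only [one_smul, mul_one] at h2
        have h3 := 𝒢.inv_mem _ _ h2.2
        rw [h2.1, inv_smul_smul, inv_inv] at h3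
        exact ⟨by rw [← h2.1]; exact h1, h3⟩
      · rintro ⟨h1, h2⟩
        refine ⟨g • y, h1, ?_⟩
        rw [← smul_sec]
        exact ((smul_sec_eq_sec 𝒢 g y (g • y)).2 ⟨rfl, h2⟩).symm
    rw [this]
    exact (measurable_const_smul g hB).inter (𝒢.meas g)
  refine ⟨by rw [← Set.image_univ]; exact key _ MeasurableSet.univ, fun B hB => ⟨key B hB, ?_⟩⟩
  rw [om_count X μ hs 𝒢 _ (key B hB)]
  have : ∀ y : X, ((sec 𝒢 '' B ∩ pr 𝒢 ⁻¹' {y}).encard : ℝ≥0∞) = B.indicator 1 y := by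
    intro y
    by_cases hy : y ∈ B
    · have : sec 𝒢 '' B ∩ pr 𝒢 ⁻¹' {y} = {sec 𝒢 y} := by
        ext ω
        constructor
        · rintro ⟨⟨y', h1, rfl⟩, h2⟩
          have : y' = y := by simpa using h2
          rw [this]; rfl
        · rintro rfl
          exact ⟨⟨y, hy, rfl⟩, by simp⟩
      rw [this, Set.indicator_of_mem hy]
      simp
    · have : sec 𝒢 '' B ∩ pr 𝒢 ⁻¹' {y} = ∅ := by
        ext ω
        constructor
        · rintro ⟨⟨y', h1, rfl⟩, h2⟩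
          have : y' = y := by simpa using h2
          exact (hy (this ▸ h1)).elim
        · intro h; exact h.elim
      rw [this, Set.indicator_of_notMem hy]
      simp
  simp_rw [this]
  exact lintegral_indicator_one hB

theorem om_map : OM_map := by
  intro X _ _ _ _ μ _ hs 𝒢 𝒢' h S hS
  rw [om_count X μ hs 𝒢' _ (measurableSet_map_image h hS), om_count X μ hs 𝒢 _ hS]
  refine lintegral_mono fun y => ?_
  have : Om.map h '' S ∩ pr 𝒢' ⁻¹' {y} = Om.map h '' (S ∩ pr 𝒢 ⁻¹' {y}) := by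
    ext ω
    constructor
    · rintro ⟨⟨ω', h1, rfl⟩, h2⟩
      exact ⟨ω', ⟨h1, by simpa using h2⟩, rfl⟩
    · rintro ⟨ω', ⟨h1, h2⟩, rfl⟩
      exact ⟨⟨ω', h1, rfl⟩, by simpa using h2⟩
  rw [this, ENat.toENNReal_le]
  exact Set.encard_image_le _ _

end Crest.Agent.R191
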