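import Crest.Agent.R191.OMEGA1

/-! # Row 191, task OMEGA2 (helper13) -/

set_option autoImplicit false

namespace Crest.Agent.R191

open MeasureTheory
open scoped ENNReal

namespace OMEGA2

theorem enat_eq_tsum (n : ℕ∞) :
    (n : ℝ≥0∞) = ∑' k : ℕ, ({k : ℕ | (k : ℕ∞) + 1 ≤ n}).indicator (fun _ => (1 : ℝ≥0∞)) k := by
  rw [← tsum_subtype {k : ℕ | (k : ℕ∞) + 1 ≤ n} (fun _ => (1 : ℝ≥0∞)), ENNReal.tsum_set_one]
  congr 1
  induction n using ENat.recTopCoe with
  | top =>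
    have : {k : ℕ | (k : ℕ∞) + 1 ≤ ⊤} = Set.univ := by
      ext k; simp
    rw [this, Set.encard_univ]
    simp
  | coe n =>
    have : {k : ℕ | (k : ℕ∞) + 1 ≤ (n : ℕ∞)} = (Finset.range n : Set ℕ) := by
      ext k
      simp only [Set.mem_ofPred_eq, Finset.coe_range, Set.mem_Iio]
      norm_cast
    rw [this, Set.encard_coe_eq_coe_finsetCard]
    simp

variable {X : Type} [MeasurableSpace X] [MulAction FF X] [MeasurableConstSMul FF X]

theorem level {μ : Measure X} (hs : Sys X μ) (c M : X → ℕ∞)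
    (hc : ∀ k : ℕ, MeasurableSet {y | (k : ℕ∞) + 1 ≤ c y})
    (hal : μ {y | (1 : ℕ∞) ≤ c y} ≤ al)
    (hM : ∀ j < 80, ∀ y, c y ≤ M (tau j • y)) :
    70 * ∫⁻ y, (c y : ℝ≥0∞) ∂μ ≤ ∫⁻ y, (M y : ℝ≥0∞) ∂μ := by
  have him : ∀ (g : FF) (S : Set X), MeasurableSet S →
      MeasurableSet ((fun y : X => g • y) '' S) := by
    intro g S hS
    have : (fun y : X => g • y) '' S = (fun y : X => g⁻¹ • y) ⁻¹' S := by
      ext y
      constructor
      · rintro ⟨z, hz, rfl⟩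
        simpa using hz
      · intro h
        exact ⟨g⁻¹ • y, h, by simp⟩
    rw [this]
    exact measurable_const_smul g⁻¹ hS
  have h1 : ∫⁻ y, (c y : ℝ≥0∞) ∂μ = ∑' k : ℕ, μ {y | (k : ℕ∞) + 1 ≤ c y} := by
    have : ∀ y, (c y : ℝ≥0∞) = ∑' k : ℕ, ({y | (k : ℕ∞) + 1 ≤ c y}).indicator 1 y := by
      intro y
      rw [enat_eq_tsum]
      rfl
    simp_rw [this]
    rw [lintegral_tsum]
    · refine tsum_congr fun k => ?_
      exact lintegral_indicator_one (hc k)
    · exact fun k => (measurable_one.indicator (hc k)).aemeasurable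
  have h2 : ∀ k : ℕ, 70 * μ {y | (k : ℕ∞) + 1 ≤ c y} ≤
      μ (⋃ j : Fin 80, (fun y : X => tau (j : ℕ) • y) '' {y | (k : ℕ∞) + 1 ≤ c y}) := by
    intro k
    refine hs.exp _ (hc k) (le_trans (measure_mono ?_) hal)
    intro y hy
    exact (le_add_self : (1 : ℕ∞) ≤ (k : ℕ∞) + 1).trans hy
  rw [h1, ← ENNReal.tsum_mul_left]
  refine (ENNReal.tsum_le_tsum h2).trans ?_
  have h3 : ∀ k : ℕ, MeasurableSet
      (⋃ j : Fin 80, (fun y : X => tau (j : ℕ) • y) '' {y | (k : ℕ∞) + 1 ≤ c y}) := fun k =>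
    MeasurableSet.iUnion fun j => him _ _ (hc k)
  have h4 : ∑' k : ℕ, μ (⋃ j : Fin 80, (fun y : X => tau (j : ℕ) • y) ''
      {y | (k : ℕ∞) + 1 ≤ c y}) = ∫⁻ y, ∑' k : ℕ, (⋃ j : Fin 80,
        (fun y : X => tau (j : ℕ) • y) '' {y | (k : ℕ∞) + 1 ≤ c y}).indicator 1 y ∂μ := by
    rw [lintegral_tsum]
    · refine tsum_congr fun k => ?_
      exact (lintegral_indicator_one (h3 k)).symm
    · exact fun k => (measurable_one.indicator (h3 k)).aemeasurable
  rw [h4]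
  refine lintegral_mono fun y => ?_
  rw [enat_eq_tsum (M y)]
  refine ENNReal.tsum_le_tsum fun k => ?_
  by_cases hk : y ∈ ⋃ j : Fin 80, (fun y : X => tau (j : ℕ) • y) '' {y | (k : ℕ∞) + 1 ≤ c y}
  · rw [Set.indicator_of_mem hk]
    obtain ⟨j, z, hz, rfl⟩ := Set.mem_iUnion.1 hk
    have : k ∈ {k : ℕ | (k : ℕ∞) + 1 ≤ M (tau (j : ℕ) • z)} := le_trans hz (hM j j.2 z)
    rw [Set.indicator_of_mem this]
    rfl
  · rw [Set.indicator_of_notMem hk]
    exact bot_le

omit [MeasurableConstSMul FF X] in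
theorem image_fib (𝒢 : Gpd X) (k : FF) (C : Set (Om 𝒢)) (y : X) :
    (fun ω : Om 𝒢 => k • ω) '' (C ∩ pr 𝒢 ⁻¹' {y}) ⊆
      (fun ω : Om 𝒢 => k • ω) '' C ∩ pr 𝒢 ⁻¹' {k • y} := by
  rintro _ ⟨ω, ⟨h1, h2⟩, rfl⟩
  have h3 : pr 𝒢 ω = y := h2
  exact ⟨⟨ω, h1, rfl⟩, by simp [pr_smul, h3]⟩

theorem ennreal_le_iff (a : ℕ) (n : ℕ∞) : (a : ℕ∞) + 1 ≤ n ↔ ((a : ℝ≥0∞) + 1 ≤ (n : ℝ≥0∞)) := by
  rw [← ENat.toENNReal_le]
  simp

theorem one_le_iff (n : ℕ∞) : (1 : ℕ∞) ≤ n ↔ ((1 : ℝ≥0∞) ≤ (n : ℝ≥0∞)) := by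
  rw [← ENat.toENNReal_le]
  simp

end OMEGA2

open OMEGA2 in
theorem om_exp : OM_exp := by
  intro X _ _ _ _ μ _ hs 𝒢 C hC hal
  have hU : MeasurableSet (⋃ j : Fin 80, (fun ω : Om 𝒢 => tau (j : ℕ) • ω) '' C) :=
    MeasurableSet.iUnion fun j => measurableSet_smul_image hC _
  rw [om_count X μ hs 𝒢 _ hU, om_count X μ hs 𝒢 C hC]
  rw [om_count X μ hs 𝒢 C hC] at hal
  refine level hs _ _ ?_ ?_ ?_
  · intro k
    simp_rw [ennreal_le_iff]
    exact measurableSet_le measurable_const (OMEGA1.measurable_cnt 𝒢 hC)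
  · refine le_trans ?_ hal
    have h1 : MeasurableSet {y : X | (1 : ℕ∞) ≤ (C ∩ pr 𝒢 ⁻¹' {y}).encard} := by
      simp_rw [one_le_iff]
      exact measurableSet_le (measurable_const (a := (1 : ℝ≥0∞))) (OMEGA1.measurable_cnt 𝒢 hC)
    rw [← lintegral_indicator_one h1]
    refine lintegral_mono fun y => ?_
    by_cases hy : y ∈ {y : X | (1 : ℕ∞) ≤ (C ∩ pr 𝒢 ⁻¹' {y}).encard}
    · rw [Set.indicator_of_mem hy]
      have : ((1 : ℕ∞) : ℝ≥0∞) ≤ (((C ∩ pr 𝒢 ⁻¹' {y}).encard : ℕ∞) : ℝ≥0∞) :=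
        ENat.toENNReal_le.2 hy
      simpa using this
    · rw [Set.indicator_of_notMem hy]
      exact bot_le
  · intro j hj y
    rw [← (MulAction.injective (tau j)).encard_image (C ∩ pr 𝒢 ⁻¹' {y})]
    refine Set.encard_le_encard ((image_fib 𝒢 (tau j) C y).trans ?_)
    refine Set.inter_subset_inter_left _ ?_
    exact Set.subset_iUnion (fun j : Fin 80 => (fun ω : Om 𝒢 => tau (j : ℕ) • ω) '' C) ⟨j, hj⟩

open OMEGA2 in
theorem om_loss : OM_loss := by
  intro X _ _ _ _ μ _ hs 𝒢 𝒢' h T C hT hC hTf hal hbd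
  classical
  set f := Om.map h with hf
  have hfT := measurableSet_map_image h hT
  have hfC := measurableSet_map_image h hC
  have fib : ∀ (S : Set (Om 𝒢)) (y : X),
      f '' S ∩ pr 𝒢' ⁻¹' {y} = f '' (S ∩ pr 𝒢 ⁻¹' {y}) := by
    intro S y
    ext ω
    constructor
    · rintro ⟨⟨ω', h1, rfl⟩, h2⟩
      exact ⟨ω', ⟨h1, by simpa [hf] using h2⟩, rfl⟩
    · rintro ⟨ω', ⟨h1, h2⟩, rfl⟩
      exact ⟨⟨ω', h1, rfl⟩, by simpa [hf] using h2⟩
  have hCT : C ⊆ T := by
    intro ω hω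
    have := hbd ω hω 0 (by norm_num)
    simpa [tau] using this
  -- counting functions
  set cT : X → ℕ∞ := fun y => (T ∩ pr 𝒢 ⁻¹' {y}).encard with hcT
  set cC : X → ℕ∞ := fun y => (C ∩ pr 𝒢 ⁻¹' {y}).encard with hcC
  set dT : X → ℕ∞ := fun y => (f '' T ∩ pr 𝒢' ⁻¹' {y}).encard with hdT
  set dC : X → ℕ∞ := fun y => (f '' C ∩ pr 𝒢' ⁻¹' {y}).encard with hdC
  have mcT : Measurable fun y => (cT y : ℝ≥0∞) := OMEGA1.measurable_cnt 𝒢 hT
  have mcC : Measurable fun y => (cC y : ℝ≥0∞) := OMEGA1.measurable_cnt 𝒢 hC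
  have mdT : Measurable fun y => (dT y : ℝ≥0∞) := OMEGA1.measurable_cnt 𝒢' hfT
  have mdC : Measurable fun y => (dC y : ℝ≥0∞) := OMEGA1.measurable_cnt 𝒢' hfC
  have eT : mO μ 𝒢 T = ∫⁻ y, (cT y : ℝ≥0∞) ∂μ := om_count X μ hs 𝒢 T hT
  have eC : mO μ 𝒢 C = ∫⁻ y, (cC y : ℝ≥0∞) ∂μ := om_count X μ hs 𝒢 C hC
  have eT' : mO μ 𝒢' (f '' T) = ∫⁻ y, (dT y : ℝ≥0∞) ∂μ := om_count X μ hs 𝒢' _ hfT
  have eC' : mO μ 𝒢' (f '' C) = ∫⁻ y, (dC y : ℝ≥0∞) ∂μ := om_count X μ hs 𝒢' _ hfC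
  set c : X → ℕ∞ := fun y => if cC y = ⊤ then 0 else cC y - dC y with hc
  set M : X → ℕ∞ := fun y => if cT y = ⊤ then ⊤ else cT y - dT y with hM
  have hdCle : ∀ y, dC y ≤ cC y := fun y => by
    simp only [hdC, hcC, fib]; exact Set.encard_image_le _ _
  have hdTle : ∀ y, dT y ≤ cT y := fun y => by
    simp only [hdT, hcT, fib]; exact Set.encard_image_le _ _
  have hlev : 70 * ∫⁻ y, (c y : ℝ≥0∞) ∂μ ≤ ∫⁻ y, (M y : ℝ≥0∞) ∂μ := by
    refine level hs c M ?_ ?_ ?_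
    · intro k
      have : {y | (k : ℕ∞) + 1 ≤ c y} = {y | (cC y : ℝ≥0∞) ≠ ⊤} ∩
          {y | ((k : ℝ≥0∞) + 1) + (dC y : ℝ≥0∞) ≤ (cC y : ℝ≥0∞)} := by
        ext y
        simp only [hc, Set.mem_ofPred_eq, Set.mem_inter_iff]
        by_cases ht : cC y = ⊤
        · simp [ht]
        · rw [if_neg ht]
          have h1 : ((cC y : ℕ∞) : ℝ≥0∞) ≠ ⊤ := by simpa using ht
          have h2 : ((k : ℝ≥0∞) + 1) + (dC y : ℝ≥0∞) = (((k : ℕ∞) + 1 + dC y : ℕ∞) : ℝ≥0∞) := by
            simp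
          rw [h2, ENat.toENNReal_le]
          have hdt : dC y ≠ ⊤ := fun h => ht (top_le_iff.1 (h ▸ hdCle y))
          obtain ⟨a, ha⟩ := ENat.ne_top_iff_exists.1 ht
          obtain ⟨b, hb⟩ := ENat.ne_top_iff_exists.1 hdt
          rw [← ha, ← hb]
          have hba : b ≤ a := by
            have := hdCle y
            rw [← ha, ← hb] at this
            exact_mod_cast this
          constructor
          · intro h3
            have h4 : (k + 1 : ℕ) ≤ a - b := by exact_mod_cast h3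
            refine ⟨by simp, ?_⟩
            have : k + 1 + b ≤ a := by omega
            exact_mod_cast this
          · rintro ⟨_, h3⟩
            have h4 : k + 1 + b ≤ a := by exact_mod_cast h3
            have : (k + 1 : ℕ) ≤ a - b := by omega
            exact_mod_cast this
      rw [this]
      refine MeasurableSet.inter ?_ ?_
      · exact (mcC (measurableSet_singleton ⊤)).compl
      · exact measurableSet_le (measurable_const.add mdC) mcC
    · refine le_trans ?_ hal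
      rw [eC]
      have hle : ∀ y, c y ≤ cC y := by
        intro y
        simp only [hc]
        split_ifs
        · exact bot_le
        · exact tsub_le_self
      have h1 : MeasurableSet {y : X | (1 : ℕ∞) ≤ cC y} := by
        simp_rw [one_le_iff]
        exact measurableSet_le (measurable_const (a := (1 : ℝ≥0∞))) mcC
      calc μ {y | (1 : ℕ∞) ≤ c y} ≤ μ {y : X | (1 : ℕ∞) ≤ cC y} :=
            measure_mono fun y hy => le_trans hy (hle y)
        _ ≤ ∫⁻ y, (cC y : ℝ≥0∞) ∂μ := by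
            rw [← lintegral_indicator_one h1]
            refine lintegral_mono fun y => ?_
            by_cases hy : y ∈ {y : X | (1 : ℕ∞) ≤ cC y}
            · rw [Set.indicator_of_mem hy]
              have : ((1 : ℕ∞) : ℝ≥0∞) ≤ ((cC y : ℕ∞) : ℝ≥0∞) := ENat.toENNReal_le.2 hy
              simpa using this
            · rw [Set.indicator_of_notMem hy]
              exact bot_le
    · intro j hj y
      simp only [hM, hc]
      by_cases hTt : cT (tau j • y) = ⊤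
      · rw [if_pos hTt]; exact le_top
      · rw [if_neg hTt]
        -- finite fibre
        set S : Set (Om 𝒢) := (fun ω : Om 𝒢 => tau j • ω) '' (C ∩ pr 𝒢 ⁻¹' {y}) with hS
        have hST : S ⊆ T ∩ pr 𝒢 ⁻¹' {tau j • y} := by
          rintro _ ⟨ω, ⟨h1, h2⟩, rfl⟩
          have h3 : pr 𝒢 ω = y := h2
          exact ⟨hbd ω h1 j hj, by simp [pr_smul, h3]⟩
        have hTfin : (T ∩ pr 𝒢 ⁻¹' {tau j • y}).Finite := Set.encard_ne_top_iff.1 hTt
        have hSfin : S.Finite := hTfin.subset hST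
        have hSc : S.encard = cC y := (MulAction.injective (tau j)).encard_image _
        have hfS : (f '' S).encard = dC y := by
          have : f '' S = (fun ω : Om 𝒢' => tau j • ω) '' (f '' (C ∩ pr 𝒢 ⁻¹' {y})) := by
            rw [hS, Set.image_image, Set.image_image]
            refine Set.image_congr fun ω _ => ?_
            exact Om.map_smul h _ _
          rw [this, (MulAction.injective (tau j)).encard_image, ← fib]
        have hCne : cC y ≠ ⊤ := by rw [← hSc]; exact Set.encard_ne_top_iff.2 hSfin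
        rw [if_neg hCne]
        -- |fT| ≤ |fS| + |T \ S|
        set TT := T ∩ pr 𝒢 ⁻¹' {tau j • y} with hTT
        have h5 : dT (tau j • y) ≤ dC y + (TT \ S).encard := by
          rw [← hfS]
          simp only [hdT, fib]
          calc (f '' TT).encard = (f '' S ∪ f '' (TT \ S)).encard := by
                rw [← Set.image_union, Set.union_sdiff_cancel hST]
            _ ≤ (f '' S).encard + (f '' (TT \ S)).encard := Set.encard_union_le _ _
            _ ≤ (f '' S).encard + (TT \ S).encard := by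
                gcongr; exact Set.encard_image_le _ _
        have h6 : cT (tau j • y) = cC y + (TT \ S).encard := by
          rw [← hSc, add_comm]
          exact (Set.encard_sdiff_add_encard_of_subset hST).symm
        obtain ⟨a, ha⟩ := ENat.ne_top_iff_exists.1 hCne
        have hdt : dC y ≠ ⊤ := fun h => hCne (top_le_iff.1 (h ▸ hdCle y))
        obtain ⟨b, hb⟩ := ENat.ne_top_iff_exists.1 hdt
        have hdiff : (TT \ S).encard ≠ ⊤ :=
          Set.encard_ne_top_iff.2 (hTfin.subset Set.sdiff_subset)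
        obtain ⟨e, he⟩ := ENat.ne_top_iff_exists.1 hdiff
        have hdTt : dT (tau j • y) ≠ ⊤ := fun h => hTt (top_le_iff.1 (h ▸ hdTle _))
        obtain ⟨e', he'⟩ := ENat.ne_top_iff_exists.1 hdTt
        rw [h6, ← ha, ← hb, ← he, ← he']
        rw [← hb, ← he, ← he'] at h5
        have h7 : e' ≤ b + e := by exact_mod_cast h5
        have hba : b ≤ a := by
          have := hdCle y
          rw [← ha, ← hb] at this
          exact_mod_cast this
        have : a - b ≤ (a + e) - e' := by omega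
        exact_mod_cast this
  -- conclusions
  have hA : mO μ 𝒢 T = ∫⁻ y, (M y : ℝ≥0∞) ∂μ + mO μ 𝒢' (f '' T) := by
    rw [eT, eT', ← lintegral_add_right _ mdT]
    refine lintegral_congr fun y => ?_
    rw [← ENat.toENNReal_add]
    congr 1
    simp only [hM]
    split_ifs with ht
    · rw [ht]; simp
    · exact (tsub_add_cancel_of_le (hdTle y)).symm
  have hB : mO μ 𝒢 C ≤ ∫⁻ y, (c y : ℝ≥0∞) ∂μ + mO μ 𝒢' (f '' C) := by
    rw [eC, eC', ← lintegral_add_right _ mdC]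
    have hae : ∀ᵐ y ∂μ, (cT y : ℝ≥0∞) < ⊤ := by
      refine ae_lt_top mcT ?_
      rw [← eT]; exact hTf
    refine lintegral_mono_ae ?_
    filter_upwards [hae] with y hy
    rw [← ENat.toENNReal_add, ENat.toENNReal_le]
    have hCn : cC y ≠ ⊤ := by
      intro ht
      have : cC y ≤ cT y := Set.encard_le_encard (Set.inter_subset_inter_left _ hCT)
      rw [ht, top_le_iff] at this
      rw [this] at hy
      simp at hy
    simp only [hc]
    rw [if_neg hCn]
    exact (tsub_add_cancel_of_le (hdCle y)).ge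
  calc mO μ 𝒢' (f '' T) + 70 * mO μ 𝒢 C
      ≤ mO μ 𝒢' (f '' T) + 70 * (∫⁻ y, (c y : ℝ≥0∞) ∂μ + mO μ 𝒢' (f '' C)) := by gcongr
    _ = 70 * ∫⁻ y, (c y : ℝ≥0∞) ∂μ + mO μ 𝒢' (f '' T) + 70 * mO μ 𝒢' (f '' C) := by ring
    _ ≤ ∫⁻ y, (M y : ℝ≥0∞) ∂μ + mO μ 𝒢' (f '' T) + 70 * mO μ 𝒢' (f '' C) := by gcongr
    _ = mO μ 𝒢 T + 70 * mO μ 𝒢' (f '' C) := by rw [hA]

end Crest.Agent.R191
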