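import Crest.Agent.R191.PERM_A

/-! Row 191: random permutations have few fixed points of words (helper20) -/

set_option autoImplicit false

open Finset Nat

namespace Crest.Agent.R191.PERM

open Equiv

section
variable {n : ℕ}

/-- action of a letter -/
def sg (p : Fin 79 → Equiv.Perm (Fin n)) (x : Fin 79 × Bool) : Equiv.Perm (Fin n) :=
  cond x.2 (p x.1) (p x.1)⁻¹

theorem prod_traj (p : Fin 79 → Equiv.Perm (Fin n)) (L : List (Fin 79 × Bool)) :
    ∀ u : ℕ → Fin n, (∀ i (h : i < L.length), sg p L[i] (u (i + 1)) = u i) →
      (L.map (sg p)).prod (u L.length) = u 0 := by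
  induction L with
  | nil => intro u _; simp
  | cons x L ih =>
    intro u hu
    rw [List.map_cons, List.prod_cons, Equiv.Perm.mul_apply, List.length_cons]
    have h1 := ih (fun i => u (i + 1)) (fun i h => by
      have := hu (i + 1) (by rw [List.length_cons]; omega)
      simpa using this)
    rw [h1]
    have := hu 0 (by simp)
    simpa using this

/-- the trajectory condition -/
def Tr (p : Fin 79 → Equiv.Perm (Fin n)) (L : List (Fin 79 × Bool))
    (f : Fin (L.length + 1) ↪ Fin n) : Prop :=
  ∀ i : Fin L.length, sg p (L.get i) (f i.succ) = f i.castSucc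

theorem Tr.prod {p : Fin 79 → Equiv.Perm (Fin n)} {L : List (Fin 79 × Bool)}
    {f : Fin (L.length + 1) ↪ Fin n} (h : Tr p L f) :
    (L.map (sg p)).prod (f (Fin.last _)) = f 0 := by
  set u : ℕ → Fin n := fun i => if h : i < L.length + 1 then f ⟨i, h⟩ else f 0 with hu
  have h1 := prod_traj p L u (by
    intro i hi
    have h2 := h ⟨i, hi⟩
    simp only [hu]
    rw [dif_pos (by omega), dif_pos (by omega)]
    exact h2)
  have h2 : u L.length = f (Fin.last _) := by
    simp only [hu]
    rw [dif_pos (by omega)]
    rfl
  have h3 : u 0 = f 0 := by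
    simp only [hu]
    rw [dif_pos (by omega)]
    rfl
  rw [h2, h3] at h1
  exact h1

theorem Tr.ext {p : Fin 79 → Equiv.Perm (Fin n)} {L : List (Fin 79 × Bool)}
    {f f' : Fin (L.length + 1) ↪ Fin n} (h : Tr p L f) (h' : Tr p L f')
    (hl : f (Fin.last _) = f' (Fin.last _)) : f = f' := by
  have : ∀ i : Fin (L.length + 1), f i = f' i := by
    intro i
    induction i using Fin.reverseInduction with
    | last => exact hl
    | cast i ih =>
      rw [← h i, ← h' i, ih]
  exact DFunLike.ext _ _ this

open Classical in
theorem fiber_bound (p : Fin 79 → Equiv.Perm (Fin n)) (L : List (Fin 79 × Bool)) (hL : L ≠ []) :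
    (Finset.univ.filter (fun v : Fin n => (L.map (sg p)).prod v = v)).card +
      (Finset.univ.filter (fun f : Fin (L.length + 1) ↪ Fin n => Tr p L f)).card ≤ n := by
  have h1 : ((Finset.univ.filter (fun f : Fin (L.length + 1) ↪ Fin n => Tr p L f)).image
      (fun f => f (Fin.last _))).card =
      (Finset.univ.filter (fun f : Fin (L.length + 1) ↪ Fin n => Tr p L f)).card := by
    apply Finset.card_image_of_injOn
    intro f hf f' hf' h
    simp only [Finset.coe_filter, Finset.mem_univ, true_and, Set.mem_ofPred_eq] at hf hf'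
    exact hf.ext hf' h
  rw [← h1, ← Finset.card_union_of_disjoint]
  · calc _ ≤ (Finset.univ : Finset (Fin n)).card := Finset.card_le_card (Finset.subset_univ _)
      _ = n := by rw [Finset.card_univ, Fintype.card_fin]
  · rw [Finset.disjoint_left]
    intro v hv hv'
    simp only [Finset.mem_filter, Finset.mem_univ, true_and] at hv
    obtain ⟨f, hf, rfl⟩ := Finset.mem_image.1 hv'
    simp only [Finset.mem_filter, Finset.mem_univ, true_and] at hf
    rw [hf.prod] at hv
    have h2 := f.injective hv
    have h3 : L.length ≠ 0 := by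
      intro h; exact hL (List.length_eq_zero_iff.1 h)
    have h4 := congrArg Fin.val h2
    simp at h4
    omega

theorem adj_of_reduced {L : List (Fin 79 × Bool)} (hr : FreeGroup.IsReduced L) (i : ℕ)
    (hi : i + 1 < L.length) (h : (L[i]).1 = (L[i + 1]).1) : (L[i]).2 = (L[i + 1]).2 := by
  unfold FreeGroup.IsReduced at hr
  exact (List.isChain_iff_getElem.1 hr i hi) h

theorem factorial_le (n m : ℕ) (h : m ≤ n) : n ! ≤ n ^ m * (n - m)! := by
  rw [← Nat.factorial_mul_descFactorial h, mul_comm]
  exact Nat.mul_le_mul_right _ (Nat.descFactorial_le_pow n m)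

open Classical in
theorem count_traj (L : List (Fin 79 × Bool)) (hr : FreeGroup.IsReduced L)
    (f : Fin (L.length + 1) ↪ Fin n) :
    (n !) ^ 79 ≤ n ^ L.length *
      (Finset.univ.filter (fun p : Fin 79 → Equiv.Perm (Fin n) => Tr p L f)).card := by
  set a : Fin L.length → Fin n := fun i => if (L.get i).2 then f i.succ else f i.castSucc with ha
  set b : Fin L.length → Fin n := fun i => if (L.get i).2 then f i.castSucc else f i.succ with hb
  set I : Fin 79 → Finset (Fin L.length) := fun j => Finset.univ.filter (fun i => (L.get i).1 = j)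
    with hI
  have hlen : L.length + 1 ≤ n := by
    have := Fintype.card_le_of_embedding f
    simpa using this
  have hTr : ∀ p : Fin 79 → Equiv.Perm (Fin n), Tr p L f ↔ ∀ j, ∀ i ∈ I j, p j (a i) = b i := by
    intro p
    constructor
    · intro h j i hi
      simp only [hI, Finset.mem_filter, Finset.mem_univ, true_and] at hi
      have h1 := h i
      simp only [ha, hb]
      by_cases hb2 : (L.get i).2
      · rw [if_pos hb2, if_pos hb2]
        simp only [sg, hb2, cond_true, hi] at h1
        exact h1
      · rw [if_neg hb2, if_neg hb2]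
        simp only [Bool.not_eq_true] at hb2
        simp only [sg, hb2, cond_false, hi] at h1
        rw [← h1]
        exact Equiv.apply_symm_apply _ _
    · intro h i
      have h1 := h (L.get i).1 i (by simp [hI])
      simp only [ha, hb] at h1
      by_cases hb2 : (L.get i).2
      · rw [if_pos hb2, if_pos hb2] at h1
        simp only [sg, hb2, cond_true]
        exact h1
      · rw [if_neg hb2, if_neg hb2] at h1
        simp only [Bool.not_eq_true] at hb2
        simp only [sg, hb2, cond_false]
        rw [← h1]
        exact Equiv.symm_apply_apply _ _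
  have key : ∀ (i i' : Fin L.length), (L.get i).1 = (L.get i').1 → (L.get i).2 = true →
      (L.get i').2 = false → f i.succ ≠ f i'.castSucc ∧ f i.castSucc ≠ f i'.succ := by
    intro i i' h1 h2 h3
    constructor
    · intro h
      have h4 := congrArg Fin.val (f.injective h)
      simp only [Fin.val_succ, Fin.val_castSucc] at h4
      have h5 := adj_of_reduced hr i (by omega) (by
        have : (L.get i').1 = (L[(i : ℕ) + 1]'(by omega)).1 := by
          simp only [List.get_eq_getElem, h4]
        rw [← this, ← h1]; rfl)
      have h6 : (L.get i').2 = (L[(i : ℕ) + 1]'(by omega)).2 := by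
        simp only [List.get_eq_getElem, h4]
      rw [← h6, h3] at h5
      have h7 : (L.get i).2 = false := h5
      rw [h2] at h7
      exact Bool.noConfusion h7
    · intro h
      have h4 := congrArg Fin.val (f.injective h)
      simp only [Fin.val_succ, Fin.val_castSucc] at h4
      have h5 := adj_of_reduced hr i' (by omega) (by
        have : (L.get i).1 = (L[(i' : ℕ) + 1]'(by omega)).1 := by
          simp only [List.get_eq_getElem, h4]
        rw [← this, h1]; rfl)
      have h6 : (L.get i).2 = (L[(i' : ℕ) + 1]'(by omega)).2 := by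
        simp only [List.get_eq_getElem, h4]
      rw [← h6, h2] at h5
      have h7 : (L.get i').2 = true := h5
      rw [h3] at h7
      exact Bool.noConfusion h7
  have hainj : ∀ j, Set.InjOn a (I j) := by
    intro j i hi i' hi' h
    simp only [hI, Finset.coe_filter, Finset.mem_univ, true_and, Set.mem_ofPred_eq] at hi hi'
    simp only [ha] at h
    cases hb1 : (L.get i).2 <;> cases hb2 : (L.get i').2 <;> rw [hb1, hb2] at h <;>
      simp only [Bool.false_eq_true, if_false, if_true] at h
    · exact Fin.castSucc_injective _ (f.injective h)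
    · exact absurd h.symm (key i' i (by rw [hi, hi']) hb2 hb1).1
    · exact absurd h (key i i' (by rw [hi, hi']) hb1 hb2).1
    · exact Fin.succ_injective _ (f.injective h)
  have hbinj : ∀ j, Set.InjOn b (I j) := by
    intro j i hi i' hi' h
    simp only [hI, Finset.coe_filter, Finset.mem_univ, true_and, Set.mem_ofPred_eq] at hi hi'
    simp only [hb] at h
    cases hb1 : (L.get i).2 <;> cases hb2 : (L.get i').2 <;> rw [hb1, hb2] at h <;>
      simp only [Bool.false_eq_true, if_false, if_true] at h
    · exact Fin.succ_injective _ (f.injective h)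
    · exact absurd h.symm (key i' i (by rw [hi, hi']) hb2 hb1).2
    · exact absurd h (key i i' (by rw [hi, hi']) hb1 hb2).2
    · exact Fin.castSucc_injective _ (f.injective h)
  have hset : (Finset.univ.filter (fun p : Fin 79 → Equiv.Perm (Fin n) => Tr p L f)) =
      Fintype.piFinset (fun j : Fin 79 =>
        Finset.univ.filter (fun q : Equiv.Perm (Fin n) => ∀ i ∈ I j, q (a i) = b i)) := by
    ext p
    rw [Fintype.mem_piFinset]
    simp only [Finset.mem_filter, Finset.mem_univ, true_and]
    exact hTr p
  rw [hset, Fintype.card_piFinset]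
  have hsum : ∑ j : Fin 79, (I j).card = L.length := by
    have := Finset.card_eq_sum_card_fiberwise (f := fun i : Fin L.length => (L.get i).1)
      (s := Finset.univ) (t := Finset.univ) (fun _ _ => by simp)
    rw [Finset.card_univ, Fintype.card_fin] at this
    exact this.symm
  have hcard : ∀ j : Fin 79, (Finset.univ.filter
      (fun q : Equiv.Perm (Fin n) => ∀ i ∈ I j, q (a i) = b i)).card = (n - (I j).card)! := by
    intro j
    have h3 := card_ext (I j) a b (hainj j) (hbinj j)
    rw [Fintype.card_fin] at h3
    refine (congrArg Finset.card ?_).trans h3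
    ext q
    simp only [Finset.mem_filter]
  have hpw : n ^ L.length = ∏ j : Fin 79, n ^ (I j).card := by
    rw [Finset.prod_pow_eq_pow_sum, hsum]
  rw [Finset.prod_congr rfl (fun j _ => hcard j), hpw, ← Finset.prod_mul_distrib]
  calc (n !) ^ 79 = ∏ _j : Fin 79, n ! := by
        rw [Finset.prod_const, Finset.card_univ, Fintype.card_fin]
    _ ≤ ∏ j : Fin 79, (n ^ (I j).card * (n - (I j).card)!) := by
        apply Finset.prod_le_prod'
        intro j _
        apply factorial_le
        have : (I j).card ≤ (Finset.univ : Finset (Fin L.length)).card :=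
          Finset.card_le_card (Finset.filter_subset _ _)
        rw [Finset.card_univ, Fintype.card_fin] at this
        omega

theorem pow_le_desc (n m : ℕ) : n ^ (m + 1) ≤ n.descFactorial (m + 1) + (m + 1) ^ 2 * n ^ m := by
  induction m with
  | zero => simp [Nat.descFactorial_succ]
  | succ m ih =>
    have h1 : n * n.descFactorial (m + 1) ≤
        (n - (m + 1)) * n.descFactorial (m + 1) + (m + 1) * n.descFactorial (m + 1) := by
      rw [← add_mul]
      exact Nat.mul_le_mul_right _ (by omega)
    have h2 : n.descFactorial (m + 1) ≤ n ^ (m + 1) := Nat.descFactorial_le_pow _ _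
    rw [Nat.descFactorial_succ n (m + 1)]
    calc n ^ (m + 1 + 1) = n * n ^ (m + 1) := by ring
      _ ≤ n * (n.descFactorial (m + 1) + (m + 1) ^ 2 * n ^ m) := Nat.mul_le_mul_left _ ih
      _ = n * n.descFactorial (m + 1) + (m + 1) ^ 2 * n ^ (m + 1) := by ring
      _ ≤ (n - (m + 1)) * n.descFactorial (m + 1) + (m + 1) * n ^ (m + 1)
          + (m + 1) ^ 2 * n ^ (m + 1) := by
          have := Nat.mul_le_mul_left (m + 1) h2
          omega
      _ ≤ (n - (m + 1)) * n.descFactorial (m + 1) + (m + 1 + 1) ^ 2 * n ^ (m + 1) := by
          have : (m + 1) * n ^ (m + 1) + (m + 1) ^ 2 * n ^ (m + 1) ≤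
              (m + 1 + 1) ^ 2 * n ^ (m + 1) := by
            rw [← add_mul]
            exact Nat.mul_le_mul_right _ (by nlinarith)
          omega

end

open Classical in
theorem perm_b (w : FreeGroup (Fin 79)) (hw : w ≠ 1) : ∃ K : ℕ, ∀ n : ℕ,
    ∑ p : Fin 79 → Equiv.Perm (Fin n),
      (Finset.univ.filter (fun v : Fin n => FreeGroup.lift p w v = v)).card ≤ K * (n !) ^ 79 := by
  set L := w.toWord with hL
  have hLne : L ≠ [] := by
    rw [hL, Ne, FreeGroup.toWord_eq_nil_iff]; exact hw
  have hr : FreeGroup.IsReduced L := FreeGroup.isReduced_toWord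
  refine ⟨(L.length + 1) ^ 2, ?_⟩
  intro n
  have hlift : ∀ p : Fin 79 → Equiv.Perm (Fin n), FreeGroup.lift p w = (L.map (sg p)).prod := by
    intro p
    conv_lhs => rw [← FreeGroup.mk_toWord (x := w)]
    rw [FreeGroup.lift_mk]
    rfl
  simp only [hlift]
  rcases Nat.eq_zero_or_pos n with hn | hn
  · subst hn
    have : ∀ p : Fin 79 → Equiv.Perm (Fin 0),
        (Finset.univ.filter (fun v : Fin 0 => (L.map (sg p)).prod v = v)).card = 0 := by
      intro p
      rw [Finset.card_eq_zero]
      ext v
      exact v.elim0
    rw [Finset.sum_congr rfl (fun p _ => this p)]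
    simp
  have h1 := Finset.sum_le_sum (fun (p : Fin 79 → Equiv.Perm (Fin n))
    (_ : p ∈ (Finset.univ : Finset (Fin 79 → Equiv.Perm (Fin n)))) => fiber_bound p L hLne)
  rw [Finset.sum_add_distrib, Finset.sum_const, Finset.card_univ] at h1
  have hcardp : Fintype.card (Fin 79 → Equiv.Perm (Fin n)) = (n !) ^ 79 := by
    rw [Fintype.card_fun, Fintype.card_perm, Fintype.card_fin, Fintype.card_fin]
  rw [hcardp, smul_eq_mul] at h1
  -- swap
  have h2 : ∑ p : Fin 79 → Equiv.Perm (Fin n),
      (Finset.univ.filter (fun f : Fin (L.length + 1) ↪ Fin n => Tr p L f)).card =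
      ∑ f : Fin (L.length + 1) ↪ Fin n,
        (Finset.univ.filter (fun p : Fin 79 → Equiv.Perm (Fin n) => Tr p L f)).card := by
    simp only [Finset.card_filter]
    exact Finset.sum_comm
  have h3 : n.descFactorial (L.length + 1) * (n !) ^ 79 ≤ n ^ L.length *
      ∑ f : Fin (L.length + 1) ↪ Fin n,
        (Finset.univ.filter (fun p : Fin 79 → Equiv.Perm (Fin n) => Tr p L f)).card := by
    rw [Finset.mul_sum]
    calc n.descFactorial (L.length + 1) * (n !) ^ 79
        = ∑ _f : Fin (L.length + 1) ↪ Fin n, (n !) ^ 79 := by
          rw [Finset.sum_const, Finset.card_univ, Fintype.card_embedding_eq, Fintype.card_fin,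
            Fintype.card_fin, smul_eq_mul]
      _ ≤ _ := Finset.sum_le_sum (fun f _ => count_traj L hr f)
  rw [h2] at h1
  have h4 := pow_le_desc n L.length
  set A := ∑ p : Fin 79 → Equiv.Perm (Fin n),
    (Finset.univ.filter (fun v : Fin n => (L.map (sg p)).prod v = v)).card with hA
  set B := ∑ f : Fin (L.length + 1) ↪ Fin n,
    (Finset.univ.filter (fun p : Fin 79 → Equiv.Perm (Fin n) => Tr p L f)).card with hB
  set N := (n !) ^ 79 with hN
  have hpos : 0 < n ^ L.length := by positivity
  have h5 : n ^ L.length * A ≤ n ^ L.length * ((L.length + 1) ^ 2 * N) := by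
    have e1 := Nat.mul_le_mul_left (n ^ L.length) h1
    have e2 := Nat.mul_le_mul_right N h4
    have e3 : n ^ L.length * (A + B) = n ^ L.length * A + n ^ L.length * B := by ring
    have e4 : n ^ L.length * (N * n) = n ^ (L.length + 1) * N := by ring
    have e5 : (n.descFactorial (L.length + 1) + (L.length + 1) ^ 2 * n ^ L.length) * N =
        n.descFactorial (L.length + 1) * N + n ^ L.length * ((L.length + 1) ^ 2 * N) := by ring
    rw [e3, e4] at e1
    rw [e5] at e2
    omega
  exact Nat.le_of_mul_le_mul_left h5 hpos

end Crest.Agent.R191.PERM
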