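import Crest.Agent.R191.Stmts
import Crest.Agent.R191.PERM_B

/-! Row 191: PERM (helper20) -/

set_option autoImplicit false

open Finset Nat

namespace Crest.Agent.R191

namespace PERM

theorem exists_good {α : Type*} [Fintype α] (Fail : α → Prop)
    (N n : ℕ) (hN : Fintype.card α = N) (hNpos : 0 < N) (bad : α → ℕ) (KW : ℕ) (δ : ℝ)
    (hδ : 0 < δ) (hn : 0 < n)
    [DecidablePred Fail]
    (h1 : 4 * (((Finset.univ : Finset α).filter Fail).card : ℝ) ≤ (N : ℝ))
    (h2 : ∑ p, bad p ≤ KW * N) (h3 : 4 * (KW : ℝ) < δ * n) :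
    ∃ p : α, ¬ Fail p ∧ (bad p : ℝ) ≤ δ * n := by
  classical
  have hNpos' : (0 : ℝ) < N := by exact_mod_cast hNpos
  set F2 := (Finset.univ : Finset α).filter (fun p => δ * n < (bad p : ℝ)) with hF2
  have hc2 : (F2.card : ℝ) * (δ * n) ≤ KW * N := by
    have h1 : (F2.card : ℝ) * (δ * n) ≤ ∑ p ∈ F2, (bad p : ℝ) := by
      rw [← nsmul_eq_mul, ← Finset.sum_const]
      apply Finset.sum_le_sum
      intro p hp
      rw [hF2, Finset.mem_filter] at hp
      exact hp.2.le
    have h2' : ∑ p ∈ F2, (bad p : ℝ) ≤ ∑ p, (bad p : ℝ) :=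
      Finset.sum_le_sum_of_subset_of_nonneg (Finset.filter_subset _ _)
        (fun _ _ _ => by positivity)
    have h3 : (∑ p, (bad p : ℝ)) ≤ KW * N := by exact_mod_cast h2
    linarith
  have hc2' : 4 * (F2.card : ℝ) ≤ N := by
    by_contra hcon
    push Not at hcon
    have hn' : (0 : ℝ) < n := by exact_mod_cast hn
    have h1 : 0 < δ * n := by positivity
    nlinarith [mul_lt_mul_of_pos_right hcon h1, mul_lt_mul_of_pos_right h3 hNpos']
  have hex : ∃ p, p ∉ (Finset.univ : Finset α).filter Fail ∪ F2 := by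
    by_contra hcon
    push Not at hcon
    have h1' : (Finset.univ : Finset α) ⊆ (Finset.univ : Finset α).filter Fail ∪ F2 :=
      fun p _ => hcon p
    have h2 := (Finset.card_le_card h1').trans (Finset.card_union_le _ _)
    rw [Finset.card_univ, hN] at h2
    have h3 : (N : ℝ) ≤ ((Finset.univ : Finset α).filter Fail).card + F2.card := by
      exact_mod_cast h2
    linarith
  obtain ⟨p, hp⟩ := hex
  rw [Finset.mem_union, not_or] at hp
  refine ⟨p, ?_, ?_⟩
  · intro hf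
    exact hp.1 (Finset.mem_filter.2 ⟨Finset.mem_univ _, hf⟩)
  · by_contra hcon
    push Not at hcon
    exact hp.2 (Finset.mem_filter.2 ⟨Finset.mem_univ _, hcon⟩)

theorem sum_bound {α β ι : Type*} [Fintype α] [Fintype β] (W : Finset ι)
    (P : ι → α → β → Prop) [∀ w a, DecidablePred (P w a)] [∀ a, DecidablePred (fun v => ∃ w ∈ W, P w a v)]
    (K : ι → ℕ) (N : ℕ)
    (hK : ∀ w ∈ W, ∑ p : α, (Finset.univ.filter (fun v : β => P w p v)).card ≤ K w * N) :
    ∑ p : α, (Finset.univ.filter (fun v : β => ∃ w ∈ W, P w p v)).card ≤ (∑ w ∈ W, K w) * N := by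
  classical
  have h1 : ∀ p : α, (Finset.univ.filter (fun v : β => ∃ w ∈ W, P w p v)).card ≤ ∑ w ∈ W,
      (Finset.univ.filter (fun v : β => P w p v)).card := by
    intro p
    refine le_trans (Finset.card_le_card ?_) Finset.card_biUnion_le
    intro v hv
    simp only [Finset.mem_filter, Finset.mem_univ, true_and] at hv
    obtain ⟨w, hw, hv⟩ := hv
    rw [Finset.mem_biUnion]
    exact ⟨w, hw, by simpa using hv⟩
  refine (Finset.sum_le_sum (fun p _ => h1 p)).trans ?_
  rw [Finset.sum_comm, Finset.sum_mul]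
  exact Finset.sum_le_sum hK

end PERM

open Classical in
theorem perm : PERM := by
  intro W hW δ hδ
  have hex : ∀ w : FreeGroup (Fin 79), ∃ K : ℕ, w ≠ 1 → ∀ n : ℕ,
    ∑ p : Fin 79 → Equiv.Perm (Fin n),
      (Finset.univ.filter (fun v : Fin n => FreeGroup.lift p w v = v)).card ≤ K * (n !) ^ 79 := by
    intro w
    by_cases hw : w = 1
    · exact ⟨0, fun h => absurd hw h⟩
    · obtain ⟨K, hK⟩ := PERM.perm_b w hw
      exact ⟨K, fun _ => hK⟩
  choose K hK using hex
  obtain ⟨N0, hN0⟩ := exists_nat_gt (4 * ((∑ w ∈ W, K w : ℕ) : ℝ) / δ)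
  refine ⟨N0 + 1, ?_⟩
  intro n hn
  have hn4 : 4 * ((∑ w ∈ W, K w : ℕ) : ℝ) < δ * n := by
    have h1 : (N0 : ℝ) ≤ n := by exact_mod_cast (by omega : N0 ≤ n)
    have h2 : 4 * ((∑ w ∈ W, K w : ℕ) : ℝ) / δ < n := lt_of_lt_of_le hN0 h1
    rw [div_lt_iff₀ hδ] at h2
    linarith
  have hsum := PERM.sum_bound (α := Fin 79 → Equiv.Perm (Fin n)) (β := Fin n) W
    (fun w p v => FreeGroup.lift p w v = v) K ((n !) ^ 79) (fun w hw => hK w (hW w hw) n)
  have hc1 := PERM.perm_a n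
  have hcardp : Fintype.card (Fin 79 → Equiv.Perm (Fin n)) = (n !) ^ 79 := by
    rw [Fintype.card_fun, Fintype.card_perm, Fintype.card_fin, Fintype.card_fin]
  obtain ⟨N, hN⟩ : ∃ N : ℕ, N = (n !) ^ 79 := ⟨_, rfl⟩
  have hNR : ((n ! : ℕ) : ℝ) ^ 79 = N := by rw [hN]; push_cast; rfl
  rw [← hN] at hcardp hsum
  rw [hNR] at hc1
  have hNpos : 0 < N := by rw [hN]; positivity
  obtain ⟨p, hp1, hp2⟩ := PERM.exists_good (PERM.Fail n) N n hcardp hNpos
    (fun p => (Finset.univ.filter (fun v : Fin n => ∃ w ∈ W, FreeGroup.lift p w v = v)).card)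
    (∑ w ∈ W, K w) δ hδ (by omega) hc1 hsum hn4
  refine ⟨p, ?_, ?_⟩
  · have h2 := not_not.1 hp1
    intro S hS
    convert h2 S hS
  · convert hp2

end Crest.Agent.R191
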