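import Mathlib

/-! Row 191: random permutations, union bound (helper20) -/

set_option autoImplicit false

open Finset Nat

namespace Crest.Agent.R191.PERM

open Equiv

theorem card_fix {α : Type*} [Fintype α] [DecidableEq α] (S : Finset α) :
    (Finset.univ.filter (fun q : Equiv.Perm α => ∀ x ∈ S, q x = x)).card
      = (Fintype.card α - S.card)! := by
  have h := Fintype.card_congr (Equiv.Perm.subtypeEquivSubtypePerm (fun x : α => x ∉ S))
  rw [Fintype.card_perm, Fintype.card_subtype, Fintype.card_subtype] at h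
  have h1 : (Finset.univ.filter (fun x : α => x ∉ S)).card = Fintype.card α - S.card := by
    rw [← Finset.card_compl]
    congr 1
    ext x
    simp
  rw [h1] at h
  rw [h]
  congr 1
  ext q
  simp

/-- number of permutations extending a partial injection -/
theorem card_ext {α ι : Type*} [Fintype α] [DecidableEq α] [DecidableEq ι] (I : Finset ι)
    (a b : ι → α) (ha : Set.InjOn a I) (hb : Set.InjOn b I) :
    (Finset.univ.filter (fun p : Equiv.Perm α => ∀ i ∈ I, p (a i) = b i)).card
      = (Fintype.card α - I.card)! := by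
  classical
  rcases isEmpty_or_nonempty ι with he | hne
  · have hI : I = ∅ := Finset.eq_empty_of_isEmpty I
    subst hI
    simp [Fintype.card_perm]
  -- a permutation extending the partial injection
  set c : α → ι := Function.invFunOn a I with hc
  have hca : ∀ i ∈ I, c (a i) = i := fun i hi => ha.leftInvOn_invFunOn hi
  have hinj : Set.InjOn (fun x => b (c x)) (I.image a) := by
    intro x hx y hy hxy
    obtain ⟨i, hi, rfl⟩ := Finset.mem_image.1 (Finset.mem_coe.1 hx)
    obtain ⟨j, hj, rfl⟩ := Finset.mem_image.1 (Finset.mem_coe.1 hy)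
    simp only [hca i hi, hca j hj] at hxy
    rw [hb hi hj hxy]
  obtain ⟨g, hg⟩ := Finset.exists_equiv_extend_of_card_eq (t := (Finset.univ : Finset α))
    (by rw [Finset.card_univ]) (Finset.subset_univ _) hinj
  set p0 : Equiv.Perm α := g.trans (Equiv.subtypeUnivEquiv (fun x => Finset.mem_univ x)) with hp0
  have hp0a : ∀ i ∈ I, p0 (a i) = b i := by
    intro i hi
    have := hg (a i) (Finset.mem_image_of_mem _ hi)
    simp only [hca i hi] at this
    simpa [hp0] using this
  have hcard : (I.image a).card = I.card := Finset.card_image_of_injOn ha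
  rw [← hcard, ← card_fix (I.image a)]
  apply Finset.card_bij (fun p _ => p0⁻¹ * p)
  · intro p hp
    simp only [Finset.mem_filter, Finset.mem_univ, true_and] at hp ⊢
    intro x hx
    obtain ⟨i, hi, rfl⟩ := Finset.mem_image.1 hx
    rw [Equiv.Perm.mul_apply, hp i hi, ← hp0a i hi]
    exact Equiv.symm_apply_apply p0 _
  · intro p _ q _ h
    exact mul_left_cancel h
  · intro q hq
    refine ⟨p0 * q, ?_, by group⟩
    simp only [Finset.mem_filter, Finset.mem_univ, true_and] at hq ⊢
    intro i hi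
    rw [Equiv.Perm.mul_apply, hq _ (Finset.mem_image_of_mem _ hi), hp0a i hi]

/-- number of permutations mapping `S` into `V` -/
theorem card_maps {n : ℕ} (S V : Finset (Fin n)) :
    (Finset.univ.filter (fun p : Equiv.Perm (Fin n) => ∀ s ∈ S, p s ∈ V)).card
      ≤ V.card.descFactorial S.card * (n - S.card)! := by
  classical
  -- fibres over embeddings S ↪ V
  have h1 : (Finset.univ.filter (fun p : Equiv.Perm (Fin n) => ∀ s ∈ S, p s ∈ V)) ⊆
      (Finset.univ : Finset (S ↪ V)).biUnion (fun e =>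
        Finset.univ.filter (fun p : Equiv.Perm (Fin n) => ∀ i ∈ (Finset.univ : Finset S),
          p (i : Fin n) = (e i : Fin n))) := by
    intro p hp
    simp only [Finset.mem_filter, Finset.mem_univ, true_and] at hp
    rw [Finset.mem_biUnion]
    refine ⟨⟨fun s => ⟨p s, hp s s.2⟩, ?_⟩, Finset.mem_univ _, ?_⟩
    · intro s s' h
      have := congrArg Subtype.val h
      exact Subtype.ext (p.injective this)
    · rw [Finset.mem_filter]
      exact ⟨Finset.mem_univ _, fun a _ => rfl⟩
  refine (Finset.card_le_card h1).trans (Finset.card_biUnion_le.trans ?_)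
  have h2 : ∀ e ∈ (Finset.univ : Finset (S ↪ V)), (Finset.univ.filter
      (fun p : Equiv.Perm (Fin n) => ∀ i ∈ (Finset.univ : Finset S),
          p (i : Fin n) = (e i : Fin n))).card = (n - S.card)! := by
    intro e _
    have h3 := card_ext (Finset.univ : Finset S) (fun i => (i : Fin n)) (fun i => (e i : Fin n))
      (fun _ _ _ _ h => Subtype.ext h) (fun _ _ _ _ h => e.injective (Subtype.ext h))
    rw [Fintype.card_fin, Finset.card_univ, Fintype.card_coe] at h3
    refine (congrArg Finset.card ?_).trans h3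
    ext q
    simp only [Finset.mem_filter]
  rw [Finset.sum_congr rfl h2, Finset.sum_const, Finset.card_univ, Fintype.card_embedding_eq,
    Fintype.card_coe, Fintype.card_coe, smul_eq_mul]

theorem desc_bound (w n : ℕ) (h : w ≤ n) (j : ℕ) :
    w.descFactorial j * n ^ j ≤ w ^ j * n.descFactorial j := by
  induction j with
  | zero => simp
  | succ j ih =>
    rw [Nat.descFactorial_succ, Nat.descFactorial_succ, pow_succ, pow_succ]
    have h1 : (w - j) * n ≤ w * (n - j) := by
      rcases le_total w j with h2 | h2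
      · rw [Nat.sub_eq_zero_of_le h2, zero_mul]
        exact Nat.zero_le _
      · obtain ⟨a, rfl⟩ := Nat.exists_eq_add_of_le h2
        obtain ⟨b, rfl⟩ := Nat.exists_eq_add_of_le h
        have e1 : j + a - j = a := by omega
        have e2 : j + a + b - j = a + b := by omega
        rw [e1, e2]
        nlinarith
    calc (w - j) * w.descFactorial j * (n ^ j * n)
        = (w.descFactorial j * n ^ j) * ((w - j) * n) := by ring
      _ ≤ (w ^ j * n.descFactorial j) * (w * (n - j)) := Nat.mul_le_mul ih h1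
      _ = w ^ j * w * ((n - j) * n.descFactorial j) := by ring

theorem inv_factorial_le (k : ℕ) (hk : 1 ≤ k) : (1 : ℝ) / k ! ≤ (3 / k : ℝ) ^ k := by
  have h1 := Real.pow_div_factorial_le_exp (x := (k : ℝ)) (by positivity) k
  have h2 : Real.exp (k : ℝ) ≤ 3 ^ k := by
    rw [← Real.exp_one_pow]
    apply pow_le_pow_left₀ (Real.exp_pos 1).le
    have := Real.exp_one_lt_d9
    linarith
  have hk0 : (0 : ℝ) < (k : ℝ) ^ k := by positivity
  rw [div_pow, le_div_iff₀ hk0]
  calc 1 / (k ! : ℝ) * (k : ℝ) ^ k = (k : ℝ) ^ k / k ! := by ring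
    _ ≤ 3 ^ k := h1.trans h2

/-- one term of the union bound -/
theorem term_bound (n j : ℕ) (hj : 1 ≤ j) (hjn : (j : ℝ) ≤ 3 / 10 ^ 17 * n) :
    ((n.choose j * n.choose (70 * j) *
      ((70 * j).descFactorial j * (n - j)!) ^ 79 : ℕ) : ℝ) ≤ ((n ! : ℕ) : ℝ) ^ 79 * (1 / 8) ^ j := by
  have hjpos : (0 : ℝ) < j := by exact_mod_cast hj
  have hnpos : (0 : ℝ) < n := by
    by_contra hcon
    push Not at hcon
    have : (3 : ℝ) / 10 ^ 17 * n ≤ 0 := mul_nonpos_of_nonneg_of_nonpos (by norm_num) hcon
    linarith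
  have h70 : 70 * j ≤ n := by
    have : (70 : ℝ) * j ≤ n := by
      have : (3 : ℝ) / 10 ^ 17 * n * 70 ≤ n := by nlinarith
      linarith
    exact_mod_cast this
  have hjn' : j ≤ n := by omega
  have hX : (((70 * j).descFactorial j * (n - j)! : ℕ) : ℝ) ≤ (n ! : ℕ) * (70 * j / n : ℝ) ^ j := by
    have h1 := desc_bound (70 * j) n h70 j
    have h2 : (n - j)! * n.descFactorial j = n ! := Nat.factorial_mul_descFactorial hjn'
    have h3 : (((70 * j).descFactorial j : ℕ) : ℝ) * (n : ℝ) ^ j ≤
        (70 * j : ℝ) ^ j * (n.descFactorial j : ℕ) := by exact_mod_cast h1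
    have h4 : ((n - j)! : ℝ) * (n.descFactorial j : ℕ) = (n ! : ℕ) := by exact_mod_cast h2
    rw [div_pow, ← h4]
    push_cast
    have hnj : (0 : ℝ) < (n : ℝ) ^ j := by positivity
    rw [mul_div_assoc', le_div_iff₀ hnj]
    have h5 : (0 : ℝ) ≤ ((n - j)! : ℝ) := by positivity
    nlinarith [mul_le_mul_of_nonneg_left h3 h5]
  have hc1 : ((n.choose j : ℕ) : ℝ) ≤ (3 * n / j : ℝ) ^ j := by
    have h1 := Nat.choose_le_pow_div (α := ℝ) j n
    have h2 := inv_factorial_le j hj
    calc ((n.choose j : ℕ) : ℝ) ≤ (n : ℝ) ^ j / j ! := h1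
      _ = (n : ℝ) ^ j * (1 / j !) := by ring
      _ ≤ (n : ℝ) ^ j * (3 / j) ^ j := by
        apply mul_le_mul_of_nonneg_left h2 (by positivity)
      _ = (3 * n / j : ℝ) ^ j := by rw [← mul_pow]; congr 1; ring
  have hc2 : ((n.choose (70 * j) : ℕ) : ℝ) ≤ (3 * n / (70 * j) : ℝ) ^ (70 * j) := by
    have h1 := Nat.choose_le_pow_div (α := ℝ) (70 * j) n
    have h2 := inv_factorial_le (70 * j) (by omega)
    calc ((n.choose (70 * j) : ℕ) : ℝ) ≤ (n : ℝ) ^ (70 * j) / (70 * j)! := h1
      _ = (n : ℝ) ^ (70 * j) * (1 / (70 * j)!) := by ring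
      _ ≤ (n : ℝ) ^ (70 * j) * (3 / ((70 * j : ℕ) : ℝ)) ^ (70 * j) := by
        apply mul_le_mul_of_nonneg_left h2 (by positivity)
      _ = (3 * n / (70 * j) : ℝ) ^ (70 * j) := by
        rw [← mul_pow]; congr 1; push_cast; ring
  set y : ℝ := j / n with hy
  have hypos : 0 < y := by positivity
  have hyle : y ≤ 3 / 10 ^ 17 := by
    rw [hy, div_le_iff₀ hnpos]; exact hjn
  have hbr : (3 * n / j : ℝ) * (3 * n / (70 * j)) ^ 70 * (70 * j / n) ^ 79 ≤ 1 / 8 := by
    have e1 : (3 * n / j : ℝ) = 3 / y := by rw [hy]; field_simp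
    have e2 : (3 * n / (70 * j) : ℝ) = 3 / (70 * y) := by rw [hy]; field_simp
    have e3 : (70 * j / n : ℝ) = 70 * y := by rw [hy]; ring
    rw [e1, e2, e3]
    have e4 : 3 / y * (3 / (70 * y)) ^ 70 * (70 * y) ^ 79 = 3 ^ 71 * 70 ^ 9 * y ^ 8 := by
      rw [div_pow]
      field_simp
    rw [e4]
    calc (3 : ℝ) ^ 71 * 70 ^ 9 * y ^ 8 ≤ 3 ^ 71 * 70 ^ 9 * (3 / 10 ^ 17) ^ 8 := by
          apply mul_le_mul_of_nonneg_left _ (by positivity)
          exact pow_le_pow_left₀ hypos.le hyle 8
      _ ≤ 1 / 8 := by norm_num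
  push_cast
  calc ((n.choose j : ℕ) : ℝ) * (n.choose (70 * j) : ℕ) *
        (((70 * j).descFactorial j : ℕ) * ((n - j)! : ℝ)) ^ 79
      ≤ (3 * n / j : ℝ) ^ j * (3 * n / (70 * j) : ℝ) ^ (70 * j) *
        ((n ! : ℕ) * (70 * j / n : ℝ) ^ j) ^ 79 := by
        apply mul_le_mul
        · exact mul_le_mul hc1 hc2 (by positivity) (by positivity)
        · apply pow_le_pow_left₀ (by positivity)
          have := hX
          push_cast at this
          exact this
        · positivity
        · positivity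
    _ = ((n ! : ℕ) : ℝ) ^ 79 *
        ((3 * n / j : ℝ) * (3 * n / (70 * j)) ^ 70 * (70 * j / n) ^ 79) ^ j := by
        rw [mul_pow, mul_pow ((3 * n / j : ℝ) * _), mul_pow (3 * n / j : ℝ), ← pow_mul, ← pow_mul,
          ← pow_mul]
        rw [mul_comm j 79]
        ring
    _ ≤ ((n ! : ℕ) : ℝ) ^ 79 * (1 / 8) ^ j := by
        apply mul_le_mul_of_nonneg_left _ (by positivity)
        exact pow_le_pow_left₀ (by positivity) hbr j

/-- failure of expansion -/
def Fail (n : ℕ) (p : Fin 79 → Equiv.Perm (Fin n)) : Prop :=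
  ¬ ∀ S : Finset (Fin n), (S.card : ℝ) ≤ 3 / 10 ^ 17 * n →
    70 * S.card ≤ (S ∪ Finset.univ.biUnion (fun j => S.image (p j))).card

open Classical in
theorem perm_a (n : ℕ) :
    4 * (((Finset.univ : Finset (Fin 79 → Equiv.Perm (Fin n))).filter (Fail n)).card : ℝ)
      ≤ ((n ! : ℕ) : ℝ) ^ 79 := by
  set J : Finset ℕ := (Finset.Icc 1 n).filter (fun j => (j : ℝ) ≤ 3 / 10 ^ 17 * n) with hJ
  have hsub : ((Finset.univ : Finset (Fin 79 → Equiv.Perm (Fin n))).filter (Fail n)) ⊆
      J.biUnion (fun j => ((Finset.univ : Finset (Fin n)).powersetCard j).biUnion (fun S =>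
        ((Finset.univ : Finset (Fin n)).powersetCard (70 * j)).biUnion (fun V =>
          Fintype.piFinset (fun _ : Fin 79 =>
            Finset.univ.filter (fun p : Equiv.Perm (Fin n) => ∀ s ∈ S, p s ∈ V))))) := by
    intro p hp
    simp only [Finset.mem_filter, Finset.mem_univ, true_and, Fail] at hp
    push Not at hp
    obtain ⟨S, hS1, hS2⟩ := hp
    have hSpos : 1 ≤ S.card := by
      by_contra hcon
      have : S.card = 0 := by omega
      rw [this] at hS2
      omega
    have h70 : 70 * S.card ≤ n := by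
      have hn0 : (0 : ℝ) ≤ n := by positivity
      have : (70 : ℝ) * S.card ≤ n := by
        have : (3 : ℝ) / 10 ^ 17 * n * 70 ≤ n := by nlinarith
        linarith
      exact_mod_cast this
    obtain ⟨V, hV1, hV2⟩ := Finset.exists_superset_card_eq (n := 70 * S.card) hS2.le
      (by rw [Fintype.card_fin]; exact h70)
    rw [Finset.mem_biUnion]
    refine ⟨S.card, ?_, ?_⟩
    · rw [hJ, Finset.mem_filter, Finset.mem_Icc]
      exact ⟨⟨hSpos, by omega⟩, hS1⟩
    rw [Finset.mem_biUnion]
    refine ⟨S, ?_, ?_⟩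
    · rw [Finset.mem_powersetCard]
      exact ⟨Finset.subset_univ _, rfl⟩
    rw [Finset.mem_biUnion]
    refine ⟨V, ?_, ?_⟩
    · rw [Finset.mem_powersetCard]
      exact ⟨Finset.subset_univ _, hV2⟩
    rw [Fintype.mem_piFinset]
    intro i
    simp only [Finset.mem_filter, Finset.mem_univ, true_and]
    intro s hs
    apply hV1
    apply Finset.mem_union_right
    rw [Finset.mem_biUnion]
    exact ⟨i, Finset.mem_univ _, Finset.mem_image_of_mem _ hs⟩
  have hcard := (Finset.card_le_card hsub).trans Finset.card_biUnion_le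
  have hterm : ∀ j ∈ J, ((((Finset.univ : Finset (Fin n)).powersetCard j).biUnion (fun S =>
        ((Finset.univ : Finset (Fin n)).powersetCard (70 * j)).biUnion (fun V =>
          Fintype.piFinset (fun _ : Fin 79 =>
            Finset.univ.filter (fun p : Equiv.Perm (Fin n) => ∀ s ∈ S, p s ∈ V))))).card : ℝ)
      ≤ ((n ! : ℕ) : ℝ) ^ 79 * (1 / 8) ^ j := by
    intro j hj
    rw [hJ, Finset.mem_filter, Finset.mem_Icc] at hj
    refine le_trans ?_ (term_bound n j hj.1.1 hj.2)
    norm_cast
    refine Finset.card_biUnion_le.trans ?_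
    have h1 : ∀ S ∈ (Finset.univ : Finset (Fin n)).powersetCard j,
        (((Finset.univ : Finset (Fin n)).powersetCard (70 * j)).biUnion (fun V =>
          Fintype.piFinset (fun _ : Fin 79 =>
            Finset.univ.filter (fun p : Equiv.Perm (Fin n) => ∀ s ∈ S, p s ∈ V)))).card
        ≤ n.choose (70 * j) * ((70 * j).descFactorial j * (n - j)!) ^ 79 := by
      intro S hS
      rw [Finset.mem_powersetCard] at hS
      refine Finset.card_biUnion_le.trans ?_
      have h2 : ∀ V ∈ (Finset.univ : Finset (Fin n)).powersetCard (70 * j),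
          (Fintype.piFinset (fun _ : Fin 79 =>
            Finset.univ.filter (fun p : Equiv.Perm (Fin n) => ∀ s ∈ S, p s ∈ V))).card
          ≤ ((70 * j).descFactorial j * (n - j)!) ^ 79 := by
        intro V hV
        rw [Finset.mem_powersetCard] at hV
        rw [Fintype.card_piFinset, Finset.prod_const, Finset.card_univ, Fintype.card_fin]
        apply Nat.pow_le_pow_left
        have := card_maps S V
        rw [hS.2, hV.2] at this
        exact this
      refine (Finset.sum_le_sum h2).trans ?_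
      rw [Finset.sum_const, Finset.card_powersetCard, Finset.card_univ, Fintype.card_fin,
        smul_eq_mul]
    refine (Finset.sum_le_sum h1).trans ?_
    rw [Finset.sum_const, Finset.card_powersetCard, Finset.card_univ, Fintype.card_fin,
      smul_eq_mul, mul_assoc]
  have hsum : ∑ j ∈ J, ((1 : ℝ) / 8) ^ j ≤ 1 / 4 := by
    have h1 : ∑ j ∈ J, ((1 : ℝ) / 8) ^ j ≤ ∑ j ∈ Finset.Icc 1 n, ((1 : ℝ) / 8) ^ j :=
      Finset.sum_le_sum_of_subset_of_nonneg (Finset.filter_subset _ _)
        (fun _ _ _ => by positivity)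
    have h2 : ∀ m : ℕ, ∑ j ∈ Finset.Icc 1 m, ((1 : ℝ) / 8) ^ j ≤ 1 / 4 - (1 / 8) ^ m / 7 := by
      intro m
      induction m with
      | zero => norm_num
      | succ m ih =>
        rw [Finset.sum_Icc_succ_top (by omega)]
        rw [pow_succ]
        have : (0 : ℝ) < (1 / 8) ^ m := by positivity
        linarith
    have h3 := h2 n
    have h4 : (0 : ℝ) < (1 / 8) ^ n := by positivity
    linarith
  have hfin : ((((Finset.univ : Finset (Fin 79 → Equiv.Perm (Fin n))).filter (Fail n)).card : ℕ) : ℝ)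
      ≤ ∑ j ∈ J, ((n ! : ℕ) : ℝ) ^ 79 * (1 / 8) ^ j := by
    refine le_trans ?_ (Finset.sum_le_sum hterm)
    exact_mod_cast hcard
  rw [← Finset.mul_sum] at hfin
  have h5 : (0 : ℝ) ≤ ((n ! : ℕ) : ℝ) ^ 79 := by positivity
  nlinarith [mul_le_mul_of_nonneg_left hsum h5]

end Crest.Agent.R191.PERM
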