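import Crest.Agent.R191.ATT1

/-! # Row 191, task START (helper13) -/

set_option autoImplicit false

namespace Crest.Agent.R191

open MeasureTheory
open scoped ENNReal

namespace START

section general
variable {Ω : Type} [MulAction FF Ω]

open Classical in
/-- edges crossed by a list of letters, relative to the starting point -/
noncomputable def E : List Ltr → Finset FF
  | [] => ∅
  | Ltr.q _ :: l => E l
  | Ltr.xp :: l => insert (ev l) (E l)
  | Ltr.xm :: l => insert (xx⁻¹ * ev l) (E l)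

theorem okL_of_E {T : Set Ω} {ω : Ω} {l : List Ltr} (h : ∀ g ∈ E l, g • ω ∈ T) : okL T ω l := by
  classical
  induction l with
  | nil => trivial
  | cons a l ih =>
    cases a with
    | q a => exact ih h
    | xp =>
      exact ⟨ih fun g hg => h g (Finset.mem_insert_of_mem hg), h _ (Finset.mem_insert_self _ _)⟩
    | xm =>
      refine ⟨ih fun g hg => h g (Finset.mem_insert_of_mem hg), ?_⟩
      rw [← mul_smul]
      exact h _ (Finset.mem_insert_self _ _)

theorem reach_E {T : Set Ω} {ω : Ω} {l : List Ltr} (h : okL T ω l) :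
    ∀ g ∈ E l, Reach T ω (g • ω) := by
  classical
  induction l with
  | nil => intro g hg; simp [E] at hg
  | cons a l ih =>
    cases a with
    | q a => exact ih h
    | xp =>
      intro g hg
      rcases Finset.mem_insert.1 hg with rfl | hg
      · exact ⟨l, h.1, rfl⟩
      · exact ih h.1 g hg
    | xm =>
      intro g hg
      rcases Finset.mem_insert.1 hg with rfl | hg
      · exact ⟨Ltr.xm :: l, h, rfl⟩
      · exact ih h.1 g hg

/-- formal chain of a list -/
noncomputable def cF : List Ltr → (FF →₀ ℚ)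
  | [] => 0
  | Ltr.q _ :: l => cF l
  | Ltr.xp :: l => cF l + Finsupp.single (ev l) 1
  | Ltr.xm :: l => cF l - Finsupp.single (xx⁻¹ * ev l) 1

theorem rz_add (ω : Ω) (a b : FF →₀ ℚ) : rz ω (a + b) = rz ω a + rz ω b :=
  Finsupp.mapDomain_add

theorem rz_sub (ω : Ω) (a b : FF →₀ ℚ) : rz ω (a - b) = rz ω a - rz ω b := by
  have := rz_add ω (a - b) b
  rw [sub_add_cancel] at this
  rw [this, add_sub_cancel_right]

theorem rz_single (ω : Ω) (g : FF) (t : ℚ) :
    rz ω (Finsupp.single g t) = Finsupp.single (g • ω) t := Finsupp.mapDomain_single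

theorem rz_cF (ω : Ω) (l : List Ltr) : rz ω (cF l) = ch (ev l) ω := by
  induction l with
  | nil => simp [cF, rz, ev]
  | cons a l ih =>
    cases a with
    | q a => rw [cF, ih, ev, ch_mul, Ltr.val, ch_iQ, zero_add]
    | xp => rw [cF, rz_add, ih, rz_single, ev, ch_mul, Ltr.val, ch_xx, add_comm]
    | xm =>
      rw [cF, rz_sub, ih, rz_single, ev, ch_mul, Ltr.val, ch_xx_inv, mul_smul]
      abel

end general

variable {X : Type} [MeasurableSpace X] [MulAction FF X]

/-- the groupoid `Q ⋉ X` -/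
def QG (X : Type) [MeasurableSpace X] [MulAction FF X] : Gpd X where
  car g := {_y | ∃ q : QQ, g = iQ q}
  meas g := by
    by_cases h : ∃ q : QQ, g = iQ q
    · simp [h]
    · simp [h]
  q_mem q y := ⟨q, rfl⟩
  mul_mem := by
    rintro g h y ⟨q, rfl⟩ ⟨q', rfl⟩
    exact ⟨q' * q, by simp⟩
  inv_mem := by
    rintro g y ⟨q, rfl⟩
    exact ⟨q⁻¹, by simp⟩

end START

open START in
theorem start : START := by
  intro X _ _ _ _ μ _ hs N w B hB hk hgen
  classical
  choose L hL using fun n => exists_ev (w n)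
  set S : FF → Set X := fun g => {y | ∃ n, g = w n ∧ y ∈ B n} with hS
  have mS : ∀ g, MeasurableSet (S g) := by
    intro g
    have : S g = ⋃ n : Fin N, ⋃ (_ : g = w n), B n := by
      ext y; simp [hS]
    rw [this]
    exact MeasurableSet.iUnion fun n => MeasurableSet.iUnion fun _ => hB n
  set 𝒢 : Gpd X := (QG X).adjoin S mS with h𝒢
  have hmem : ∀ n, ∀ y ∈ B n, y ∈ 𝒢.car (w n) := fun n y hy => Adj.gen _ _ ⟨n, rfl, hy⟩
  set T : Set (Om 𝒢) := ⋃ n : Fin N, ⋃ g ∈ E (L n), (fun ω => g • ω) '' (sec 𝒢 '' B n) with hT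
  have hsm : ∀ n, MeasurableSet (sec 𝒢 '' B n) := fun n => ((om_sec X μ hs 𝒢).2 _ (hB n)).1
  have mT : MeasurableSet T := MeasurableSet.iUnion fun n =>
    MeasurableSet.biUnion (Finset.countable_toSet _) fun g _ => measurableSet_smul_image (hsm n) g
  have hET : ∀ n, ∀ y ∈ B n, ∀ g ∈ E (L n), g • sec 𝒢 y ∈ T := by
    intro n y hy g hg
    exact Set.mem_iUnion.2 ⟨n, Set.mem_iUnion₂.2 ⟨g, hg, ⟨_, ⟨y, hy, rfl⟩, rfl⟩⟩⟩
  have hok : ∀ n, ∀ y ∈ B n, okL T (sec 𝒢 y) (L n) := fun n y hy => okL_of_E (hET n y hy)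
  have hfix : ∀ (g : FF) (y : X), y ∈ 𝒢.car g → g • sec 𝒢 y = sec 𝒢 (g • y) := fun g y h =>
    (smul_sec_eq_sec 𝒢 g y (g • y)).2 ⟨rfl, h⟩
  let Γ : Gens μ :=
    { A := fun n => if h : n < N then B ⟨n, h⟩ else ∅
      c := fun n _ => if h : n < N then cF (L ⟨n, h⟩) else 0
      A_meas := by
        intro n
        split_ifs
        · exact hB _
        · exact MeasurableSet.empty
      c_meas := by
        intro n a
        exact MeasurableSet.const _
      small := by
        refine le_trans (le_of_eq ?_) hk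
        rw [tsum_eq_sum (s := Finset.range N), Finset.sum_range]
        · refine Finset.sum_congr rfl fun n _ => ?_
          simp
        · intro n hn
          have : ¬ n < N := by simpa using hn
          simp [this] }
  refine ⟨⟨𝒢, T, ∅, mT, MeasurableSet.empty⟩, ?_, by simp⟩
  refine { T_fin := ?_, conn := ?_, reach := ?_, r_fix := ?_, bd := ?_, gens := ?_ }
  · change mO μ 𝒢 T ≠ ∞
    have h1 : mO μ 𝒢 T ≤ ∑ n : Fin N, ∑ g ∈ E (L n), μ (B n) := by
      refine (measure_iUnion_le _).trans ?_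
      rw [tsum_fintype]
      refine Finset.sum_le_sum fun n _ => ?_
      refine (measure_biUnion_finset_le _ _).trans ?_
      refine Finset.sum_le_sum fun g _ => ?_
      rw [ATT1.smul_image_measure hs, ((om_sec X μ hs 𝒢).2 _ (hB n)).2]
    refine ne_top_of_le_ne_top ?_ h1
    refine ENNReal.sum_ne_top.2 fun n _ => ENNReal.sum_ne_top.2 fun g _ => measure_ne_top _ _
  · intro y
    have key : ∀ a b : X, Relation.EqvGen (StepQ w B) a b → Reach T (sec 𝒢 a) (sec 𝒢 b) := by
      intro a b h
      induction h with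
      | rel a b h =>
        rcases h with ⟨q, rfl⟩ | ⟨n, h1, rfl⟩
        · rw [← iQ_smul_sec]; exact Reach.q _ _ _
        · refine ⟨L n, hok n a h1, ?_⟩
          rw [hL, hfix _ _ (hmem n a h1)]
      | refl a => exact Reach.refl _ _
      | symm a b _ ih => exact ih.symm
      | trans a b c _ _ ih1 ih2 => exact ih1.trans ih2
    exact key _ _ (hgen y)
  · intro ω hω
    obtain ⟨n, hn⟩ := Set.mem_iUnion.1 hω
    obtain ⟨g, hg, ⟨_, ⟨y, hy, rfl⟩, rfl⟩⟩ := Set.mem_iUnion₂.1 hn
    exact ⟨y, reach_E (hok n y hy) g hg⟩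
  · intro ω hω; exact hω.elim
  · intro ω hω; exact hω.elim
  · refine ⟨Γ, ?_⟩
    have key : ∀ (g : FF) (y : X), Adj (QG X) S g y → ch g (sec 𝒢 y) ∈ Γ.span 𝒢 ∅ := by
      intro g y h
      induction h with
      | base g y h =>
        obtain ⟨q, rfl⟩ := h
        rw [ch_iQ]; exact Submodule.zero_mem _
      | gen g y h =>
        obtain ⟨n, rfl, hy⟩ := h
        refine Submodule.subset_span (Or.inl ⟨n, y, ?_, ?_⟩)
        · change y ∈ (if h : (n : ℕ) < N then B ⟨n, h⟩ else ∅)
          rw [dif_pos n.2]; exact hy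
        · change ch (w n) (sec 𝒢 y) = rz (sec 𝒢 y) (if h : (n : ℕ) < N then cF (L ⟨n, h⟩) else 0)
          rw [dif_pos n.2, rz_cF, hL]
      | mul g h y h1 h2 ih1 ih2 =>
        rw [ch_mul, hfix h y h1]
        exact Submodule.add_mem _ ih2 ih1
      | inv g y h1 ih =>
        rw [← hfix g y h1, ch_inv]
        exact Submodule.neg_mem _ ih
    intro y l _ hfx
    exact key _ _ ((smul_sec_eq_sec 𝒢 _ _ _).1 hfx).2

end Crest.Agent.R191
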