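import Crest.Agent.R191.MeasF
import Crest.Agent.R191.START

/-! # Row 191, task REB, SG (helper13) -/

set_option autoImplicit false

namespace Crest.Agent.R191

open MeasureTheory
open scoped ENNReal

theorem sg : SG := by
  intro X _ _ _ _ μ _ hs σ hg
  refine { toBase := hg.toBase, gens := ?_ }
  obtain ⟨Γ, hΓ⟩ := hg.gens
  exact ⟨Γ, fun y l _ hfx => hΓ _ _ ((smul_sec_eq_sec σ.G _ _ _).1 hfx).2⟩

namespace REB

theorem cellBd_support {Ω : Type} [MulAction FF Ω] {T : Set Ω} {ω : Ω}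
    (h : ∀ j < 80, tau j • ω ∈ T) : ∀ e ∈ (cellBd ω).support, e ∈ T := by
  rw [← ch_rr, rr]
  have h8 := ch_support (okL_tauL (ω := ω) 80 h)
  rw [ev_tauL] at h8
  exact h8

variable {X : Type} [MeasurableSpace X] [MulAction FF X]

/-- arrows realised by `T`-walks -/
def Wk (𝒢 : Gpd X) (T : Set (Om 𝒢)) (h : FF) (y : X) : Prop :=
  ∃ l, ev l = h ∧ okL T (sec 𝒢 y) l ∧ h • sec 𝒢 y = sec 𝒢 (h • y)

def G0' (𝒢 : Gpd X) (T : Set (Om 𝒢)) (hT : MeasurableSet T) : Gpd X where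
  car h := {y | Wk 𝒢 T h y}
  meas h := by
    have : {y | Wk 𝒢 T h y} = ⋃ l : List Ltr, ⋃ (_ : ev l = h),
        ({y | okL T (sec 𝒢 y) l} ∩ 𝒢.car h) := by
      ext y
      simp only [Wk, Set.mem_ofPred_eq, Set.mem_iUnion, Set.mem_inter_iff, smul_sec_eq_sec,
        true_and, exists_prop]
    rw [this]
    exact MeasurableSet.iUnion fun l => MeasurableSet.iUnion fun _ =>
      (measurableSet_okL hT l).inter (𝒢.meas h)
  q_mem q y := ⟨[Ltr.q q], by simp [ev, Ltr.val], trivial, iQ_smul_sec _ _ _⟩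
  mul_mem := by
    rintro g h y ⟨l, rfl, h2, h3⟩ ⟨l', rfl, h5, h6⟩
    refine ⟨l' ++ l, ev_append _ _, ?_, ?_⟩
    · rw [okL_append, h3]
      exact ⟨h2, h5⟩
    · rw [mul_smul, h3, h6, mul_smul]
  inv_mem := by
    rintro g y ⟨l, rfl, h2, h3⟩
    refine ⟨revW l, ev_revW l, ?_, ?_⟩
    · rw [← h3]; exact okL_revW h2
    · rw [← h3]; simp

theorem G0'_le (𝒢 : Gpd X) (T : Set (Om 𝒢)) (hT : MeasurableSet T) : (G0' 𝒢 T hT).le 𝒢 := by
  rintro g y ⟨l, _, _, h3⟩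
  exact ((smul_sec_eq_sec 𝒢 _ _ _).1 h3).2

/-- walk-reachable points upstairs -/
def Rch (𝒢 : Gpd X) (T : Set (Om 𝒢)) (hT : MeasurableSet T) : Set (Om (G0' 𝒢 T hT)) :=
  {ω | ∃ y l, okL T (sec 𝒢 y) l ∧ ω = ev l • sec (G0' 𝒢 T hT) y}

section
variable {𝒢 : Gpd X} {T : Set (Om 𝒢)} (hT : MeasurableSet T)

theorem f_inj {ω ω' : Om (G0' 𝒢 T hT)} (h : ω ∈ Rch 𝒢 T hT) (h' : ω' ∈ Rch 𝒢 T hT)
    (he : Om.map (G0'_le 𝒢 T hT) ω = Om.map (G0'_le 𝒢 T hT) ω') : ω = ω' := by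
  obtain ⟨y, l, h1, rfl⟩ := h
  obtain ⟨y', l', h1', rfl⟩ := h'
  rw [Om.map_smul, Om.map_smul, Om.map_sec, Om.map_sec] at he
  have h2 : ((ev l')⁻¹ * ev l) • sec 𝒢 y = sec 𝒢 y' := by rw [mul_smul, he]; simp
  have h3 := (smul_sec_eq_sec 𝒢 _ _ _).1 h2
  have h4 : y ∈ (G0' 𝒢 T hT).car ((ev l')⁻¹ * ev l) := by
    refine ⟨revW l' ++ l, ?_, ?_, ?_⟩
    · rw [ev_append, ev_revW]
    · rw [okL_append]
      refine ⟨h1, ?_⟩
      rw [he]; exact okL_revW h1'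
    · rw [h2, h3.1]
  have h5 := (smul_sec_eq_sec (G0' 𝒢 T hT) _ _ _).2 ⟨h3.1, h4⟩
  rw [← h5, mul_smul]; simp

theorem Rch_append {ω : Om (G0' 𝒢 T hT)} (h : ω ∈ Rch 𝒢 T hT) {l : List Ltr}
    (hl : okL T (Om.map (G0'_le 𝒢 T hT) ω) l) : ev l • ω ∈ Rch 𝒢 T hT := by
  obtain ⟨y, l', h1, rfl⟩ := h
  refine ⟨y, l ++ l', ?_, by rw [ev_append, mul_smul]⟩
  rw [okL_append]
  refine ⟨h1, ?_⟩
  rw [Om.map_smul, Om.map_sec] at hl
  exact hl

theorem sec_Rch (y : X) : sec (G0' 𝒢 T hT) y ∈ Rch 𝒢 T hT := ⟨y, [], trivial, by simp [ev]⟩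

/-- lifted edge set -/
def T0 (𝒢 : Gpd X) (T : Set (Om 𝒢)) (hT : MeasurableSet T) (S : Set (Om 𝒢)) :
    Set (Om (G0' 𝒢 T hT)) := {ω | Om.map (G0'_le 𝒢 T hT) ω ∈ S ∧ ω ∈ Rch 𝒢 T hT}

/-- walks lift -/
theorem okL_lift {ω : Om (G0' 𝒢 T hT)} (h : ω ∈ Rch 𝒢 T hT) {l : List Ltr}
    (hl : okL T (Om.map (G0'_le 𝒢 T hT) ω) l) : okL (T0 𝒢 T hT T) ω l := by
  induction l with
  | nil => trivial
  | cons a l ih =>
    cases a with
    | q a => exact ih hl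
    | xp =>
      refine ⟨ih hl.1, ?_, Rch_append hT h hl.1⟩
      rw [Om.map_smul]; exact hl.2
    | xm =>
      refine ⟨ih hl.1, ?_, ?_⟩
      · rw [Om.map_smul, Om.map_smul]; exact hl.2
      · have h2 := Rch_append hT h (l := Ltr.xm :: l) hl
        rw [ev, mul_smul] at h2
        exact h2

variable [MeasurableConstSMul FF X]

theorem measurableSet_Rch [StandardBorelSpace X] {μ : Measure X} [IsProbabilityMeasure μ]
    (hs : Sys X μ) : MeasurableSet (Rch 𝒢 T hT) := by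
  have : Rch 𝒢 T hT = ⋃ l : List Ltr, (fun ω => ev l • ω) ''
      (sec (G0' 𝒢 T hT) '' {y | okL T (sec 𝒢 y) l}) := by
    ext ω
    simp only [Rch, Set.mem_ofPred_eq, Set.mem_iUnion, Set.mem_image]
    constructor
    · rintro ⟨y, l, h1, rfl⟩; exact ⟨l, _, ⟨y, h1, rfl⟩, rfl⟩
    · rintro ⟨l, _, ⟨y, h1, rfl⟩, rfl⟩; exact ⟨y, l, h1, rfl⟩
  rw [this]
  exact MeasurableSet.iUnion fun l => measurableSet_smul_image
    (((om_sec X μ hs _).2 _ (measurableSet_okL hT l)).1) _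

omit [MeasurableConstSMul FF X] in
theorem measurable_map {𝒢 𝒢' : Gpd X} (h : 𝒢.le 𝒢') : Measurable (Om.map h) := by
  intro A hA
  rw [measurableSet_om_iff] at hA ⊢
  exact hA

theorem measurableSet_T0 [StandardBorelSpace X] {μ : Measure X} [IsProbabilityMeasure μ]
    (hs : Sys X μ) {S : Set (Om 𝒢)} (hS : MeasurableSet S) : MeasurableSet (T0 𝒢 T hT S) :=
  (measurable_map (G0'_le 𝒢 T hT) hS).inter (measurableSet_Rch hT hs)

end

end REB

open REB START in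
theorem reb : REB := by
  intro X _ _ _ _ μ _ hs σ hg
  classical
  obtain ⟨𝒢, T, C, hT, hC⟩ := σ
  have hT' : MeasurableSet T := hT
  set 𝒢0 := G0' 𝒢 T hT with h𝒢0
  set f : Om 𝒢0 → Om 𝒢 := Om.map (G0'_le 𝒢 T hT) with hf
  have hfs : ∀ (g : FF) (ω : Om 𝒢0), f (g • ω) = g • f ω := Om.map_smul _
  have hfsec : ∀ y, f (sec 𝒢0 y) = sec 𝒢 y := fun y => rfl
  set T₀ := T0 𝒢 T hT T with hT₀
  set C₀ := T0 𝒢 T hT C with hC₀
  have mT₀ : MeasurableSet T₀ := measurableSet_T0 hT hs hT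
  have mC₀ : MeasurableSet C₀ := measurableSet_T0 hT hs hC
  have hbd : ∀ ω ∈ C, ∀ j < 80, tau j • ω ∈ T := hg.bd
  have hCT : C ⊆ T := ATT1.mO_C_le_T hg.toBase
  -- surjectivity
  have hsurj : ∀ ω ∈ T, ∃ ω0 ∈ Rch 𝒢 T hT, f ω0 = ω := by
    intro ω hω
    obtain ⟨y, l, h1, rfl⟩ := hg.reach ω hω
    exact ⟨ev l • sec 𝒢0 y, ⟨y, l, h1, rfl⟩, by rw [hfs, hfsec]⟩
  have hmeas : ∀ S ⊆ T, MeasurableSet S → mO μ 𝒢0 (T0 𝒢 T hT S) = mO μ 𝒢 S := by
    intro S hST hS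
    rw [om_count X μ hs 𝒢0 _ (measurableSet_T0 hT hs hS), om_count X μ hs 𝒢 S hS]
    refine lintegral_congr fun y => ?_
    congr 1
    have h1 : S ∩ pr 𝒢 ⁻¹' {y} = f '' (T0 𝒢 T hT S ∩ pr 𝒢0 ⁻¹' {y}) := by
      ext ω
      constructor
      · rintro ⟨h1, h2⟩
        obtain ⟨ω0, h3, rfl⟩ := hsurj ω (hST h1)
        exact ⟨ω0, ⟨⟨h1, h3⟩, by simpa [hf] using h2⟩, rfl⟩
      · rintro ⟨ω0, ⟨⟨h1, h2⟩, h3⟩, rfl⟩
        exact ⟨h1, by simpa [hf] using h3⟩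
    rw [h1]
    refine (Set.InjOn.encard_image ?_).symm
    rintro a ⟨⟨_, ha⟩, _⟩ b ⟨⟨_, hb⟩, _⟩ hab
    exact f_inj hT ha hb hab
  -- real points are joined
  have hconn0 : ∀ y, Reach T₀ (sec 𝒢0 y) (sec 𝒢0 (xx • y)) := by
    intro y
    obtain ⟨l, h1, h2⟩ := hg.conn y
    have h3 := (smul_sec_eq_sec 𝒢 _ _ _).1 h2
    refine ⟨l, okL_lift hT (sec_Rch hT y) h1, ?_⟩
    rw [smul_sec_eq_sec]
    exact ⟨h3.1, l, rfl, h1, by rw [h3.1]; exact h2⟩
  have hconn : ∀ (g : FF) (y : X), Reach T₀ (sec 𝒢0 y) (sec 𝒢0 (g • y)) := by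
    intro g
    refine FF_induction (p := fun g => ∀ y : X, Reach T₀ (sec 𝒢0 y) (sec 𝒢0 (g • y)))
      ?_ ?_ ?_ ?_ g
    · intro y; rw [one_smul]; exact Reach.refl _ _
    · intro q g ih y
      rw [mul_smul, ← iQ_smul_sec]
      exact (ih y).trans (Reach.q _ _ _)
    · intro g ih y
      rw [mul_smul]
      exact (ih y).trans (hconn0 _)
    · intro g ih y
      rw [mul_smul]
      have := hconn0 (xx⁻¹ • g • y)
      rw [smul_inv_smul] at this
      exact (ih y).trans this.symm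
  have hRchT : ∀ ω ∈ Rch 𝒢 T hT, f ω ∈ T → ω ∈ T₀ := fun ω h1 h2 => ⟨h2, h1⟩
  -- tau on lifted cells
  have htau : ∀ ω ∈ C₀, ∀ n ≤ 80, tau n • ω ∈ Rch 𝒢 T hT := by
    intro ω hω n hn
    have := Rch_append hT hω.2 (l := tauL n) (okL_tauL n fun j hj => hbd _ hω.1 j (by omega))
    rwa [ev_tauL] at this
  have hbase : Base μ (St.mk 𝒢0 T₀ C₀ mT₀ mC₀) := by
    refine { T_fin := ?_, conn := hconn0, reach := ?_, r_fix := ?_, bd := ?_ }
    · change mO μ 𝒢0 T₀ ≠ ∞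
      rw [hmeas T le_rfl hT]; exact hg.T_fin
    · rintro ω ⟨_, y, l, h1, rfl⟩
      exact ⟨y, l, okL_lift hT (sec_Rch hT y) h1, rfl⟩
    · intro ω hω
      have h1 : rr • ω ∈ Rch 𝒢 T hT := htau ω hω 80 le_rfl
      refine f_inj hT h1 hω.2 ?_
      change f (rr • ω) = f ω
      rw [hfs]
      exact hg.r_fix _ hω.1
    · intro ω hω j hj
      refine hRchT _ (htau ω hω j (by omega)) ?_
      rw [hfs]
      exact hbd _ hω.1 j hj
  refine ⟨⟨𝒢0, T₀, C₀, mT₀, mC₀⟩, { toBase := hbase, gens := ?_ }, hmeas C hCT hC,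
    hmeas T le_rfl hT⟩
  obtain ⟨Γ, hΓ⟩ := hg.gens
  -- inverse of f
  have hinv : ∀ ω : Om 𝒢, ∃ ω0 : Om 𝒢0, ω ∈ T → (ω0 ∈ T₀ ∧ f ω0 = ω) := by
    intro ω
    by_cases h : ω ∈ T
    · obtain ⟨ω0, h1, h2⟩ := hsurj ω h
      exact ⟨ω0, fun _ => ⟨hRchT _ h1 (by rw [h2]; exact h), h2⟩⟩
    · obtain ⟨g, y⟩ : FF × X := Quotient.out ω
      exact ⟨mkO 𝒢0 g y, fun h' => (h h').elim⟩
  choose jj hjj using hinv
  have hjf : ∀ ω0 ∈ T₀, jj (f ω0) = ω0 := by
    intro ω0 h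
    have := hjj (f ω0) h.1
    exact f_inj hT this.1.2 h.2 this.2
  -- pull-back
  let Φ : (Om 𝒢 →₀ ℚ) →ₗ[ℚ] (Om 𝒢0 →₀ ℚ) :=
    Finsupp.lsum ℚ (fun ω => if ω ∈ T then Finsupp.lsingle (jj ω) else 0)
  have hΦs : ∀ (ω : Om 𝒢) (a : ℚ), Φ (Finsupp.single ω a) =
      if ω ∈ T then Finsupp.single (jj ω) a else 0 := by
    intro ω a
    simp only [Φ, Finsupp.lsum_single]
    split_ifs
    · rfl
    · rfl
  have hΦ : ∀ c : Om 𝒢0 →₀ ℚ, (∀ e ∈ c.support, e ∈ T₀) → Φ (Finsupp.mapDomain f c) = c := by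
    intro c hc
    conv_rhs => rw [← Finsupp.sum_single c]
    rw [Finsupp.mapDomain, map_finsuppSum]
    refine Finsupp.sum_congr fun e he => ?_
    rw [hΦs, if_pos (hc e he).1, hjf e (hc e he)]
  -- choice of group elements
  have hkap : ∀ (y : X) (g : FF), g • sec 𝒢 y ∈ T →
      ∃ g' : FF, g' • sec 𝒢0 y ∈ T₀ ∧ g' • sec 𝒢 y = g • sec 𝒢 y := by
    intro y g hgT
    have h1 := hjj _ hgT
    obtain ⟨y', l, h2, h3⟩ := h1.1.2
    have h4 : ev l • sec 𝒢 y' = g • sec 𝒢 y := by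
      rw [← h1.2, h3, hfs, hfsec]
    have h5 : y' = ((ev l)⁻¹ * g) • y := by
      have := congrArg (pr 𝒢) h4
      rw [pr_smul, pr_smul, pr_sec, pr_sec] at this
      rw [mul_smul, ← this, inv_smul_smul]
    obtain ⟨l', h6, h7⟩ := hconn ((ev l)⁻¹ * g) y
    refine ⟨ev l * ev l', ?_, ?_⟩
    · rw [mul_smul, h7, ← h5, ← h3]; exact h1.1
    · have := congrArg f h7
      rw [hfs, hfsec, hfsec] at this
      rw [mul_smul, this, ← h5, h4]
  have mP : ∀ g g' : FF, MeasurableSet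
      {y : X | g' • sec 𝒢0 y ∈ T₀ ∧ g' • sec 𝒢 y = g • sec 𝒢 y} := by
    intro g g'
    have h1 : MeasurableSet {y : X | g' • sec 𝒢0 y ∈ T₀} := by
      simp_rw [smul_sec]
      exact measurable_mkO 𝒢0 g' mT₀
    have h2 : MeasurableSet {y : X | g' • sec 𝒢 y = g • sec 𝒢 y} := by
      have : {y : X | g' • sec 𝒢 y = g • sec 𝒢 y} =
          {y : X | g' • y = g • y} ∩ 𝒢.car (g⁻¹ * g') := by
        ext y
        simp only [smul_sec, Set.mem_ofPred_eq, mkO_eq_mkO, Set.mem_inter_iff]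
      rw [this]
      exact (measurableSet_eq_fun (measurable_const_smul _) (measurable_const_smul _)).inter
        (𝒢.meas _)
    exact h1.inter h2
  -- least code choice
  let P : FF → FF → X → Prop := fun g g' y => g' • sec 𝒢0 y ∈ T₀ ∧ g' • sec 𝒢 y = g • sec 𝒢 y
  let κ : FF → X → FF := fun g y => if h : ∃ g', P g g' y then
    (Function.argminOn codeF {g' | P g g' y} h) else 1
  have hκ1 : ∀ g y, g • sec 𝒢 y ∈ T → P g (κ g y) y := by
    intro g y hgT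
    have hex : ∃ g', P g g' y := hkap y g hgT
    simp only [κ, dif_pos hex]
    exact Function.argminOn_mem codeF {g' | P g g' y} hex
  have hκ2 : ∀ g g' y, (∃ g', P g g' y) → (κ g y = g' ↔ P g g' y ∧
      ∀ g'', codeF g'' < codeF g' → ¬ P g g'' y) := by
    intro g g' y hex
    simp only [κ, dif_pos hex]
    constructor
    · rintro rfl
      refine ⟨Function.argminOn_mem codeF {g' | P g g' y} hex, fun g'' hlt h => ?_⟩
      exact Function.not_lt_argminOn codeF {g' | P g g' y} h hlt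
    · rintro ⟨h1, h2⟩
      have h3 := Function.argminOn_mem codeF {g' | P g g' y} hex
      rcases lt_trichotomy (codeF (Function.argminOn codeF {g' | P g g' y} hex)) (codeF g')
        with h | h | h
      · exact (h2 _ h h3).elim
      · exact codeF_injective h
      · exact (Function.not_lt_argminOn codeF {g' | P g g' y} h1 h).elim
  have mex : ∀ g, MeasurableSet {y : X | ∃ g', P g g' y} := by
    intro g
    have : {y : X | ∃ g', P g g' y} = ⋃ g', {y | P g g' y} := by ext y; simp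
    rw [this]
    exact MeasurableSet.iUnion fun g' => mP g g'
  have hκm : ∀ g, LM (κ g) := by
    intro g g'
    have : {y | κ g y = g'} = ({y : X | ∃ g', P g g' y} ∩ ({y | P g g' y} ∩
        ⋂ g'' : FF, ⋂ (_ : codeF g'' < codeF g'), {y | P g g'' y}ᶜ)) ∪
        ({y : X | ∃ g', P g g' y}ᶜ ∩ {_y | (1 : FF) = g'}) := by
      ext y
      by_cases hex : ∃ g', P g g' y
      · simp only [Set.mem_ofPred_eq, Set.mem_union, Set.mem_inter_iff, Set.mem_iInter,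
          Set.mem_compl_iff, hex, true_and, not_true_eq_false, false_and, or_false]
        exact hκ2 g g' y hex
      · simp only [Set.mem_ofPred_eq, Set.mem_union, Set.mem_inter_iff, Set.mem_iInter,
          Set.mem_compl_iff, hex, false_and, not_false_eq_true, true_and, false_or]
        simp only [κ, dif_neg hex]
    rw [this]
    refine ((mex g).inter ((mP g g').inter (MeasurableSet.iInter fun g'' =>
      MeasurableSet.iInter fun _ => (mP g g'').compl))).union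
      ((mex g).compl.inter (MeasurableSet.const _))
  have hTm : ∀ g : FF, MeasurableSet {y : X | g • sec 𝒢 y ∈ T} := by
    intro g
    simp_rw [smul_sec]
    exact measurable_mkO 𝒢 g hT
  let Γ0 : Gens μ :=
    { A := Γ.A
      c := fun n y => ∑ g ∈ (Γ.c n y).support,
        if g • sec 𝒢 y ∈ T then Finsupp.single (κ g y) (Γ.c n y g) else 0
      A_meas := Γ.A_meas
      c_meas := by
        intro n
        refine LM.bind (F := Γ.c n) (G := fun b y => ∑ g ∈ b.support,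
          if g • sec 𝒢 y ∈ T then Finsupp.single (κ g y) (b g) else 0) (Γ.c_meas n) ?_
        intro b
        refine LM.sum _ fun g _ => LM.ite (hTm g) ?_ (LM.const _)
        exact (hκm g).comp (fun g' => Finsupp.single g' (b g))
      small := Γ.small }
  have hgen : ∀ n y, Φ (rz (sec 𝒢 y) (Γ.c n y)) = rz (sec 𝒢0 y) (Γ0.c n y) := by
    intro n y
    have h1 : rz (sec 𝒢 y) (Γ.c n y) = ∑ g ∈ (Γ.c n y).support,
        Finsupp.single (g • sec 𝒢 y) (Γ.c n y g) := rfl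
    have h2 : rz (sec 𝒢0 y) (Γ0.c n y) = ∑ g ∈ (Γ.c n y).support,
        rz (sec 𝒢0 y) (if g • sec 𝒢 y ∈ T then Finsupp.single (κ g y) (Γ.c n y g) else 0) := by
      change Finsupp.mapDomain _ (∑ g ∈ (Γ.c n y).support, _) = _
      rw [Finsupp.mapDomain_finsetSum]
      rfl
    rw [h1, h2, map_sum]
    refine Finset.sum_congr rfl fun g _ => ?_
    rw [hΦs]
    split_ifs with hgT
    · rw [rz_single]
      congr 1
      have h3 := hκ1 g y hgT
      rw [← h3.2, ← hfsec y, ← hfs]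
      exact hjf _ h3.1
    · simp [rz]
  refine ⟨Γ0, ?_⟩
  rintro g y ⟨l, hl1, hl2, hl3⟩
  have h1 := hΓ y l hl2 (by rw [hl1]; exact hl3)
  rw [hl1] at h1
  change ch g (sec 𝒢0 y) ∈ Γ0.span 𝒢0 C₀
  have h2 : Φ (ch g (sec 𝒢 y)) = ch g (sec 𝒢0 y) := by
    have h3 : ch g (sec 𝒢 y) = Finsupp.mapDomain f (ch g (sec 𝒢0 y)) :=
      (ch_mapDomain f hfs g (sec 𝒢0 y)).symm
    rw [h3]
    refine hΦ _ ?_
    have h4 := ch_support (okL_lift hT (sec_Rch hT y) (l := l) hl2)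
    rw [hl1] at h4
    exact h4
  rw [← h2]
  have h3 : Φ (ch g (sec 𝒢 y)) ∈ (Γ.span 𝒢 C).map Φ := Submodule.mem_map_of_mem h1
  have h4 : (Γ.span 𝒢 C).map Φ ≤ Γ0.span 𝒢0 C₀ := by
    unfold Gens.span
    rw [Submodule.map_span, Submodule.span_le]
    rintro _ ⟨v, hv | hv, rfl⟩
    · obtain ⟨n, y', hy', rfl⟩ := hv
      exact Submodule.subset_span (Or.inl ⟨n, y', hy', hgen n y'⟩)
    · obtain ⟨ω, hω, rfl⟩ := hv
      have h5 := hjj ω (hCT hω)
      have h6 : jj ω ∈ C₀ := ⟨by change f (jj ω) ∈ C; rw [h5.2]; exact hω, h5.1.2⟩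
      refine Submodule.subset_span (Or.inr ⟨jj ω, h6, ?_⟩)
      have h7 : cellBd ω = Finsupp.mapDomain f (cellBd (jj ω)) := by
        rw [cellBd_mapDomain f hfs, h5.2]
      rw [h7]
      refine hΦ _ fun e he => ?_
      have h9 : ∀ j < 80, tau j • jj ω ∈ T₀ := fun j hj => hbase.bd (jj ω) h6 j hj
      have h10 := cellBd_support h9
      clear_value Φ Γ0 κ P
      exact h10 e he
  exact h4 h3

end Crest.Agent.R191
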